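import Crest.Agent.R230.LHom

/-!
# R230/Poly

Polynomials as functions; algebra of harmonic polynomials.
`MvPolynomial.IsHomogeneous.sum_X_mul_pderiv` is Euler's identity, `IsHomogeneous.pderiv` lowers the
degree.  `lap (X i * Y) = 2 ∂_i Y + X i * lap Y`;
`lap (nsq * W) = 2 n W + 4 ∑ X j ∂_j W + nsq * lap W`, i.e. `(2n + 4(k-1)) W` for `W = ∂_i Y`
harmonic of degree `k - 1` (for `k = 0`, `∂_i Y = 0`).
-/

set_option autoImplicit false
set_option linter.unusedSectionVars false
set_option linter.unusedVariables false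

namespace Crest.Agent.R230

open MeasureTheory Metric Set Filter Topology
open scoped RealInnerProductSpace ENNReal Pointwise

variable {n : ℕ} [NeZero n]

open MvPolynomial

theorem ev_zero (x : E n) : ev (0 : Pol n) x = 0 := by simp [ev]
theorem ev_C (c : ℝ) (x : E n) : ev (C c : Pol n) x = c := by simp [ev]
theorem ev_X (i : Fin n) (x : E n) : ev (X i : Pol n) x = x i := by simp [ev]
theorem ev_add (P Q : Pol n) (x : E n) : ev (P + Q) x = ev P x + ev Q x := by simp [ev]
theorem ev_sub (P Q : Pol n) (x : E n) : ev (P - Q) x = ev P x - ev Q x := by simp [ev]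
theorem ev_mul (P Q : Pol n) (x : E n) : ev (P * Q) x = ev P x * ev Q x := by simp [ev]
theorem ev_smul (c : ℝ) (P : Pol n) (x : E n) : ev (c • P) x = c * ev P x := by simp [ev]
theorem ev_sum {α : Type*} (s : Finset α) (P : α → Pol n) (x : E n) :
    ev (∑ a ∈ s, P a) x = ∑ a ∈ s, ev (P a) x := by simp [ev]
theorem ev_nsq (x : E n) : ev (nsq n) x = ‖x‖ ^ 2 := by
  simp [ev, nsq, EuclideanSpace.real_norm_sq_eq]
/-- induction on `P` (`MvPolynomial.induction_on`) -/
theorem contDiff_ev (P : Pol n) : ContDiff ℝ 1 (ev P) := by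
  induction P using MvPolynomial.induction_on with
  | C c =>
    rw [show ev (C c : Pol n) = fun _ => c from funext (ev_C c)]
    exact contDiff_const
  | add P Q hP hQ =>
    rw [show ev (P + Q) = fun x => ev P x + ev Q x from funext (ev_add P Q)]
    exact hP.add hQ
  | mul_X P i hP =>
    rw [show ev (P * X i) = fun x => ev P x * x i from funext fun x => by rw [ev_mul, ev_X]]
    exact hP.mul (by fun_prop)
theorem differentiable_ev (P : Pol n) : Differentiable ℝ (ev P) :=
  (contDiff_ev P).differentiable one_ne_zero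
theorem continuous_ev (P : Pol n) : Continuous (ev P) := (differentiable_ev P).continuous
theorem bd_ev (P : Pol n) : Bd (ev P) := bd_of_continuous (continuous_ev P)
theorem grad_ev (P : Pol n) (x : E n) (i : Fin n) : gradient (ev P) x i = ev (pderiv i P) x := by
  rw [grad_coord, inner_grad]
  induction P using MvPolynomial.induction_on with
  | C c =>
    rw [show ev (C c : Pol n) = fun _ => c from funext (ev_C c), pderiv_C, ev_zero]
    simp
  | add P Q hP hQ =>
    rw [show ev (P + Q) = fun x => ev P x + ev Q x from funext (ev_add P Q),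
      fderiv_fun_add (differentiable_ev P x) (differentiable_ev Q x), map_add, ev_add,
      _root_.add_apply, hP, hQ]
  | mul_X P j hP =>
    have hj : HasFDerivAt (fun y : E n => y j) (EuclideanSpace.proj j : E n →L[ℝ] ℝ) x :=
      (EuclideanSpace.proj j : E n →L[ℝ] ℝ).hasFDerivAt
    rw [show ev (P * X j) = fun x => ev P x * x j from funext fun x => by rw [ev_mul, ev_X],
      ((differentiable_ev P x).hasFDerivAt.fun_mul hj).fderiv, pderiv_mul, ev_add, ev_mul, ev_mul,
      ev_X, ← hP]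
    by_cases h : j = i
    · subst h
      simp [ev]
      ring
    · simp [ev, pderiv_X_of_ne h, h]
      ring
theorem ev_smul_of_hom {k : ℕ} {P : Pol n} (h : P.IsHomogeneous k) (r : ℝ) (x : E n) :
    ev P (r • x) = r ^ k * ev P x := by
  simp only [ev, eval_eq', Finset.mul_sum]
  refine Finset.sum_congr rfl fun d hd => ?_
  have hk : ∑ i, d i = k := by
    rw [h.degree_eq_sum_deg_support hd]
    exact (Finset.sum_subset (Finset.subset_univ _) fun i _ hi => by simpa using hi).symm
  simp only [PiLp.smul_apply, smul_eq_mul, mul_pow, Finset.prod_mul_distrib,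
    Finset.prod_pow_eq_pow_sum, hk]
  ring
theorem ev_neg_of_hom {k : ℕ} {P : Pol n} (h : P.IsHomogeneous k) (x : E n) :
    ev P (-x) = (-1) ^ k * ev P x := by
  rw [← ev_smul_of_hom h, neg_one_smul]
theorem lh_ev {k : ℕ} {P : Pol n} (h : P.IsHomogeneous k) : LH k (ev P) :=
  ⟨fun r x _ => ev_smul_of_hom h r x, (contDiff_ev P).locallyLipschitz.locallyLipschitzOn⟩
theorem ev_euler {k : ℕ} {P : Pol n} (h : P.IsHomogeneous k) (x : E n) :
    ∑ i, x i * ev (pderiv i P) x = k * ev P x := by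
  have := congrArg (fun Q => ev Q x) h.sum_X_mul_pderiv
  simpa [ev] using this
/-- homogeneity extends the vanishing to `{0}ᶜ`, continuity to everything; `MvPolynomial.funext` -/
theorem eq_zero_of_sphere {k : ℕ} {P : Pol n} (h : P.IsHomogeneous k)
    (h0 : ∀ p, ‖p‖ = 1 → ev P p = 0) : P = 0 := by
  have key : ∀ x : E n, ev P x = 0 := by
    intro x
    obtain ⟨p, hp, hx⟩ : ∃ p : E n, ‖p‖ = 1 ∧ x = ‖x‖ • p := by
      by_cases hx : x = 0
      · exact ⟨EuclideanSpace.single 0 1, by simp, by simp [hx]⟩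
      · have := norm_ne_zero_iff.2 hx
        exact ⟨‖x‖⁻¹ • x, by simp [norm_smul, this], by rw [smul_inv_smul₀ this]⟩
    rw [hx, ev_smul_of_hom h, h0 p hp, mul_zero]
  refine MvPolynomial.funext fun x => ?_
  simpa [ev] using key (WithLp.toLp 2 x)

theorem poly_comm (i j : Fin n) (P : Pol n) : pderiv i (pderiv j P) = pderiv j (pderiv i P) := by
  induction P using MvPolynomial.induction_on with
  | C c => simp
  | add P Q hP hQ => simp only [map_add, hP, hQ]
  | mul_X P l hP =>
    have h : ∀ a b : Fin n, pderiv a (pderiv b (X l : Pol n)) = 0 := fun a b => by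
      by_cases e : l = b
      · subst e
        rw [pderiv_X_self, pderiv_one]
      · rw [pderiv_X_of_ne e, map_zero]
    simp only [pderiv_mul, map_add, hP, h]
    ring

theorem poly_lap_add (P Q : Pol n) : lap (P + Q) = lap P + lap Q := by
  simp only [lap, map_add, Finset.sum_add_distrib]

theorem poly_lap_sub (P Q : Pol n) : lap (P - Q) = lap P - lap Q := by
  simp only [lap, map_sub, Finset.sum_sub_distrib]

theorem poly_lap_smul (c : ℝ) (P : Pol n) : lap (c • P) = c • lap P := by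
  simp only [lap, Derivation.map_smul, Finset.smul_sum]

theorem poly_lap_pderiv (i : Fin n) (P : Pol n) : lap (pderiv i P) = pderiv i (lap P) := by
  simp only [lap, map_sum]
  exact Finset.sum_congr rfl fun j _ => by rw [poly_comm j i, poly_comm j i]

theorem poly_lap_mul (P Q : Pol n) :
    lap (P * Q) = lap P * Q + 2 * ∑ j, pderiv j P * pderiv j Q + P * lap Q := by
  simp only [lap, Finset.sum_mul, Finset.mul_sum, ← Finset.sum_add_distrib]
  refine Finset.sum_congr rfl fun j _ => ?_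
  simp only [pderiv_mul, map_add]
  ring

theorem poly_lap_X (i : Fin n) : lap (X i : Pol n) = 0 :=
  Finset.sum_eq_zero fun j _ => by
    by_cases e : i = j
    · subst e
      rw [pderiv_X_self, pderiv_one]
    · rw [pderiv_X_of_ne e, map_zero]

theorem poly_lap_X_mul (i : Fin n) (Y : Pol n) :
    lap (X i * Y) = 2 * pderiv i Y + X i * lap Y := by
  rw [poly_lap_mul, poly_lap_X, zero_mul, zero_add, Finset.sum_eq_single i
    (fun j _ hj => by rw [pderiv_X_of_ne hj.symm, zero_mul]) (by simp), pderiv_X_self, one_mul]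

theorem poly_pderiv_nsq (j : Fin n) : pderiv j (nsq n) = 2 * X j := by
  rw [nsq, map_sum, Finset.sum_eq_single j
    (fun i _ hi => by rw [sq, pderiv_mul, pderiv_X_of_ne hi]; ring) (by simp), sq, pderiv_mul,
    pderiv_X_self]
  ring

theorem poly_lap_nsq : lap (nsq n) = 2 * (n : Pol n) := by
  have : ∀ j : Fin n, pderiv j (2 * X j : Pol n) = 2 := fun j => by
    rw [two_mul, map_add, pderiv_X_self, one_add_one_eq_two]
  simp only [lap, poly_pderiv_nsq, this, Finset.sum_const, Finset.card_univ, Fintype.card_fin,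
    nsmul_eq_mul]
  ring

theorem poly_lap_nsq_mul {k : ℕ} {W : Pol n} (hW : Harm k W) :
    lap (nsq n * W) = (2 * (n : ℝ) + 4 * k) • W := by
  have h := hW.1.sum_X_mul_pderiv
  rw [poly_lap_mul, poly_lap_nsq, hW.2]
  simp only [poly_pderiv_nsq, mul_assoc, ← Finset.mul_sum, h]
  rw [smul_eq_C_mul, nsmul_eq_mul, map_add, map_mul, map_mul, map_natCast, map_natCast,
    map_ofNat, map_ofNat]
  ring

theorem poly_nsq_hom : (nsq n).IsHomogeneous 2 :=
  IsHomogeneous.sum _ _ _ fun i _ => isHomogeneous_X_pow i 2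

theorem harm_zero (k : ℕ) : Harm k (0 : Pol n) := ⟨isHomogeneous_zero _ _ _, by simp [lap]⟩
theorem harm_C (c : ℝ) : Harm 0 (C c : Pol n) := ⟨isHomogeneous_C _ _, by simp [lap]⟩
theorem Harm.add {k : ℕ} {P Q : Pol n} (hP : Harm k P) (hQ : Harm k Q) : Harm k (P + Q) :=
  ⟨hP.1.add hQ.1, by rw [poly_lap_add, hP.2, hQ.2, add_zero]⟩
theorem Harm.sub {k : ℕ} {P Q : Pol n} (hP : Harm k P) (hQ : Harm k Q) : Harm k (P - Q) :=
  ⟨hP.1.sub hQ.1, by rw [poly_lap_sub, hP.2, hQ.2, sub_zero]⟩
theorem Harm.smul {k : ℕ} {P : Pol n} (hP : Harm k P) (c : ℝ) : Harm k (c • P) :=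
  ⟨by rw [smul_eq_C_mul]; exact hP.1.C_mul c, by rw [poly_lap_smul, hP.2, smul_zero]⟩
theorem Harm.sum {α : Type*} {k : ℕ} (s : Finset α) {P : α → Pol n} (h : ∀ a ∈ s, Harm k (P a)) :
    Harm k (∑ a ∈ s, P a) :=
  Finset.sum_induction P (Harm k) (fun _ _ => Harm.add) (harm_zero k) h
theorem Harm.deriv {k : ℕ} {P : Pol n} (hP : Harm (k + 1) P) (i : Fin n) :
    Harm k (pderiv i P) :=
  ⟨hP.1.pderiv, by rw [poly_lap_pderiv, hP.2, map_zero]⟩
theorem Harm.deriv' {k : ℕ} {P : Pol n} (hP : Harm k P) (i : Fin n) :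
    Harm (k - 1) (pderiv i P) :=
  ⟨hP.1.pderiv, by rw [poly_lap_pderiv, hP.2, map_zero]⟩
theorem Harm.eq_C {P : Pol n} (hP : Harm 0 P) : ∃ c : ℝ, P = C c :=
  ⟨_, totalDegree_eq_zero_iff_eq_C.1 ((totalDegree_zero_iff_isHomogeneous _).2 hP.1)⟩
theorem Harm.aop (hn : 3 ≤ n) {k : ℕ} {Y : Pol n} (hY : Harm k Y) (i : Fin n) :
    Harm (k + 1) (Aop k i Y) := by
  have h1 : (X i * Y).IsHomogeneous (k + 1) := by
    rw [add_comm]
    exact (isHomogeneous_X ℝ i).mul hY.1
  rcases k with _ | k
  · obtain ⟨c, rfl⟩ := hY.eq_C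
    rw [Aop, pderiv_C, mul_zero, smul_zero, sub_zero]
    exact ⟨h1, by rw [poly_lap_X_mul, pderiv_C, hY.2, mul_zero, mul_zero, add_zero]⟩
  · have hW := hY.deriv i
    refine ⟨h1.sub ?_, ?_⟩
    · rw [smul_eq_C_mul, show k + 1 + 1 = 2 + k by ring]
      exact (poly_nsq_hom.mul hW.1).C_mul _
    · have hn' : (3 : ℝ) ≤ n := by exact_mod_cast hn
      have hk : (0 : ℝ) ≤ k := Nat.cast_nonneg k
      have hne : 2 * ((k + 1 : ℕ) : ℝ) + n - 2 ≠ 0 := by
        push_cast
        linarith
      have e : (2 * ((k + 1 : ℕ) : ℝ) + n - 2)⁻¹ * (2 * (n : ℝ) + 4 * k) = 2 := by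
        rw [inv_mul_eq_iff_eq_mul₀ hne]
        push_cast
        ring
      rw [Aop, poly_lap_sub, poly_lap_X_mul, poly_lap_smul, poly_lap_nsq_mul hW, hY.2, smul_smul, e,
        two_smul]
      ring
theorem ev_Aop (k : ℕ) (i : Fin n) (Y : Pol n) {p : E n} (hp : ‖p‖ = 1) :
    ev (Aop k i Y) p = p i * ev Y p - (2 * (k : ℝ) + n - 2)⁻¹ * ev (pderiv i Y) p := by
  rw [Aop, ev_sub, ev_mul, ev_X, ev_smul, ev_mul, ev_nsq, hp, one_pow, one_mul]
theorem Harm.dirD {k : ℕ} {Y : Pol n} (hY : Harm (k + 1) Y) (q : E n) : Harm k (dirD q Y) :=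
  Harm.sum _ fun i _ => (hY.deriv i).smul (q i)
theorem ev_dirD (q : E n) (Y : Pol n) (x : E n) :
    ev (dirD q Y) x = ∑ i, q i * ev (pderiv i Y) x := by
  simp only [dirD, ev_sum, ev_smul]
theorem ev_dirD_self {k : ℕ} {Y : Pol n} (h : Y.IsHomogeneous k) (q : E n) :
    ev (dirD q Y) q = k * ev Y q := by
  rw [ev_dirD, ev_euler h]
theorem ev_lap (P : Pol n) (x : E n) : ev (lap P) x = ∑ i, ev (pderiv i (pderiv i P)) x := by
  rw [lap, ev_sum]
/-- Euler twice: `2 Z = ∑ x_i x_j ∂_j ∂_i Z`, and the second derivatives are constants -/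
theorem Harm.two_repr {Z : Pol n} (hZ : Harm 2 Z) :
    ∃ c : Fin n → Fin n → ℝ, ∑ i, c i i = 0 ∧ ∀ x : E n, ev Z x = ∑ i, ∑ j, c i j * (x i * x j) := by
  have h1 : ∀ i, Harm 1 (pderiv i Z) := fun i => Harm.deriv (k := 1) hZ i
  choose d hd using fun i j => (Harm.deriv (k := 0) (h1 i) j).eq_C
  refine ⟨fun i j => d i j / 2, ?_, fun x => ?_⟩
  · have h := ev_lap Z 0
    simp only [hZ.2, ev_zero, hd, ev_C] at h
    rw [← Finset.sum_div, ← h, zero_div]
  · have h2 := ev_euler hZ.1 x
    have h3 : ∀ i, ev (pderiv i Z) x = ∑ j, x j * d i j := fun i => by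
      have := ev_euler (h1 i).1 x
      simp only [hd, ev_C, Nat.cast_one, one_mul] at this
      exact this.symm
    simp only [h3, Finset.mul_sum, Nat.cast_ofNat] at h2
    have h4 : ∑ i, ∑ j, d i j / 2 * (x i * x j) = (∑ i, ∑ j, x i * (x j * d i j)) / 2 := by
      simp only [Finset.sum_div]
      exact Finset.sum_congr rfl fun i _ => Finset.sum_congr rfl fun j _ => by ring
    rw [h4, h2]
    ring
/-- the harmonic polynomials of degree `k` form a finite dimensional space
(`MvPolynomial.homogeneousSubmodule_fg`) -/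
theorem exists_harm_submodule (k : ℕ) :
    ∃ V : Submodule ℝ (Pol n), (∀ P, P ∈ V ↔ Harm k P) ∧ FiniteDimensional ℝ V := by
  let V : Submodule ℝ (Pol n) :=
    { carrier := {P | Harm k P}
      add_mem' := Harm.add
      zero_mem' := harm_zero k
      smul_mem' := fun c _ h => Harm.smul h c }
  have : FiniteDimensional ℝ (homogeneousSubmodule (Fin n) ℝ k) :=
    Module.Finite.iff_fg.2 (homogeneousSubmodule_fg (Fin n) ℝ k)
  exact ⟨V, fun _ => Iff.rfl, Submodule.finiteDimensional_of_le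
    (S₂ := homogeneousSubmodule (Fin n) ℝ k) fun P hP => hP.1⟩

end Crest.Agent.R230
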