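import Crest.Agent.R230.SDT
import Crest.Agent.R230.Poly

/-!
# R230/Orth

Inner products of harmonic polynomials on the sphere.
`ip_grad_grad`: `ibp_poly` with `F = ev Y` and the polynomial `∂_i Z`, summed over `i`; Euler and
`lap Z = 0`.  (For `k = 0` both sides vanish.)  `orth`: the left side of `ip_grad_grad` is symmetric.
On the sphere `x_i Y = A_i Y + ∂_i Y/(2k+n-2)` (`ev_Aop`), which with `orth` gives the rest:
`ip Z (A_i Y) = ip Z (x_i Y) = ip (x_i Z) Y = ip (∂_i Z) Y / (2(k+1)+n-2)`;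
`∑ ip (A_i W) (A_i W') = ∑ ip (x_i W) (A_i W') = ip W W' - k/(2k+n-2) ip W W'`;
`∑ ip (∂_i Z) (A_i W) = ∑ ip (∂_i Z) (x_i W) - 0 = (k+2) ip Z W = 0`.
-/

set_option autoImplicit false
set_option linter.unusedSectionVars false
set_option linter.unusedVariables false

namespace Crest.Agent.R230

open MeasureTheory Metric Set Filter Topology
open scoped RealInnerProductSpace ENNReal Pointwise

variable {n : ℕ} [NeZero n]

open MvPolynomial

theorem orth_sum_right {α : Type*} (s : Finset α) {f : α → E n → ℝ} {g : E n → ℝ}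
    (hf : ∀ a ∈ s, Bd (f a)) (hg : Bd g) :
    ∑ a ∈ s, ip g (f a) = ip g (fun p => ∑ a ∈ s, f a p) := by
  rw [ip_comm, ip_sum_left s hf hg]
  exact Finset.sum_congr rfl fun a _ => ip_comm _ _

theorem orth_shift (f g : E n → ℝ) (i : Fin n) :
    ip f (fun p => p i * g p) = ip g (fun p => p i * f p) := by
  simp only [ip_eq_av]
  exact av_congr fun p _ => by ring

theorem orth_zero (f : E n → ℝ) : ip f (ev (0 : Pol n)) = 0 := by
  simp [ip, ev_zero]

theorem orth_euler {f : E n → ℝ} (hf : Bd f) {k : ℕ} {P : Pol n} (h : P.IsHomogeneous k) :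
    ∑ i, ip f (fun p => p i * ev (pderiv i P) p) = k * ip f (ev P) := by
  rw [orth_sum_right _ (fun i _ => (bd_coord i).mul (bd_ev _)) hf]
  simp only [ev_euler h]
  rw [ip_comm, ip_const_mul_left, ip_comm]

theorem orth_ip_Aop {f : E n → ℝ} (hf : Bd f) (k : ℕ) (i : Fin n) (Y : Pol n) :
    ip f (ev (Aop k i Y)) = ip f (fun p => p i * ev Y p) -
      (2 * (k : ℝ) + n - 2)⁻¹ * ip f (ev (pderiv i Y)) := by
  rw [ip_congr (f' := f) (fun _ _ => rfl) fun p hp => ev_Aop k i Y hp, ip_comm,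
    ip_sub_left ((bd_coord i).mul (bd_ev _)) ((bd_ev _).const_mul _) hf, ip_const_mul_left,
    ip_comm _ f, ip_comm _ f]

theorem ibp_poly {d j : ℕ} {F : E n → ℝ} (hF : LH d F) {Y : Pol n} (hY : Y.IsHomogeneous j)
    (i : Fin n) :
    ip (fun p => gradient F p i) (ev Y) =
      ((d : ℝ) + j + n - 1) * ip F (fun p => p i * ev Y p) - ip F (ev (pderiv i Y)) := by
  have h := ibp_coord hF (lh_ev hY) i
  simp only [grad_ev] at h
  have e : av (fun p : E n => p i * (F p * ev Y p)) = ip F (fun p => p i * ev Y p) :=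
    av_congr fun p _ => by ring
  rw [← e, ← h, ip_eq_av, ip_eq_av]
  ring

/-- pairing of a gradient with the gradient of a harmonic polynomial -/
theorem sum_ip_grad {d k : ℕ} {F : E n → ℝ} (hF : LH d F) {Z : Pol n} (hZ : Harm k Z) :
    ∑ i, ip (fun p => gradient F p i) (ev (pderiv i Z)) =
      ((d : ℝ) + k + n - 2) * k * ip F (ev Z) := by
  rcases k with _ | k
  · obtain ⟨c, rfl⟩ := hZ.eq_C
    simp [orth_zero]
  · simp only [fun i => ibp_poly hF (hZ.deriv i).1 i]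
    rw [Finset.sum_sub_distrib, ← Finset.mul_sum, orth_euler hF.bd hZ.1,
      orth_sum_right _ (fun i _ => bd_ev _) hF.bd]
    simp only [← ev_lap, hZ.2]
    rw [show (fun p => ev (0 : Pol n) p) = ev 0 from rfl, orth_zero]
    push_cast
    ring

theorem ip_grad_grad {j k : ℕ} {Y Z : Pol n} (hY : Harm j Y) (hZ : Harm k Z) :
    ∑ i, ip (ev (pderiv i Y)) (ev (pderiv i Z)) = ((j : ℝ) + k + n - 2) * k * ip (ev Y) (ev Z) := by
  have h := sum_ip_grad (lh_ev hY.1) hZ
  simp only [grad_ev] at h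
  exact h

theorem orth (hn : 3 ≤ n) {j k : ℕ} (hjk : j ≠ k) {Y Z : Pol n} (hY : Harm j Y) (hZ : Harm k Z) :
    ip (ev Y) (ev Z) = 0 := by
  have h1 := ip_grad_grad hY hZ
  have h2 := ip_grad_grad hZ hY
  simp only [ip_comm (ev (pderiv _ Z))] at h2
  rw [h1, ip_comm (ev Z)] at h2
  have hn' : (3 : ℝ) ≤ n := by exact_mod_cast hn
  have h3 : (0 : ℝ) < j + k + n - 2 := by
    linarith [(Nat.cast_nonneg j : (0 : ℝ) ≤ j), (Nat.cast_nonneg k : (0 : ℝ) ≤ k)]
  have h4 : (k : ℝ) - j ≠ 0 := sub_ne_zero.2 (by exact_mod_cast hjk.symm)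
  have h5 : ((j : ℝ) + k + n - 2) * ((k - j) * ip (ev Y) (ev Z)) = 0 := by linarith
  exact (mul_eq_zero.1 ((mul_eq_zero.1 h5).resolve_left h3.ne')).resolve_left h4

theorem ip_Aop (hn : 3 ≤ n) {k : ℕ} {Z Y : Pol n} (hZ : Harm (k + 1) Z) (hY : Harm k Y) (i : Fin n) :
    ip (ev Z) (ev (Aop k i Y)) = (2 * (k : ℝ) + n)⁻¹ * ip (ev (pderiv i Z)) (ev Y) := by
  have h1 := orth_ip_Aop (bd_ev Y) (k + 1) i Z
  rw [orth hn (by omega) hY (hZ.aop hn i)] at h1
  rw [orth_ip_Aop (bd_ev Z), orth hn (by omega) hZ (hY.deriv' i), orth_shift,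
    ip_comm (ev (pderiv i Z)), show 2 * (k : ℝ) + n = 2 * ((k + 1 : ℕ) : ℝ) + n - 2 by
      push_cast; ring]
  linarith

theorem sum_ip_Aop_Aop (hn : 3 ≤ n) {k : ℕ} {W W' : Pol n} (hW : Harm k W) (hW' : Harm k W') :
    ∑ i, ip (ev (Aop k i W)) (ev (Aop k i W')) =
      ((k : ℝ) + n - 2) / (2 * k + n - 2) * ip (ev W) (ev W') := by
  have h1 : ∀ i, ip (ev (Aop k i W)) (ev (Aop k i W')) =
      ip (fun p => p i * ev W p) (fun p => p i * ev W' p) -
        (2 * (k : ℝ) + n - 2)⁻¹ * ip (ev W) (fun p => p i * ev (pderiv i W') p) := fun i => by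
    rw [ip_comm, orth_ip_Aop (bd_ev _), orth hn (by omega) (hW'.aop hn i) (hW.deriv' i), mul_zero,
      sub_zero, ip_comm, orth_ip_Aop ((bd_coord i).mul (bd_ev _)), orth_shift (ev W),
      ip_comm (ev (pderiv i W'))]
  have h2 : ∑ i, ip (fun p : E n => p i * ev W p) (fun p => p i * ev W' p) =
      ip (ev W) (ev W') := by
    simp only [ip_eq_av]
    rw [← av_sum _ fun i _ => ((bd_coord i).mul (bd_ev W)).mul ((bd_coord i).mul (bd_ev W'))]
    refine av_congr fun p hp => ?_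
    have h3 : ∑ i, p i ^ 2 = 1 := by rw [← EuclideanSpace.real_norm_sq_eq, hp, one_pow]
    rw [← one_mul (ev W p * ev W' p), ← h3, Finset.sum_mul]
    exact Finset.sum_congr rfl fun i _ => by ring
  have hn' : (3 : ℝ) ≤ n := by exact_mod_cast hn
  have h3 : 2 * (k : ℝ) + n - 2 ≠ 0 := by linarith [(Nat.cast_nonneg k : (0 : ℝ) ≤ k)]
  simp only [h1]
  rw [Finset.sum_sub_distrib, ← Finset.mul_sum, orth_euler (bd_ev W) hW'.1, h2]
  field_simp
  ring

theorem sum_ip_deriv_Aop (hn : 3 ≤ n) {k : ℕ} {Z W : Pol n} (hZ : Harm (k + 2) Z) (hW : Harm k W) :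
    ∑ i, ip (ev (pderiv i Z)) (ev (Aop k i W)) = 0 := by
  have h1 : ∀ i, ip (ev (pderiv i Z)) (ev (Aop k i W)) =
      ip (ev W) (fun p => p i * ev (pderiv i Z) p) := fun i => by
    rw [orth_ip_Aop (bd_ev _), orth hn (by omega) (hZ.deriv i) (hW.deriv' i), mul_zero, sub_zero,
      orth_shift]
  simp only [h1]
  rw [orth_euler (bd_ev W) hZ.1, orth hn (by omega) hW hZ, mul_zero]

theorem eq_zero_of_ip_self {k : ℕ} {Y : Pol n} (hY : Y.IsHomogeneous k)
    (h : ip (ev Y) (ev Y) = 0) : Y = 0 :=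
  eq_zero_of_sphere hY fun p hp => mul_self_eq_zero.1
    (eq_zero_of_av (f := fun p => ev Y p * ev Y p)
      ((continuous_ev Y).mul (continuous_ev Y)).continuousOn (fun _ _ => mul_self_nonneg _) h.le p
      hp)

end Crest.Agent.R230
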