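import Crest.Agent.R230.Dual

/-!
# R230/Apri

Existence of a minimiser.
`apriori`: let `δ = N p₁`, `Λ = N p₀` be the minimum and maximum of `N` on the unit sphere.
`|⟪w,p₁⟫| ≤ δ dual N w` gives `∫ dual N ≥ c/δ`, and `av (psi N) ≥ log δ ≥ log (c/2) - c/(2δ)`
(`log x ≤ x` for `x = c/(2δ)`); so `c/(2δ) ≤ Φ₀ - log (c/2)`, i.e. `δ ≥ c₁`.  On the cap `‖p - p₀‖ < 1/2`,
`N p ≥ Λ/2` (`abs_sub_le` with `C = Λ`); the cap has measure `≥ σ₀` (`sph_ball_ge`), and
`log N - log c₁ ≥ 0` everywhere, so `σ₀ (log (Λ/2) - log c₁) ≤ Φ₀ - log c₁` if `Λ/2 ≥ c₁`.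
`isCompact_normBox`: closed subset of `∏ [c‖x‖, C‖x‖]` (`isCompact_univ_pi`).
`normBox_unif`: finite `ε`-net of the sphere, all members are `C`-Lipschitz.
`phi_close`: if `|N' - N| ≤ δ ‖·‖` then `(1-δ/c) N ≤ N' ≤ (1+δ/c) N`; `dual_anti`, `dual_const_mul`,
and `psi` is Lipschitz on `[c, C]`.
`exists_isMin`: minimise the continuous `Phi r μ` on the compact `NormBox c₁ C₁` given by `apriori`
for `Φ₀ = Phi r μ ‖·‖`.
-/

set_option autoImplicit false
set_option linter.unusedSectionVars false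
set_option linter.unusedVariables false

namespace Crest.Agent.R230

open MeasureTheory Metric Set Filter Topology
open scoped RealInnerProductSpace ENNReal Pointwise

variable {n : ℕ} [NeZero n]

theorem psi_le {r : ℕ} (hr : r ≤ 1) {x y : ℝ} (hx : 0 < x) (hy : 0 < y) :
    psi r y ≤ psi r x + x ^ r * (y / x - 1) := by
  unfold psi
  split_ifs with h
  · subst h
    have := Real.log_le_sub_one_of_pos (div_pos hy hx)
    rw [Real.log_div hy.ne' hx.ne'] at this
    rw [pow_zero, one_mul]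
    linarith
  · obtain rfl : r = 1 := by omega
    rw [pow_one, mul_sub, mul_div_cancel₀ _ hx.ne']
    linarith

theorem psi_sqrt_le (r : ℕ) {x y : ℝ} (hx : 0 < x) (hy : 0 < y) :
    psi r (√(x * y)) ≤ (psi r x + psi r y) / 2 := by
  unfold psi
  split_ifs with h
  · rw [Real.log_sqrt (mul_pos hx hy).le, Real.log_mul hx.ne' hy.ne']
  · exact Real.sqrt_le_iff.2 ⟨by positivity, by nlinarith [sq_nonneg (x - y)]⟩

theorem psi_strictMonoOn (r : ℕ) : StrictMonoOn (psi r) (Ioi 0) := by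
  intro x hx y _ hxy
  unfold psi
  split_ifs with h
  · exact Real.log_lt_log hx hxy
  · exact hxy

theorem log_le_psi (r : ℕ) {x : ℝ} (hx : 0 < x) : Real.log x ≤ psi r x := by
  unfold psi
  split_ifs with h
  · exact le_rfl
  · linarith [Real.log_le_sub_one_of_pos hx]

theorem psi_continuousOn (r : ℕ) : ContinuousOn (psi r) (Ioi 0) := by
  unfold psi
  split_ifs with h
  · exact Real.continuousOn_log.mono fun x hx => ne_of_gt hx
  · exact continuousOn_id

theorem apriori (r : ℕ) {c : ℝ} (hc : 0 < c) (Φ₀ : ℝ) :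
    ∃ c₁ C₁ : ℝ, 0 < c₁ ∧ ∀ μ : Measure (E n), Good μ → (∀ v, c * ‖v‖ ≤ ∫ w, |⟪w, v⟫| ∂μ) →
      ∀ N, IsNorm N → Phi r μ N ≤ Φ₀ → N ∈ NormBox n c₁ C₁ := by
  obtain ⟨σ, hσ, hσ'⟩ := sph_ball_ge (n := n) (ε := 1 / 2) (by norm_num)
  obtain ⟨c₁, hc₁⟩ : ∃ c₁, c₁ = c / (2 * (|Φ₀ - Real.log (c / 2)| + 1)) := ⟨_, rfl⟩
  have hc₁0 : 0 < c₁ := by rw [hc₁]; positivity
  refine ⟨c₁, 2 * c₁ * Real.exp (|Φ₀ - Real.log c₁| / σ), hc₁0, fun μ hμ hcμ N hN hΦ => ?_⟩
  have hS := hN.toSub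
  have hne : (sphere (0 : E n) 1).Nonempty := NormedSpace.sphere_nonempty.2 zero_le_one
  obtain ⟨p₁, hp₁, hmin⟩ := (isCompact_sphere (0 : E n) 1).exists_isMinOn hne
    hS.continuous.continuousOn
  obtain ⟨p₀, hp₀, hmax⟩ := (isCompact_sphere (0 : E n) 1).exists_isMaxOn hne
    hS.continuous.continuousOn
  rw [mem_sphere_zero_iff_norm] at hp₁ hp₀
  have hmin' : ∀ p, ‖p‖ = 1 → N p₁ ≤ N p := fun p hp => hmin (mem_sphere_zero_iff_norm.2 hp)
  have hmax' : ∀ p, ‖p‖ = 1 → N p ≤ N p₀ := fun p hp => hmax (mem_sphere_zero_iff_norm.2 hp)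
  have hpos : ∀ p, ‖p‖ = 1 → 0 < N p := fun p hp => hS.pos p (by rintro rfl; simp at hp)
  have hδ := hpos p₁ hp₁
  have hΛ := hpos p₀ hp₀
  have hdc : Continuous (dual N) := hS.posH.sub_dual.continuous
  have hψ : Bd fun p => psi r (N p) := hS.bd_comp (psi_continuousOn r)
  have hscale : ∀ x : E n, ∃ p, ‖p‖ = 1 ∧ N x = N p * ‖x‖ := fun x => by
    rcases eq_or_ne x 0 with rfl | hx
    · exact ⟨p₀, hp₀, by rw [hS.zero, norm_zero, mul_zero]⟩
    · refine ⟨‖x‖⁻¹ • x, norm_smul_inv_norm hx, ?_⟩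
      rw [hS.smul _ _ (inv_nonneg.2 (norm_nonneg x)), mul_comm, mul_inv_cancel_left₀
        (norm_ne_zero_iff.2 hx)]
  unfold Phi at hΦ
  -- lower bound
  have h1 : c ≤ N p₁ * ∫ w, dual N w ∂μ := by
    have := hcμ p₁
    rw [hp₁, mul_one] at this
    refine this.trans ?_
    rw [← integral_const_mul]
    refine integral_mono (hμ.integrable (by fun_prop)) ((hμ.integrable hdc).const_mul _) fun w => ?_
    simp only [real_inner_comm p₁ w]
    exact hN.abs_inner_le p₁ w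
  have h2 : Real.log (N p₁) ≤ av fun p => psi r (N p) := by
    rw [← av_const (n := n) (Real.log (N p₁))]
    exact av_mono (bd_const _) hψ fun p hp =>
      (Real.log_le_log hδ (hmin' p hp)).trans (log_le_psi r (hpos p hp))
  have h3 : c₁ ≤ N p₁ := by
    have a1 := Real.log_le_sub_one_of_pos (div_pos (half_pos hc) hδ)
    rw [Real.log_div (half_pos hc).ne' hδ.ne'] at a1
    have a2 : c / N p₁ ≤ ∫ w, dual N w ∂μ := by rwa [div_le_iff₀ hδ, mul_comm]
    have a3 : c / 2 / N p₁ = c / N p₁ / 2 := by ring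
    have a4 : c / N p₁ ≤ 2 * (|Φ₀ - Real.log (c / 2)| + 1) := by
      linarith [le_abs_self (Φ₀ - Real.log (c / 2))]
    rw [hc₁, div_le_iff₀ (by positivity)]
    rwa [div_le_iff₀ hδ, mul_comm] at a4
  -- upper bound
  have hup : ∀ x, N x ≤ N p₀ * ‖x‖ := fun x => by
    obtain ⟨p, hp, e⟩ := hscale x
    rw [e]
    exact mul_le_mul_of_nonneg_right (hmax' p hp) (norm_nonneg x)
  have h4 : N p₀ ≤ 2 * c₁ * Real.exp (|Φ₀ - Real.log c₁| / σ) := by
    rcases le_total (N p₀ / 2) c₁ with h | h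
    · have := Real.one_le_exp (show 0 ≤ |Φ₀ - Real.log c₁| / σ by positivity)
      nlinarith
    have hL : 0 ≤ Real.log (N p₀ / 2) - Real.log c₁ := sub_nonneg.2 (Real.log_le_log hc₁0 h)
    obtain ⟨L, hLe⟩ : ∃ L, L = Real.log (N p₀ / 2) - Real.log c₁ := ⟨_, rfl⟩
    rw [← hLe] at hL
    have b1 : Bd fun p => (ball p₀ (1 / 2)).indicator (fun _ => L) p :=
      ⟨measurable_const.indicator measurableSet_ball, L, fun p _ => by
        rw [abs_of_nonneg (indicator_nonneg (fun _ _ => hL) p)]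
        exact indicator_le_self' (fun _ _ => hL) p⟩
    have b2 := av_mono b1 (hψ.sub (bd_const (Real.log c₁))) fun p hp => by
      have e1 := log_le_psi r (hpos p hp)
      by_cases hm : p ∈ ball p₀ (1 / 2)
      · rw [indicator_of_mem hm, hLe]
        have e2 := (abs_le.1 (hS.abs_sub_le hup p p₀)).1
        have e3 := mul_le_mul_of_nonneg_left (mem_ball_iff_norm.1 hm).le hΛ.le
        have e4 := Real.log_le_log (half_pos hΛ) (show N p₀ / 2 ≤ N p by linarith)
        linarith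
      · rw [indicator_of_notMem hm]
        linarith [Real.log_le_log hc₁0 (h3.trans (hmin' p hp))]
    rw [av_sub hψ (bd_const _), av_const, av, integral_indicator_const _ measurableSet_ball,
      smul_eq_mul] at b2
    have b3 := mul_le_mul_of_nonneg_right (hσ' p₀ hp₀) hL
    have b4 : 0 ≤ ∫ w, dual N w ∂μ := integral_nonneg fun w => hS.posH.dual_nonneg w
    have b5 : L ≤ |Φ₀ - Real.log c₁| / σ := by
      rw [le_div_iff₀ hσ]
      linarith [le_abs_self (Φ₀ - Real.log c₁)]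
    have b6 := Real.exp_le_exp.2 b5
    rw [hLe, Real.exp_sub, Real.exp_log (half_pos hΛ), Real.exp_log hc₁0, div_le_iff₀ hc₁0] at b6
    linarith
  refine ⟨hN, fun x => ⟨?_, (hup x).trans (mul_le_mul_of_nonneg_right h4 (norm_nonneg x))⟩⟩
  obtain ⟨p, hp, e⟩ := hscale x
  rw [e]
  exact mul_le_mul_of_nonneg_right (h3.trans (hmin' p hp)) (norm_nonneg x)

end Crest.Agent.R230
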