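import Crest.Agent.R230.Vol
import Crest.Agent.Lib.Prekopa.Basic

/-!
# R230/BM

Brunn–Minkowski for convex sets from the midpoint form
`Crest.Agent.Lib.Prekopa.volume_mul_le_sq`.
Translate so that `0 ∈ A`, `0 ∈ B` (`vol_translate`).  If `a = 0` (or `b = 0`) use `B ⊆ A + B`.
Otherwise put `A₁ = a⁻¹ A`, `B₁ = b⁻¹ B` (volume `≥ 1`), `C d = (1-d) A₁ + d B₁` (compact, and
`½ C d + ½ C d' ⊆ C ((d+d')/2)` by convexity).  By induction on `k`, `vol (C (j/2^k)) ≥ 1` for
`j ≤ 2^k`.  If `s (1-d) ≤ a` and `s d ≤ b` then `s C d ⊆ a A₁ + b B₁ = A + B` (convexity and `0`), so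
`s^n ≤ vol (A + B)`.  For `s < a + b` the interval `[1 - a/s, b/s] ∩ [0,1]` has interior, so it
contains a dyadic number; let `s → a + b`.
-/

set_option autoImplicit false
set_option linter.unusedSectionVars false
set_option linter.unusedVariables false

namespace Crest.Agent.R230

open MeasureTheory Metric Set Filter Topology
open scoped RealInnerProductSpace ENNReal Pointwise

variable {n : ℕ} [NeZero n]

lemma bm_left {A B : Set (E n)} (hA : IsCompact A) (hB : IsCompact B) (hB0 : B.Nonempty) :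
    vol A ≤ vol (A + B) := by
  obtain ⟨y, hy⟩ := hB0
  rw [← vol_translate A y]
  refine vol_mono ?_ (hA.add hB)
  rintro _ ⟨x, hx, rfl⟩
  exact ⟨x, hx, y, hy, add_comm x y⟩

lemma bm_mid {A B : Set (E n)} (hA : IsCompact A) (hB : IsCompact B) (hAc : Convex ℝ A)
    (hBc : Convex ℝ B) {s t s' t' : ℝ} (hs : 0 ≤ s) (ht : 0 ≤ t) (hs' : 0 ≤ s') (ht' : 0 ≤ t') :
    vol (s • A + t • B) * vol (s' • A + t' • B) ≤
      vol (((s + s') / 2) • A + ((t + t') / 2) • B) ^ 2 := by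
  have c : ∀ u v : ℝ, IsCompact (u • A + v • B) := fun u v => (hA.smul u).add (hB.smul v)
  have h := Crest.Agent.Lib.Prekopa.volume_mul_le_sq (s • A + t • B) (s' • A + t' • B)
    (((s + s') / 2) • A + ((t + t') / 2) • B) (c _ _).measurableSet (c _ _).measurableSet
    (c _ _).measurableSet (by
      rintro _ ⟨_, ⟨x, hx, rfl⟩, _, ⟨y, hy, rfl⟩, rfl⟩ _ ⟨_, ⟨x', hx', rfl⟩, _, ⟨y', hy', rfl⟩, rfl⟩
      rw [add_div, add_div, hAc.add_smul (by positivity) (by positivity),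
        hBc.add_smul (by positivity) (by positivity)]
      refine ⟨_, ⟨_, ⟨x, hx, rfl⟩, _, ⟨x', hx', rfl⟩, rfl⟩, _,
        ⟨_, ⟨y, hy, rfl⟩, _, ⟨y', hy', rfl⟩, rfl⟩, ?_⟩
      beta_reduce
      module)
  unfold vol
  rw [← ENNReal.toReal_mul, ← ENNReal.toReal_pow]
  exact ENNReal.toReal_mono (ENNReal.pow_ne_top (c _ _).measure_lt_top.ne) h

lemma bm_one {A B : Set (E n)} (hA : IsCompact A) (hB : IsCompact B) (hAc : Convex ℝ A)
    (hBc : Convex ℝ B) (hA0 : A.Nonempty) (hB0 : B.Nonempty) (h1 : 1 ≤ vol A) (h2 : 1 ≤ vol B)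
    (d : ℝ) (hd : d ∈ Icc (0 : ℝ) 1) : 1 ≤ vol ((1 - d) • A + d • B) := by
  obtain ⟨f, hf⟩ : ∃ f : Icc (0 : ℝ) 1 → ℝ, f = fun e => vol ((1 - e.1) • A + e.1 • B) := ⟨_, rfl⟩
  have l1 : ∀ s t : ℝ, 0 ≤ s → s ^ n ≤ vol (s • A + t • B) := fun s t hs => by
    refine le_trans ?_ (bm_left (hA.smul s) (hB.smul t) hB0.smul_set)
    rw [vol_smul A hs]
    exact le_mul_of_one_le_right (pow_nonneg hs _) h1
  have l2 : ∀ s t : ℝ, 0 ≤ t → t ^ n ≤ vol (s • A + t • B) := fun s t ht => by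
    rw [add_comm]
    refine le_trans ?_ (bm_left (hB.smul t) (hA.smul s) hA0.smul_set)
    rw [vol_smul B ht]
    exact le_mul_of_one_le_right (pow_nonneg ht _) h2
  have hlow : ∀ e, (1 / 2 : ℝ) ^ n ≤ f e := by
    rintro ⟨e, he0, he1⟩
    rw [hf]
    rcases le_total e (1 / 2) with h | h
    · exact le_trans (pow_le_pow_left₀ (by norm_num) (by linarith) n) (l1 (1 - e) e (by linarith))
    · exact le_trans (pow_le_pow_left₀ (by norm_num) h n) (l2 (1 - e) e he0)
  have hbdd : BddBelow (range f) := ⟨_, by rintro _ ⟨e, rfl⟩; exact hlow e⟩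
  have hm0 : 0 < ⨅ e, f e := lt_of_lt_of_le (by positivity) (le_ciInf hlow)
  have hsq : ∀ e, Real.sqrt (⨅ e, f e) ≤ f e := by
    rintro ⟨e, he0, he1⟩
    refine Real.sqrt_le_iff.2 ⟨le_trans (by positivity) (hlow _), ?_⟩
    rcases le_total e (1 / 2) with h | h
    · have g := bm_mid hA hB hAc hBc (s := 1) (t := 0) (s' := 1 - 2 * e) (t' := 2 * e) zero_le_one
        le_rfl (by linarith) (by linarith)
      rw [show (1 + (1 - 2 * e)) / 2 = 1 - e by ring, show (0 + 2 * e) / 2 = e by ring] at g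
      have g1 := l1 1 0 zero_le_one
      have g2 := ciInf_le hbdd ⟨2 * e, by linarith, by linarith⟩
      rw [one_pow] at g1
      nth_rewrite 2 [hf] at g2 ⊢
      exact g2.trans ((le_mul_of_one_le_left (vol_nonneg _) g1).trans g)
    · have g := bm_mid hA hB hAc hBc (s := 0) (t := 1) (s' := 1 - (2 * e - 1)) (t' := 2 * e - 1)
        le_rfl zero_le_one (by linarith) (by linarith)
      rw [show (0 + (1 - (2 * e - 1))) / 2 = 1 - e by ring,
        show (1 + (2 * e - 1)) / 2 = e by ring] at g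
      have g1 := l2 0 1 zero_le_one
      have g2 := ciInf_le hbdd ⟨2 * e - 1, by linarith, by linarith⟩
      rw [one_pow] at g1
      nth_rewrite 2 [hf] at g2 ⊢
      exact g2.trans ((le_mul_of_one_le_left (vol_nonneg _) g1).trans g)
  have h3 := le_ciInf hsq
  have h4 := ciInf_le hbdd ⟨d, hd⟩
  nth_rewrite 2 [hf] at h4
  refine le_trans ?_ h4
  generalize ⨅ e, f e = m at hm0 h3
  have h5 := (Real.sqrt_le_iff.1 h3).2
  nlinarith

theorem bm {A B : Set (E n)} (hA : IsCompact A) (hB : IsCompact B) (hAc : Convex ℝ A)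
    (hBc : Convex ℝ B) (hA0 : A.Nonempty) (hB0 : B.Nonempty) {a b : ℝ} (ha : 0 ≤ a) (hb : 0 ≤ b)
    (h1 : a ^ n ≤ vol A) (h2 : b ^ n ≤ vol B) : (a + b) ^ n ≤ vol (A + B) := by
  rcases ha.eq_or_lt with h | ha'
  · rw [← h, zero_add, add_comm]
    exact h2.trans (bm_left hB hA hA0)
  rcases hb.eq_or_lt with h | hb'
  · rw [← h, add_zero]
    exact h1.trans (bm_left hA hB hB0)
  have hab : 0 < a + b := add_pos ha' hb'
  have k : ∀ (C : Set (E n)) (c : ℝ), 0 < c → c ^ n ≤ vol C → 1 ≤ vol (c⁻¹ • C) := by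
    intro C c hc h
    rw [vol_smul C (inv_pos.2 hc).le, inv_pow, ← div_eq_inv_mul, one_le_div (pow_pos hc n)]
    exact h
  have h := bm_one (hA.smul a⁻¹) (hB.smul b⁻¹) (hAc.smul a⁻¹) (hBc.smul b⁻¹) hA0.smul_set
    hB0.smul_set (k A a ha' h1) (k B b hb' h2) (b / (a + b))
    ⟨by positivity, (div_le_one hab).2 (by linarith)⟩
  have e : A + B = (a + b) • ((1 - b / (a + b)) • a⁻¹ • A + (b / (a + b)) • b⁻¹ • B) := by
    rw [smul_add, smul_smul, smul_smul, smul_smul, smul_smul,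
      show (a + b) * (1 - b / (a + b)) * a⁻¹ = 1 by field_simp; ring,
      show (a + b) * (b / (a + b)) * b⁻¹ = 1 by field_simp, one_smul, one_smul]
  rw [e, vol_smul _ hab.le]
  exact le_mul_of_one_le_right (pow_nonneg hab.le _) h

end Crest.Agent.R230
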