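import Crest.Agent.R230.Pars

/-!
# R230/VecH

Components of a gradient, and the Poincaré inequality.
For `Y` harmonic of degree `k+1`, `ibp_poly` and `x_i Y = A_i Y + ∂_i Y/(2k+n)` give
`ip (∂_i G) Y = (d+k+n) ip G (A_i Y) + ((d+k+n)/(2k+n) - 1) ip G (∂_i Y)`; replace `G` by its components
`U = pr (k+2) G`, `D = pr k G` (`pr_spec`) and use `ip_Aop` twice
(`ip U (A_i Y) = ip (∂_i U) Y/(2k+n+2)`, `ip Y (A_i D) = ip (∂_i Y) D/(2k+n)`); `pr_unique`.
`sum_cf_grad`: expand with `ip_grad_grad`, `sum_ip_Aop_Aop`, `sum_ip_deriv_Aop`.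
`poinc`: `av ‖∇u‖² = ∑ i, ip (∂_i u) (∂_i u) ≥ ∑_{l ≤ L} ∑ i, nk (2l+1) (∂_i u)`
`= ∑_{l ≤ L} (alU n 0 (2l) nk (2l+2) u + alD n 0 (2l) nk (2l) u)`, and
`alU n 0 k + alD n 0 (k+2) = (k+2)(k+n)`, which is `2n` for `k = 0` and `≥ 4n+8` for `k ≥ 2`;
let `L → ∞` with `hasSum_hi`.
-/

set_option autoImplicit false
set_option linter.unusedSectionVars false
set_option linter.unusedVariables false

namespace Crest.Agent.R230

open MeasureTheory Metric Set Filter Topology
open scoped RealInnerProductSpace ENNReal Pointwise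

variable {n : ℕ} [NeZero n]

open MvPolynomial

theorem vech_ip_comb (a b : ℝ) (P Q : Pol n) {g : E n → ℝ} (hg : Bd g) :
    ip (ev (a • P + b • Q)) g = a * ip (ev P) g + b * ip (ev Q) g := by
  have e : ev (a • P + b • Q) = fun p => a * ev P p + b * ev Q p := by
    funext p; rw [ev_add, ev_smul, ev_smul]
  rw [e, ip_add_left ((bd_ev P).const_mul a) ((bd_ev Q).const_mul b) hg, ip_const_mul_left,
    ip_const_mul_left]

theorem pr_grad (hn : 3 ≤ n) {d : ℕ} {G : E n → ℝ} (hG : LH d G) (k : ℕ) (i : Fin n) :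
    pr (k + 1) (fun p => gradient G p i) =
      (((d : ℝ) + k + n) / (2 * k + n + 2)) • pderiv i (pr (k + 2) G) +
        ((d : ℝ) - k) • Aop k i (pr k G) := by
  have h3 : (3 : ℝ) ≤ n := by exact_mod_cast hn
  have hk : (0 : ℝ) ≤ k := Nat.cast_nonneg k
  obtain ⟨hU, hU'⟩ := pr_spec (k + 2) hG.bd
  obtain ⟨hD, hD'⟩ := pr_spec k hG.bd
  refine pr_unique (hG.bd_grad i) (((hU.deriv i).smul _).add ((hD.aop hn i).smul _))
    fun Z hZ => ?_
  rw [vech_ip_comb _ _ _ _ (bd_ev Z), ibp_poly hG hZ.1 i]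
  have e1 : ip G (fun p => p i * ev Z p) =
      ip G (ev (Aop (k + 1) i Z)) + (2 * (k : ℝ) + n)⁻¹ * ip G (ev (pderiv i Z)) := by
    rw [ip_comm G, ip_comm G, ip_comm G, ← ip_const_mul_left,
      ← ip_add_left (bd_ev _) ((bd_ev _).const_mul _) hG.bd]
    refine ip_congr (fun p hp => ?_) (fun _ _ => rfl)
    rw [ev_Aop _ _ _ hp]
    push_cast
    rw [show 2 * ((k : ℝ) + 1) + n - 2 = 2 * k + n by ring]
    ring
  have e2 := ip_Aop hn hU hZ i
  have e3 := ip_Aop hn hZ hD i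
  rw [e1, hU' _ (hZ.aop hn i), hD' _ (hZ.deriv i), e2, ip_comm (ev (Aop k i (pr k G))), e3,
    ip_comm (ev (pr k G))]
  push_cast
  have h1 : (2 * (k : ℝ) + n) ≠ 0 := by positivity
  have h2 : (2 * (k : ℝ) + n + 2) ≠ 0 := by positivity
  rw [show 2 * ((k : ℝ) + 1) + n = 2 * k + n + 2 by ring]
  field_simp
  ring

theorem sum_cf_grad (hn : 3 ≤ n) {d : ℕ} {G G' : E n → ℝ} (hG : LH d G) (hG' : LH d G') (k : ℕ) :
    ∑ i, cf (k + 1) (fun p => gradient G p i) (fun p => gradient G' p i) =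
      alU n d k * cf (k + 2) G G' + alD n d k * cf k G G' := by
  have h3 : (3 : ℝ) ≤ n := by exact_mod_cast hn
  have hk : (0 : ℝ) ≤ k := Nat.cast_nonneg k
  obtain ⟨hU, -⟩ := pr_spec (k + 2) hG.bd
  obtain ⟨hD, -⟩ := pr_spec k hG.bd
  obtain ⟨hU', -⟩ := pr_spec (k + 2) hG'.bd
  obtain ⟨hD', -⟩ := pr_spec k hG'.bd
  set a : ℝ := ((d : ℝ) + k + n) / (2 * k + n + 2) with ha
  set b : ℝ := (d : ℝ) - k with hb
  have e : ∀ i, cf (k + 1) (fun p => gradient G p i) (fun p => gradient G' p i) =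
      a * a * ip (ev (pderiv i (pr (k + 2) G))) (ev (pderiv i (pr (k + 2) G'))) +
      a * b * ip (ev (pderiv i (pr (k + 2) G))) (ev (Aop k i (pr k G'))) +
      b * a * ip (ev (pderiv i (pr (k + 2) G'))) (ev (Aop k i (pr k G))) +
      b * b * ip (ev (Aop k i (pr k G))) (ev (Aop k i (pr k G'))) := by
    intro i
    unfold cf
    rw [pr_grad hn hG, pr_grad hn hG', vech_ip_comb _ _ _ _ (bd_ev _),
      ip_comm (ev (pderiv i (pr (k + 2) G))), ip_comm (ev (Aop k i (pr k G))),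
      vech_ip_comb _ _ _ _ (bd_ev _), vech_ip_comb _ _ _ _ (bd_ev _),
      ip_comm (ev (pderiv i (pr (k + 2) G'))) (ev (pderiv i (pr (k + 2) G))),
      ip_comm (ev (Aop k i (pr k G'))) (ev (pderiv i (pr (k + 2) G))),
      ip_comm (ev (Aop k i (pr k G'))) (ev (Aop k i (pr k G)))]
    ring
  simp_rw [e, Finset.sum_add_distrib, ← Finset.mul_sum]
  rw [ip_grad_grad hU hU', sum_ip_deriv_Aop hn hU hD', sum_ip_deriv_Aop hn hU' hD,
    sum_ip_Aop_Aop hn hD hD']
  unfold cf alU alD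
  rw [ha, hb]
  push_cast
  have h2 : (2 * (k : ℝ) + n + 2) ≠ 0 := by positivity
  have h1 : (2 * (k : ℝ) + n - 2) ≠ 0 := by
    have : 0 < 2 * (k : ℝ) + n - 2 := by linarith
    exact this.ne'
  rw [show (k : ℝ) + 2 + (k + 2) + n - 2 = 2 * k + n + 2 by ring]
  field_simp
  ring

theorem vech_al (hn : 3 ≤ n) (k : ℕ) :
    alU n 0 k + alD n 0 (k + 2) = ((k : ℝ) + 2) * (k + n) := by
  have h3 : (3 : ℝ) ≤ n := by exact_mod_cast hn
  have hk : (0 : ℝ) ≤ k := Nat.cast_nonneg k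
  unfold alU alD
  push_cast
  have h2 : (2 * (k : ℝ) + n + 2) ≠ 0 := by positivity
  rw [show 2 * ((k : ℝ) + 2) + n - 2 = 2 * k + n + 2 by ring]
  field_simp
  ring

theorem poinc (hn : 3 ≤ n) {u : E n → ℝ} (hu : LH 0 u) (he : ∀ p, u (-p) = u p) :
    2 * n * nk 2 u + (4 * n + 8) * hi u ≤ av (fun p => ‖gradient u p‖ ^ 2) := by
  have h3 : (3 : ℝ) ≤ n := by exact_mod_cast hn
  set T : ℕ → ℝ := fun k => ∑ i, nk k (fun p => gradient u p i) with hT
  have hT0 : ∀ k, 0 ≤ T k := fun k => Finset.sum_nonneg fun i _ => nk_nonneg _ _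
  have hS : HasSum T (av (fun p => ‖gradient u p‖ ^ 2)) := by
    have e : av (fun p => ‖gradient u p‖ ^ 2) =
        ∑ i, ip (fun p => gradient u p i) (fun p => gradient u p i) := by
      simp_rw [ip_eq_av]
      rw [← av_sum Finset.univ (f := fun i p => gradient u p i * gradient u p i)
        (fun i _ => (hu.bd_grad i).mul (hu.bd_grad i))]
      congr 1
      funext p
      rw [← inner_eq_sum, real_inner_self_eq_norm_sq]
    rw [e]
    exact hasSum_sum fun i _ => hasSum_nk hn (hu.bd_grad i)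
  have hTs : ∀ k, T (k + 1) = alU n 0 k * nk (k + 2) u + alD n 0 k * nk k u :=
    fun k => sum_cf_grad hn hu hu k
  have hP : ∀ L : ℕ, 2 * n * nk 2 u + (4 * n + 8) * ∑ l ∈ Finset.range L, nk (2 * l + 4) u +
      alU n 0 (2 * L + 2) * nk (2 * L + 4) u ≤ ∑ k ∈ Finset.range (2 * L + 4), T k := by
    intro L
    induction L with
    | zero =>
      have e0 : alD n 0 0 = 0 := by unfold alD; simp
      have e1 := vech_al hn 0
      have t1 := hTs 0
      have t3 := hTs 2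
      have t0 := hT0 0
      have t2 := hT0 2
      simp only [Finset.sum_range_succ, Finset.range_zero, Finset.sum_empty, mul_zero, zero_add,
        add_zero, Nat.cast_zero, Nat.reduceAdd] at e1 t1 t3 ⊢
      rw [t1, t3, e0]
      have : 2 * (n : ℝ) * nk 2 u = alU n 0 0 * nk 2 u + alD n 0 2 * nk 2 u := by
        rw [← add_mul, e1]
      linarith
    | succ L ih =>
      rw [show 2 * (L + 1) + 4 = 2 * L + 4 + 1 + 1 from rfl, Finset.sum_range_succ (n := 2 * L + 4 + 1),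
        Finset.sum_range_succ (n := 2 * L + 4), Finset.sum_range_succ (n := L), hTs (2 * L + 4)]
      have t0 := hT0 (2 * L + 4)
      have e1 := vech_al hn (2 * L + 2)
      have hL : (0 : ℝ) ≤ L := Nat.cast_nonneg L
      have e2 : (4 * (n : ℝ) + 8) ≤ alU n 0 (2 * L + 2) + alD n 0 (2 * L + 4) := by
        rw [show 2 * L + 4 = 2 * L + 2 + 2 from rfl, e1]
        push_cast
        nlinarith
      have e3 := mul_le_mul_of_nonneg_right e2 (nk_nonneg (2 * L + 4) u)
      simp only [show 2 * (L + 1) + 2 = 2 * L + 4 from rfl,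
        show 2 * L + 4 + 1 + 1 = 2 * L + 4 + 2 from rfl]
      nlinarith
  have hlim := (((hasSum_hi hn hu.bd he).tendsto_sum_nat.const_mul (4 * (n : ℝ) + 8)).const_add
    (2 * n * nk 2 u))
  refine le_of_tendsto' hlim fun L => ?_
  have h1 := sum_le_hasSum (Finset.range (2 * L + 4)) (fun k _ => hT0 k) hS
  have h2 : 0 ≤ alU n 0 (2 * L + 2) * nk (2 * L + 4) u :=
    mul_nonneg (by unfold alU; positivity) (nk_nonneg _ _)
  have := hP L
  linarith

end Crest.Agent.R230
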