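import Crest.Agent.R230.FH
import Crest.Agent.R230.VecH

/-!
# R230/Bilin

The calibrated bilinear form.
By `hasSum_sign` for the coordinates of the gradients, `hh_even` and `sum_cf_grad`, the right side is
`Q = lim_L h1 ∑_{l ≤ L} hh (2l+1) (alU (2l) c (2l+2) + alD (2l) c (2l))`, `c k = cf k G G'`.
Regroup: the finite sum is `alD 0 c 0 + ∑_{l < L} b l c (2l+2) + hh (2L+1) alU (2L) c (2L+2)` with
`b l = hh (2l+1) alU (2l) + hh (2l+3) alD (2l+2)
     = hh (2l+1) ((n-1+d)²/(2l+n+1) + (n-1+2d)(2l+1))` (`bcoef`; `field_simp; ring`).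
`alD 0 = d²`, `c 0 = av G av G'`, `c 2 = 0`; `|b (l+1)| ≤ |b 1| = bet n d` by induction (the ratio
`|b (l+1)|/|b l|` is at most `(2l+1)/(2l+n+1) · (2l+3)/(2l+1) ≤ 1`); the last term tends to `0`
(`abs_hh_le` bounds `|hh (2L+1)| alU (2L)`, and `c k → 0` by `hasSum_cf`).  Finally
`∑_{l<L} |c (2l+4)| ≤ ∑ √nk √nk ≤ √(hi G) √(hi G')` (`abs_cf_le`, Cauchy–Schwarz
`Real.sum_sqrt_mul_sqrt_le`, `sum_nk_le_hi`).
-/

set_option autoImplicit false
set_option linter.unusedSectionVars false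
set_option linter.unusedVariables false

namespace Crest.Agent.R230

open MeasureTheory Metric Set Filter Topology
open scoped RealInnerProductSpace ENNReal Pointwise

variable {n : ℕ} [NeZero n]

theorem bcoef (hn : 3 ≤ n) (d l : ℕ) :
    hh n (2 * l + 1) * alU n d (2 * l) + hh n (2 * l + 3) * alD n d (2 * l + 2) =
      hh n (2 * l + 1) * (((n : ℝ) - 1 + d) ^ 2 / (2 * l + n + 1) + (n - 1 + 2 * d) * (2 * l + 1)) := by
  have h3 : (3 : ℝ) ≤ n := by exact_mod_cast hn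
  have hl : (0 : ℝ) ≤ l := Nat.cast_nonneg l
  have e : hh n (2 * l + 3) = -(((2 * l + 1 : ℕ) : ℝ) / (((2 * l + 1 : ℕ) : ℝ) + n)) *
      hh n (2 * l + 1) := by
    rw [show 2 * l + 3 = (2 * l + 1) + 2 from rfl, hh]
  rw [e]
  unfold alU alD
  push_cast
  have h1 : (2 * (2 * (l : ℝ)) + n + 2) ≠ 0 := by positivity
  have h2 : (2 * (l : ℝ) + 1 + n) ≠ 0 := by positivity
  have h4 : (2 * (l : ℝ) + n + 1) ≠ 0 := by positivity
  have h5 : (2 * (2 * (l : ℝ) + 2) + n - 2) = 2 * (2 * (l : ℝ)) + n + 2 := by ring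
  rw [h5]
  field_simp
  ring

/-- the regrouped coefficient -/
noncomputable def bilin_b (n d l : ℕ) : ℝ :=
  hh n (2 * l + 1) * (((n : ℝ) - 1 + d) ^ 2 / (2 * l + n + 1) + (n - 1 + 2 * d) * (2 * l + 1))

theorem bilin_b_le (hn : 3 ≤ n) (d l : ℕ) : |bilin_b n d (l + 1)| ≤ bet n d := by
  have h3 : (3 : ℝ) ≤ n := by exact_mod_cast hn
  have hd : (0 : ℝ) ≤ d := Nat.cast_nonneg d
  have hA : (0 : ℝ) ≤ ((n : ℝ) - 1 + d) ^ 2 := sq_nonneg _
  have hB : (0 : ℝ) ≤ (n : ℝ) - 1 + 2 * d := by linarith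
  have habs : ∀ m : ℕ, |bilin_b n d m| = |hh n (2 * m + 1)| *
      (((n : ℝ) - 1 + d) ^ 2 / (2 * m + n + 1) + (n - 1 + 2 * d) * (2 * m + 1)) := by
    intro m
    have hm : (0 : ℝ) ≤ m := Nat.cast_nonneg m
    unfold bilin_b
    rw [abs_mul, abs_of_nonneg (a := ((n : ℝ) - 1 + d) ^ 2 / (2 * m + n + 1) +
      (n - 1 + 2 * d) * (2 * m + 1)) (by positivity)]
  have hstep : ∀ m : ℕ, |hh n (2 * (m + 1) + 1)| =
      ((2 * m + 1) / (2 * m + 1 + n)) * |hh n (2 * m + 1)| := by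
    intro m
    have hm : (0 : ℝ) ≤ m := Nat.cast_nonneg m
    rw [show 2 * (m + 1) + 1 = (2 * m + 1) + 2 from rfl, hh, abs_mul, abs_neg,
      abs_of_nonneg (by positivity)]
    push_cast
    rfl
  induction l with
  | zero =>
    rw [habs, hstep]
    have : hh n (2 * 0 + 1) = 1 := by rw [show 2 * 0 + 1 = 1 from rfl, hh]
    rw [this]
    unfold bet
    apply le_of_eq
    push_cast
    simp only [abs_one]
    have h1 : (n : ℝ) + 1 ≠ 0 := by positivity
    have h2 : (n : ℝ) + 3 ≠ 0 := by positivity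
    have h4 : (2 * (1 : ℝ) + n + 1) = n + 3 := by ring
    have h5 : (2 * (0 : ℝ) + 1 + n) = n + 1 := by ring
    rw [h4, h5]
    field_simp
    ring
  | succ l ih =>
    refine le_trans ?_ ih
    rw [habs, habs (l + 1), hstep (l + 1)]
    generalize hm : ((l + 1 : ℕ) : ℝ) = m
    have hm0 : 0 ≤ m := hm ▸ Nat.cast_nonneg _
    have hm1 : ((l + 1 + 1 : ℕ) : ℝ) = m + 1 := by rw [← hm]; push_cast; ring
    rw [hm1, mul_comm ((2 * m + 1) / (2 * m + 1 + n)), mul_assoc]
    refine mul_le_mul_of_nonneg_left ?_ (abs_nonneg _)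
    have hr : (2 * m + 1) / (2 * m + 1 + (n : ℝ)) ≤ 1 := by
      rw [div_le_one (by positivity)]; linarith
    have hr0 : 0 ≤ (2 * m + 1) / (2 * m + 1 + (n : ℝ)) := by positivity
    rw [mul_add]
    refine add_le_add ?_ ?_
    · calc (2 * m + 1) / (2 * m + 1 + (n : ℝ)) * (((n : ℝ) - 1 + d) ^ 2 / (2 * (m + 1) + n + 1))
          ≤ 1 * (((n : ℝ) - 1 + d) ^ 2 / (2 * (m + 1) + n + 1)) :=
            mul_le_mul_of_nonneg_right hr (by positivity)
        _ ≤ ((n : ℝ) - 1 + d) ^ 2 / (2 * m + n + 1) := by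
            rw [one_mul]
            exact div_le_div_of_nonneg_left hA (by positivity) (by linarith)
    · have : (2 * m + 1) / (2 * m + 1 + (n : ℝ)) * (2 * (m + 1) + 1) ≤ 2 * m + 1 := by
        rw [div_mul_eq_mul_div, div_le_iff₀ (by positivity)]
        exact mul_le_mul_of_nonneg_left (by linarith) (by positivity)
      calc (2 * m + 1) / (2 * m + 1 + (n : ℝ)) * (((n : ℝ) - 1 + 2 * d) * (2 * (m + 1) + 1))
          = ((n : ℝ) - 1 + 2 * d) * ((2 * m + 1) / (2 * m + 1 + (n : ℝ)) * (2 * (m + 1) + 1)) := by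
            ring
        _ ≤ ((n : ℝ) - 1 + 2 * d) * (2 * m + 1) := mul_le_mul_of_nonneg_left this hB

theorem bilin_last_le (hn : 4 ≤ n) (d l : ℕ) :
    |hh n (2 * l + 1) * alU n d (2 * l)| ≤ 3 * ((d : ℝ) + n) ^ 2 := by
  have h4 : (4 : ℝ) ≤ n := by exact_mod_cast hn
  have hd : (0 : ℝ) ≤ d := Nat.cast_nonneg d
  have hl : (0 : ℝ) ≤ l := Nat.cast_nonneg l
  have h := abs_hh_le hn l
  have hU0 : 0 ≤ alU n d (2 * l) := by unfold alU; positivity
  have hU : alU n d (2 * l) ≤ ((d : ℝ) + n) ^ 2 * ((2 * l + 1) * (2 * l + 3)) := by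
    unfold alU
    push_cast
    have e1 : (2 * (l : ℝ) + 2) / (2 * (2 * (l : ℝ)) + n + 2) ≤ 1 := by
      rw [div_le_one (by positivity)]; linarith
    have e2 : (d : ℝ) + 2 * l + n ≤ (d + n) * (2 * l + 1) := by nlinarith
    have e3 : ((d : ℝ) + 2 * l + n) ^ 2 ≤ ((d + n) * (2 * l + 1)) ^ 2 :=
      pow_le_pow_left₀ (by positivity) e2 2
    calc ((d : ℝ) + 2 * l + n) ^ 2 * (2 * l + 2) / (2 * (2 * (l : ℝ)) + n + 2)
        = ((d : ℝ) + 2 * l + n) ^ 2 * ((2 * l + 2) / (2 * (2 * (l : ℝ)) + n + 2)) := by ring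
      _ ≤ ((d : ℝ) + 2 * l + n) ^ 2 * 1 := mul_le_mul_of_nonneg_left e1 (by positivity)
      _ ≤ ((d + n) * (2 * l + 1)) ^ 2 := by rw [mul_one]; exact e3
      _ = ((d : ℝ) + n) ^ 2 * ((2 * l + 1) * (2 * l + 1)) := by ring
      _ ≤ ((d : ℝ) + n) ^ 2 * ((2 * l + 1) * (2 * l + 3)) := by gcongr; linarith
  rw [abs_mul, abs_of_nonneg hU0]
  calc |hh n (2 * l + 1)| * alU n d (2 * l)
      ≤ |hh n (2 * l + 1)| * (((d : ℝ) + n) ^ 2 * ((2 * l + 1) * (2 * l + 3))) :=
        mul_le_mul_of_nonneg_left hU (abs_nonneg _)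
    _ = (|hh n (2 * l + 1)| * ((2 * l + 1) * (2 * l + 3))) * ((d : ℝ) + n) ^ 2 := by ring
    _ ≤ 3 * ((d : ℝ) + n) ^ 2 := mul_le_mul_of_nonneg_right h (sq_nonneg _)

theorem bilin_bd_sign (q : E n) : Bd (fun p : E n => Real.sign ⟪p, q⟫) := by
  refine ⟨measurable_sign.comp (bd_inner q).1, 1, fun p _ => ?_⟩
  show |Real.sign ⟪p, q⟫| ≤ 1
  rcases Real.sign_apply_eq ⟪p, q⟫ with h | h | h <;> rw [h] <;> simp

theorem bilin_hasSum (hn : 3 ≤ n) {d : ℕ} {G G' : E n → ℝ} (hG : LH d G) (hG' : LH d G') :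
    HasSum (fun k => h1 n * hh n k *
        ∑ i, cf k (fun p => gradient G p i) (fun p => gradient G' p i))
      (av (fun q => av (fun p => Real.sign ⟪p, q⟫ * ⟪gradient G p, gradient G' q⟫))) := by
  have e : (fun q => av (fun p => Real.sign ⟪p, q⟫ * ⟪gradient G p, gradient G' q⟫)) =
      fun q => ∑ i, av (fun p => Real.sign ⟪p, q⟫ * gradient G p i) * gradient G' q i := by
    funext q
    have : (fun p => Real.sign ⟪p, q⟫ * ⟪gradient G p, gradient G' q⟫) =
        fun p => ∑ i, gradient G' q i * (Real.sign ⟪p, q⟫ * gradient G p i) := by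
      funext p
      rw [inner_eq_sum (gradient G p), Finset.mul_sum]
      exact Finset.sum_congr rfl fun i _ => by ring
    rw [this, av_sum Finset.univ (f := fun i p => gradient G' q i *
      (Real.sign ⟪p, q⟫ * gradient G p i))
      (fun i _ => ((bilin_bd_sign q).mul (hG.bd_grad i)).const_mul _)]
    exact Finset.sum_congr rfl fun i _ => by rw [av_const_mul, mul_comm]
  rw [e, av_sum Finset.univ (f := fun i q =>
    av (fun p => Real.sign ⟪p, q⟫ * gradient G p i) * gradient G' q i)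
    (fun i _ => (bd_sign_av (hG.bd_grad i)).mul (hG'.bd_grad i))]
  simp_rw [Finset.mul_sum]
  exact hasSum_sum fun i _ => hasSum_sign hn (hG.bd_grad i) (hG'.bd_grad i)

theorem bilin_partial (hn : 3 ≤ n) {d : ℕ} {G G' : E n → ℝ} (hG : LH d G) (hG' : LH d G')
    (L : ℕ) :
    ∑ k ∈ Finset.range (2 * L + 2), h1 n * hh n k *
        ∑ i, cf k (fun p => gradient G p i) (fun p => gradient G' p i) =
      h1 n * ((d : ℝ) ^ 2 * cf 0 G G' +
        ∑ l ∈ Finset.range L, bilin_b n d l * cf (2 * l + 2) G G' +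
        hh n (2 * L + 1) * alU n d (2 * L) * cf (2 * L + 2) G G') := by
  have h3 : (3 : ℝ) ≤ n := by exact_mod_cast hn
  induction L with
  | zero =>
    have e0 : hh n 0 = 0 := by rw [hh]
    have e1 : hh n 1 = 1 := by rw [hh]
    have eD : alD n d 0 = (d : ℝ) ^ 2 := by
      unfold alD
      have : (n : ℝ) - 2 ≠ 0 := by linarith
      push_cast
      simp only [sub_zero, zero_add, mul_zero]
      field_simp
    have := sum_cf_grad hn hG hG' 0
    simp only [mul_zero, zero_add, Finset.sum_range_succ, Finset.range_zero, Finset.sum_empty,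
      e0, e1, zero_mul, add_zero, mul_one, one_mul] at this ⊢
    rw [this, eD]
    ring
  | succ L ih =>
    rw [show 2 * (L + 1) + 2 = 2 * L + 2 + 1 + 1 from rfl, Finset.sum_range_succ,
      Finset.sum_range_succ, ih, Finset.sum_range_succ]
    have e0 : hh n (2 * L + 2) = 0 := hh_even (L + 1)
    have := sum_cf_grad hn hG hG' (2 * L + 2)
    rw [e0, this]
    have hb := bcoef hn d L
    unfold bilin_b
    rw [← hb]
    simp only [show 2 * (L + 1) = 2 * L + 2 from rfl,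
      show 2 * L + 2 + 1 = 2 * L + 3 from rfl, show 2 * L + 3 + 1 = 2 * L + 2 + 2 from rfl]
    ring

theorem bilin (hn : 4 ≤ n) {d : ℕ} {G G' : E n → ℝ} (hG : LH d G) (hG' : LH d G')
    (h2 : pr 2 G = 0) :
    h1 n * ((d : ℝ) ^ 2 * (av G * av G') - bet n d * (√(hi G) * √(hi G'))) ≤
      av (fun q => av (fun p => Real.sign ⟪p, q⟫ * ⟪gradient G p, gradient G' q⟫)) := by
  have hn3 : 3 ≤ n := by omega
  have hS := (bilin_hasSum hn3 hG hG').tendsto_sum_nat
  have hsub : Tendsto (fun M : ℕ => 2 * (M + 1) + 2) atTop atTop :=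
    tendsto_atTop_mono (fun M => by simp only [id]; omega) tendsto_id
  have hS' := hS.comp hsub
  have hc : Tendsto (fun k => cf k G G') atTop (𝓝 0) :=
    (hasSum_cf hn3 hG.bd hG'.bd).summable.tendsto_atTop_zero
  have hc' := hc.comp hsub
  have he : Tendsto (fun M : ℕ => hh n (2 * (M + 1) + 1) * alU n d (2 * (M + 1)) *
      cf (2 * (M + 1) + 2) G G') atTop (𝓝 0) := by
    refine squeeze_zero_norm (a := fun M : ℕ => 3 * ((d : ℝ) + n) ^ 2 *
      |cf (2 * (M + 1) + 2) G G'|) (fun M => ?_) ?_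
    · rw [Real.norm_eq_abs, abs_mul]
      exact mul_le_mul_of_nonneg_right (bilin_last_le hn d (M + 1)) (abs_nonneg _)
    · have := (hc'.abs).const_mul (3 * ((d : ℝ) + n) ^ 2)
      simpa using this
  have hlim := hS'.sub (he.const_mul (h1 n))
  rw [mul_zero, sub_zero] at hlim
  refine ge_of_tendsto' hlim fun M => ?_
  simp only [Function.comp]
  rw [bilin_partial hn3 hG hG' (M + 1), mul_add, add_sub_cancel_right,
    cf_zero hG.bd hG'.bd]
  refine mul_le_mul_of_nonneg_left ?_ h1_pos.le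
  have c2 : cf 2 G G' = 0 := by
    unfold cf ip
    rw [h2]
    simp [ev]
  rw [Finset.sum_range_succ', show 2 * 0 + 2 = 2 from rfl, c2, mul_zero, add_zero]
  have hbet : 0 ≤ bet n d := (abs_nonneg _).trans (bilin_b_le hn3 d 0)
  have key : |∑ l ∈ Finset.range M, bilin_b n d (l + 1) * cf (2 * (l + 1) + 2) G G'| ≤
      bet n d * (√(hi G) * √(hi G')) := by
    calc |∑ l ∈ Finset.range M, bilin_b n d (l + 1) * cf (2 * (l + 1) + 2) G G'|
        ≤ ∑ l ∈ Finset.range M, |bilin_b n d (l + 1) * cf (2 * (l + 1) + 2) G G'| :=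
          Finset.abs_sum_le_sum_abs _ _
      _ ≤ ∑ l ∈ Finset.range M, bet n d * (√(nk (2 * l + 4) G) * √(nk (2 * l + 4) G')) := by
          refine Finset.sum_le_sum fun l _ => ?_
          rw [abs_mul]
          exact mul_le_mul (bilin_b_le hn3 d l) (abs_cf_le _ _ _) (abs_nonneg _) hbet
      _ = bet n d * ∑ l ∈ Finset.range M, √(nk (2 * l + 4) G) * √(nk (2 * l + 4) G') := by
          rw [Finset.mul_sum]
      _ ≤ bet n d * (√(∑ l ∈ Finset.range M, nk (2 * l + 4) G) *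
            √(∑ l ∈ Finset.range M, nk (2 * l + 4) G')) :=
          mul_le_mul_of_nonneg_left (Real.sum_sqrt_mul_sqrt_le _ (fun l => nk_nonneg _ _)
            (fun l => nk_nonneg _ _)) hbet
      _ ≤ bet n d * (√(hi G) * √(hi G')) := by
          refine mul_le_mul_of_nonneg_left ?_ hbet
          exact mul_le_mul (Real.sqrt_le_sqrt (sum_nk_le_hi hn3 hG.bd M))
            (Real.sqrt_le_sqrt (sum_nk_le_hi hn3 hG'.bd M)) (Real.sqrt_nonneg _)
            (Real.sqrt_nonneg _)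
  have := neg_abs_le (∑ l ∈ Finset.range M, bilin_b n d (l + 1) * cf (2 * (l + 1) + 2) G G')
  linarith

end Crest.Agent.R230
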