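import Crest.Agent.R230.Blocks0

/-!
# R230/Blocks

Volumes of products over the blocks.
`volume_blocks`: `PiLp.volume_preserving_ofLp`, then `Fin n ≃ Σ j, {i // b i = j}`
(`Equiv.sigmaFiberEquiv`, `volume_preserving_piCongrLeft`/`arrowCongr'`) and currying
(`MeasurableEquiv.piCurry`, `measurePreserving_piCurry` if available; otherwise check that the
push-forward is the product measure with `Measure.pi_eq` on boxes of boxes, or do an induction over
`ι` with `measurePreserving_piEquivPiSubtypeProd`).
-/

set_option autoImplicit false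
set_option linter.unusedSectionVars false
set_option linter.unusedVariables false

namespace Crest.Agent.R230

open MeasureTheory Metric Set Filter Topology
open scoped RealInnerProductSpace ENNReal Pointwise

variable {n : ℕ} [NeZero n]

variable {ι : Type} [Fintype ι] [DecidableEq ι]

theorem blocks_cont (i : Fin n) : Continuous (fun x : E n => x i) := by fun_prop

theorem blocks_mem (b : Fin n → ι) (i : Fin n) (j : ι) : i ∈ blk b j ↔ b i = j := by
  simp [blk]

theorem blocks_closed (b : Fin n → ι) (α : Fin n → ℝ) (β : ι → ℝ) : IsClosed (BS b α β) := by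
  have h1 : IsClosed {x : E n | ∀ i, α i ≤ x i} := by
    rw [Set.ofPred_forall]
    exact isClosed_iInter fun i => isClosed_le continuous_const (blocks_cont i)
  have h2 : IsClosed {x : E n | ∀ j, ∑ i ∈ blk b j, x i ≤ β j} := by
    rw [Set.ofPred_forall]
    exact isClosed_iInter fun j =>
      isClosed_le (continuous_finsetSum _ fun i _ => blocks_cont i) continuous_const
  exact h1.inter h2

theorem blocks_upper (b : Fin n → ι) (α : Fin n → ℝ) (β : ι → ℝ) {x : E n} (hx : x ∈ BS b α β)
    (i : Fin n) : x i ≤ β (b i) - ∑ k ∈ (blk b (b i)).erase i, α k := by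
  have hi : i ∈ blk b (b i) := (blocks_mem b i _).2 rfl
  have h1 := hx.2 (b i)
  rw [← Finset.add_sum_erase _ _ hi] at h1
  have h2 : ∑ k ∈ (blk b (b i)).erase i, α k ≤ ∑ k ∈ (blk b (b i)).erase i, x k :=
    Finset.sum_le_sum fun k _ => hx.1 k
  linarith

theorem isCompact_BS (b : Fin n → ι) (α : Fin n → ℝ) (β : ι → ℝ) : IsCompact (BS b α β) := by
  refine Metric.isCompact_of_isClosed_isBounded (blocks_closed b α β) ?_
  obtain ⟨γ, hγ⟩ : ∃ γ : Fin n → ℝ, γ = fun i => β (b i) - ∑ k ∈ (blk b (b i)).erase i, α k :=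
    ⟨_, rfl⟩
  rw [isBounded_iff_forall_norm_le]
  refine ⟨√(∑ i, (|α i| + |γ i|) ^ 2), fun x hx => ?_⟩
  rw [EuclideanSpace.norm_eq]
  refine Real.sqrt_le_sqrt (Finset.sum_le_sum fun i _ => ?_)
  have h1 := hx.1 i
  have h2 : x i ≤ γ i := by rw [hγ]; exact blocks_upper b α β hx i
  have h3 : ‖x i‖ ≤ |α i| + |γ i| := by
    rw [Real.norm_eq_abs, abs_le]
    constructor
    · linarith [neg_abs_le (α i), abs_nonneg (γ i)]
    · linarith [le_abs_self (γ i), abs_nonneg (α i)]
  exact pow_le_pow_left₀ (norm_nonneg _) h3 2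

theorem convex_BS (b : Fin n → ι) (α : Fin n → ℝ) (β : ι → ℝ) : Convex ℝ (BS b α β) := by
  intro x hx y hy s t hs ht hst
  refine ⟨fun i => ?_, fun j => ?_⟩
  · have h1 := hx.1 i
    have h2 := hy.1 i
    simp only [PiLp.add_apply, PiLp.smul_apply, smul_eq_mul]
    have : α i = s * α i + t * α i := by rw [← add_mul, hst, one_mul]
    nlinarith [mul_le_mul_of_nonneg_left h1 hs, mul_le_mul_of_nonneg_left h2 ht]
  · have h1 := hx.2 j
    have h2 := hy.2 j
    simp only [PiLp.add_apply, PiLp.smul_apply, smul_eq_mul]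
    rw [Finset.sum_add_distrib, ← Finset.mul_sum, ← Finset.mul_sum]
    have : β j = s * β j + t * β j := by rw [← add_mul, hst, one_mul]
    nlinarith [mul_le_mul_of_nonneg_left h1 hs, mul_le_mul_of_nonneg_left h2 ht]

/-- the point with all coordinates `1/(n+1)` -/
theorem interior_KB (b : Fin n → ι) : (interior (KB b)).Nonempty := by
  have h1 : IsOpen {x : E n | ∀ i, 0 < x i} := by
    rw [Set.ofPred_forall]
    exact isOpen_iInter_of_finite fun i => isOpen_lt continuous_const (blocks_cont i)
  have h2 : IsOpen {x : E n | ∀ j, ∑ i ∈ blk b j, x i < 1} := by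
    rw [Set.ofPred_forall]
    exact isOpen_iInter_of_finite fun j =>
      isOpen_lt (continuous_finsetSum _ fun i _ => blocks_cont i) continuous_const
  have hsub : {x : E n | ∀ i, 0 < x i} ∩ {x : E n | ∀ j, ∑ i ∈ blk b j, x i < 1} ⊆ KB b :=
    fun x hx => ⟨fun i => (hx.1 i).le, fun j => (hx.2 j).le⟩
  refine ⟨WithLp.toLp 2 (fun _ => 1 / ((n : ℝ) + 1)), interior_maximal hsub (h1.inter h2) ?_⟩
  refine ⟨fun i => ?_, fun j => ?_⟩
  · show (0 : ℝ) < 1 / ((n : ℝ) + 1)
    positivity
  · show ∑ i ∈ blk b j, (1 / ((n : ℝ) + 1)) < 1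
    rw [Finset.sum_const, nsmul_eq_mul]
    have hc : ((blk b j).card : ℝ) ≤ n := by
      have := Finset.card_le_univ (blk b j)
      rw [Fintype.card_fin] at this
      exact_mod_cast this
    have hp : (0 : ℝ) < (n : ℝ) + 1 := by positivity
    rw [mul_one_div, div_lt_one hp]
    linarith

/-- the vertices of the simplex of the block `j` -/
def blocks_V (b : Fin n → ι) (j : ι) : Set (E n) :=
  insert 0 ((fun i => EuclideanSpace.single i (1 : ℝ)) '' (blk b j : Set (Fin n)))

theorem blocks_V_finite (b : Fin n → ι) (j : ι) : (blocks_V b j).Finite :=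
  ((blk b j).finite_toSet.image _).insert _

theorem blocks_V_nonneg (b : Fin n → ι) (j : ι) {v : E n} (hv : v ∈ blocks_V b j) (i : Fin n) :
    0 ≤ v i := by
  rcases hv with rfl | ⟨k, -, rfl⟩
  · simp
  · simp only [PiLp.single_apply]
    split_ifs <;> norm_num

theorem blocks_V_sum (b : Fin n → ι) (j j' : ι) {v : E n} (hv : v ∈ blocks_V b j) :
    ∑ i ∈ blk b j', v i ≤ if j = j' then 1 else 0 := by
  rcases hv with rfl | ⟨k, hk, rfl⟩
  · simp only [PiLp.zero_apply, Finset.sum_const_zero]
    split_ifs <;> norm_num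
  · have hk' : b k = j := (blocks_mem b k j).1 hk
    simp only [PiLp.single_apply]
    rw [Finset.sum_ite_eq' (blk b j') k (fun _ => (1 : ℝ))]
    simp only [blocks_mem, hk', le_refl]

theorem blocks_sum_finite (b : Fin n → ι) (s : Finset ι) : (∑ j ∈ s, blocks_V b j).Finite := by
  induction s using Finset.induction_on with
  | empty => simp only [Finset.sum_empty]; exact Set.finite_zero
  | insert a s ha ih => rw [Finset.sum_insert ha]; exact (blocks_V_finite b a).add ih

theorem blocks_part_mem (b : Fin n → ι) {x : E n} (hx : x ∈ KB b) (j : ι) :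
    ∑ i ∈ blk b j, x i • EuclideanSpace.single i (1 : ℝ) ∈ convexHull ℝ (blocks_V b j) := by
  have hc := convex_convexHull ℝ (blocks_V b j)
  have h := hc.sum_mem (t := Finset.insertNone (blk b j))
    (w := fun o => o.elim (1 - ∑ i ∈ blk b j, x i) (fun i => x i))
    (z := fun o => o.elim (0 : E n) (fun i => EuclideanSpace.single i (1 : ℝ))) ?_ ?_ ?_
  · rw [Finset.sum_insertNone] at h
    simpa using h
  · intro o _
    cases o with
    | none => simpa using hx.2 j
    | some i => simpa using hx.1 i
  · rw [Finset.sum_insertNone]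
    simp
  · intro o ho
    apply subset_convexHull
    cases o with
    | none => exact Or.inl rfl
    | some i => exact Or.inr ⟨i, by simpa using ho, rfl⟩

/-- `KB b` is the Minkowski sum over `j` of the hulls of `{0} ∪ {e i | b i = j}`
(`convexHull_sum`, `Finset` pointwise sums; or `convexHull_pi`) -/
theorem exists_hull_KB (b : Fin n → ι) :
    ∃ S : Finset (E n), convexHull ℝ (S : Set (E n)) = KB b := by
  refine ⟨(blocks_sum_finite b Finset.univ).toFinset, ?_⟩
  rw [Set.Finite.coe_toFinset]
  apply Set.Subset.antisymm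
  · refine convexHull_min ?_ (convex_BS b _ _)
    intro x hx
    rw [Set.mem_fintype_sum] at hx
    obtain ⟨g, hg, rfl⟩ := hx
    refine ⟨fun i => ?_, fun j' => ?_⟩
    · simp only [WithLp.ofLp_sum, Finset.sum_apply]
      exact Finset.sum_nonneg fun j _ => blocks_V_nonneg b j (hg j) i
    · simp only [WithLp.ofLp_sum, Finset.sum_apply]
      rw [Finset.sum_comm]
      calc ∑ j, ∑ i ∈ blk b j', g j i ≤ ∑ j, (if j = j' then (1 : ℝ) else 0) :=
            Finset.sum_le_sum fun j _ => blocks_V_sum b j j' (hg j)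
        _ = 1 := by simp
  · intro x hx
    rw [convexHull_sum, Set.mem_fintype_sum]
    refine ⟨fun j => ∑ i ∈ blk b j, x i • EuclideanSpace.single i (1 : ℝ),
      fun j => blocks_part_mem b hx j, ?_⟩
    have := Finset.sum_fiberwise (Finset.univ : Finset (Fin n)) b
      (fun i => x i • EuclideanSpace.single i (1 : ℝ))
    simp only [blk]
    rw [this]
    ext k
    simp [WithLp.ofLp_sum, Finset.sum_apply, Pi.single_apply]

end Crest.Agent.R230
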