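import Crest.Agent.R230.Defs

/-!
# R230/Vol

Elementary facts on `vol` (`Measure.addHaar_closedBall`, `addHaar_smul`, `addHaar_image_linearMap`, ...).
-/

set_option autoImplicit false
set_option linter.unusedSectionVars false
set_option linter.unusedVariables false

namespace Crest.Agent.R230

open MeasureTheory Metric Set Filter Topology
open scoped RealInnerProductSpace ENNReal Pointwise

variable {n : ℕ} [NeZero n]

theorem vol_nonneg (A : Set (E n)) : 0 ≤ vol A := ENNReal.toReal_nonneg

theorem kap_pos (m : ℕ) : 0 < kap m := by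
  unfold kap vol
  exact ENNReal.toReal_pos (measure_ball_pos volume _ one_pos).ne' measure_ball_lt_top.ne

theorem vol_closedBall (a : E n) {r : ℝ} (hr : 0 ≤ r) : vol (closedBall a r) = r ^ n * kap n := by
  unfold kap vol
  rw [Measure.addHaar_closedBall volume a hr, ENNReal.toReal_mul, finrank_euclideanSpace_fin,
    ENNReal.toReal_ofReal (pow_nonneg hr _)]

theorem vol_mono {A B : Set (E n)} (h : A ⊆ B) (hB : IsCompact B) : vol A ≤ vol B :=
  ENNReal.toReal_mono hB.measure_lt_top.ne (measure_mono h)

theorem vol_smul (A : Set (E n)) {t : ℝ} (ht : 0 ≤ t) : vol (t • A) = t ^ n * vol A := by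
  unfold vol
  rw [Measure.addHaar_smul_of_nonneg volume ht, ENNReal.toReal_mul, finrank_euclideanSpace_fin,
    ENNReal.toReal_ofReal (pow_nonneg ht _)]

theorem vol_translate (A : Set (E n)) (a : E n) : vol ((fun x => a + x) '' A) = vol A := by
  unfold vol
  rw [Set.image_add_left, measure_preimage_add]

theorem vol_image (T : E n ≃L[ℝ] E n) (A : Set (E n)) : vol (T '' A) = adet T * vol A := by
  unfold vol adet
  have := Measure.addHaar_image_continuousLinearEquiv (volume : Measure (E n)) T A
  rw [this, ENNReal.toReal_mul, ENNReal.toReal_ofReal (abs_nonneg _)]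

theorem vol_pos {K : Set (E n)} (hK : IsCompact K) (hi : (interior K).Nonempty) : 0 < vol K :=
  ENNReal.toReal_pos (Measure.measure_pos_of_nonempty_interior volume hi).ne' hK.measure_lt_top.ne

theorem adet_pos (T : E n ≃L[ℝ] E n) : 0 < adet T := by
  unfold adet
  exact abs_pos.2 (LinearEquiv.isUnit_det' T.toLinearEquiv).ne_zero

theorem adet_symm (T : E n ≃L[ℝ] E n) : adet T.symm = (adet T)⁻¹ := by
  unfold adet
  rw [← abs_inv]
  congr 1
  exact LinearEquiv.det_coe_symm T.toLinearEquiv

theorem Symm.symm {T : E n ≃L[ℝ] E n} (h : Symm T) : Symm T.symm := by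
  intro x y
  have := h (T.symm x) (T.symm y)
  simp only [ContinuousLinearEquiv.apply_symm_apply] at this
  exact this.symm

end Crest.Agent.R230
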