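import Crest.Agent.R230.Defs

/-!
# R230/ZVol

Volume of the zonotope `{|y i| ≤ ρ, |y i - y i'| ≤ ρ}`, `d = card α`.
It is the union of the cube `C₀ = [0,ρ]^d` and of the `d` parallelepipeds
`C i = {-ρ ≤ y i ≤ 0, 0 ≤ y j - y i ≤ ρ for j ≠ i}` (look at the minimum of `0` and the `y i`).  `C i` is the
preimage of a box of volume `ρ^d` under the linear map `y ↦ (y i at i, y j - y i at j ≠ i)` of
determinant `1` (a product of transvections, or triangular; alternatively Fubini with
`measurePreserving_piEquivPiSubtypeProd`/`lmarginal` and translation invariance).  Two different pieces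
meet in a hyperplane `y i = 0` or `y i = y j` (null: `Measure.addHaar_submodule`), so the volumes add
(`measure_iUnion₀` / `measure_biUnion_finset₀`).
-/

set_option autoImplicit false
set_option linter.unusedSectionVars false
set_option linter.unusedVariables false

namespace Crest.Agent.R230

open MeasureTheory Metric Set Filter Topology
open scoped RealInnerProductSpace ENNReal Pointwise

variable {n : ℕ} [NeZero n]

/-- coordinates, with `0` added -/
def zvol_phi {α : Type} : Option α → ((α → ℝ) →ₗ[ℝ] ℝ)
  | none => 0
  | some i => LinearMap.proj i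

/-- the pieces -/
def zvol_C {α : Type} (ρ : ℝ) (o : Option α) : Set (α → ℝ) :=
  {y | ∀ o', 0 ≤ zvol_phi o' y - zvol_phi o y ∧ zvol_phi o' y - zvol_phi o y ≤ ρ}

theorem zvol_cont {α : Type} (o : Option α) : Continuous (fun y : α → ℝ => zvol_phi o y) := by
  cases o with
  | none => exact continuous_const
  | some i => exact continuous_apply i

theorem zvol_meas {α : Type} [Fintype α] (ρ : ℝ) (o : Option α) : MeasurableSet (zvol_C ρ o) := by
  refine IsClosed.measurableSet ?_
  unfold zvol_C
  simp only [ofPred_forall]
  refine isClosed_iInter fun o' => IsClosed.inter ?_ ?_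
  · exact isClosed_le continuous_const ((zvol_cont o').sub (zvol_cont o))
  · exact isClosed_le ((zvol_cont o').sub (zvol_cont o)) continuous_const

theorem zvol_union {α : Type} [Fintype α] {ρ : ℝ} (hρ : 0 ≤ ρ) :
    {y : α → ℝ | (∀ i, |y i| ≤ ρ) ∧ ∀ i i', |y i - y i'| ≤ ρ} = ⋃ o, zvol_C ρ o := by
  ext y
  simp only [mem_ofPred_eq, mem_iUnion, zvol_C]
  constructor
  · rintro ⟨h1, h2⟩
    obtain ⟨o, ho⟩ := Finite.exists_min (fun o : Option α => zvol_phi o y)
    refine ⟨o, fun o' => ⟨sub_nonneg.2 (ho o'), ?_⟩⟩
    refine (le_abs_self _).trans ?_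
    cases o <;> cases o' <;> simp [zvol_phi, hρ, h1, h2]
  · rintro ⟨o, ho⟩
    refine ⟨fun i => ?_, fun i i' => ?_⟩
    · have h1 := ho (some i)
      have h2 := ho none
      simp only [zvol_phi, LinearMap.proj_apply, LinearMap.zero_apply] at h1 h2
      rw [abs_le]; constructor <;> linarith [h1.1, h1.2, h2.1, h2.2]
    · have h1 := ho (some i)
      have h2 := ho (some i')
      simp only [zvol_phi, LinearMap.proj_apply] at h1 h2
      rw [abs_le]; constructor <;> linarith [h1.1, h1.2, h2.1, h2.2]

theorem zvol_disj {α : Type} [Fintype α] (ρ : ℝ) :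
    Pairwise (Function.onFun (AEDisjoint (volume : Measure (α → ℝ))) (zvol_C ρ)) := by
  classical
  intro o o' hne
  have hk : LinearMap.ker (zvol_phi o - zvol_phi o') ≠ ⊤ := by
    intro h
    have h0 := LinearMap.ker_eq_top.1 h
    cases o with
    | none =>
      cases o' with
      | none => exact hne rfl
      | some j =>
        have := LinearMap.congr_fun h0 (Pi.single j 1)
        simp [zvol_phi] at this
    | some i =>
      have := LinearMap.congr_fun h0 (Pi.single i 1)
      cases o' with
      | none => simp [zvol_phi] at this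
      | some j =>
        have hij : j ≠ i := fun h => hne (by rw [h])
        simp [zvol_phi, Pi.single_eq_of_ne hij] at this
  refine measure_mono_null ?_ (Measure.addHaar_submodule volume _ hk)
  rintro y ⟨h1, h2⟩
  have a := (h1 o').1
  have b := (h2 o).1
  simp only [SetLike.mem_coe, LinearMap.mem_ker, LinearMap.sub_apply]
  linarith

theorem zvol_vol {α : Type} [Fintype α] {ρ : ℝ} (hρ : 0 ≤ ρ) (o : Option α) :
    volume (zvol_C ρ o) = ENNReal.ofReal (ρ ^ Fintype.card α) := by
  classical
  cases o with
  | none =>
    have : zvol_C ρ (none : Option α) = Icc (0 : α → ℝ) (fun _ => ρ) := by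
      ext y
      simp only [zvol_C, mem_ofPred_eq, mem_Icc, Pi.le_def, Option.forall, zvol_phi,
        LinearMap.proj_apply, LinearMap.zero_apply, sub_zero, le_refl, hρ, true_and, forall_and,
        Pi.zero_apply]
    rw [this, Real.volume_Icc_pi]
    simp [ENNReal.ofReal_pow hρ]
  | some i =>
    let u : α → ℝ := fun j => if j = i then 0 else -1
    let v : α → ℝ := Pi.single i 1
    let M : Matrix α α ℝ := 1 + Matrix.replicateCol Unit u * Matrix.replicateRow Unit v
    have hM : M.det = 1 := by
      simp only [M]
      rw [Matrix.det_one_add_replicateCol_mul_replicateRow]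
      simp [u, v]
    have hMv : ∀ (y : α → ℝ) (j : α), Matrix.toLin' M y j = y j + u j * y i := by
      intro y j
      simp only [M, Matrix.toLin'_apply, Matrix.add_mulVec, Matrix.one_mulVec, Pi.add_apply]
      rw [← Matrix.vecMulVec_eq Unit, Matrix.vecMulVec_mulVec]
      simp [v, mul_comm]
    let a : α → ℝ := fun j => if j = i then -ρ else 0
    have : zvol_C ρ (some i) = Matrix.toLin' M ⁻¹' Icc a (fun j => a j + ρ) := by
      ext y
      simp only [zvol_C, mem_ofPred_eq, mem_preimage, mem_Icc, Pi.le_def, Option.forall, zvol_phi,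
        LinearMap.proj_apply, LinearMap.zero_apply, hMv, ← forall_and]
      constructor
      · rintro ⟨h0, h⟩ j
        by_cases hj : j = i
        · subst hj
          simp only [a, u, if_true]
          constructor <;> linarith [h0.1, h0.2]
        · simp only [a, u, if_neg hj]
          constructor <;> linarith [(h j).1, (h j).2]
      · intro h
        have hi := h i
        simp only [a, u, if_true] at hi
        refine ⟨⟨by linarith [hi.1, hi.2], by linarith [hi.1, hi.2]⟩, fun j => ?_⟩
        by_cases hj : j = i
        · subst hj; simp [hρ]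
        · have := h j
          simp only [a, u, if_neg hj] at this
          constructor <;> linarith [this.1, this.2]
    rw [this, Measure.addHaar_preimage_linearMap volume (by rw [LinearMap.det_toLin', hM]; simp),
      LinearMap.det_toLin', hM, Real.volume_Icc_pi]
    simp [ENNReal.ofReal_pow hρ]

theorem volume_zono {α : Type} [Fintype α] {ρ : ℝ} (hρ : 0 ≤ ρ) :
    volume {y : α → ℝ | (∀ i, |y i| ≤ ρ) ∧ ∀ i i', |y i - y i'| ≤ ρ} =
      ENNReal.ofReal (ρ ^ Fintype.card α * (Fintype.card α + 1)) := by
  rw [zvol_union hρ, measure_iUnion₀ (zvol_disj ρ) fun o => (zvol_meas ρ o).nullMeasurableSet,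
    tsum_fintype]
  simp only [zvol_vol hρ, Finset.sum_const, Finset.card_univ, Fintype.card_option, nsmul_eq_mul]
  rw [ENNReal.ofReal_mul (pow_nonneg hρ _), mul_comm]
  congr 1
  rw [← ENNReal.ofReal_natCast]
  push_cast
  rfl

end Crest.Agent.R230
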