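import Crest.Agent.R230.Simp
import Crest.Agent.R230.ZVol
import Crest.Agent.R230.Vol

/-!
# R230/Blocks0

Volumes of products over the blocks.
`volume_blocks`: `PiLp.volume_preserving_ofLp`, then `Fin n ≃ Σ j, {i // b i = j}`
(`Equiv.sigmaFiberEquiv`, `volume_preserving_piCongrLeft`/`arrowCongr'`) and currying
(`MeasurableEquiv.piCurry`, `measurePreserving_piCurry` if available; otherwise check that the
push-forward is the product measure with `Measure.pi_eq` on boxes of boxes, or do an induction over
`ι` with `measurePreserving_piEquivPiSubtypeProd`).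
-/

set_option autoImplicit false
set_option linter.unusedSectionVars false
set_option linter.unusedVariables false

namespace Crest.Agent.R230

open MeasureTheory Metric Set Filter Topology
open scoped RealInnerProductSpace ENNReal Pointwise

variable {n : ℕ} [NeZero n]

variable {ι : Type} [Fintype ι] [DecidableEq ι]

/-- gluing of the blocks -/
def blocks0_glue (b : Fin n → ι) (z : ∀ j, {i // b i = j} → ℝ) : Fin n → ℝ :=
  fun i => z (b i) ⟨i, rfl⟩

theorem blocks0_glue_apply (b : Fin n → ι) (z : ∀ j, {i // b i = j} → ℝ) (j : ι)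
    (i : {i // b i = j}) : blocks0_glue b z i = z j i := by
  obtain ⟨i, rfl⟩ := i
  rfl

theorem blocks0_mp (b : Fin n → ι) :
    MeasurePreserving (blocks0_glue b) (volume : Measure (∀ j, {i // b i = j} → ℝ)) volume := by
  have hm : Measurable (blocks0_glue b) := by
    refine measurable_pi_iff.2 fun i => ?_
    exact (measurable_pi_apply (⟨i, rfl⟩ : {i' // b i' = b i})).comp (measurable_pi_apply (b i))
  refine ⟨hm, ?_⟩
  rw [volume_pi (ι := Fin n)]
  refine (Measure.pi_eq fun s hs => ?_).symm
  rw [Measure.map_apply hm (MeasurableSet.univ_pi hs)]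
  have : blocks0_glue b ⁻¹' univ.pi s =
      univ.pi fun j => univ.pi fun i : {i // b i = j} => s i := by
    ext z
    simp only [mem_preimage, Set.mem_pi, mem_univ, true_imp_iff]
    constructor
    · intro h j i
      rw [← blocks0_glue_apply b z j i]; exact h i
    · intro h i
      exact h (b i) ⟨i, rfl⟩
  rw [this, volume_pi_pi]
  simp_rw [volume_pi_pi]
  exact Fintype.prod_fiberwise b (fun i => volume (s i))

theorem volume_blocks (b : Fin n → ι) (A : ∀ j, Set ({i // b i = j} → ℝ))
    (hA : ∀ j, MeasurableSet (A j)) :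
    volume {x : E n | ∀ j, (fun i : {i // b i = j} => x i) ∈ A j} = ∏ j, volume (A j) := by
  have hS : MeasurableSet {y : Fin n → ℝ | ∀ j, (fun i : {i // b i = j} => y i) ∈ A j} := by
    simp only [ofPred_forall]
    refine MeasurableSet.iInter fun j => ?_
    have : Measurable (fun (y : Fin n → ℝ) (i : {i // b i = j}) => y i) :=
      measurable_pi_iff.2 fun i => measurable_pi_apply _
    exact this (hA j)
  have h1 := (PiLp.volume_preserving_ofLp (Fin n)).measure_preimage hS.nullMeasurableSet
  have h2 := (blocks0_mp b).measure_preimage hS.nullMeasurableSet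
  have e : blocks0_glue b ⁻¹' {y : Fin n → ℝ | ∀ j, (fun i : {i // b i = j} => y i) ∈ A j} =
      univ.pi A := by
    ext z
    simp only [mem_preimage, mem_ofPred_eq, Set.mem_pi, mem_univ, true_imp_iff, blocks0_glue_apply]
  rw [e, volume_pi_pi] at h2
  rw [h2]
  exact h1

theorem card_blk (b : Fin n → ι) (j : ι) : Fintype.card {i // b i = j} = (blk b j).card := by
  rw [Fintype.card_subtype]; rfl

theorem sum_card_blk (b : Fin n → ι) : ∑ j, (blk b j).card = n := by
  have := Finset.card_eq_sum_card_fiberwise (s := (Finset.univ : Finset (Fin n)))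
    (t := (Finset.univ : Finset ι)) (f := b) (fun _ _ => by simp)
  simpa [blk] using this.symm

theorem blocks0_sum (b : Fin n → ι) (j : ι) (f : Fin n → ℝ) :
    ∑ i : {i // b i = j}, f i = ∑ i ∈ blk b j, f i :=
  (Finset.sum_subtype (blk b j) (by simp [blk]) f).symm

theorem vol_BS (b : Fin n → ι) {α : Fin n → ℝ} {β : ι → ℝ} (h : ∀ j, ∑ i ∈ blk b j, α i ≤ β j) :
    vol (BS b α β) =
      ∏ j, (β j - ∑ i ∈ blk b j, α i) ^ (blk b j).card / ((blk b j).card.factorial : ℝ) := by
  have e : BS b α β = {x : E n | ∀ j, (fun i : {i // b i = j} => x i) ∈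
      {y : {i // b i = j} → ℝ | (∀ i : {i // b i = j}, α i ≤ y i) ∧ ∑ i, y i ≤ β j}} := by
    ext x
    simp only [BS, mem_ofPred_eq, blocks0_sum b _ (fun i => x i)]
    constructor
    · rintro ⟨h1, h2⟩ j; exact ⟨fun i => h1 i, h2 j⟩
    · intro h; exact ⟨fun i => (h (b i)).1 ⟨i, rfl⟩, fun j => (h j).2⟩
  unfold vol
  rw [e, volume_blocks b _ (fun j => simp_meas _ _), ENNReal.toReal_prod]
  refine Finset.prod_congr rfl fun j _ => ?_
  rw [volume_simplex (fun i : {i // b i = j} => α i) (by rw [blocks0_sum]; exact h j),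
    blocks0_sum, card_blk, ENNReal.toReal_ofReal]
  have := sub_nonneg.2 (h j)
  positivity

theorem vol_ZB (b : Fin n → ι) {ρ : ι → ℝ} (h : ∀ j, 0 ≤ ρ j) :
    vol (ZB b ρ) = ∏ j, ρ j ^ (blk b j).card * ((blk b j).card + 1 : ℝ) := by
  have e : ZB b ρ = {x : E n | ∀ j, (fun i : {i // b i = j} => x i) ∈
      {y : {i // b i = j} → ℝ | (∀ i, |y i| ≤ ρ j) ∧ ∀ i i', |y i - y i'| ≤ ρ j}} := by
    ext x
    simp only [ZB, mem_ofPred_eq]
    constructor
    · rintro ⟨h1, h2⟩ j
      refine ⟨fun i => ?_, fun i i' => ?_⟩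
      · have := h1 i; rwa [i.2] at this
      · have := h2 i i' (i.2.trans i'.2.symm); rwa [i.2] at this
    · intro h
      exact ⟨fun i => (h (b i)).1 ⟨i, rfl⟩, fun i i' hi => (h (b i)).2 ⟨i, rfl⟩ ⟨i', hi.symm⟩⟩
  have hm : ∀ j, MeasurableSet
      {y : {i // b i = j} → ℝ | (∀ i, |y i| ≤ ρ j) ∧ ∀ i i', |y i - y i'| ≤ ρ j} := by
    intro j
    have h1 : IsClosed {y : {i // b i = j} → ℝ | ∀ i, |y i| ≤ ρ j} := by
      simp only [ofPred_forall]
      exact isClosed_iInter fun i => isClosed_le (by fun_prop) continuous_const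
    have h2 : IsClosed {y : {i // b i = j} → ℝ | ∀ i i', |y i - y i'| ≤ ρ j} := by
      simp only [ofPred_forall]
      exact isClosed_iInter fun i => isClosed_iInter fun i' =>
        isClosed_le (by fun_prop) continuous_const
    exact (h1.inter h2).measurableSet
  unfold vol
  rw [e, volume_blocks b _ hm, ENNReal.toReal_prod]
  refine Finset.prod_congr rfl fun j _ => ?_
  rw [volume_zono (h j), card_blk, ENNReal.toReal_ofReal]
  have := h j
  positivity

end Crest.Agent.R230
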