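import Crest.Agent.R230.EL

/-!
# R230/Cont

Continuous dependence of the minimiser on the position.
Write `μ_i = μ.map (T i)`.  Eventually `‖T i w - T₀ w‖ ≤ η ‖w‖`; hence uniformly: nondegeneracy
constant `c/2`-like (`∫ |⟪T i w, v⟫| ≥ ∫ |⟪T₀ w, v⟫| - η ‖v‖ ∫ ‖w‖`), `∫ ‖w‖ dμ_i ≤ m`, and
`Phi r μ_i (N i) ≤ Phi r μ_i ‖·‖ ≤ Φ₀`.  By `apriori` eventually `N i ∈ NormBox c₁ C₁ ∋ N₀`.
For `N` in the box (or any fixed norm) `|Phi μ_i N - Phi μ₀ N| ≤ η ∫ ‖w‖ / c₁` (`dual N` is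
`1/c₁`-Lipschitz).  Let `N*` be a cluster point of `N i` in the box.  For a norm `N'` and `ε > 0`,
frequently `N i` is uniformly close to `N*` (`normBox_unif`), so
`Phi μ₀ N* ≤ Phi μ₀ (N i) + ε ≤ Phi μ_i (N i) + 2ε ≤ Phi μ_i N' + 2ε ≤ Phi μ₀ N' + 3ε`; thus `N* = N₀`
(`IsMin.unique`).  `IsCompact.tendsto_nhds_of_unique_mapClusterPt`, then `normBox_unif` again.
-/

set_option autoImplicit false
set_option linter.unusedSectionVars false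
set_option linter.unusedVariables false

namespace Crest.Agent.R230

open MeasureTheory Metric Set Filter Topology
open scoped RealInnerProductSpace ENNReal Pointwise

variable {n : ℕ} [NeZero n]

theorem cont_M_nonneg (μ : Measure (E n)) : 0 ≤ ∫ w, ‖w‖ ∂μ :=
  integral_nonneg fun _ => norm_nonneg _

theorem cont_phi_diff (r : ℕ) {μ : Measure (E n)} (hμ : Good μ) {T T' : E n ≃L[ℝ] E n} {η : ℝ}
    (hT : ∀ w, ‖T w - T' w‖ ≤ η * ‖w‖) {N : E n → ℝ} (hN : IsNorm N) {c : ℝ} (hc : 0 < c)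
    (hcN : ∀ x, c * ‖x‖ ≤ N x) :
    |Phi r (μ.map T) N - Phi r (μ.map T') N| ≤ c⁻¹ * η * ∫ w, ‖w‖ ∂μ := by
  have hP := hN.toSub.posH
  obtain ⟨c', C, -, hb⟩ := hP.bds
  have hd : ∀ w, dual N w ≤ c⁻¹ * ‖w‖ := by
    intro w
    have := (hP.dual_bounds hc (C := C) (fun x => ⟨hcN x, (hb x).2⟩) w).2
    rw [inv_mul_eq_div, le_div_iff₀ hc]; linarith
  have hS := hP.sub_dual
  have hi : ∀ S : E n ≃L[ℝ] E n, Integrable (fun w => dual N (S w)) μ := fun S =>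
    hμ.integrable (hS.continuous.comp S.continuous)
  unfold Phi
  rw [integral_map_clm, integral_map_clm, add_sub_add_right_eq_sub, ← integral_sub (hi T) (hi T'),
    ← integral_const_mul]
  refine (abs_integral_le_integral_abs).trans ?_
  refine integral_mono ((hi T).sub (hi T')).abs
    ((hμ.integrable continuous_norm).const_mul _) fun w => ?_
  refine (hS.abs_sub_le hd _ _).trans ?_
  show c⁻¹ * ‖T w - T' w‖ ≤ c⁻¹ * η * ‖w‖
  rw [mul_assoc]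
  exact mul_le_mul_of_nonneg_left (hT w) (inv_nonneg.2 hc.le)

theorem cont_nondeg {μ : Measure (E n)} (hμ : Good μ) {T T' : E n ≃L[ℝ] E n} {η c : ℝ}
    (hT : ∀ w, ‖T w - T' w‖ ≤ η * ‖w‖) (hc : ∀ v, c * ‖v‖ ≤ ∫ w, |⟪w, v⟫| ∂(μ.map T')) (v : E n) :
    (c - η * ∫ w, ‖w‖ ∂μ) * ‖v‖ ≤ ∫ w, |⟪w, v⟫| ∂(μ.map T) := by
  have h1 := hc v
  rw [integral_map_clm] at h1 ⊢
  have hi : ∀ S : E n ≃L[ℝ] E n, Integrable (fun w => |(⟪S w, v⟫ : ℝ)|) μ := fun S =>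
    hμ.integrable (S.continuous.inner continuous_const).abs
  have h2 : ∫ w, |(⟪T' w, v⟫ : ℝ)| ∂μ ≤ ∫ w, (|(⟪T w, v⟫ : ℝ)| + η * ‖v‖ * ‖w‖) ∂μ := by
    refine integral_mono (hi T') ((hi T).add ((hμ.integrable continuous_norm).const_mul _))
      fun w => ?_
    show |(⟪T' w, v⟫ : ℝ)| ≤ |(⟪T w, v⟫ : ℝ)| + η * ‖v‖ * ‖w‖
    have h3 : (⟪T' w, v⟫ : ℝ) = ⟪T w, v⟫ - ⟪T w - T' w, v⟫ := by rw [inner_sub_left]; ring
    have h4 : |(⟪T w - T' w, v⟫ : ℝ)| ≤ η * ‖v‖ * ‖w‖ := by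
      refine (abs_real_inner_le_norm _ _).trans ?_
      have := mul_le_mul_of_nonneg_right (hT w) (norm_nonneg v)
      linarith
    rw [h3]
    exact (abs_sub _ _).trans (by linarith)
  rw [integral_add (hi T) ((hμ.integrable continuous_norm).const_mul _), integral_const_mul] at h2
  nlinarith

theorem cont_small {a M ε : ℝ} (ha : 0 ≤ a) (hM : 0 ≤ M) (hε : 0 < ε) :
    ∃ η : ℝ, 0 < η ∧ a * η * M ≤ ε := by
  refine ⟨ε / (a * M + 1), by positivity, ?_⟩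
  have : a * (ε / (a * M + 1)) * M = ε * (a * M / (a * M + 1)) := by ring
  rw [this]
  refine mul_le_of_le_one_right hε.le ?_
  rw [div_le_one (by positivity)]; linarith

theorem isMin_tendsto (r : ℕ) {μ : Measure (E n)} (hμ : Good μ) {α : Type*} {l : Filter α}
    {T : α → E n ≃L[ℝ] E n} {T₀ : E n ≃L[ℝ] E n} (hT₀ : Symm T₀)
    (hT : ∀ η : ℝ, 0 < η → ∀ᶠ i in l, ∀ w, ‖T i w - T₀ w‖ ≤ η * ‖w‖)
    {N : α → E n → ℝ} {N₀ : E n → ℝ} (hN : ∀ᶠ i in l, Symm (T i) ∧ IsMin r (μ.map (T i)) (N i))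
    (hN₀ : IsMin r (μ.map T₀) N₀) {δ : ℝ} (hδ : 0 < δ) :
    ∀ᶠ i in l, ∀ x, |N i x - N₀ x| ≤ δ * ‖x‖ := by
  have hμ₀ := hμ.map hT₀
  obtain ⟨c, hc, hnd⟩ := hμ₀.nondeg
  have hM := cont_M_nonneg μ
  have hE : IsNorm (fun x : E n => 1 * ‖x‖) := isNorm_norm one_pos
  obtain ⟨c₁, C₁, hc₁, hbox⟩ := apriori (n := n) r (half_pos hc)
    (Phi r (μ.map T₀) (fun x : E n => 1 * ‖x‖) + 1)
  have hmem : ∀ᶠ i in l, N i ∈ NormBox n c₁ C₁ := by
    obtain ⟨η₁, hη₁, h₁⟩ := cont_small zero_le_one hM (half_pos hc)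
    obtain ⟨η₂, hη₂, h₂⟩ := cont_small (inv_nonneg.2 zero_le_one) hM one_pos
    filter_upwards [hN, hT η₁ hη₁, hT η₂ hη₂] with i hi h1 h2
    refine hbox _ (hμ.map hi.1) (fun v => ?_) _ hi.2.1 ?_
    · refine le_trans ?_ (cont_nondeg hμ h1 hnd v)
      exact mul_le_mul_of_nonneg_right (by linarith) (norm_nonneg v)
    · have h3 := hi.2.2 _ hE
      have h4 := (abs_le.1 (cont_phi_diff r hμ h2 hE one_pos fun _ => le_rfl)).2
      linarith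
  have huniq : ∀ N₁ ∈ NormBox n c₁ C₁, MapClusterPt N₁ l N → N₁ = N₀ := by
    intro N₁ hN₁ hcl
    refine IsMin.unique hμ₀ ⟨hN₁.1, fun N' hN' => ?_⟩ hN₀
    refine le_of_forall_pos_le_add fun ε hε => ?_
    have hε3 : 0 < ε / 3 := by positivity
    obtain ⟨δ', hδ', hclose⟩ := phi_close (n := n) r (C := C₁) (m := ∫ w, ‖w‖ ∂(μ.map T₀)) hc₁ hε3
    obtain ⟨c', C', hc', hb'⟩ := hN'.toSub.posH.bds
    obtain ⟨η₁, hη₁, h₁⟩ := cont_small (inv_nonneg.2 hc₁.le) hM hε3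
    obtain ⟨η₂, hη₂, h₂⟩ := cont_small (inv_nonneg.2 hc'.le) hM hε3
    have hfr := hcl.frequently (eventually_nhdsWithin_iff.1 (normBox_unif hN₁ hδ'))
    obtain ⟨i, hi1, ⟨hi2, hi3⟩, hi4, hi5⟩ :=
      (hfr.and_eventually ((hmem.and hN).and ((hT η₁ hη₁).and (hT η₂ hη₂)))).exists
    have a1 := (abs_le.1 (hclose _ hμ₀ le_rfl _ hN₁ _ hi2 (hi1 hi2))).1
    have a2 := (abs_le.1 (cont_phi_diff r hμ hi4 hi2.1 hc₁ fun x => (hi2.2 x).1)).1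
    have a3 := hi3.2.2 _ hN'
    have a4 := (abs_le.1 (cont_phi_diff r hμ hi5 hN' hc' fun x => (hb' x).1)).2
    linarith
  have hN₀box : N₀ ∈ NormBox n c₁ C₁ := by
    refine hbox _ hμ₀ (fun v => ?_) _ hN₀.1 ?_
    · refine le_trans ?_ (hnd v)
      exact mul_le_mul_of_nonneg_right (by linarith) (norm_nonneg v)
    · have := hN₀.2 _ hE
      linarith
  have ht : Tendsto N l (𝓝[NormBox n c₁ C₁] N₀) :=
    tendsto_nhdsWithin_iff.2
      ⟨(isCompact_normBox hc₁ C₁).tendsto_nhds_of_unique_mapClusterPt hmem huniq, hmem⟩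
  exact ht.eventually (normBox_unif hN₀box hδ)

end Crest.Agent.R230
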