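import Crest.Agent.R230.Cvx0

/-!
# R230/Cvx

Convexity bounds the Dirichlet form.
`integral_grad_nonpos`: for `h > 0` let `N_h x = (N (x + h v) - N x)/h` (Lipschitz).  By
`LipschitzWith.integral_lineDeriv_mul_eq`, `∫ ∂_v ψ · N_h = - ∫ ∂_v N_h · ψ ≤ 0`, because for a.e. `x` the
function `N` is differentiable at `x` and `x + h v` and the derivative of the convex function
`t ↦ N (x + t v)` is monotone (`inner_grad_le`-like: `⟪∇N x, hv⟫ ≤ N (x+hv) - N x ≤ ⟪∇N (x+hv), hv⟫`, from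
`⟪∇N x, z⟫ ≤ N z` and `⟪∇N x, x⟫ = N x`).  Let `h → 0+` with
`LipschitzWith.integral_inv_smul_sub_mul_tendsto_integral_lineDeriv_mul`.
`cvx`: apply it to `ψ x = Φ x χ ‖x‖` (`χ` a `C¹` bump on `[1,2]` as in `SDT`; `ψ` is Lipschitz with
compact support), sum over a basis; `⟪∇N, ∇ψ⟫ = ⟪∇N, ∇Φ⟫ χ + Φ χ' N/‖x‖`; polar coordinates
(`integral_polar_mul`, `LH.grad_smul`) and `∫ r^(n-1) χ' = -(n-1) ∫ r^(n-1) χ / r`.
`dirichlet`: for a unit vector `p` where `N` is differentiable, `ρ x = N x/‖x‖` has gradient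
`g = ∇N p - N p • p`, with `⟪∇N p, g⟫ = ‖g‖² = ‖∇N p‖² - (N p)²`; so `‖∇(η∘ρ)‖² = η'² ‖g‖² = ⟪∇N, ∇(φ∘ρ)⟫`.
-/

set_option autoImplicit false
set_option linter.unusedSectionVars false
set_option linter.unusedVariables false

namespace Crest.Agent.R230

open MeasureTheory Metric Set Filter Topology
open scoped RealInnerProductSpace ENNReal Pointwise

variable {n : ℕ} [NeZero n]

theorem Sub.dirichlet {N : E n → ℝ} (h : Sub N) {η η' φ : ℝ → ℝ}
    (dη : ∀ x, 0 < x → HasDerivAt η (η' x) x) (dφ : ∀ x, 0 < x → HasDerivAt φ (η' x ^ 2) x)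
    (cη : ContinuousOn η' (Ioi 0)) (h0 : ∀ x, 0 < x → 0 ≤ φ x) :
    av (fun p => ‖gradient (fun x => η (N x / ‖x‖)) p‖ ^ 2) ≤
      (n - 1) * av (fun p => N p * φ (N p)) := by
  have hpos : ∀ x : E n, x ≠ 0 → 0 < N x / ‖x‖ := fun x hx =>
    div_pos (h.pos x hx) (norm_pos_iff.2 hx)
  have hρ : LH 0 fun x : E n => N x / ‖x‖ :=
    h.lh.comp_ratio h.pos (η := fun x => x) (η' := fun _ => 1) (fun x _ => hasDerivAt_id x)
      continuousOn_const
  have key := h.cvx (h.lh.comp_ratio h.pos dφ (cη.pow 2)) fun x hx => h0 _ (hpos x hx)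
  refine le_of_eq_of_le (av_congr_ae ?_) (key.trans_eq ?_)
  · filter_upwards [hρ.ae_diff] with p hd hp
    have hp0 : p ≠ 0 := norm_ne_zero_iff.1 (by rw [hp]; exact one_ne_zero)
    have e1 : N =ᶠ[𝓝 p] fun y => N y / ‖y‖ * ‖y‖ := by
      filter_upwards [isOpen_compl_singleton.mem_nhds hp0] with y hy
      rw [div_mul_cancel₀ _ (norm_ne_zero_iff.2 hy)]
    have e2 := grad_mul hd ((differentiableAt_id (x := p)).norm ℝ hp0)
    have e3 := hρ.euler hd
    rw [e1.gradient_eq, grad_comp hd (dη _ (hpos p hp0)), grad_comp hd (dφ _ (hpos p hp0))]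
    simp only [id] at e2
    rw [e2, grad_norm hp0, hp, inv_one, one_smul, one_smul, real_inner_smul_right, inner_add_left,
      real_inner_smul_left, real_inner_comm _ p, e3, real_inner_self_eq_norm_sq, norm_smul, mul_pow,
      Real.norm_eq_abs, sq_abs]
    simp
  · congr 1
    exact av_congr fun p hp => by rw [hp, div_one]

end Crest.Agent.R230
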