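import Crest.Agent.R230.LHom

/-!
# R230/SDT

The divergence theorem on the sphere.
Take a `C¹` bump `χ ≥ 0` on `ℝ` supported in `[1, 2]`, `χ ≠ 0` (e.g. `χ r = (max 0 ((r-1)(2-r)))^2`, or a
`ContDiffBump`), `g x = χ ‖x‖` (Lipschitz, compact support), and a Lipschitz extension `F̃` of `F`
restricted to the annulus `1/2 ≤ ‖x‖ ≤ 3` (`LipschitzOnWith.extend_real`).
`LipschitzWith.integral_lineDeriv_mul_eq` gives `∫ ∂_v F̃ · g = - ∫ χ'(‖x‖) ⟪x,v⟫/‖x‖ · F̃`, and `F̃ = F`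
near the support of `g`; a.e. `lineDeriv F x v = ⟪∇F x, v⟫`.  By homogeneity (`LH.grad_smul`) and
`integral_polar_mul` the two sides are
`av ⟪∇F, v⟫ · ∫ r^(n-1) r^d/r χ` and `- av (⟪p,v⟫ F) · ∫ r^(n-1) r^d χ'`, and
`∫ r^(d+n-1) χ' = -(d+n-1) ∫ r^(d+n-2) χ` by one-dimensional integration by parts; divide by
`∫ r^(d+n-2) χ > 0` (on `[1,2]` write `r^(n-1) r^d / r`, so that `d + n = 1` needs no special care).
-/

set_option autoImplicit false
set_option linter.unusedSectionVars false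
set_option linter.unusedVariables false

namespace Crest.Agent.R230

open MeasureTheory Metric Set Filter Topology
open scoped RealInnerProductSpace ENNReal Pointwise

variable {n : ℕ} [NeZero n]

theorem sdt_bump : ∃ φ : ℝ → ℝ, ContDiff ℝ 1 φ ∧ (∀ s, 0 ≤ φ s) ∧ 0 < φ ((3 / 2) ^ 2) ∧
    ∀ r : ℝ, 0 ≤ r → r ∉ Icc (1 : ℝ) 2 → φ (r ^ 2) = 0 ∧ deriv φ (r ^ 2) = 0 := by
  let b : ContDiffBump (5 / 2 : ℝ) := ⟨1 / 2, 3 / 2, by norm_num, by norm_num⟩
  refine ⟨b, b.contDiff, fun s => b.nonneg, ?_, fun r h0 hr => ?_⟩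
  · rw [b.one_of_mem_closedBall]
    · exact one_pos
    · rw [mem_closedBall, Real.dist_eq, abs_le]
      constructor <;> norm_num [b]
  · have h : r ^ 2 ∉ tsupport b := by
      rw [b.tsupport_eq, mem_closedBall, Real.dist_eq, abs_le]
      rintro ⟨h1, h2⟩
      have h3 : b.rOut = 3 / 2 := rfl
      rw [h3] at h1 h2
      exact hr ⟨by nlinarith, by nlinarith⟩
    exact ⟨image_eq_zero_of_notMem_tsupport h,
      Function.notMem_support.1 fun h' => h (support_deriv_subset h')⟩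

theorem sdt_Ioi {k : ℝ → ℝ} (h : ∀ r : ℝ, 0 ≤ r → r ∉ Icc (1 : ℝ) 2 → k r = 0) :
    ∫ r in Ioi (0 : ℝ), k r = ∫ r in (1 / 2 : ℝ)..3, k r := by
  rw [intervalIntegral.integral_of_le (by norm_num)]
  refine setIntegral_eq_of_subset_of_forall_sdiff_eq_zero measurableSet_Ioi
    (fun r hr => lt_trans (by norm_num) hr.1) fun r hr => h r (le_of_lt hr.1) fun h' => hr.2 ?_
  exact ⟨by linarith [h'.1], by linarith [h'.2]⟩

theorem sdt_one {φ : ℝ → ℝ} (h1 : ContDiff ℝ 1 φ) (h2 : ∀ s, 0 ≤ φ s) (h3 : 0 < φ ((3 / 2) ^ 2))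
    (h4 : ∀ r : ℝ, 0 ≤ r → r ∉ Icc (1 : ℝ) 2 → φ (r ^ 2) = 0 ∧ deriv φ (r ^ 2) = 0) (a d : ℕ) :
    0 < ∫ r in Ioi (0 : ℝ), r ^ a * (r ^ d / r * φ (r ^ 2)) ∧
      ∫ r in Ioi (0 : ℝ), r ^ a * (-(2 * r * deriv φ (r ^ 2)) * r ^ d) =
        (a + d) * ∫ r in Ioi (0 : ℝ), r ^ a * (r ^ d / r * φ (r ^ 2)) := by
  have c1 : Continuous φ := h1.continuous
  have c2 : Continuous (deriv φ) := h1.continuous_deriv le_rfl
  have hle : (1 / 2 : ℝ) ≤ 3 := by norm_num
  have c3 : ContinuousOn (fun r : ℝ => r ^ a * (r ^ d / r * φ (r ^ 2))) (Icc (1 / 2) 3) := by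
    refine ContinuousOn.mul (by fun_prop) (ContinuousOn.mul ?_ (by fun_prop))
    exact ContinuousOn.div (by fun_prop) (by fun_prop) fun r hr => by linarith [hr.1]
  have c4 : Continuous fun r : ℝ => r ^ a * (-(2 * r * deriv φ (r ^ 2)) * r ^ d) := by fun_prop
  have i3 : IntervalIntegrable (fun r : ℝ => r ^ a * (r ^ d / r * φ (r ^ 2))) volume (1 / 2) 3 :=
    ContinuousOn.intervalIntegrable_of_Icc hle c3
  rw [sdt_Ioi fun r h0 hr => by rw [(h4 r h0 hr).1]; ring,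
    sdt_Ioi fun r h0 hr => by rw [(h4 r h0 hr).2]; ring]
  refine ⟨intervalIntegral.integral_pos (by norm_num) c3 (fun r hr => ?_)
    ⟨3 / 2, by norm_num, by positivity⟩, ?_⟩
  · have h0 : 0 < r := by linarith [hr.1]
    have := h2 (r ^ 2)
    positivity
  · have key := intervalIntegral.integral_eq_sub_of_hasDerivAt (a := 1 / 2) (b := 3)
      (f := fun r : ℝ => r ^ (a + d) * φ (r ^ 2))
      (f' := fun r : ℝ => (a + d) * (r ^ a * (r ^ d / r * φ (r ^ 2))) -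
        r ^ a * (-(2 * r * deriv φ (r ^ 2)) * r ^ d)) (fun r hr => ?_)
      ((i3.const_mul _).sub (c4.intervalIntegrable _ _))
    · rw [intervalIntegral.integral_sub (i3.const_mul _) (c4.intervalIntegrable _ _),
        intervalIntegral.integral_const_mul, (h4 3 (by norm_num) (by norm_num)).1,
        (h4 (1 / 2) (by norm_num) (by norm_num)).1] at key
      linarith
    · rw [uIcc_of_le hle] at hr
      have h0 : r ≠ 0 := by linarith [hr.1]
      have d1 : HasDerivAt (fun r : ℝ => φ (r ^ 2)) (deriv φ (r ^ 2) * (2 * r)) r := by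
        have := (h1.differentiable one_ne_zero (r ^ 2)).hasDerivAt.comp r (hasDerivAt_pow 2 r)
        refine HasDerivAt.congr_deriv this ?_
        norm_num
      refine ((hasDerivAt_pow (a + d) r).mul d1).congr_deriv ?_
      have e : ((a + d : ℕ) : ℝ) * r ^ (a + d - 1) = (a + d) * (r ^ (a + d) / r) := by
        rcases Nat.eq_zero_or_pos (a + d) with h | h
        · rw [← Nat.cast_add, h]
          simp
        · rw [Nat.cast_add, ← pow_sub_one_mul h.ne' r, mul_div_cancel_right₀ _ h0]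
      rw [e]
      ring

theorem sdt {d : ℕ} {F : E n → ℝ} (h : LH d F) (v : E n) :
    av (fun p => ⟪gradient F p, v⟫) = ((d : ℝ) + n - 1) * av (fun p => ⟪p, v⟫ * F p) := by
  obtain ⟨φ, h1, h2, h3, h4⟩ := sdt_bump
  obtain ⟨i1, i2⟩ := sdt_one h1 h2 h3 h4 (n - 1) d
  have c1 : Continuous φ := h1.continuous
  have c2 : Continuous (deriv φ) := h1.continuous_deriv le_rfl
  obtain ⟨K, hK⟩ := h.lipschitzOn_annulus (a := 1 / 2) (b := 3) (by norm_num)
  obtain ⟨F', hF', he⟩ := hK.extend_real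
  have hg : ContDiff ℝ 1 fun x : E n => φ (‖x‖ ^ 2) := h1.comp (contDiff_norm_sq ℝ)
  have hs : HasCompactSupport fun x : E n => φ (‖x‖ ^ 2) :=
    HasCompactSupport.intro (isCompact_closedBall 0 2) fun x hx =>
      (h4 _ (norm_nonneg x) fun h' => hx (mem_closedBall_zero_iff.2 h'.2)).1
  obtain ⟨D, hD⟩ := hg.lipschitzWith_of_hasCompactSupport hs one_ne_zero
  have key := hF'.integral_lineDeriv_mul_eq (μ := volume) hD hs v
  have hx1 : ∀ x : E n, ‖x‖ ∈ Icc (1 : ℝ) 2 → 0 < ‖x‖ ∧ ‖x‖ • ‖x‖⁻¹ • x = x ∧ F' =ᶠ[𝓝 x] F := by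
    intro x hx
    have h0 : 0 < ‖x‖ := by linarith [hx.1]
    refine ⟨h0, smul_inv_smul₀ h0.ne' x, ?_⟩
    have : ∀ᶠ y in 𝓝 x, ‖y‖ ∈ Icc (1 / 2 : ℝ) 3 :=
      continuous_norm.continuousAt.eventually (Icc_mem_nhds (by linarith [hx.1]) (by linarith [hx.2]))
    filter_upwards [this] with y hy using (he hy).symm
  have e1 : ∫ x : E n, lineDeriv ℝ F' x v * φ (‖x‖ ^ 2) =
      ∫ x : E n, ⟪gradient F (‖x‖⁻¹ • x), v⟫ * (‖x‖ ^ d / ‖x‖ * φ (‖x‖ ^ 2)) := by
    refine integral_congr_ae ?_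
    filter_upwards [h.ae_diff_vol] with x hx
    by_cases hm : ‖x‖ ∈ Icc (1 : ℝ) 2
    · obtain ⟨a1, a2, a3⟩ := hx1 x hm
      have a4 := (h.grad_smul a1 (‖x‖⁻¹ • x)).1
      rw [a2] at a4
      rw [a3.lineDeriv_eq, hx.lineDeriv_eq_fderiv, ← inner_grad, a4, real_inner_smul_left]
      ring
    · rw [(h4 _ (norm_nonneg x) hm).1]
      ring
  have e2 : ∫ x : E n, lineDeriv ℝ (fun x : E n => φ (‖x‖ ^ 2)) x (-v) * F' x =
      ∫ x : E n, (⟪‖x‖⁻¹ • x, v⟫ * F (‖x‖⁻¹ • x)) *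
        (-(2 * ‖x‖ * deriv φ (‖x‖ ^ 2)) * ‖x‖ ^ d) := by
    refine integral_congr_ae (Eventually.of_forall fun x => ?_)
    have d1 := (h1.differentiable one_ne_zero (‖x‖ ^ 2)).hasDerivAt.comp_hasFDerivAt x
      (hasStrictFDerivAt_norm_sq x).hasFDerivAt
    have d2 : lineDeriv ℝ (fun x : E n => φ (‖x‖ ^ 2)) x (-v) =
        -(2 * deriv φ (‖x‖ ^ 2) * ⟪x, v⟫) := by
      refine (d1.hasLineDerivAt (-v)).lineDeriv.trans ?_
      simp only [smul_apply, innerSL_apply_apply, inner_neg_right, smul_eq_mul,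
        nsmul_eq_mul, Nat.cast_ofNat]
      ring
    simp only
    rw [d2]
    by_cases hm : ‖x‖ ∈ Icc (1 : ℝ) 2
    · obtain ⟨a1, a2, a3⟩ := hx1 x hm
      have a4 := h.hom _ (‖x‖⁻¹ • x) a1
      rw [a2] at a4
      rw [a3.self_of_nhds, a4, real_inner_smul_left]
      field_simp
    · rw [(h4 _ (norm_nonneg x) hm).2]
      ring
  rw [e1, e2, integral_polar_mul (g := fun p => ⟪gradient F p, v⟫)
      (ψ := fun r => r ^ d / r * φ (r ^ 2)) (h.bd_grad_inner v).1 (by fun_prop),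
    integral_polar_mul (g := fun p => ⟪p, v⟫ * F p)
      (ψ := fun r => -(2 * r * deriv φ (r ^ 2)) * r ^ d) ((bd_inner v).mul h.bd).1 (by fun_prop),
    i2, Nat.cast_pred (Nat.pos_of_neZero n)] at key
  have hn : (0 : ℝ) < n * kap n := mul_pos (Nat.cast_pos.2 (Nat.pos_of_neZero n)) (kap_pos n)
  have k2 := mul_left_cancel₀ hn.ne' key
  refine mul_right_cancel₀ i1.ne' (k2.trans ?_)
  ring

/-- `sdt` for `F * G` (`LH.mul`, `grad_mul` almost everywhere) -/
theorem ibp {d e : ℕ} {F G : E n → ℝ} (hF : LH d F) (hG : LH e G) (v : E n) :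
    av (fun p => ⟪gradient F p, v⟫ * G p) + av (fun p => F p * ⟪gradient G p, v⟫) =
      ((d : ℝ) + e + n - 1) * av (fun p => ⟪p, v⟫ * (F p * G p)) := by
  have h := sdt (hF.mul hG) v
  rw [Nat.cast_add] at h
  rw [← h, ← av_add ((hF.bd_grad_inner v).mul hG.bd) (hF.bd.mul (hG.bd_grad_inner v))]
  refine av_congr_ae ?_
  filter_upwards [hF.ae_diff, hG.ae_diff] with p h1 h2 _
  rw [grad_mul h1 h2, inner_add_left, real_inner_smul_left, real_inner_smul_left]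
  ring

theorem ibp_coord {d e : ℕ} {F G : E n → ℝ} (hF : LH d F) (hG : LH e G) (i : Fin n) :
    av (fun p => gradient F p i * G p) + av (fun p => F p * gradient G p i) =
      ((d : ℝ) + e + n - 1) * av (fun p => p i * (F p * G p)) := by
  have h := ibp hF hG (EuclideanSpace.single i 1)
  simp only [← grad_coord] at h
  simpa [EuclideanSpace.inner_single_right] using h

/-- `sdt` for `F = ⟪·, u⟫` -/
theorem av_inner_mul_inner (u v : E n) : av (fun p => ⟪p, u⟫ * ⟪p, v⟫) = ⟪u, v⟫ / n := by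
  have h := sdt (lh_inner u) v
  simp only [grad_inner, av_const] at h
  have hn : (n : ℝ) ≠ 0 := Nat.cast_ne_zero.2 (NeZero.ne n)
  rw [h, eq_div_iff hn, av_congr fun p _ => mul_comm ⟪p, u⟫ ⟪p, v⟫]
  push_cast
  ring

end Crest.Agent.R230
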