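import Crest.Agent.R230.SubF
import Crest.Agent.R230.SDT

/-!
# R230/Cvx0

Convexity bounds the Dirichlet form.
`integral_grad_nonpos`: for `h > 0` let `N_h x = (N (x + h v) - N x)/h` (Lipschitz).  By
`LipschitzWith.integral_lineDeriv_mul_eq`, `∫ ∂_v ψ · N_h = - ∫ ∂_v N_h · ψ ≤ 0`, because for a.e. `x` the
function `N` is differentiable at `x` and `x + h v` and the derivative of the convex function
`t ↦ N (x + t v)` is monotone (`inner_grad_le`-like: `⟪∇N x, hv⟫ ≤ N (x+hv) - N x ≤ ⟪∇N (x+hv), hv⟫`, from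
`⟪∇N x, z⟫ ≤ N z` and `⟪∇N x, x⟫ = N x`).  Let `h → 0+` with
`LipschitzWith.integral_inv_smul_sub_mul_tendsto_integral_lineDeriv_mul`.
`cvx`: apply it to `ψ x = Φ x χ ‖x‖` (`χ` a `C¹` bump on `[1,2]` as in `SDT`; `ψ` is Lipschitz with
compact support), sum over a basis; `⟪∇N, ∇ψ⟫ = ⟪∇N, ∇Φ⟫ χ + Φ χ' N/‖x‖`; polar coordinates
(`integral_polar_mul`, `LH.grad_smul`) and `∫ r^(n-1) χ' = -(n-1) ∫ r^(n-1) χ / r`.
`dirichlet`: for a unit vector `p` where `N` is differentiable, `ρ x = N x/‖x‖` has gradient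
`g = ∇N p - N p • p`, with `⟪∇N p, g⟫ = ‖g‖² = ‖∇N p‖² - (N p)²`; so `‖∇(η∘ρ)‖² = η'² ‖g‖² = ⟪∇N, ∇(φ∘ρ)⟫`.
-/

set_option autoImplicit false
set_option linter.unusedSectionVars false
set_option linter.unusedVariables false

namespace Crest.Agent.R230

open MeasureTheory Metric Set Filter Topology
open scoped RealInnerProductSpace ENNReal Pointwise

variable {n : ℕ} [NeZero n]

theorem cvx0_incr {N : E n → ℝ} (h : Sub N) (x v : E n) {t : ℝ} (ht : 0 < t) :
    Monotone fun s : ℝ => t⁻¹ • (N (x + s • v + t • v) - N (x + s • v)) := by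
  intro s s' hs
  refine smul_le_smul_of_nonneg_left ?_ (inv_nonneg.2 ht.le)
  have hD : 0 < s' - s + t := by linarith
  set l := (s' - s) / (s' - s + t) with hl
  have hl0 : 0 ≤ l := div_nonneg (by linarith) hD.le
  have hl1 : 0 ≤ 1 - l := by
    rw [hl, sub_nonneg, div_le_one hD]
    linarith
  have hlD : l * (s' - s + t) = s' - s := div_mul_cancel₀ _ hD.ne'
  have c1 := h.convexOn.2 (mem_univ (x + s • v)) (mem_univ (x + s' • v + t • v)) hl0 hl1 (by ring)
  have c2 := h.convexOn.2 (mem_univ (x + s • v)) (mem_univ (x + s' • v + t • v)) hl1 hl0 (by ring)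
  have e1 : l • (x + s • v) + (1 - l) • (x + s' • v + t • v) = x + s • v + t • v := by
    have : l * s + (1 - l) * (s' + t) = s + t := by linarith
    calc _ = x + (l * s + (1 - l) * (s' + t)) • v := by module
      _ = _ := by rw [this]; module
  have e2 : (1 - l) • (x + s • v) + l • (x + s' • v + t • v) = x + s' • v := by
    have : (1 - l) * s + l * (s' + t) = s' := by linarith
    calc _ = x + ((1 - l) * s + l * (s' + t)) • v := by module
      _ = _ := by rw [this]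
  rw [e1] at c1
  rw [e2] at c2
  simp only [smul_eq_mul] at c1 c2
  linarith

theorem cvx0_int_grad {ψ : E n → ℝ} {K : NNReal} (hψ : LipschitzWith K ψ)
    (hc : HasCompactSupport ψ) (v : E n) : Integrable fun x => ⟪gradient ψ x, v⟫ := by
  have hm : Measurable fun x => ⟪gradient ψ x, v⟫ := (measurable_grad ψ).inner measurable_const
  simp only [inner_grad] at hm ⊢
  refine memLp_one_iff_integrable.1 ((hc.fderiv_apply ℝ v).memLp_of_bound
    hm.aestronglyMeasurable ((K : ℝ) * ‖v‖) (ae_of_all _ fun x => ?_))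
  exact ((fderiv ℝ ψ x).le_opNorm v).trans
    (mul_le_mul_of_nonneg_right (norm_fderiv_le_of_lipschitz ℝ hψ) (norm_nonneg _))

theorem cvx0_line {F : E n → ℝ} {K : NNReal} (hF : LipschitzWith K F) (v : E n) :
    ∀ᵐ x : E n, lineDeriv ℝ F x v = ⟪gradient F x, v⟫ := by
  filter_upwards [hF.ae_differentiableAt (μ := volume)] with x hx
  rw [inner_grad, hx.lineDeriv_eq_fderiv]

theorem Sub.integral_grad_nonpos {N : E n → ℝ} (h : Sub N) {ψ : E n → ℝ} {K : NNReal}
    (hψ : LipschitzWith K ψ) (hc : HasCompactSupport ψ) (h0 : ∀ x, 0 ≤ ψ x) (v : E n) :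
    ∫ x, ⟪gradient N x, v⟫ * ⟪gradient ψ x, v⟫ ≤ 0 := by
  obtain ⟨L, hL⟩ := h.lipschitz
  have A := hL.integral_inv_smul_sub_mul_tendsto_integral_lineDeriv_mul (cvx0_int_grad hψ hc v) v
  have e : ∫ x, ⟪gradient N x, v⟫ * ⟪gradient ψ x, v⟫ =
      ∫ x, lineDeriv ℝ N x v * ⟪gradient ψ x, v⟫ := by
    refine integral_congr_ae ?_
    filter_upwards [cvx0_line hL v] with x hx
    rw [hx]
  rw [e]
  refine le_of_tendsto A ?_
  filter_upwards [self_mem_nhdsWithin] with t (ht : 0 < t)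
  have hNt : LipschitzWith (‖t⁻¹‖₊ * (L + L)) fun x => t⁻¹ • (N (x + t • v) - N x) := by
    have h1 : LipschitzWith L fun x => N (x + t • v) := by
      simpa [Function.comp_def] using hL.comp (isometry_add_right (t • v)).lipschitz
    exact (lipschitzWith_smul t⁻¹).comp (h1.sub hL)
  have B := hNt.integral_lineDeriv_mul_eq (μ := volume) hψ hc v
  have B1 : 0 ≤ ∫ x, lineDeriv ℝ (fun x => t⁻¹ • (N (x + t • v) - N x)) x v * ψ x :=
    integral_nonneg fun x => mul_nonneg (cvx0_incr h x v ht).deriv_nonneg (h0 x)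
  have B2 : ∫ x, lineDeriv ℝ ψ x (-v) * (t⁻¹ • (N (x + t • v) - N x)) =
      -∫ x, (t⁻¹ • (N (x + t • v) - N x)) * ⟪gradient ψ x, v⟫ := by
    rw [← integral_neg]
    refine integral_congr_ae ?_
    filter_upwards [cvx0_line hψ v] with x hx
    rw [lineDeriv_neg, hx]
    ring
  rw [B, B2] at B1
  linarith

/-- bump on `[1, 2]` -/
noncomputable def cvx0_ζ (r : ℝ) : ℝ := expNegInvGlue ((r - 1) * (2 - r))

/-- `r ζ r` -/
noncomputable def cvx0_χ (r : ℝ) : ℝ := r * cvx0_ζ r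

theorem cvx0_ζ_smooth : ContDiff ℝ 1 cvx0_ζ := by
  unfold cvx0_ζ
  exact expNegInvGlue.contDiff.comp (by fun_prop)

theorem cvx0_χ_smooth : ContDiff ℝ 1 cvx0_χ := contDiff_id.mul cvx0_ζ_smooth

theorem cvx0_ζ_zero {r : ℝ} (hr : r ∉ Icc (1 : ℝ) 2) : cvx0_ζ r = 0 := by
  refine expNegInvGlue.zero_of_nonpos ?_
  rw [mem_Icc, not_and_or, not_le, not_le] at hr
  rcases hr with hr | hr <;> nlinarith

theorem cvx0_ζ_supp : HasCompactSupport cvx0_ζ :=
  HasCompactSupport.intro isCompact_Icc fun _ => cvx0_ζ_zero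

theorem cvx0_χ_zero {r : ℝ} (hr : r ∉ Icc (1 : ℝ) 2) : cvx0_χ r = 0 := by
  rw [cvx0_χ, cvx0_ζ_zero hr, mul_zero]

theorem cvx0_χ_supp : HasCompactSupport cvx0_χ :=
  HasCompactSupport.intro isCompact_Icc fun _ => cvx0_χ_zero

theorem cvx0_dχ_cont : Continuous (deriv cvx0_χ) := cvx0_χ_smooth.continuous_deriv le_rfl

theorem cvx0_dχ_zero {r : ℝ} (hr : r ∉ Icc (1 : ℝ) 2) : deriv cvx0_χ r = 0 := by
  have : cvx0_χ =ᶠ[𝓝 r] fun _ => 0 := by
    filter_upwards [isClosed_Icc.isOpen_compl.mem_nhds hr] with s hs using cvx0_χ_zero hs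
  rw [this.deriv_eq, deriv_const]

theorem cvx0_int1 (m : ℕ) {ω : ℝ → ℝ} (hω : Continuous ω) (h0 : ∀ r, r ∉ Icc (1 : ℝ) 2 → ω r = 0) :
    Integrable fun r : ℝ => r ^ m * ω r :=
  Continuous.integrable_of_hasCompactSupport (by fun_prop)
    (HasCompactSupport.intro isCompact_Icc fun r hr => by rw [h0 r hr, mul_zero])

theorem cvx0_I_pos (m : ℕ) : 0 < ∫ r in Ioi (0 : ℝ), r ^ m * cvx0_ζ r := by
  rw [setIntegral_pos_iff_support_of_nonneg_ae]
  · refine lt_of_lt_of_le ?_ (measure_mono (s := Ioo (1 : ℝ) 2) fun r hr => ⟨?_, ?_⟩)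
    · simp
    · have h1 := hr.1
      have h2 := hr.2
      exact (mul_pos (by positivity) (expNegInvGlue.pos_of_pos (by nlinarith))).ne'
    · exact lt_trans one_pos hr.1
  · refine (ae_restrict_iff' measurableSet_Ioi).2 (ae_of_all _ fun r hr => ?_)
    exact mul_nonneg (pow_nonneg (le_of_lt hr) _) (expNegInvGlue.nonneg _)
  · exact (cvx0_int1 m cvx0_ζ_smooth.continuous fun _ => cvx0_ζ_zero).integrableOn

theorem cvx0_ibp (m : ℕ) : ∫ r in Ioi (0 : ℝ), r ^ m * deriv cvx0_χ r =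
    -(m * ∫ r in Ioi (0 : ℝ), r ^ m * cvx0_ζ r) := by
  have i1 := (cvx0_int1 m cvx0_ζ_smooth.continuous fun _ => cvx0_ζ_zero).integrableOn
    (s := Ioi 0)
  have i2 := (cvx0_int1 m cvx0_dχ_cont fun _ => cvx0_dχ_zero).integrableOn (s := Ioi 0)
  have H := integral_Ioi_of_hasDerivAt_of_tendsto' (a := 0) (m := 0)
    (f := fun r => r ^ m * cvx0_χ r)
    (f' := fun r => m * (r ^ m * cvx0_ζ r) + r ^ m * deriv cvx0_χ r) (fun r _ => ?_)
    ((i1.const_mul _).add i2) ?_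
  · rw [integral_add (i1.const_mul _) i2, integral_const_mul] at H
    simp only [cvx0_χ, zero_mul, mul_zero, sub_zero] at H
    linarith
  · have h1 := (hasDerivAt_pow m r).mul
      ((cvx0_χ_smooth.differentiable one_ne_zero) r).hasDerivAt
    refine h1.congr_deriv ?_
    rw [cvx0_χ]
    cases m with
    | zero => simp
    | succ k =>
      simp only [Nat.add_sub_cancel]
      ring
  · refine tendsto_const_nhds.congr' ?_
    filter_upwards [eventually_gt_atTop (2 : ℝ)] with r hr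
    rw [cvx0_χ_zero fun h => absurd h.2 (not_le.2 hr), mul_zero]

theorem cvx0_int_polar {g : E n → ℝ} (hg : Bd g) {ω : ℝ → ℝ} (hω : Continuous ω)
    (h0 : ∀ r, r ∉ Icc (1 : ℝ) 2 → ω r = 0) :
    Integrable fun x : E n => g (‖x‖⁻¹ • x) * ω ‖x‖ := by
  obtain ⟨hm, C, hC⟩ := hg
  have hi : Integrable fun x : E n => C * |ω ‖x‖| := by
    refine Continuous.integrable_of_hasCompactSupport (by fun_prop)
      (HasCompactSupport.intro (isCompact_closedBall (0 : E n) 2) fun x hx => ?_)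
    rw [h0 _ fun h => hx (mem_closedBall_zero_iff.2 h.2), abs_zero, mul_zero]
  have hm2 : Measurable fun x : E n => g (‖x‖⁻¹ • x) * ω ‖x‖ :=
    (hm.comp (by fun_prop)).mul (hω.measurable.comp measurable_norm)
  refine hi.mono' hm2.aestronglyMeasurable (ae_of_all _ fun x => ?_)
  by_cases hx : x = 0
  · subst hx
    rw [norm_zero, h0 0 (by simp)]
    simp
  · rw [Real.norm_eq_abs, abs_mul]
    refine mul_le_mul_of_nonneg_right (hC _ ?_) (abs_nonneg _)
    rw [norm_smul, norm_inv, norm_norm, inv_mul_cancel₀ (norm_ne_zero_iff.2 hx)]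

theorem cvx0_lip_mul {f g : E n → ℝ} {K L : NNReal} (hf : LipschitzWith K f)
    (hg : LipschitzWith L g) {A B : ℝ} (hA : ∀ x, |f x| ≤ A) (hB : ∀ x, |g x| ≤ B) :
    ∃ M, LipschitzWith M fun x => f x * g x := by
  have hA0 : 0 ≤ A := (abs_nonneg _).trans (hA 0)
  have hB0 : 0 ≤ B := (abs_nonneg _).trans (hB 0)
  refine ⟨⟨A * L + K * B, by positivity⟩, LipschitzWith.of_dist_le_mul fun x y => ?_⟩
  have h1 := hf.dist_le_mul x y
  have h2 := hg.dist_le_mul x y
  rw [Real.dist_eq] at h1 h2 ⊢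
  have e : f x * g x - f y * g y = f x * (g x - g y) + (f x - f y) * g y := by ring
  rw [e]
  refine (abs_add_le _ _).trans ?_
  rw [abs_mul, abs_mul]
  have h3 := mul_le_mul (hA x) h2 (abs_nonneg _) hA0
  have h4 := mul_le_mul h1 (hB y) (abs_nonneg _) (by positivity)
  change _ ≤ (A * L + K * B) * dist x y
  linarith

theorem cvx0_lip {Φ : E n → ℝ} (hΦ : LH 0 Φ) : ∃ M, LipschitzWith M fun x => Φ x * cvx0_χ ‖x‖ := by
  obtain ⟨K, hK⟩ := hΦ.lipschitzOn_annulus (a := 1) (b := 2) one_pos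
  obtain ⟨Ψ, hΨ, hE⟩ := hK.extend_real
  obtain ⟨_, C, hC⟩ := hΦ.bd
  obtain ⟨L, hL⟩ := cvx0_χ_smooth.lipschitzWith_of_hasCompactSupport cvx0_χ_supp one_ne_zero
  obtain ⟨B, hB⟩ := cvx0_χ_supp.exists_bound_of_continuous cvx0_χ_smooth.continuous
  have hC' : ∀ x : E n, x ≠ 0 → |Φ x| ≤ |C| := by
    intro x hx
    have h1 := hΦ.hom ‖x‖⁻¹ x (inv_pos.2 (norm_pos_iff.2 hx))
    rw [pow_zero, one_mul] at h1
    rw [← h1]
    refine (hC _ ?_).trans (le_abs_self _)
    rw [norm_smul, norm_inv, norm_norm, inv_mul_cancel₀ (norm_ne_zero_iff.2 hx)]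
  have h1 : LipschitzWith K fun x => max (min (Ψ x) |C|) (-|C|) :=
    (hΨ.min_const _).max_const _
  have h2 : LipschitzWith (L * 1) fun x : E n => cvx0_χ ‖x‖ := hL.comp lipschitzWith_one_norm
  obtain ⟨M, hM⟩ := cvx0_lip_mul h1 h2 (A := |C|) (B := B) (fun x => abs_le.2
    ⟨le_max_right _ _, max_le (min_le_right _ _) (by linarith [abs_nonneg C])⟩) fun x => hB _
  refine ⟨M, ?_⟩
  convert hM using 2 with x
  by_cases hx : ‖x‖ ∈ Icc (1 : ℝ) 2
  · have hx0 : x ≠ 0 := by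
      rintro rfl
      simp at hx
      linarith
    have h3 := abs_le.1 (hC' x hx0)
    rw [← hE (show x ∈ {x : E n | 1 ≤ ‖x‖ ∧ ‖x‖ ≤ 2} from hx), min_eq_left h3.2, max_eq_left h3.1]
  · rw [cvx0_χ_zero hx, mul_zero, mul_zero]

theorem Sub.cvx {N : E n → ℝ} (h : Sub N) {Φ : E n → ℝ} (hΦ : LH 0 Φ) (h0 : ∀ x, x ≠ 0 → 0 ≤ Φ x) :
    av (fun p => ⟪gradient N p, gradient Φ p⟫) ≤ (n - 1) * av (fun p => N p * Φ p) := by
  obtain ⟨M, hM⟩ := cvx0_lip hΦ
  obtain ⟨L, hL⟩ := h.lipschitz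
  obtain ⟨c, C, _, hC⟩ := h.posH.bds
  have hc : HasCompactSupport fun x : E n => Φ x * cvx0_χ ‖x‖ :=
    HasCompactSupport.intro (isCompact_closedBall (0 : E n) 2) fun x hx => by
      rw [cvx0_χ_zero fun h => hx (mem_closedBall_zero_iff.2 h.2), mul_zero]
  have hp : ∀ x : E n, 0 ≤ Φ x * cvx0_χ ‖x‖ := by
    intro x
    by_cases hx : x = 0
    · subst hx
      simp [cvx0_χ]
    · exact mul_nonneg (h0 x hx) (mul_nonneg (norm_nonneg _) (expNegInvGlue.nonneg _))
  set ψ : E n → ℝ := fun x => Φ x * cvx0_χ ‖x‖ with hψ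
  have hi : ∀ i : Fin n, Integrable fun x =>
      ⟪gradient N x, EuclideanSpace.single i 1⟫ * ⟪gradient ψ x, EuclideanSpace.single i 1⟫ := by
    intro i
    refine (cvx0_int_grad hM hc _).bdd_mul (c := C * 1)
      ((measurable_grad N).inner measurable_const).aestronglyMeasurable (ae_of_all _ fun x => ?_)
    refine (norm_inner_le_norm _ _).trans ?_
    rw [PiLp.norm_single, norm_one]
    exact mul_le_mul_of_nonneg_right (h.norm_grad_le (fun x => (hC x).2) x) zero_le_one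
  have h1 : ∫ x, ⟪gradient N x, gradient ψ x⟫ ≤ 0 := by
    have e : ∀ x, ⟪gradient N x, gradient ψ x⟫ = ∑ i : Fin n,
        ⟪gradient N x, EuclideanSpace.single i 1⟫ * ⟪gradient ψ x, EuclideanSpace.single i 1⟫ := by
      intro x
      rw [inner_eq_sum]
      exact Finset.sum_congr rfl fun i _ => by rw [grad_coord, grad_coord]
    simp only [e]
    rw [integral_finsetSum _ fun i _ => hi i]
    exact Finset.sum_nonpos fun i _ => h.integral_grad_nonpos hM hc hp _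
  have b1 : Bd fun p => ⟪gradient N p, gradient Φ p⟫ := by
    simp only [inner_eq_sum]
    exact Bd.sum _ fun i _ => (h.lh.bd_grad i).mul (hΦ.bd_grad i)
  have b2 : Bd fun p => N p * Φ p := h.bd.mul hΦ.bd
  have h2 : ∫ x, ⟪gradient N x, gradient ψ x⟫ =
      ∫ x : E n, ((fun p => ⟪gradient N p, gradient Φ p⟫) (‖x‖⁻¹ • x) * cvx0_ζ ‖x‖ +
        (fun p => N p * Φ p) (‖x‖⁻¹ • x) * deriv cvx0_χ ‖x‖) := by
    refine integral_congr_ae ?_
    have hz : ∀ᵐ x : E n, x ≠ 0 := by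
      rw [ae_iff]
      simp
    filter_upwards [h.lh.ae_diff_vol, hΦ.ae_diff_vol, hz] with x hN hF hx
    have hn : 0 < ‖x‖ := norm_pos_iff.2 hx
    have hd : DifferentiableAt ℝ (fun y : E n => ‖y‖) x :=
      (contDiffAt_norm ℝ (n := 1) hx).differentiableAt one_ne_zero
    have hχ := ((cvx0_χ_smooth.differentiable one_ne_zero) ‖x‖).hasDerivAt
    have g1 := grad_comp hd hχ
    have g2 := grad_mul hF (hχ.differentiableAt.comp x hd)
    simp only [Function.comp_apply] at g2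
    have g3 : gradient ψ x = cvx0_χ ‖x‖ • gradient Φ x +
        Φ x • deriv cvx0_χ ‖x‖ • ‖x‖⁻¹ • x := by
      rw [← grad_norm hx, ← g1]
      exact g2
    have s1 := (h.lh.grad_smul (inv_pos.2 hn) x).1
    have s2 := (hΦ.grad_smul (inv_pos.2 hn) x).1
    have s3 := hΦ.hom ‖x‖⁻¹ x (inv_pos.2 hn)
    have s4 := h.smul ‖x‖⁻¹ x (inv_pos.2 hn).le
    rw [g3, s1, s2, s3, s4, inner_add_right]
    simp only [inner_smul_right, inner_smul_left, h.inner_grad_self hN, cvx0_χ, conj_trivial]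
    field_simp
  rw [h2, integral_add (cvx0_int_polar b1 cvx0_ζ_smooth.continuous fun _ => cvx0_ζ_zero)
    (cvx0_int_polar b2 cvx0_dχ_cont fun _ => cvx0_dχ_zero),
    integral_polar_mul b1.1 cvx0_ζ_smooth.continuous.measurable,
    integral_polar_mul b2.1 cvx0_dχ_cont.measurable, cvx0_ibp, ← mul_add] at h1
  have hn : 0 < n := Nat.pos_of_ne_zero (NeZero.ne n)
  have hk : 0 < (n : ℝ) * kap n := mul_pos (Nat.cast_pos.2 hn) (kap_pos n)
  have hI := cvx0_I_pos (n - 1)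
  have h3 := nonpos_of_mul_nonpos_right h1 hk
  rw [Nat.cast_sub hn, Nat.cast_one] at h3
  refine le_of_mul_le_mul_right ?_ hI
  linarith

end Crest.Agent.R230
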