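import Mathlib

/-!
# R230 (S0354, S0355, S0356): projection bodies.  All definitions.

Petty's projection inequality in dimension `n ≥ 4` with its equality case (S0354), and products of
simplices against the simplex (S0355, S0356).

Outline for S0354.  `σ = sph n` is the uniform probability on the unit sphere, `κ = kap n`.
* A convex body with `0` inside is `body γ = {γ ≤ 1}` for a positive sublinear `γ`.  Its surface
  measure `surf γ` is the law of `∇γ` under `κ γ^{-n} σ`.  Cauchy: `shadow = (n/2) ∫ |⟪w,u⟫|`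
  (`Cauchy`), Minkowski's first inequality: `Iso (surf γ) (vol^(n-1))` (`Mink`).
* With `L = ΠK`, `vol L ≥ (n/2) B`, `B = ∫∫ |⟪w,w'⟫| d(surf K) d(surf L)`; so it suffices to prove
  the bilinear inequality `h1^n (Aκ)(A'κ) ≤ B^n` for two measures with `Iso μ A`, `Iso μ' A'` (`BT`).
* Let `N` minimise `Phi r μ N = ∫ dual N dμ + ∫ psi r (N) dσ` over norms (`Exist`).  First variations
  (`EL`): `∫ N^r |⟪∇N,v⟫| dσ ≤ ∫ |⟪w,v⟫| dμ` and `∫ dual N dμ ≤ ∫ N^r dσ`.  By Brouwer (`Unique`,
  `Cont`, `Pos`, `Position`) there is a linear position of `μ` in which `N^(r+1)` has no spherical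
  harmonic of degree 2.
* `|⟪a,b⟫| ≥ sign ⟪p,q⟫ ⟪a,b⟫` and the Funk–Hecke formula (`FH`, `VecH`, `Bilin`) bound `B` below by
  `h1 (g g' - β √(hi) √(hi'))`; the inequality `β hi (N^s) ≤ θ s² (g² - F²)` (`Star`) follows from
  convexity (`Cvx`), the spectral gap (`Poinc`) and four one-variable inequalities (`OneD`).
-/

set_option autoImplicit false

namespace Crest.Agent.R230

open MeasureTheory Metric Set
open scoped RealInnerProductSpace ENNReal Pointwise

/-- Euclidean space -/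
abbrev E (n : ℕ) := EuclideanSpace ℝ (Fin n)

/-- real polynomials in `n` variables -/
abbrev Pol (n : ℕ) := MvPolynomial (Fin n) ℝ

variable {n : ℕ}

/-! ## volume, sphere -/

/-- Lebesgue measure as a real number -/
noncomputable def vol (A : Set (E n)) : ℝ := (volume A).toReal

/-- volume of the unit ball -/
noncomputable def kap (n : ℕ) : ℝ := vol (ball (0 : E n) 1)

/-- uniform probability measure on the unit sphere, as a measure on the whole space -/
noncomputable def sph (n : ℕ) : Measure (E n) :=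
  ((volume : Measure (E n)).toSphere univ)⁻¹ •
    ((volume : Measure (E n)).toSphere.map Subtype.val)

/-- spherical mean -/
noncomputable def av (f : E n → ℝ) : ℝ := ∫ p, f p ∂sph n

/-- `L²` product on the sphere -/
noncomputable def ip (f g : E n → ℝ) : ℝ := ∫ p, f p * g p ∂sph n

/-- measurable and bounded on the unit sphere -/
def Bd (f : E n → ℝ) : Prop := Measurable f ∧ ∃ C : ℝ, ∀ p, ‖p‖ = 1 → |f p| ≤ C

/-- mean of `|⟪p, q⟫|` -/
noncomputable def h1 (n : ℕ) : ℝ := ∫ q, ∫ p, |⟪p, q⟫| ∂sph n ∂sph n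

/-- positively homogeneous of degree `d` and locally Lipschitz away from the origin -/
structure LH (d : ℕ) (F : E n → ℝ) : Prop where
  hom : ∀ (r : ℝ) (x : E n), 0 < r → F (r • x) = r ^ d * F x
  lip : LocallyLipschitzOn ({0}ᶜ : Set (E n)) F

/-! ## sublinear functions, norms, duals -/

/-- positive sublinear function (the gauge of a convex body with `0` in its interior) -/
structure Sub (γ : E n → ℝ) : Prop where
  add_le : ∀ x y, γ (x + y) ≤ γ x + γ y
  smul : ∀ (c : ℝ) (x : E n), 0 ≤ c → γ (c • x) = c * γ x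
  pos : ∀ x, x ≠ 0 → 0 < γ x

/-- a norm -/
structure IsNorm (N : E n → ℝ) : Prop extends Sub N where
  neg : ∀ x, N (-x) = N x

/-- positively homogeneous and comparable with the Euclidean norm -/
structure PosH (l : E n → ℝ) : Prop where
  smul : ∀ (c : ℝ) (x : E n), 0 ≤ c → l (c • x) = c * l x
  bds : ∃ c C : ℝ, 0 < c ∧ ∀ x, c * ‖x‖ ≤ l x ∧ l x ≤ C * ‖x‖

/-- unit sublevel set -/
def body (γ : E n → ℝ) : Set (E n) := {x | γ x ≤ 1}

/-- support function of `body l` -/
noncomputable def dual (l : E n → ℝ) (w : E n) : ℝ := sSup ((fun x => ⟪x, w⟫) '' body l)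

/-- gauge of `body γ + t [-u, u]` -/
noncomputable def pert (γ : E n → ℝ) (u : E n) (t : ℝ) : E n → ℝ :=
  gauge (body γ + t • segment ℝ (-u) u)

/-- surface measure of `body γ` (in the form of a measure on vectors, total mass `vol (body γ)`) -/
noncomputable def surf (γ : E n → ℝ) : Measure (E n) :=
  ((sph n).withDensity (fun p => ENNReal.ofReal (kap n * (γ p)⁻¹ ^ n))).map (gradient γ)

/-- `(n-1)`-volume of the orthogonal projection along `u` -/
noncomputable def shadow (K : Set (E n)) (u : E n) : ℝ :=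
  ((μHE[n - 1] : Measure (E n)) ((fun y => y - ⟪y, u⟫ • u) '' K)).toReal

/-- the projection body -/
def PiB (K : Set (E n)) : Set (E n) := ⋂ u ∈ sphere (0 : E n) 1, {x | ⟪x, u⟫ ≤ shadow K u}

/-- finite, boundedly supported and not degenerate -/
structure Good (μ : Measure (E n)) : Prop where
  fin : IsFiniteMeasure μ
  bdd : ∃ R : ℝ, ∀ᵐ w ∂μ, ‖w‖ ≤ R
  nondeg : ∃ c : ℝ, 0 < c ∧ ∀ v, c * ‖v‖ ≤ ∫ w, |⟪w, v⟫| ∂μ

/-- Minkowski's first inequality for symmetric test bodies, with constant `A` -/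
def Iso (μ : Measure (E n)) (A : ℝ) : Prop :=
  ∀ N : E n → ℝ, IsNorm N → A * vol (body N) ≤ (∫ w, dual N w ∂μ) ^ n

/-- symmetric invertible linear map -/
def Symm (T : E n ≃L[ℝ] E n) : Prop := ∀ x y, ⟪T x, y⟫ = ⟪x, T y⟫

/-- absolute value of the determinant -/
noncomputable def adet (T : E n ≃L[ℝ] E n) : ℝ := |LinearMap.det (T : E n →ₗ[ℝ] E n)|

/-! ## the variational problem -/

/-- `log` for `r = 0`, the identity otherwise (only `r ≤ 1` is used) -/
noncomputable def psi (r : ℕ) (x : ℝ) : ℝ := if r = 0 then Real.log x else x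

/-- the functional -/
noncomputable def Phi (r : ℕ) (μ : Measure (E n)) (N : E n → ℝ) : ℝ :=
  ∫ w, dual N w ∂μ + av (fun p => psi r (N p))

/-- minimiser among norms -/
def IsMin (r : ℕ) (μ : Measure (E n)) (N : E n → ℝ) : Prop :=
  IsNorm N ∧ ∀ N' : E n → ℝ, IsNorm N' → Phi r μ N ≤ Phi r μ N'

/-- norms between two multiples of the Euclidean norm -/
def NormBox (n : ℕ) (c C : ℝ) : Set (E n → ℝ) :=
  {N | IsNorm N ∧ ∀ x, c * ‖x‖ ≤ N x ∧ N x ≤ C * ‖x‖}

/-! ## spherical harmonics -/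

/-- a polynomial as a function -/
noncomputable def ev (P : Pol n) (x : E n) : ℝ := MvPolynomial.eval (fun i => x i) P

/-- Laplacian -/
noncomputable def lap (P : Pol n) : Pol n := ∑ i, MvPolynomial.pderiv i (MvPolynomial.pderiv i P)

/-- harmonic and homogeneous of degree `k` -/
def Harm (k : ℕ) (P : Pol n) : Prop := P.IsHomogeneous k ∧ lap P = 0

/-- `|x|²` -/
noncomputable def nsq (n : ℕ) : Pol n := ∑ i, MvPolynomial.X i ^ 2

/-- harmonic part of `x_i Y` for `Y` harmonic of degree `k` -/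
noncomputable def Aop (k : ℕ) (i : Fin n) (Y : Pol n) : Pol n :=
  MvPolynomial.X i * Y - (2 * (k : ℝ) + n - 2)⁻¹ • (nsq n * MvPolynomial.pderiv i Y)

/-- derivative in the direction `q` -/
noncomputable def dirD (q : E n) (Y : Pol n) : Pol n := ∑ i, q i • MvPolynomial.pderiv i Y

/-- component of degree `k` -/
noncomputable def pr (k : ℕ) (f : E n → ℝ) : Pol n :=
  Classical.epsilon (fun Y => Harm k Y ∧ ∀ Z, Harm k Z → ip f (ev Z) = ip (ev Y) (ev Z))

/-- product of the components of degree `k` -/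
noncomputable def cf (k : ℕ) (f g : E n → ℝ) : ℝ := ip (ev (pr k f)) (ev (pr k g))

/-- squared norm of the component of degree `k` -/
noncomputable def nk (k : ℕ) (f : E n → ℝ) : ℝ := cf k f f

/-- squared norm of everything except the degrees `0` and `2` -/
noncomputable def hi (f : E n → ℝ) : ℝ := ip f f - nk 0 f - nk 2 f

/-- eigenvalues of the kernel `sign ⟪p, q⟫`, divided by `h1 n` -/
noncomputable def hh (n : ℕ) : ℕ → ℝ
  | 0 => 0
  | 1 => 1
  | (j + 2) => -((j : ℝ) / (j + n)) * hh n j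

/-- weight of the degree `k+2` of `G` in the degree `k+1` of `∇G` -/
noncomputable def alU (n d k : ℕ) : ℝ := ((d : ℝ) + k + n) ^ 2 * (k + 2) / (2 * k + n + 2)

/-- weight of the degree `k` of `G` in the degree `k+1` of `∇G` -/
noncomputable def alD (n d k : ℕ) : ℝ := ((d : ℝ) - k) ^ 2 * (k + n - 2) / (2 * k + n - 2)

/-- the constant `|β₄|` -/
noncomputable def bet (n d : ℕ) : ℝ :=
  (((n : ℝ) - 1 + d) ^ 2 / (n + 3) + 3 * (n - 1 + 2 * d)) / (n + 1)

/-! ## one-variable functions -/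

/-- the exponent: `s = rr n + 1` -/
def rr (n : ℕ) : ℕ := if n ≤ 11 then 0 else 1

/-- `(x^{-m} - 1)/m` -/
noncomputable def ef (m : ℕ) (x : ℝ) : ℝ := (x⁻¹ ^ m - 1) / m

/-- `(x^s - 1)/s`, `s = r + 1` -/
noncomputable def Gf (r : ℕ) (x : ℝ) : ℝ := (x ^ (r + 1) - 1) / (r + 1)

/-- the pointwise gain -/
noncomputable def jf (r m : ℕ) (x : ℝ) : ℝ := x ^ (r + 1) - x ^ r + ef m x

/-- data of a certificate in dimension `n` -/
structure Cert (n r : ℕ) (η η' φ : ℝ → ℝ) (a Y M ω : ℝ) : Prop where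
  dη : ∀ x, 0 < x → HasDerivAt η (η' x) x
  dφ : ∀ x, 0 < x → HasDerivAt φ (η' x ^ 2) x
  cη : ContinuousOn η' (Ioi 0)
  φ_nonneg : ∀ x, 0 < x → 0 ≤ φ x
  η_nonneg : ∀ x, 0 < x → 0 ≤ η x
  η_le : ∀ x, 0 < x → η x ≤ Gf r x + ef n x
  main : ∀ x, 0 < x → a * (Gf r x - ω * η x) ^ 2 + Y * (x * φ x) - M * η x ^ 2 ≤ 2 * jf r n x
  a_pos : 0 < a
  Y_nonneg : 0 ≤ Y
  M_nonneg : 0 ≤ M
  ω_nonneg : 0 ≤ ω
  ω_le : ω ≤ 1
  quad : M - a * (1 - ω) ^ 2 ≤ 2 * r + 1
  two : M * (n - 1) ≤ 2 * n * Y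
  four : 0 < (4 * n + 8) * Y / (n - 1) - M
  theta : bet n (r + 1) * (1 / a + ω ^ 2 / ((4 * n + 8) * Y / (n - 1) - M)) ≤ 99 / 100

/-! ## products of simplices -/

section blocks

variable {ι : Type} [Fintype ι] [DecidableEq ι]

/-- the block `j` of the partition `b` of the coordinates -/
def blk (b : Fin n → ι) (j : ι) : Finset (Fin n) := Finset.univ.filter (fun i => b i = j)

/-- product of translated and dilated simplices -/
def BS (b : Fin n → ι) (α : Fin n → ℝ) (β : ι → ℝ) : Set (E n) :=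
  {x | (∀ i, α i ≤ x i) ∧ ∀ j, ∑ i ∈ blk b j, x i ≤ β j}

/-- product of standard simplices -/
def KB (b : Fin n → ι) : Set (E n) := BS b (fun _ => 0) (fun _ => 1)

/-- product of the zonotopes -/
def ZB (b : Fin n → ι) (ρ : ι → ℝ) : Set (E n) :=
  {x | (∀ i, |x i| ≤ ρ (b i)) ∧ ∀ i i', b i = b i' → |x i - x i'| ≤ ρ (b i)}

/-- half of `∑ |u i| + |∑ u i|` over a block -/
noncomputable def cb (b : Fin n → ι) (u : E n) (j : ι) : ℝ :=
  (∑ i ∈ blk b j, |u i| + |∑ i ∈ blk b j, u i|) / 2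

end blocks

/-- normalised volume of the projection body of the `d`-simplex -/
noncomputable def cc (d : ℕ) : ℝ := (d + 1) * (d : ℝ) ^ d / d.factorial

end Crest.Agent.R230
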