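import Crest.Agent.R230.SubF

/-!
# R230/Dual

The dual function.  For `PosH l` the set `body l` is bounded and contains `0`, so the supremum is
finite and `≥ 0`.  Everything follows from `inner_le` (scale `x` by `1 / l x`) and `dual_le`.
-/

set_option autoImplicit false
set_option linter.unusedSectionVars false
set_option linter.unusedVariables false

namespace Crest.Agent.R230

open MeasureTheory Metric Set Filter Topology
open scoped RealInnerProductSpace ENNReal Pointwise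

variable {n : ℕ} [NeZero n]

theorem PosH.nonneg {l : E n → ℝ} (h : PosH l) (x : E n) : 0 ≤ l x := by
  obtain ⟨c, C, hc, hb⟩ := h.bds
  exact (mul_nonneg hc.le (norm_nonneg x)).trans (hb x).1

theorem dual_posH_zero {l : E n → ℝ} (h : PosH l) : l 0 = 0 := by
  simpa using h.smul 0 0 le_rfl

theorem dual_posH_pos {l : E n → ℝ} (h : PosH l) {x : E n} (hx : x ≠ 0) : 0 < l x := by
  obtain ⟨c, C, hc, hb⟩ := h.bds
  exact (mul_pos hc (norm_pos_iff.2 hx)).trans_le (hb x).1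

theorem dual_inner_le_aux {l : E n → ℝ} {c : ℝ} (hc : 0 < c) (hb : ∀ x, c * ‖x‖ ≤ l x)
    {x : E n} (hx : l x ≤ 1) (w : E n) : ⟪x, w⟫ ≤ c⁻¹ * ‖w‖ := by
  have h1 : ‖x‖ ≤ c⁻¹ := by
    rw [← one_div, le_div_iff₀' hc]
    exact (hb x).trans hx
  exact (real_inner_le_norm x w).trans (mul_le_mul_of_nonneg_right h1 (norm_nonneg w))

theorem dual_ge {l : E n → ℝ} (h : PosH l) {x : E n} (hx : l x ≤ 1) (w : E n) :
    ⟪x, w⟫ ≤ dual l w := by
  obtain ⟨c, C, hc, hb⟩ := h.bds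
  refine le_csSup ⟨c⁻¹ * ‖w‖, ?_⟩ ⟨x, hx, rfl⟩
  rintro _ ⟨y, hy, rfl⟩
  exact dual_inner_le_aux hc (fun x => (hb x).1) hy w

theorem PosH.inner_le {l : E n → ℝ} (h : PosH l) (x w : E n) : ⟪x, w⟫ ≤ l x * dual l w := by
  by_cases hx : x = 0
  · simp [hx, dual_posH_zero h]
  · have hp := dual_posH_pos h hx
    have h1 := dual_ge h (x := (l x)⁻¹ • x)
      (by rw [h.smul _ _ (inv_pos.2 hp).le, inv_mul_cancel₀ hp.ne']) w
    rwa [real_inner_smul_left, inv_mul_le_iff₀ hp] at h1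
theorem PosH.dual_nonneg {l : E n → ℝ} (h : PosH l) (w : E n) : 0 ≤ dual l w := by
  simpa using dual_ge h (x := 0) (by rw [dual_posH_zero h]; exact zero_le_one) w
theorem PosH.dual_le {l : E n → ℝ} (h : PosH l) {w : E n} {t : ℝ}
    (ht : ∀ x, l x ≤ 1 → ⟪x, w⟫ ≤ t) : dual l w ≤ t := by
  refine csSup_le ⟨_, 0, (by rw [dual_posH_zero h]; exact zero_le_one : l 0 ≤ 1), rfl⟩ ?_
  rintro _ ⟨y, hy, rfl⟩
  exact ht y hy
theorem PosH.dual_le' {l : E n → ℝ} (h : PosH l) {w : E n} {t : ℝ} (h0 : 0 ≤ t)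
    (ht : ∀ x, ⟪x, w⟫ ≤ t * l x) : dual l w ≤ t :=
  h.dual_le fun x hx => (ht x).trans (mul_le_of_le_one_right h0 hx)

theorem dual_zero {l : E n → ℝ} (h : PosH l) : dual l 0 = 0 :=
  le_antisymm (h.dual_le fun x _ => by simp) (h.dual_nonneg 0)

theorem PosH.dual_bounds {l : E n → ℝ} (h : PosH l) {c C : ℝ} (hc : 0 < c)
    (hb : ∀ x, c * ‖x‖ ≤ l x ∧ l x ≤ C * ‖x‖) (w : E n) :
    ‖w‖ ≤ C * dual l w ∧ c * dual l w ≤ ‖w‖ := by
  constructor
  · by_cases hw : w = 0
    · simp [hw, dual_zero h]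
    · have h1 := h.inner_le w w
      have h2 := mul_le_mul_of_nonneg_right (hb w).2 (h.dual_nonneg w)
      rw [real_inner_self_eq_norm_mul_norm] at h1
      refine le_of_mul_le_mul_left ?_ (norm_pos_iff.2 hw)
      linarith
  · rw [← le_inv_mul_iff₀ hc]
    exact h.dual_le fun x hx => dual_inner_le_aux hc (fun x => (hb x).1) hx w
theorem PosH.sub_dual {l : E n → ℝ} (h : PosH l) : Sub (dual l) := by
  have key : ∀ (c : ℝ) (w : E n), 0 ≤ c → dual l (c • w) ≤ c * dual l w := fun c w hc =>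
    h.dual_le fun x hx => by
      rw [real_inner_smul_right]
      exact mul_le_mul_of_nonneg_left (dual_ge h hx w) hc
  refine ⟨fun w w' => h.dual_le fun x hx => ?_, fun c w hc => le_antisymm (key c w hc) ?_,
    fun w hw => ?_⟩
  · rw [inner_add_right]
    exact add_le_add (dual_ge h hx w) (dual_ge h hx w')
  · rcases hc.eq_or_lt with rfl | hc
    · simp [dual_zero h]
    · have h1 := key c⁻¹ (c • w) (inv_pos.2 hc).le
      rwa [inv_smul_smul₀ hc.ne', le_inv_mul_iff₀ hc] at h1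
  · obtain ⟨c, C, hc, hb⟩ := h.bds
    refine (h.dual_nonneg w).lt_of_ne fun h0 => ?_
    have h1 := (h.dual_bounds hc hb w).1
    rw [← h0, mul_zero] at h1
    exact hw (norm_le_zero_iff.1 h1)
theorem PosH.isNorm_dual {l : E n → ℝ} (h : PosH l) (he : ∀ x, l (-x) = l x) : IsNorm (dual l) := by
  have key : ∀ w, dual l (-w) ≤ dual l w := fun w => h.dual_le fun x hx => by
    rw [inner_neg_right, ← inner_neg_left]
    exact dual_ge h (by rwa [he]) w
  exact ⟨h.sub_dual, fun w => le_antisymm (key w) (by simpa using key (-w))⟩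
theorem PosH.dual_dual_le {l : E n → ℝ} (h : PosH l) (x : E n) : dual (dual l) x ≤ l x :=
  h.sub_dual.posH.dual_le' (h.nonneg x) fun w => by
    rw [real_inner_comm]
    exact h.inner_le x w
theorem PosH.dual_anti {l l' : E n → ℝ} (h : PosH l) (h' : PosH l') (hle : ∀ x, l x ≤ l' x)
    (w : E n) : dual l' w ≤ dual l w :=
  h'.dual_le fun x hx => dual_ge h ((hle x).trans hx) w
theorem PosH.const_mul {l : E n → ℝ} (h : PosH l) {c : ℝ} (hc : 0 < c) :
    PosH (fun x => c * l x) := by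
  obtain ⟨a, A, ha, hb⟩ := h.bds
  refine ⟨fun t x ht => by rw [h.smul t x ht]; ring, c * a, c * A, mul_pos hc ha, fun x => ?_⟩
  rw [mul_assoc, mul_assoc]
  exact ⟨mul_le_mul_of_nonneg_left (hb x).1 hc.le, mul_le_mul_of_nonneg_left (hb x).2 hc.le⟩
theorem PosH.dual_const_mul {l : E n → ℝ} (h : PosH l) {c : ℝ} (hc : 0 < c) (w : E n) :
    dual (fun x => c * l x) w = c⁻¹ * dual l w := by
  have h' := h.const_mul hc
  refine le_antisymm (h'.dual_le' (mul_nonneg (inv_pos.2 hc).le (h.dual_nonneg w)) fun x => ?_) ?_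
  · refine (h.inner_le x w).trans_eq ?_
    field_simp
  · rw [inv_mul_le_iff₀ hc]
    refine h.dual_le' (mul_nonneg hc.le (h'.dual_nonneg w)) fun x => ?_
    refine (h'.inner_le x w).trans_eq ?_
    ring
theorem dual_norm {c : ℝ} (hc : 0 < c) (w : E n) : dual (fun x : E n => c * ‖x‖) w = c⁻¹ * ‖w‖ := by
  have h : PosH (fun x : E n => c * ‖x‖) :=
    ⟨fun t x ht => by rw [norm_smul, Real.norm_of_nonneg ht]; ring, c, c, hc,
      fun x => ⟨le_rfl, le_rfl⟩⟩
  obtain ⟨h1, h2⟩ := h.dual_bounds hc (C := c) (fun x => ⟨le_rfl, le_rfl⟩) w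
  rw [eq_inv_mul_iff_mul_eq₀ hc.ne']
  exact le_antisymm h2 h1
theorem dual_comp (l : E n → ℝ) {T : E n ≃L[ℝ] E n} (hT : Symm T) (w : E n) :
    dual (fun x => l (T x)) w = dual l (T.symm w) := by
  unfold dual
  congr 1
  ext t
  constructor
  · rintro ⟨x, hx, rfl⟩
    exact ⟨T x, hx, by simp only []; rw [hT, T.apply_symm_apply]⟩
  · rintro ⟨y, hy, rfl⟩
    refine ⟨T.symm y, ?_, hT.symm y w⟩
    show l (T (T.symm y)) ≤ 1
    rw [T.apply_symm_apply]
    exact hy
theorem IsNorm.abs_inner_le {N : E n → ℝ} (h : IsNorm N) (x w : E n) :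
    |⟪x, w⟫| ≤ N x * dual N w := by
  have h1 := h.toSub.posH.inner_le (-x) w
  rw [inner_neg_left, h.neg] at h1
  exact abs_le.2 ⟨by linarith, h.toSub.posH.inner_le x w⟩

theorem Good.integrable {μ : Measure (E n)} (h : Good μ) {f : E n → ℝ} (hf : Continuous f) :
    Integrable f μ := by
  have := h.fin
  obtain ⟨R, hR⟩ := h.bdd
  obtain ⟨C, hC⟩ := (isCompact_closedBall (0 : E n) R).exists_bound_of_continuousOn
    hf.continuousOn
  exact Integrable.of_bound hf.aestronglyMeasurable C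
    (hR.mono fun w hw => hC w (mem_closedBall_zero_iff.2 hw))

theorem dual_integral_map (μ : Measure (E n)) (T : E n ≃L[ℝ] E n) (f : E n → ℝ) :
    ∫ w, f w ∂(μ.map T) = ∫ w, f (T w) ∂μ :=
  T.toHomeomorph.measurableEmbedding.integral_map f

/-- `‖v‖ ≤ ‖T⁻¹‖ ‖T v‖` -/
theorem Good.map {μ : Measure (E n)} (h : Good μ) {T : E n ≃L[ℝ] E n} (hT : Symm T) :
    Good (μ.map T) := by
  have := h.fin
  obtain ⟨R, hR⟩ := h.bdd
  obtain ⟨c, hc, hv⟩ := h.nondeg
  refine ⟨inferInstance, ⟨‖(T : E n →L[ℝ] E n)‖ * R, ?_⟩,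
    c / (‖(T.symm : E n →L[ℝ] E n)‖ + 1), by positivity, fun v => ?_⟩
  · refine T.toHomeomorph.measurableEmbedding.ae_map_iff.2 (hR.mono fun w hw => ?_)
    exact ((T : E n →L[ℝ] E n).le_opNorm w).trans
      (mul_le_mul_of_nonneg_left hw (norm_nonneg _))
  · rw [dual_integral_map]
    simp only [hT _ v]
    refine le_trans ?_ (hv (T v))
    have h1 : ‖v‖ ≤ ‖(T.symm : E n →L[ℝ] E n)‖ * ‖T v‖ := by
      simpa using (T.symm : E n →L[ℝ] E n).le_opNorm (T v)
    rw [div_mul_eq_mul_div, div_le_iff₀ (by positivity), mul_assoc]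
    refine mul_le_mul_of_nonneg_left ?_ hc.le
    have := norm_nonneg (T v)
    linarith
theorem integral_map_clm (μ : Measure (E n)) (T : E n ≃L[ℝ] E n) (f : E n → ℝ) :
    ∫ w, f w ∂(μ.map T) = ∫ w, f (T w) ∂μ := dual_integral_map μ T f
/-- test `Iso μ A` with the norm `N ∘ T⁻¹` (`dual_comp`, `body_comp`, `vol_image`) -/
theorem Iso.map {μ : Measure (E n)} {A : ℝ} (h : Iso μ A) {T : E n ≃L[ℝ] E n} (hT : Symm T) :
    Iso (μ.map T) (A * adet T) := by
  intro N hN
  have h1 := h _ (hN.comp T.symm)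
  rw [body_comp, vol_image, ← mul_assoc] at h1
  simp only [dual_comp N hT.symm, ContinuousLinearEquiv.symm_symm] at h1
  rwa [integral_map_clm]

end Crest.Agent.R230
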