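import Crest.Agent.R230.EL0

/-!
# R230/EL

First variations and uniqueness.
`el1`: compare with `pert N v t`: `0 ≤ t ∫ |⟪w,v⟫| + av (N^r (N_t/N - 1))` (`dual_pert_le`, `psi_le`);
divide by `t` and use `tendsto_pert`.
`el2`: compare with `λ⁻¹ N`, `0 < λ < 1`: `0 ≤ (λ - 1) H + (1/λ - 1) av N^r`, so `λ H ≤ av N^r`.
`IsMin.unique`: `h_i = dual N_i`, `l = √(h₀ h₁)` is `PosH` and even, `N = dual l` is a norm with
`N ≤ √(N₀ N₁)` (`|⟪x,p⟫| ≤ h_i x N_i p` for both `i`, `dual_le'`) and `dual N ≤ l`.  Minimality and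
`psi_sqrt_le` give `∫ ((h₀+h₁)/2 - √(h₀h₁)) dμ ≤ 0`, so `h₀ = h₁` a.e.  Then `l' = max h₀ h₁`, `N' = dual l'`
has `N' ≤ min N₀ N₁` (`dual_anti`, `dual_dual_le`), `dual N' ≤ l' = h₀` a.e.; so
`av (psi N₀ - psi (min N₀ N₁)) ≤ 0`, hence `N₀ ≤ N₁` on the sphere (`eq_zero_of_av`, strict
monotonicity); symmetrically `N₁ ≤ N₀`; `Sub.ext_sphere`.
-/

set_option autoImplicit false
set_option linter.unusedSectionVars false
set_option linter.unusedVariables false

namespace Crest.Agent.R230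

open MeasureTheory Metric Set Filter Topology
open scoped RealInnerProductSpace ENNReal Pointwise

variable {n : ℕ} [NeZero n]

theorem el_cmp {r : ℕ} {μ : Measure (E n)} (hμ : Good μ) {N l : E n → ℝ} (h : IsMin r μ N)
    (hl : PosH l) (he : ∀ x, l (-x) = l x) (hc : Continuous l) :
    ∫ w, dual N w ∂μ + av (fun p => psi r (N p)) ≤ ∫ w, l w ∂μ + av (fun p => psi r (dual l p)) := by
  have hN := hl.isNorm_dual he
  refine (h.2 _ hN).trans (add_le_add ?_ le_rfl)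
  exact integral_mono (hμ.integrable hN.toSub.posH.sub_dual.continuous) (hμ.integrable hc)
    hl.dual_dual_le

theorem el_posH {a b l : E n → ℝ} (ha : PosH a) (hb : PosH b)
    (hs : ∀ (c : ℝ) (x : E n), 0 ≤ c → l (c • x) = c * l x)
    (hl : ∀ x, min (a x) (b x) ≤ l x ∧ l x ≤ max (a x) (b x)) : PosH l := by
  obtain ⟨c, C, hc, h⟩ := ha.bds
  obtain ⟨c', C', hc', h'⟩ := hb.bds
  refine ⟨hs, min c c', max C C', lt_min hc hc', fun x => ⟨le_trans (le_min ?_ ?_) (hl x).1,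
    (hl x).2.trans (max_le ?_ ?_)⟩⟩
  · exact le_trans (by gcongr; exact min_le_left _ _) (h x).1
  · exact le_trans (by gcongr; exact min_le_right _ _) (h' x).1
  · exact (h x).2.trans (by gcongr; exact le_max_left _ _)
  · exact (h' x).2.trans (by gcongr; exact le_max_right _ _)

theorem el_ne {p : E n} (hp : ‖p‖ = 1) : p ≠ 0 := by
  rintro rfl
  simp at hp

theorem el_ae {r : ℕ} {μ : Measure (E n)} (hμ : Good μ) {N₀ N₁ : E n → ℝ}
    (h₀ : IsMin r μ N₀) (h₁ : IsMin r μ N₁) : ∀ᵐ w ∂μ, dual N₀ w = dual N₁ w := by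
  have d₀ : IsNorm (dual N₀) := h₀.1.toSub.posH.isNorm_dual h₀.1.neg
  have d₁ : IsNorm (dual N₁) := h₁.1.toSub.posH.isNorm_dual h₁.1.neg
  have n₀ := d₀.toSub.nonneg
  have n₁ := d₁.toSub.nonneg
  have hl : PosH (fun x => √(dual N₀ x * dual N₁ x)) := by
    refine el_posH d₀.toSub.posH d₁.toSub.posH (fun c x hc => ?_) fun x => ⟨?_, ?_⟩
    · rw [d₀.smul c x hc, d₁.smul c x hc, show c * dual N₀ x * (c * dual N₁ x) =
        c ^ 2 * (dual N₀ x * dual N₁ x) by ring, Real.sqrt_mul (sq_nonneg c), Real.sqrt_sq hc]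
    · refine Real.le_sqrt_of_sq_le ?_
      rw [sq]
      exact mul_le_mul (min_le_left _ _) (min_le_right _ _) (le_min (n₀ x) (n₁ x)) (n₀ x)
    · refine Real.sqrt_le_iff.2 ⟨(n₀ x).trans (le_max_left _ _), ?_⟩
      rw [sq]
      exact mul_le_mul (le_max_left _ _) (le_max_right _ _) (n₁ x) ((n₀ x).trans (le_max_left _ _))
  have he : ∀ x, √(dual N₀ (-x) * dual N₁ (-x)) = √(dual N₀ x * dual N₁ x) := fun x => by
    rw [d₀.neg, d₁.neg]
  have hc : Continuous fun x => √(dual N₀ x * dual N₁ x) :=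
    (d₀.toSub.continuous.mul d₁.toSub.continuous).sqrt
  have hN := hl.isNorm_dual he
  have hle : ∀ p, dual (fun x => √(dual N₀ x * dual N₁ x)) p ≤ √(N₀ p * N₁ p) := fun p => by
    refine hl.dual_le' (Real.sqrt_nonneg _) fun x => ?_
    rw [← Real.sqrt_mul (mul_nonneg (h₀.1.toSub.nonneg p) (h₁.1.toSub.nonneg p)), real_inner_comm]
    refine Real.le_sqrt_of_sq_le ?_
    rw [← sq_abs, sq, show N₀ p * N₁ p * (dual N₀ x * dual N₁ x) =
      (N₀ p * dual N₀ x) * (N₁ p * dual N₁ x) by ring]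
    exact mul_le_mul (h₀.1.abs_inner_le p x) (h₁.1.abs_inner_le p x) (abs_nonneg _)
      (mul_nonneg (h₀.1.toSub.nonneg p) (n₀ x))
  have b₀ := h₀.1.toSub.bd_comp (psi_continuousOn r)
  have b₁ := h₁.1.toSub.bd_comp (psi_continuousOn r)
  have hav : av (fun p => psi r (dual (fun x => √(dual N₀ x * dual N₁ x)) p)) ≤
      (1 / 2) * (av (fun p => psi r (N₀ p)) + av (fun p => psi r (N₁ p))) := by
    rw [← av_add b₀ b₁, ← av_const_mul]
    refine av_mono (hN.toSub.bd_comp (psi_continuousOn r)) ((b₀.add b₁).const_mul _) fun p hp => ?_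
    have p₀ := h₀.1.pos p (el_ne hp)
    have p₁ := h₁.1.pos p (el_ne hp)
    have e1 := (psi_strictMonoOn r).monotoneOn (hN.pos p (el_ne hp))
      (Real.sqrt_pos.2 (mul_pos p₀ p₁)) (hle p)
    have e2 := psi_sqrt_le r p₀ p₁
    linarith
  have c₀ := el_cmp hμ h₀ hl he hc
  have c₁ := el_cmp hμ h₁ hl he hc
  have i₀ := hμ.integrable d₀.toSub.continuous
  have i₁ := hμ.integrable d₁.toSub.continuous
  have il := hμ.integrable hc
  have hnn : ∀ w, 0 ≤ dual N₀ w + dual N₁ w - 2 * √(dual N₀ w * dual N₁ w) := fun w => by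
    rw [Real.sqrt_mul (n₀ w)]
    nlinarith [sq_nonneg (√(dual N₀ w) - √(dual N₁ w)), Real.sq_sqrt (n₀ w), Real.sq_sqrt (n₁ w)]
  have hint : ∫ w, (dual N₀ w + dual N₁ w - 2 * √(dual N₀ w * dual N₁ w)) ∂μ = 0 := by
    refine le_antisymm ?_ (integral_nonneg hnn)
    have i₂ : Integrable (fun w => dual N₀ w + dual N₁ w) μ := i₀.add i₁
    rw [integral_sub i₂ (il.const_mul 2), integral_add i₀ i₁, integral_const_mul]
    linarith
  rw [integral_eq_zero_iff_of_nonneg hnn ((i₀.add i₁).sub (il.const_mul 2))] at hint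
  filter_upwards [hint] with w hw
  simp only [Pi.zero_apply] at hw
  have e := Real.sq_sqrt (mul_nonneg (n₀ w) (n₁ w))
  have e2 : (dual N₀ w - dual N₁ w) ^ 2 = 0 := by
    linear_combination (dual N₀ w + dual N₁ w + 2 * √(dual N₀ w * dual N₁ w)) * hw + 4 * e
  exact sub_eq_zero.1 (pow_eq_zero_iff two_ne_zero |>.1 e2)

theorem el_le {r : ℕ} {μ : Measure (E n)} (hμ : Good μ) {N₀ N₁ : E n → ℝ}
    (h₀ : IsMin r μ N₀) (h₁ : IsNorm N₁) (hae : ∀ᵐ w ∂μ, dual N₀ w = dual N₁ w) {p : E n}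
    (hp : ‖p‖ = 1) : N₀ p ≤ N₁ p := by
  have d₀ : IsNorm (dual N₀) := h₀.1.toSub.posH.isNorm_dual h₀.1.neg
  have d₁ : IsNorm (dual N₁) := h₁.toSub.posH.isNorm_dual h₁.neg
  have hl : PosH (fun x => max (dual N₀ x) (dual N₁ x)) := by
    refine el_posH d₀.toSub.posH d₁.toSub.posH (fun c x hc => ?_) fun x => ⟨min_le_max, le_rfl⟩
    rw [d₀.smul c x hc, d₁.smul c x hc, mul_max_of_nonneg _ _ hc]
  have he : ∀ x, max (dual N₀ (-x)) (dual N₁ (-x)) = max (dual N₀ x) (dual N₁ x) := fun x => by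
    rw [d₀.neg, d₁.neg]
  have hc : Continuous fun x => max (dual N₀ x) (dual N₁ x) :=
    d₀.toSub.continuous.max d₁.toSub.continuous
  have hN := hl.isNorm_dual he
  have l₀ : ∀ q, dual (fun x => max (dual N₀ x) (dual N₁ x)) q ≤ N₀ q := fun q =>
    (d₀.toSub.posH.dual_anti hl (fun x => le_max_left _ _) q).trans (h₀.1.toSub.posH.dual_dual_le q)
  have l₁ : ∀ q, dual (fun x => max (dual N₀ x) (dual N₁ x)) q ≤ N₁ q := fun q =>
    (d₁.toSub.posH.dual_anti hl (fun x => le_max_right _ _) q).trans (h₁.toSub.posH.dual_dual_le q)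
  have c₀ := el_cmp hμ h₀ hl he hc
  have hI : ∫ w, max (dual N₀ w) (dual N₁ w) ∂μ = ∫ w, dual N₀ w ∂μ := by
    refine integral_congr_ae ?_
    filter_upwards [hae] with w hw
    rw [← hw, max_self]
  rw [hI] at c₀
  have hz := eq_zero_of_av
    (f := fun q => psi r (N₀ q) - psi r (dual (fun x => max (dual N₀ x) (dual N₁ x)) q))
    (((psi_continuousOn r).comp h₀.1.toSub.continuous.continuousOn fun q hq => h₀.1.pos q hq).sub
      ((psi_continuousOn r).comp hN.toSub.continuous.continuousOn fun q hq => hN.pos q hq))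
    (fun q hq => sub_nonneg.2 ((psi_strictMonoOn r).monotoneOn (hN.pos q (el_ne hq))
      (h₀.1.pos q (el_ne hq)) (l₀ q)))
    (by
      rw [av_sub (h₀.1.toSub.bd_comp (psi_continuousOn r)) (hN.toSub.bd_comp (psi_continuousOn r))]
      linarith) p hp
  rw [(psi_strictMonoOn r).injOn (h₀.1.pos p (el_ne hp)) (hN.pos p (el_ne hp)) (sub_eq_zero.1 hz)]
  exact l₁ p

theorem IsMin.unique {r : ℕ} {μ : Measure (E n)} (hμ : Good μ) {N₀ N₁ : E n → ℝ}
    (h₀ : IsMin r μ N₀) (h₁ : IsMin r μ N₁) : N₀ = N₁ := by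
  have hae := el_ae hμ h₀ h₁
  exact h₀.1.toSub.ext_sphere h₁.1.toSub fun p hp => le_antisymm (el_le hμ h₀ h₁.1 hae hp)
    (el_le hμ h₁ h₀.1 (hae.mono fun w hw => hw.symm) hp)

end Crest.Agent.R230
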