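import Crest.Agent.R230.Dual

/-!
# R230/Pert

Adding a short segment to a body.  Let `K = body γ`, `K_t = K + t [-u, u]` (compact, convex, contains `K`),
`γ_t = pert γ u t ≤ γ`.
* Lower bound.  If `γ` is differentiable at `p`, `w = ∇γ p`, then `⟪w, y⟫ ≤ 1 + t |⟪w,u⟫|` on `K_t`
  (`inner_grad_le`), so `γ p = ⟪w, p⟫ ≤ γ_t p (1 + t |⟪w,u⟫|)`, and `1 - γ_t/γ ≤ t |⟪w,u⟫|`.
* Upper bound.  With `ε = ±1` the sign of `⟪w,u⟫`: if `λ > 0` and `γ (p - λ t ε u) ≤ λ` then
  `p ∈ λ K_t`, so `γ_t p ≤ λ`.  Take `λ = γ p (1 - t (|⟪w,u⟫| - δ))`; by differentiability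
  `γ (p - τ ε u) = γ p - τ |⟪w,u⟫| + o(τ)` with `τ = λ t = γ p · t + O(t²)`, which is `≤ λ` for small `t`.
So `(1 - γ_t p/γ p)/t → |⟪w,u⟫|` for a.e. `p`, with the bound `C ‖u‖` (`norm_grad_le`); dominated
convergence (`tendsto_integral_filter_of_dominated_convergence`).
-/

set_option autoImplicit false
set_option linter.unusedSectionVars false
set_option linter.unusedVariables false

namespace Crest.Agent.R230

open MeasureTheory Metric Set Filter Topology
open scoped RealInnerProductSpace ENNReal Pointwise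

variable {n : ℕ} [NeZero n]

theorem pert_mem_iff (γ : E n → ℝ) (u : E n) (t : ℝ) (y : E n) :
    y ∈ body γ + t • segment ℝ (-u) u ↔ ∃ x, γ x ≤ 1 ∧ ∃ s : ℝ, |s| ≤ 1 ∧ y = x + (t * s) • u := by
  constructor
  · rintro ⟨x, hx, z, ⟨z', ⟨a, b, ha, hb, hab, rfl⟩, rfl⟩, rfl⟩
    refine ⟨x, hx, b - a, abs_le.mpr ⟨by linarith, by linarith⟩, ?_⟩
    simp only
    module
  · rintro ⟨x, hx, s, hs, rfl⟩
    obtain ⟨h1, h2⟩ := abs_le.mp hs
    refine ⟨x, hx, (t * s) • u, ⟨s • u, ⟨(1 - s) / 2, (1 + s) / 2, by linarith, by linarith, by ring, ?_⟩, ?_⟩, rfl⟩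
    · module
    · simp only [mul_smul]

theorem pert_subset (γ : E n → ℝ) (u : E n) (t : ℝ) : body γ ⊆ body γ + t • segment ℝ (-u) u :=
  fun x hx => (pert_mem_iff γ u t x).mpr ⟨x, hx, 0, by simp, by simp⟩

theorem pert_compact {γ : E n → ℝ} (h : Sub γ) (u : E n) (t : ℝ) :
    IsCompact (body γ + t • segment ℝ (-u) u) := by
  refine h.isCompact_body.add (IsCompact.smul t ?_)
  rw [segment_eq_image]
  exact isCompact_Icc.image (by fun_prop)

theorem pert_convex {γ : E n → ℝ} (h : Sub γ) (u : E n) (t : ℝ) :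
    Convex ℝ (body γ + t • segment ℝ (-u) u) :=
  h.convex_body.add ((convex_segment _ _).smul t)

theorem Sub.pert_spec {γ : E n → ℝ} (h : Sub γ) (u : E n) {t : ℝ} (ht : 0 ≤ t) :
    Sub (pert γ u t) ∧ body (pert γ u t) = body γ + t • segment ℝ (-u) u :=
  sub_gauge (pert_compact h u t) (pert_convex h u t)
    (interior_mono (pert_subset γ u t) h.zero_mem_interior)

theorem IsNorm.pert {N : E n → ℝ} (h : IsNorm N) (u : E n) {t : ℝ} (ht : 0 ≤ t) :
    IsNorm (pert N u t) := by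
  refine isNorm_gauge (pert_compact h.toSub u t) (pert_convex h.toSub u t)
    (interior_mono (pert_subset N u t) h.toSub.zero_mem_interior) fun y hy => ?_
  obtain ⟨x, hx, s, hs, rfl⟩ := (pert_mem_iff N u t y).mp hy
  refine (pert_mem_iff N u t _).mpr ⟨-x, by rwa [h.neg], -s, by rwa [abs_neg], ?_⟩
  module

theorem Sub.pert_le {γ : E n → ℝ} (h : Sub γ) (u : E n) {t : ℝ} (ht : 0 ≤ t) (x : E n) :
    pert γ u t x ≤ γ x := by
  have h1 := gauge_mono (absorbent_nhds_zero (mem_interior_iff_mem_nhds.mp h.zero_mem_interior))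
    (pert_subset γ u t) x
  rwa [h.gauge_body] at h1

theorem Sub.dual_pert_le {γ : E n → ℝ} (h : Sub γ) (u : E n) {t : ℝ} (ht : 0 ≤ t) (w : E n) :
    dual (pert γ u t) w ≤ dual γ w + t * |⟪w, u⟫| := by
  obtain ⟨h1, h2⟩ := h.pert_spec u ht
  refine h1.posH.dual_le fun y hy => ?_
  have hy' : y ∈ body (pert γ u t) := hy
  rw [h2] at hy'
  obtain ⟨x, hx, s, hs, rfl⟩ := (pert_mem_iff γ u t y).mp hy'
  have a1 := h.posH.inner_le x w
  have a2 := h.posH.dual_nonneg w
  have a3 : s * ⟪u, w⟫ ≤ |⟪w, u⟫| := by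
    rw [real_inner_comm u w]
    calc s * ⟪u, w⟫ ≤ |s * ⟪u, w⟫| := le_abs_self _
      _ = |s| * |⟪u, w⟫| := abs_mul _ _
      _ ≤ 1 * |⟪u, w⟫| := mul_le_mul_of_nonneg_right hs (abs_nonneg _)
      _ = _ := one_mul _
  rw [inner_add_left, real_inner_smul_left]
  nlinarith [mul_le_mul_of_nonneg_left a3 ht, mul_le_mul_of_nonneg_right hx a2]

/-- the two-sided bound at a point of differentiability -/
theorem pert_bounds {γ : E n → ℝ} (h : Sub γ) (u : E n) {p : E n} (hp0 : p ≠ 0)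
    (hp : DifferentiableAt ℝ γ p) {t : ℝ} (ht : 0 < t) :
    0 ≤ (1 - pert γ u t p / γ p) / t ∧ (1 - pert γ u t p / γ p) / t ≤ |⟪gradient γ p, u⟫| := by
  have hγ := h.pos p hp0
  have h1 := (h.pert_spec u ht.le).1
  have hle := h.pert_le u ht.le p
  have h0 := h1.nonneg p
  refine ⟨div_nonneg (sub_nonneg.mpr ((div_le_one hγ).mpr hle)) ht.le, ?_⟩
  set a := |⟪gradient γ p, u⟫| with ha
  have ha0 : 0 ≤ a := abs_nonneg _
  have d1 : dual γ (gradient γ p) ≤ 1 := h.posH.dual_le fun x hx => by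
    rw [real_inner_comm]; exact (h.inner_grad_le hp x).trans hx
  have d2 := h.dual_pert_le u ht.le (gradient γ p)
  have d3 := h1.posH.inner_le p (gradient γ p)
  rw [real_inner_comm, h.inner_grad_self hp] at d3
  have d4 : γ p ≤ pert γ u t p * (1 + t * a) :=
    d3.trans (mul_le_mul_of_nonneg_left (by linarith) h0)
  rw [div_le_iff₀ ht, sub_le_iff_le_add, ← sub_le_iff_le_add', le_div_iff₀ hγ]
  have hta : 0 ≤ t * a := mul_nonneg ht.le ha0
  nlinarith [mul_le_mul_of_nonneg_left hle hta]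

theorem pert_le_of {γ : E n → ℝ} (h : Sub γ) (u : E n) {t : ℝ} (ht : 0 ≤ t) {p : E n} {l s : ℝ}
    (hl : 0 < l) (hs : |s| ≤ 1) (hle : γ (p - (l * t * s) • u) ≤ l) : pert γ u t p ≤ l := by
  obtain ⟨h1, h2⟩ := h.pert_spec u ht
  have hm : l⁻¹ • p ∈ body (pert γ u t) := by
    rw [h2]
    refine (pert_mem_iff γ u t _).mpr ⟨l⁻¹ • (p - (l * t * s) • u), ?_, s, hs, ?_⟩
    · rw [h.smul _ _ (inv_nonneg.mpr hl.le), inv_mul_le_iff₀ hl, mul_one]; exact hle
    · rw [smul_sub, smul_smul, show l⁻¹ * (l * t * s) = t * s by field_simp, sub_add_cancel]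
  have hm' : pert γ u t (l⁻¹ • p) ≤ 1 := hm
  rwa [h1.smul _ _ (inv_nonneg.mpr hl.le), inv_mul_le_iff₀ hl, mul_one] at hm'

theorem Sub.tendsto_pert_pt {γ : E n → ℝ} (h : Sub γ) (u : E n) {p : E n} (hp0 : p ≠ 0)
    (hp : DifferentiableAt ℝ γ p) :
    Tendsto (fun t => (1 - pert γ u t p / γ p) / t) (𝓝[>] 0) (𝓝 |⟪gradient γ p, u⟫|) := by
  have hγ := h.pos p hp0
  refine tendsto_order.mpr ⟨fun b hb => ?_, fun b hb => ?_⟩
  · obtain ⟨s, hs, hsa⟩ : ∃ s : ℝ, |s| ≤ 1 ∧ s * ⟪gradient γ p, u⟫ = |⟪gradient γ p, u⟫| := by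
      rcases le_total 0 ⟪gradient γ p, u⟫ with h0 | h0
      · exact ⟨1, by simp, by rw [one_mul, abs_of_nonneg h0]⟩
      · exact ⟨-1, by simp, by rw [abs_of_nonpos h0]; ring⟩
    set a := |⟪gradient γ p, u⟫| with ha
    set c := (a + b) / 2 with hc
    have hl : HasDerivAt (fun t : ℝ => γ p * (1 - t * c)) (γ p * (-c)) 0 := by
      simpa using (((hasDerivAt_id (0 : ℝ)).mul_const c).const_sub 1).const_mul (γ p)
    have hm : HasDerivAt (fun t : ℝ => γ p * (1 - t * c) * t * s) (γ p * s) 0 := by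
      simpa using (hl.mul (hasDerivAt_id (0 : ℝ))).mul_const s
    have hcurve : HasDerivAt (fun t : ℝ => p - (γ p * (1 - t * c) * t * s) • u) (-((γ p * s) • u)) 0 :=
      (hm.smul_const u).const_sub p
    have hcomp := hp.hasFDerivAt.comp_hasDerivAt_of_eq (0 : ℝ) hcurve (by simp)
    have hval : fderiv ℝ γ p (-((γ p * s) • u)) = -(γ p * a) := by
      rw [← inner_grad, inner_neg_right, real_inner_smul_right, mul_assoc, hsa]
    rw [hval] at hcomp
    have hφ := (hcomp.sub hl).tendsto_slope_zero_right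
    have hneg : -(γ p * a) - γ p * (-c) < 0 := by
      have : c < a := by rw [hc]; linarith
      nlinarith
    have e1 := hφ.eventually (gt_mem_nhds hneg)
    have e2 : ∀ᶠ t : ℝ in 𝓝[>] 0, 0 < γ p * (1 - t * c) := by
      have := hl.continuousAt.tendsto
      simp only [zero_mul, sub_zero, mul_one] at this
      exact (this.mono_left nhdsWithin_le_nhds).eventually (lt_mem_nhds hγ)
    filter_upwards [e1, e2, self_mem_nhdsWithin] with t ht1 ht2 ht3
    have ht : 0 < t := ht3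
    simp only [Pi.sub_apply, Function.comp_apply, zero_add, zero_mul, sub_zero, mul_one, mul_zero,
      zero_smul, sub_self, smul_eq_mul] at ht1
    have h4 : γ (p - (γ p * (1 - t * c) * t * s) • u) ≤ γ p * (1 - t * c) := by
      have := neg_of_mul_neg_right ht1 (inv_nonneg.mpr ht.le)
      linarith
    have h5 := pert_le_of h u ht.le ht2 hs h4
    have h6 : pert γ u t p / γ p ≤ 1 - t * c := by rw [div_le_iff₀ hγ]; linarith
    have h7 : b < c := by rw [hc]; linarith
    rw [lt_div_iff₀ ht]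
    nlinarith
  · filter_upwards [self_mem_nhdsWithin] with t ht
    exact (pert_bounds h u hp0 hp ht).2.trans_lt hb

theorem Sub.tendsto_pert {γ : E n → ℝ} (h : Sub γ) (u : E n) {g : E n → ℝ} (hg : Bd g) :
    Tendsto (fun t => av (fun p => g p * (1 - pert γ u t p / γ p)) / t) (𝓝[>] 0)
      (𝓝 (av (fun p => g p * |⟪gradient γ p, u⟫|))) := by
  obtain ⟨hgm, Cg, hCg⟩ := hg
  obtain ⟨c, C, hc, hb⟩ := h.posH.bds
  have e : (fun t : ℝ => av (fun p => g p * (1 - pert γ u t p / γ p)) / t) =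
      fun t : ℝ => ∫ p, g p * ((1 - pert γ u t p / γ p) / t) ∂sph n := by
    funext t
    rw [av, ← integral_div]
    simp only [mul_div_assoc]
  rw [e]
  have hne : ∀ p : E n, ‖p‖ = 1 → p ≠ 0 := by
    rintro p hp rfl
    simp at hp
  refine tendsto_integral_filter_of_dominated_convergence (fun _ => Cg * (C * ‖u‖)) ?_ ?_
    (integrable_const _) ?_
  · filter_upwards [self_mem_nhdsWithin] with t ht
    have h1 := (h.pert_spec u (le_of_lt ht)).1.continuous.measurable
    have h2 := h.continuous.measurable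
    exact (hgm.mul (((h1.div h2).const_sub 1).div_const t)).aestronglyMeasurable
  · filter_upwards [self_mem_nhdsWithin] with t ht
    filter_upwards [ae_norm_sph, h.lh.ae_diff] with p hp hd
    obtain ⟨b1, b2⟩ := pert_bounds h u (hne p hp) hd ht
    rw [Real.norm_eq_abs, abs_mul, abs_of_nonneg b1]
    refine mul_le_mul (hCg p hp) (b2.trans ?_) b1 ((abs_nonneg _).trans (hCg p hp))
    exact (abs_real_inner_le_norm _ _).trans
      (mul_le_mul_of_nonneg_right (h.norm_grad_le (fun x => (hb x).2) p) (norm_nonneg _))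
  · filter_upwards [ae_norm_sph, h.lh.ae_diff] with p hp hd
    exact (h.tendsto_pert_pt u (hne p hp) hd).const_mul _

end Crest.Agent.R230
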