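import Crest.Agent.R230.Exist
import Crest.Agent.R230.Pert

/-!
# R230/EL0

First variations and uniqueness.
`el1`: compare with `pert N v t`: `0 ≤ t ∫ |⟪w,v⟫| + av (N^r (N_t/N - 1))` (`dual_pert_le`, `psi_le`);
divide by `t` and use `tendsto_pert`.
`el2`: compare with `λ⁻¹ N`, `0 < λ < 1`: `0 ≤ (λ - 1) H + (1/λ - 1) av N^r`, so `λ H ≤ av N^r`.
`IsMin.unique`: `h_i = dual N_i`, `l = √(h₀ h₁)` is `PosH` and even, `N = dual l` is a norm with
`N ≤ √(N₀ N₁)` (`|⟪x,p⟫| ≤ h_i x N_i p` for both `i`, `dual_le'`) and `dual N ≤ l`.  Minimality and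
`psi_sqrt_le` give `∫ ((h₀+h₁)/2 - √(h₀h₁)) dμ ≤ 0`, so `h₀ = h₁` a.e.  Then `l' = max h₀ h₁`, `N' = dual l'`
has `N' ≤ min N₀ N₁` (`dual_anti`, `dual_dual_le`), `dual N' ≤ l' = h₀` a.e.; so
`av (psi N₀ - psi (min N₀ N₁)) ≤ 0`, hence `N₀ ≤ N₁` on the sphere (`eq_zero_of_av`, strict
monotonicity); symmetrically `N₁ ≤ N₀`; `Sub.ext_sphere`.
-/

set_option autoImplicit false
set_option linter.unusedSectionVars false
set_option linter.unusedVariables false

namespace Crest.Agent.R230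

open MeasureTheory Metric Set Filter Topology
open scoped RealInnerProductSpace ENNReal Pointwise

variable {n : ℕ} [NeZero n]

theorem el0_key {r : ℕ} (hr : r ≤ 1) {μ : Measure (E n)} {N N' : E n → ℝ}
    (h : IsMin r μ N) (h' : IsNorm N') :
    av (fun p => N p ^ r * (1 - N' p / N p)) ≤ ∫ w, dual N' w ∂μ - ∫ w, dual N w ∂μ := by
  have hN := h.1.toSub
  have h1 := h.2 N' h'
  have hb : Bd fun p => N p ^ r * (1 - N' p / N p) := by
    simpa only [pow_one, div_eq_mul_inv] using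
      (hN.bd.pow r).mul ((bd_const 1).sub (h'.toSub.bd.mul (hN.bd_inv_pow 1)))
  have h2 : av (fun p => psi r (N' p)) ≤
      av (fun p => psi r (N p) - N p ^ r * (1 - N' p / N p)) := by
    refine av_mono (h'.toSub.bd_comp (psi_continuousOn r))
      ((hN.bd_comp (psi_continuousOn r)).sub hb) fun p hp => ?_
    have hp0 : p ≠ 0 := by
      rintro rfl
      simp at hp
    linarith [psi_le hr (hN.pos p hp0) (h'.toSub.pos p hp0)]
  rw [av_sub (hN.bd_comp (psi_continuousOn r)) hb] at h2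
  unfold Phi at h1
  linarith

theorem IsMin.el1 {r : ℕ} (hr : r ≤ 1) {μ : Measure (E n)} (hμ : Good μ) {N : E n → ℝ}
    (h : IsMin r μ N) (v : E n) :
    av (fun p => N p ^ r * |⟪gradient N p, v⟫|) ≤ ∫ w, |⟪w, v⟫| ∂μ := by
  have hN := h.1.toSub
  refine le_of_tendsto (hN.tendsto_pert v (hN.bd.pow r)) ?_
  filter_upwards [self_mem_nhdsWithin] with t ht
  have ht0 : (0 : ℝ) < t := ht
  have h1 := el0_key hr h (h.1.pert v ht0.le)
  have hi0 := hμ.integrable hN.posH.sub_dual.continuous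
  have hi1 : Integrable (fun w => |⟪w, v⟫|) μ := hμ.integrable (by fun_prop)
  have h2 : ∫ w, dual (pert N v t) w ∂μ ≤ ∫ w, (dual N w + t * |⟪w, v⟫|) ∂μ :=
    integral_mono (hμ.integrable (hN.pert_spec v ht0.le).1.posH.sub_dual.continuous)
      (hi0.add (hi1.const_mul t)) (hN.dual_pert_le v ht0.le)
  rw [integral_add hi0 (hi1.const_mul t), integral_const_mul] at h2
  rw [div_le_iff₀ ht0]
  linarith

theorem IsMin.el2 {r : ℕ} (hr : r ≤ 1) {μ : Measure (E n)} (hμ : Good μ) {N : E n → ℝ}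
    (h : IsMin r μ N) : ∫ w, dual N w ∂μ ≤ av (fun p => N p ^ r) := by
  have hN := h.1.toSub
  have key : ∀ l : ℝ, 0 < l → l < 1 → l * ∫ w, dual N w ∂μ ≤ av (fun p => N p ^ r) := by
    intro l h0 h1
    have h2 := el0_key hr h (h.1.const_mul (inv_pos.2 h0))
    have h3 : av (fun p => N p ^ r * (1 - l⁻¹ * N p / N p)) = (1 - l⁻¹) * av (fun p => N p ^ r) := by
      rw [← av_const_mul]
      refine av_congr fun p hp => ?_
      have hp0 : p ≠ 0 := by
        rintro rfl
        simp at hp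
      rw [mul_div_assoc, div_self (hN.pos p hp0).ne', mul_one, mul_comm]
    simp only [hN.posH.dual_const_mul (inv_pos.2 h0), inv_inv, integral_const_mul] at h2
    rw [h3] at h2
    have h4 := mul_le_mul_of_nonneg_left h2 h0.le
    rw [← mul_assoc, mul_sub, mul_inv_cancel₀ h0.ne', mul_one] at h4
    have h5 : (1 - l) * (l * ∫ w, dual N w ∂μ) ≤ (1 - l) * av (fun p => N p ^ r) := by linarith
    exact le_of_mul_le_mul_left h5 (by linarith)
  have h1 : Tendsto (fun l : ℝ => l * ∫ w, dual N w ∂μ) (𝓝[<] 1) (𝓝 (1 * ∫ w, dual N w ∂μ)) :=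
    ((continuous_mul_const _).tendsto 1).mono_left nhdsWithin_le_nhds
  rw [one_mul] at h1
  refine le_of_tendsto h1 ?_
  filter_upwards [Ioo_mem_nhdsLT (zero_lt_one' ℝ)] with l hl using key l hl.1 hl.2

end Crest.Agent.R230
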