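import Crest.Agent.R230.Shadow

/-!
# R230/Ell

Ellipsoids.  For a unit vector `u` let `v = T⁻¹ u`, `v₁ = v/‖v‖`.  Then
`T B + [0, u] = T (B + [0, ‖v‖ v₁])`, so `vol_add_segment`, `vol_image`, `shadow_ball` give the shadow.
Hence `PiB (T B) = {x | ∀ v, ⟪x, T v⟫ ≤ c ‖v‖} = {x | ‖T* x‖ ≤ c}`, `c = adet T κ_{n-1}`, a preimage of a
ball under the adjoint, whose determinant has the same absolute value
(`LinearMap.det_adjoint`-like: go through `LinearMap.toMatrix_adjoint` and `Matrix.det_conjTranspose`;
`Measure.addHaar_preimage_linearMap`).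
-/

set_option autoImplicit false
set_option linter.unusedSectionVars false
set_option linter.unusedVariables false

namespace Crest.Agent.R230

open MeasureTheory Metric Set Filter Topology
open scoped RealInnerProductSpace ENNReal Pointwise

variable {n : ℕ} [NeZero n]

theorem shadow_ell (T : E n ≃L[ℝ] E n) {u : E n} (hu : ‖u‖ = 1) :
    shadow (T '' closedBall 0 1) u = adet T * ‖T.symm u‖ * kap (n - 1) := by
  have hv : T.symm u ≠ 0 := fun h => by
    rw [(map_eq_zero_iff _ T.symm.injective).1 h, norm_zero] at hu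
    exact zero_ne_one hu
  have hv' := norm_ne_zero_iff.2 hv
  have hB := isCompact_closedBall (0 : E n) 1
  have h1 := vol_add_segment (hB.image T.continuous)
    ((convex_closedBall (0 : E n) 1).linear_image (T : E n →ₗ[ℝ] E n)) hu zero_le_one
  have h2 := vol_add_segment hB (convex_closedBall 0 1) (norm_smul_inv_norm (𝕜 := ℝ) hv)
    (norm_nonneg (T.symm u))
  have h3 : T '' (closedBall 0 1 + segment ℝ 0 (T.symm u)) =
      T '' closedBall 0 1 + segment ℝ 0 ((1 : ℝ) • u) := by
    have := image_segment ℝ (T : E n →ₗ[ℝ] E n).toAffineMap 0 (T.symm u)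
    rw [image_add]
    congr 1
    simpa using this
  rw [shadow_ball (norm_smul_inv_norm (𝕜 := ℝ) hv), RCLike.ofReal_real_eq_id, id, smul_smul,
    mul_inv_cancel₀ hv', one_smul] at h2
  rw [← h3, vol_image, vol_image, h2] at h1
  linarith

theorem ell_det_adjoint (T : E n →ₗ[ℝ] E n) : LinearMap.det (LinearMap.adjoint T) = LinearMap.det T := by
  have b := EuclideanSpace.basisFun (Fin n) ℝ
  rw [← LinearMap.det_toMatrix b.toBasis, ← LinearMap.det_toMatrix b.toBasis T,
    LinearMap.toMatrix_adjoint, Matrix.det_conjTranspose, star_trivial]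

theorem volume_piB_ell (T : E n ≃L[ℝ] E n) :
    volume (PiB (T '' closedBall (0 : E n) 1)) =
      ENNReal.ofReal (kap (n - 1) ^ n * adet T ^ (n - 1) * kap n) := by
  have ha := adet_pos T
  have hk := kap_pos (n - 1)
  have h1 : PiB (T '' closedBall (0 : E n) 1) =
      LinearMap.adjoint (T : E n →ₗ[ℝ] E n) ⁻¹' closedBall 0 (adet T * kap (n - 1)) := by
    ext x
    simp only [PiB, mem_iInter, mem_ofPred_eq, mem_preimage, mem_closedBall_zero_iff,
      mem_sphere_zero_iff_norm]
    have e : ∀ v, ⟪LinearMap.adjoint (T : E n →ₗ[ℝ] E n) x, v⟫ = ⟪x, T v⟫ := fun v =>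
      LinearMap.adjoint_inner_left _ _ _
    generalize LinearMap.adjoint (T : E n →ₗ[ℝ] E n) x = w at e
    constructor
    · intro h
      rcases eq_or_ne w 0 with rfl | hw
      · rw [norm_zero]; positivity
      have hT : T w ≠ 0 := (map_ne_zero_iff _ T.injective).2 hw
      have h2 := h _ (norm_smul_inv_norm (𝕜 := ℝ) hT)
      have h3 := norm_pos_iff.2 hT
      have h4 := norm_pos_iff.2 hw
      rw [shadow_ell T (norm_smul_inv_norm (𝕜 := ℝ) hT), RCLike.ofReal_real_eq_id, id, map_smul,
        T.symm_apply_apply, inner_smul_right, ← e, real_inner_self_eq_norm_mul_norm, norm_smul,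
        norm_inv, norm_norm] at h2
      refine le_of_mul_le_mul_left (a := ‖T w‖⁻¹ * ‖w‖) ?_ (by positivity)
      linarith
    · intro h u hu
      rw [shadow_ell T hu]
      have h2 := e (T.symm u)
      rw [T.apply_symm_apply] at h2
      have := mul_le_mul_of_nonneg_right h (norm_nonneg (T.symm u))
      linarith [real_inner_le_norm w (T.symm u)]
  have hd : LinearMap.det (T : E n →ₗ[ℝ] E n) ≠ 0 := abs_pos.1 ha
  rw [h1, Measure.addHaar_preimage_linearMap _ (by rwa [ell_det_adjoint]), ell_det_adjoint,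
    Measure.addHaar_closedBall _ _ (by positivity), finrank_euclideanSpace_fin, abs_inv,
    ← ENNReal.ofReal_toReal (measure_ball_lt_top (μ := volume) (x := (0 : E n)) (r := 1)).ne,
    ← ENNReal.ofReal_mul (by positivity), ← ENNReal.ofReal_mul (by positivity)]
  congr 1
  obtain ⟨m, rfl⟩ := Nat.exists_eq_succ_of_ne_zero (NeZero.ne n)
  change (adet T)⁻¹ * ((adet T * kap m) ^ (m + 1) * kap (m + 1)) =
    kap m ^ (m + 1) * adet T ^ m * kap (m + 1)
  field_simp
  ring

end Crest.Agent.R230
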