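import Crest.Agent.R230.LHom

/-!
# R230/SubF

Positive sublinear functions.
`bounds`: `γ x ≤ ∑ |x i| max (γ (e i)) (γ (-e i))` gives the upper bound, hence
`|γ x - γ y| ≤ C ‖x - y‖`; the lower bound is the minimum on the compact unit sphere.
`inner_grad_le`: `γ (p + t z) - γ p ≤ t γ z`, divide by `t → 0+`.
`vol_body`: `body γ` and the star body with `ρ = γ⁻¹` differ at most in the origin (`volume_star`).
`sub_gauge`: `gauge_add_le`, `gauge_smul_of_nonneg`, `gauge_pos`, `gauge_le_one_iff_mem_closure`.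
-/

set_option autoImplicit false
set_option linter.unusedSectionVars false
set_option linter.unusedVariables false

namespace Crest.Agent.R230

open MeasureTheory Metric Set Filter Topology
open scoped RealInnerProductSpace ENNReal Pointwise

variable {n : ℕ} [NeZero n]

theorem Sub.zero {γ : E n → ℝ} (h : Sub γ) : γ 0 = 0 := by
  have := h.smul 0 0 le_rfl
  simpa using this
theorem Sub.nonneg {γ : E n → ℝ} (h : Sub γ) (x : E n) : 0 ≤ γ x := by
  by_cases hx : x = 0
  · rw [hx, h.zero]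
  · exact (h.pos x hx).le

theorem subf_convexOn {γ : E n → ℝ} (h : Sub γ) : ConvexOn ℝ univ γ :=
  ⟨convex_univ, fun x _ y _ a b ha hb _ => by
    have := h.add_le (a • x) (b • y)
    rw [h.smul a x ha, h.smul b y hb] at this
    simpa using this⟩

theorem subf_continuous {γ : E n → ℝ} (h : Sub γ) : Continuous γ :=
  continuousOn_univ.mp ((subf_convexOn h).continuousOn isOpen_univ)

theorem subf_norm_unit {x : E n} (hx : x ≠ 0) : ‖‖x‖⁻¹ • x‖ = 1 := by
  rw [norm_smul, norm_inv, norm_norm, inv_mul_cancel₀ (norm_ne_zero_iff.mpr hx)]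

theorem subf_polar {γ : E n → ℝ} (h : Sub γ) {x : E n} (hx : x ≠ 0) : γ x = γ (‖x‖⁻¹ • x) * ‖x‖ := by
  rw [h.smul _ _ (inv_nonneg.mpr (norm_nonneg x)), mul_comm, ← mul_assoc,
    mul_inv_cancel₀ (norm_ne_zero_iff.mpr hx), one_mul]

theorem subf_exists_unit : ∃ p : E n, ‖p‖ = 1 := by
  obtain ⟨x, hx⟩ := exists_ne (0 : E n)
  exact ⟨_, subf_norm_unit hx⟩

theorem Sub.posH {γ : E n → ℝ} (h : Sub γ) : PosH γ := by
  refine ⟨h.smul, ?_⟩
  have hne : (sphere (0 : E n) 1).Nonempty := by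
    obtain ⟨p, hp⟩ := subf_exists_unit (n := n)
    exact ⟨p, by simpa using hp⟩
  obtain ⟨a, ha, hamin⟩ := (isCompact_sphere (0 : E n) 1).exists_isMinOn hne
    (subf_continuous h).continuousOn
  obtain ⟨b, hb, hbmax⟩ := (isCompact_sphere (0 : E n) 1).exists_isMaxOn hne
    (subf_continuous h).continuousOn
  have ha1 : ‖a‖ = 1 := by simpa using ha
  have ha0 : a ≠ 0 := by
    intro h0
    rw [h0, norm_zero] at ha1
    exact zero_ne_one ha1
  refine ⟨γ a, γ b, h.pos a ha0, fun x => ?_⟩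
  by_cases hx : x = 0
  · simp [hx, h.zero]
  · have hs : ‖x‖⁻¹ • x ∈ sphere (0 : E n) 1 := by simpa using subf_norm_unit hx
    rw [subf_polar h hx]
    exact ⟨mul_le_mul_of_nonneg_right (hamin hs) (norm_nonneg x),
      mul_le_mul_of_nonneg_right (hbmax hs) (norm_nonneg x)⟩
theorem Sub.abs_sub_le {γ : E n → ℝ} (h : Sub γ) {C : ℝ} (hC : ∀ x, γ x ≤ C * ‖x‖) (x y : E n) :
    |γ x - γ y| ≤ C * ‖x - y‖ := by
  have h1 := h.add_le (x - y) y
  have h2 := h.add_le (y - x) x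
  have h3 := hC (x - y)
  have h4 := hC (y - x)
  rw [sub_add_cancel] at h1 h2
  rw [norm_sub_rev] at h4
  rw [abs_le]
  constructor <;> linarith
theorem Sub.lipschitz {γ : E n → ℝ} (h : Sub γ) : ∃ K, LipschitzWith K γ := by
  obtain ⟨c, C, -, hC⟩ := h.posH.bds
  refine ⟨C.toNNReal, LipschitzWith.of_dist_le_mul fun x y => ?_⟩
  rw [Real.dist_eq, dist_eq_norm]
  refine (h.abs_sub_le (fun x => (hC x).2) x y).trans ?_
  exact mul_le_mul_of_nonneg_right (Real.le_coe_toNNReal C) (norm_nonneg _)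
theorem Sub.continuous {γ : E n → ℝ} (h : Sub γ) : Continuous γ := subf_continuous h
theorem Sub.convexOn {γ : E n → ℝ} (h : Sub γ) : ConvexOn ℝ univ γ := subf_convexOn h
theorem Sub.lh {γ : E n → ℝ} (h : Sub γ) : LH 1 γ := by
  refine ⟨fun r x hr => by rw [h.smul r x hr.le, pow_one], ?_⟩
  obtain ⟨K, hK⟩ := h.lipschitz
  exact hK.locallyLipschitz.locallyLipschitzOn

theorem subf_contOn_comp {γ : E n → ℝ} (h : Sub γ) {g : ℝ → ℝ} (hg : ContinuousOn g (Ioi 0)) :
    ContinuousOn (fun p => g (γ p)) ({0}ᶜ : Set (E n)) :=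
  hg.comp h.continuous.continuousOn fun x hx => h.pos x hx

theorem subf_contOn_inv_pow (k : ℕ) : ContinuousOn (fun x : ℝ => x⁻¹ ^ k) (Ioi 0) :=
  (continuousOn_id.inv₀ fun x hx => (ne_of_gt hx)).pow k

theorem Sub.bd {γ : E n → ℝ} (h : Sub γ) : Bd γ := h.lh.bd
theorem Sub.bd_inv_pow {γ : E n → ℝ} (h : Sub γ) (k : ℕ) : Bd (fun p => (γ p)⁻¹ ^ k) :=
  bd_of_continuousOn (subf_contOn_comp h (subf_contOn_inv_pow k))
/-- composition with a function continuous on `(0, ∞)` -/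
theorem Sub.bd_comp {γ : E n → ℝ} (h : Sub γ) {g : ℝ → ℝ} (hg : ContinuousOn g (Ioi 0)) :
    Bd (fun p => g (γ p)) := bd_of_continuousOn (subf_contOn_comp h hg)
theorem Sub.av_inv_pow_pos {γ : E n → ℝ} (h : Sub γ) (k : ℕ) : 0 < av (fun p => (γ p)⁻¹ ^ k) := by
  refine av_pos (subf_contOn_comp h (subf_contOn_inv_pow k)) fun p hp => ?_
  have hp0 : p ≠ 0 := by
    intro h0
    rw [h0, norm_zero] at hp
    exact zero_ne_one hp
  have := h.pos p hp0
  positivity
theorem Sub.const_mul {γ : E n → ℝ} (h : Sub γ) {c : ℝ} (hc : 0 < c) : Sub (fun x => c * γ x) := by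
  refine ⟨fun x y => ?_, fun a x ha => ?_, fun x hx => mul_pos hc (h.pos x hx)⟩
  · rw [← mul_add]
    exact mul_le_mul_of_nonneg_left (h.add_le x y) hc.le
  · rw [h.smul a x ha]; ring
theorem Sub.inner_grad_le {γ : E n → ℝ} (h : Sub γ) {p : E n} (hp : DifferentiableAt ℝ γ p)
    (z : E n) : ⟪gradient γ p, z⟫ ≤ γ z := by
  rw [inner_grad]
  have h1 : HasDerivAt (fun t : ℝ => p + t • z) z 0 := by
    simpa using ((hasDerivAt_id (0 : ℝ)).smul_const z).const_add p
  have h2 : HasFDerivAt γ (fderiv ℝ γ p) ((fun t : ℝ => p + t • z) 0) := by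
    simpa using hp.hasFDerivAt
  have h3 : HasDerivAt (fun t : ℝ => γ (p + t • z)) (fderiv ℝ γ p z) 0 := h2.comp_hasDerivAt 0 h1
  refine le_of_tendsto h3.tendsto_slope_zero_right ?_
  filter_upwards [self_mem_nhdsWithin] with t ht
  have ht' : 0 < t := ht
  have h4 := h.add_le p (t • z)
  rw [h.smul t z ht'.le] at h4
  simp only [zero_add, zero_smul, add_zero, smul_eq_mul]
  rw [inv_mul_le_iff₀ ht']
  linarith
theorem Sub.inner_grad_self {γ : E n → ℝ} (h : Sub γ) {p : E n} (hp : DifferentiableAt ℝ γ p) :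
    ⟪gradient γ p, p⟫ = γ p := by
  have := h.lh.euler hp
  simpa using this
theorem Sub.norm_grad_le {γ : E n → ℝ} (h : Sub γ) {C : ℝ} (hC : ∀ x, γ x ≤ C * ‖x‖) (p : E n) :
    ‖gradient γ p‖ ≤ C := by
  have hC0 : 0 ≤ C := by
    obtain ⟨q, hq⟩ := subf_exists_unit (n := n)
    have := hC q
    rw [hq, mul_one] at this
    exact (h.nonneg q).trans this
  by_cases hp : DifferentiableAt ℝ γ p
  · have h1 := h.inner_grad_le hp (gradient γ p)
    rw [real_inner_self_eq_norm_sq] at h1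
    have h2 := hC (gradient γ p)
    rcases (norm_nonneg (gradient γ p)).eq_or_lt with h0 | h0
    · rw [← h0]; exact hC0
    · have : ‖gradient γ p‖ * ‖gradient γ p‖ ≤ C * ‖gradient γ p‖ := by nlinarith
      exact le_of_mul_le_mul_right this h0
  · rw [gradient_eq_zero_of_not_differentiableAt hp, norm_zero]
    exact hC0
theorem Sub.isCompact_body {γ : E n → ℝ} (h : Sub γ) : IsCompact (body γ) := by
  obtain ⟨c, C, hc, hC⟩ := h.posH.bds
  refine Metric.isCompact_of_isClosed_isBounded (isClosed_le h.continuous continuous_const) ?_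
  refine (isBounded_closedBall (x := (0 : E n)) (r := c⁻¹)).subset fun x hx => ?_
  have h1 : γ x ≤ 1 := hx
  rw [mem_closedBall_zero_iff, ← mul_one c⁻¹, le_inv_mul_iff₀ hc]
  exact (hC x).1.trans h1
theorem Sub.convex_body {γ : E n → ℝ} (h : Sub γ) : Convex ℝ (body γ) := by
  have := h.convexOn.convex_le 1
  simpa [body] using this
theorem Sub.zero_mem_interior {γ : E n → ℝ} (h : Sub γ) : (0 : E n) ∈ interior (body γ) := by
  rw [mem_interior_iff_mem_nhds]
  have : Iic (1 : ℝ) ∈ 𝓝 (γ 0) := Iic_mem_nhds (by rw [h.zero]; exact one_pos)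
  exact h.continuous.continuousAt.preimage_mem_nhds this
theorem Sub.gauge_body {γ : E n → ℝ} (h : Sub γ) : gauge (body γ) = γ := by
  funext x
  by_cases hx : x = 0
  · rw [hx, gauge_zero, h.zero]
  · rw [gauge_def']
    have : {r ∈ Set.Ioi (0 : ℝ) | r⁻¹ • x ∈ body γ} = Ici (γ x) := by
      ext r
      simp only [mem_setOf_eq, mem_Ioi, mem_Ici, body]
      constructor
      · rintro ⟨hr, h1⟩
        rw [h.smul _ _ (inv_nonneg.mpr hr.le), inv_mul_le_iff₀ hr, mul_one] at h1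
        exact h1
      · intro h1
        have hr : 0 < r := (h.pos x hx).trans_le h1
        refine ⟨hr, ?_⟩
        rw [h.smul _ _ (inv_nonneg.mpr hr.le), inv_mul_le_iff₀ hr, mul_one]
        exact h1
    rw [this, csInf_Ici]
theorem Sub.vol_body {γ : E n → ℝ} (h : Sub γ) :
    vol (body γ) = kap n * av (fun p => (γ p)⁻¹ ^ n) := by
  have hb : Bd (fun p => (γ p)⁻¹) := by simpa using h.bd_inv_pow 1
  have h1 := volume_star hb (fun p _ => inv_nonneg.mpr (h.nonneg p))
  have h2 : volume (body γ) = volume {x : E n | ‖x‖ ≤ (γ (‖x‖⁻¹ • x))⁻¹} := by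
    apply measure_congr
    filter_upwards [(volume : Measure (E n)).ae_ne 0] with x hx
    have hu : ‖x‖⁻¹ • x ≠ 0 := by
      intro h0
      have := subf_norm_unit hx
      rw [h0, norm_zero] at this
      exact zero_ne_one this
    have hpos := h.pos _ hu
    apply propext
    change γ x ≤ 1 ↔ ‖x‖ ≤ (γ (‖x‖⁻¹ • x))⁻¹
    rw [subf_polar h hx, ← mul_one (γ (‖x‖⁻¹ • x))⁻¹, le_inv_mul_iff₀ hpos]
  unfold vol
  rw [h2, h1, ENNReal.toReal_ofReal (mul_pos (kap_pos n) (h.av_inv_pow_pos n)).le]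
theorem sub_gauge {K : Set (E n)} (hK : IsCompact K) (hc : Convex ℝ K) (h0 : (0 : E n) ∈ interior K) :
    Sub (gauge K) ∧ body (gauge K) = K := by
  have hn : K ∈ 𝓝 (0 : E n) := mem_interior_iff_mem_nhds.mp h0
  have ha : Absorbent ℝ K := absorbent_nhds_zero hn
  have hb : Bornology.IsVonNBounded ℝ K := hK.isVonNBounded ℝ
  refine ⟨⟨gauge_add_le hc ha, fun c x hc0 => ?_, fun x hx => (gauge_pos ha hb).mpr hx⟩, ?_⟩
  · rw [gauge_smul_of_nonneg hc0, smul_eq_mul]
  · ext x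
    change gauge K x ≤ 1 ↔ x ∈ K
    rw [gauge_le_one_iff_mem_closure hc hn, hK.isClosed.closure_eq]
theorem isNorm_gauge {K : Set (E n)} (hK : IsCompact K) (hc : Convex ℝ K)
    (h0 : (0 : E n) ∈ interior K) (hs : ∀ x ∈ K, -x ∈ K) : IsNorm (gauge K) :=
  ⟨(sub_gauge hK hc h0).1, gauge_neg hs⟩

theorem isNorm_norm {c : ℝ} (hc : 0 < c) : IsNorm (fun x : E n => c * ‖x‖) := by
  refine ⟨⟨fun x y => ?_, fun a x ha => ?_, fun x hx => mul_pos hc (norm_pos_iff.mpr hx)⟩, fun x => ?_⟩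
  · rw [← mul_add]
    exact mul_le_mul_of_nonneg_left (norm_add_le x y) hc.le
  · rw [norm_smul, Real.norm_of_nonneg ha]; ring
  · rw [norm_neg]
theorem IsNorm.const_mul {N : E n → ℝ} (h : IsNorm N) {c : ℝ} (hc : 0 < c) :
    IsNorm (fun x => c * N x) :=
  ⟨h.toSub.const_mul hc, fun x => by rw [h.neg]⟩
theorem IsNorm.comp {N : E n → ℝ} (h : IsNorm N) (T : E n ≃L[ℝ] E n) : IsNorm (fun x => N (T x)) := by
  refine ⟨⟨fun x y => ?_, fun a x ha => ?_, fun x hx => h.pos _ ?_⟩, fun x => ?_⟩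
  · rw [map_add]; exact h.add_le _ _
  · rw [map_smul, h.smul a _ ha]
  · simpa using hx
  · rw [map_neg, h.neg]
theorem IsNorm.smul_abs {N : E n → ℝ} (h : IsNorm N) (c : ℝ) (x : E n) : N (c • x) = |c| * N x := by
  rcases le_total 0 c with hc | hc
  · rw [h.smul c x hc, abs_of_nonneg hc]
  · rw [← h.neg, ← neg_smul, h.smul _ x (neg_nonneg.mpr hc), abs_of_nonpos hc]
theorem body_comp (N : E n → ℝ) (T : E n ≃L[ℝ] E n) :
    body (fun x => N (T.symm x)) = T '' body N := by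
  ext x
  constructor
  · intro hx
    exact ⟨T.symm x, hx, T.apply_symm_apply x⟩
  · rintro ⟨y, hy, rfl⟩
    change N (T.symm (T y)) ≤ 1
    rw [T.symm_apply_apply]
    exact hy
/-- two homogeneous functions that agree on the sphere agree -/
theorem Sub.ext_sphere {γ γ' : E n → ℝ} (h : Sub γ) (h' : Sub γ') (he : ∀ p, ‖p‖ = 1 → γ p = γ' p) :
    γ = γ' := by
  funext x
  by_cases hx : x = 0
  · rw [hx, h.zero, h'.zero]
  · rw [subf_polar h hx, subf_polar h' hx, he _ (subf_norm_unit hx)]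

end Crest.Agent.R230
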