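import Crest.Agent.R230.BM
import Crest.Agent.R230.SubF
import Crest.Agent.R230.Dual

/-!
# R230/EqA

From equality in the isoperimetric inequality to equality in Urysohn's inequality.
Let `a = V^(1/n)`, `k = κ^(1/n)`, so `H ≤ a^(n-1) k`.
`vol_add_ball_le`: fix `s > 0`, `c = vol (K + sB)^(1/n)`.  For `0 < λ ≤ 1`, `(1-λ) K + λ (K + sB) ⊆ K + λ s B`
(convexity), so by `bm`, `((1-λ) a + λ c)^n ≤ vol (K + λ s B) ≤ a^n + n λ s a^(n-1) k + C λ² s²`.  The left side
is `≥ a^n + n λ a^(n-1) (c - a)` (Bernoulli); let `λ → 0`: `c ≤ a + s k`.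
`mean_width_le`: `K = body γ`, `h = dual γ`, `K ⊆ R B`.  By scaling, `vol (B + εK) ≤ (k + ε a)^n`.
For a unit vector `p` take `z ∈ K` with `⟪z,p⟫ = h p` (compactness); the set `B + εK` is convex and
contains `0` and the point `ρ p`, `ρ = 1 + ε h p - ε² R²` (for small `ε`:
`‖ρ p - ε z‖² = (1 - ε²R²)² + ε² (‖z‖² - (h p)²) ≤ 1`).  So it contains the star body of `ρ`
(off the origin), `κ av ρ^n ≤ (k + ε a)^n`, `ρ^n ≥ 1 + n (ε h - ε² R²)`; let `ε → 0`: `k^n av h ≤ k^(n-1) a`.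
`urysohn`: `B + tM` lies in the star body `ρ p = 1 + t g p`, so
`k^n + n k^(n-1) t b ≤ (k + t b)^n ≤ κ av (1 + t g)^n ≤ κ (1 + n t av g + C t²)`, `b = vol M^(1/n)`.
-/

set_option autoImplicit false
set_option linter.unusedSectionVars false
set_option linter.unusedVariables false

namespace Crest.Agent.R230

open MeasureTheory Metric Set Filter Topology
open scoped RealInnerProductSpace ENNReal Pointwise

variable {n : ℕ} [NeZero n]

theorem eqa_lim {x y D δ : ℝ} (hδ : 0 < δ) (h : ∀ t, 0 < t → t ≤ δ → t * x ≤ t * y + D * t ^ 2) :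
    x ≤ y := by
  have h1 : Tendsto (fun t : ℝ => y + D * t) (𝓝[>] 0) (𝓝 (y + D * 0)) :=
    ((continuous_const.add (continuous_const.mul continuous_id)).tendsto 0).mono_left
      nhdsWithin_le_nhds
  rw [mul_zero, add_zero] at h1
  refine ge_of_tendsto h1 ?_
  filter_upwards [Ioc_mem_nhdsGT hδ] with t ht
  refine le_of_mul_le_mul_left ?_ ht.1
  have := h t ht.1 ht.2
  linarith

theorem eqa_pow_le (m : ℕ) {G : ℝ} (hG : 0 ≤ G) :
    ∃ D : ℝ, 0 ≤ D ∧ ∀ x, 0 ≤ x → x ≤ G → (1 + x) ^ m ≤ 1 + m * x + D * x ^ 2 := by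
  induction m with
  | zero => exact ⟨0, le_rfl, fun x _ _ => by simp⟩
  | succ m ih =>
    obtain ⟨D, hD, h⟩ := ih
    refine ⟨D + m + D * G, by positivity, fun x h0 h1 => ?_⟩
    have a1 := mul_le_mul_of_nonneg_right (h x h0 h1) (show 0 ≤ 1 + x by linarith)
    have a2 := mul_le_mul_of_nonneg_left h1 (show 0 ≤ D * x ^ 2 by positivity)
    rw [pow_succ]
    push_cast
    nlinarith

theorem eqa_root {V : ℝ} (hV : 0 ≤ V) : ∃ a : ℝ, 0 ≤ a ∧ a ^ n = V :=
  ⟨V ^ ((n : ℝ)⁻¹), Real.rpow_nonneg hV _, Real.rpow_inv_natCast_pow hV (NeZero.ne n)⟩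

theorem eqa_root_pos {V : ℝ} (hV : 0 < V) : ∃ a : ℝ, 0 < a ∧ a ^ n = V :=
  ⟨V ^ ((n : ℝ)⁻¹), Real.rpow_pos_of_pos hV _, Real.rpow_inv_natCast_pow hV.le (NeZero.ne n)⟩

theorem eqa_n_pos : (0 : ℝ) < n := Nat.cast_pos.2 (Nat.pos_of_ne_zero (NeZero.ne n))

theorem eqa_pow_pred (k : ℝ) : k ^ n = k ^ (n - 1) * k := by
  rw [← pow_succ, Nat.sub_add_cancel (Nat.pos_of_ne_zero (NeZero.ne n))]

theorem eqa_unit {x : E n} (hx : x ≠ 0) : ‖‖x‖⁻¹ • x‖ = 1 := norm_smul_inv_norm hx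

theorem vol_add_ball_le {K : Set (E n)} (hK : IsCompact K) (hc : Convex ℝ K) {a k H C : ℝ}
    (ha : 0 < a) (hk : 0 ≤ k) (haV : a ^ n = vol K) (hH : H ≤ a ^ (n - 1) * k)
    (h : ∀ t, 0 ≤ t → t ≤ 1 → vol (K + t • closedBall (0 : E n) 1) ≤ vol K + n * t * H + C * t ^ 2)
    {s : ℝ} (hs : 0 ≤ s) : vol (K + s • closedBall (0 : E n) 1) ≤ (a + s * k) ^ n := by
  have hne : K.Nonempty := by
    rw [nonempty_iff_ne_empty]
    rintro rfl
    have : 0 < a ^ n := pow_pos ha n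
    simp [haV, vol] at this
  have hB : ∀ t : ℝ, IsCompact (K + t • closedBall (0 : E n) 1) := fun t =>
    hK.add ((isCompact_closedBall _ _).smul t)
  have hBc : Convex ℝ (K + s • closedBall (0 : E n) 1) := hc.add ((convex_closedBall _ _).smul s)
  have hBn : (K + s • closedBall (0 : E n) 1).Nonempty :=
    hne.add (Nonempty.smul_set ⟨0, mem_closedBall_self zero_le_one⟩)
  obtain ⟨c, hc0, hcV⟩ := eqa_root (n := n) (vol_nonneg (K + s • closedBall (0 : E n) 1))
  have hn := eqa_n_pos (n := n)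
  have hpos : 0 < n * a ^ (n - 1) := by positivity
  have key : n * a ^ (n - 1) * (c - a) ≤ n * a ^ (n - 1) * (s * k) := by
    refine eqa_lim (D := C * s ^ 2) (δ := (s + 1)⁻¹) (by positivity) fun t ht0 ht => ?_
    have ht' : t * (s + 1) ≤ 1 := by rwa [← le_div_iff₀ (by positivity), one_div]
    have hts : 0 ≤ t * s := by positivity
    have ht1 : 0 ≤ 1 - t := by linarith
    have b1 := bm (hK.smul (1 - t)) ((hB s).smul t) (hc.smul _) (hBc.smul _) hne.smul_set
      hBn.smul_set (a := (1 - t) * a) (b := t * c) (by positivity) (by positivity)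
      (by rw [vol_smul _ ht1, mul_pow, haV]) (by rw [vol_smul _ ht0.le, mul_pow, hcV])
    have b2 : (1 - t) • K + t • (K + s • closedBall (0 : E n) 1) ⊆
        K + (t * s) • closedBall (0 : E n) 1 := by
      rintro _ ⟨_, ⟨x, hx, rfl⟩, _, ⟨_, ⟨y, hy, _, ⟨z, hz, rfl⟩, rfl⟩, rfl⟩, rfl⟩
      refine ⟨_, hc hx hy ht1 ht0.le (by ring), _, ⟨z, hz, rfl⟩, ?_⟩
      simp only [smul_add, smul_smul, add_assoc]
    have b3 := vol_mono b2 (hB _)
    have b4 := h (t * s) hts (by linarith)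
    have b5 := pow_add_mul_le_add_pow ha.le (b := t * (c - a)) (by nlinarith) n
    have b6 := mul_le_mul_of_nonneg_left hH (show 0 ≤ n * (t * s) by positivity)
    rw [show (1 - t) * a + t * c = a + t * (c - a) by ring] at b1
    nlinarith
  rw [← hcV]
  exact pow_le_pow_left₀ hc0 (by linarith [le_of_mul_le_mul_left key hpos]) n

theorem mean_width_le {γ : E n → ℝ} (hγ : Sub γ) {H C : ℝ} (hH0 : 0 ≤ H)
    (hH : H ^ n ≤ vol (body γ) ^ (n - 1) * kap n)
    (h : ∀ t, 0 ≤ t → t ≤ 1 →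
      vol (body γ + t • closedBall (0 : E n) 1) ≤ vol (body γ) + n * t * H + C * t ^ 2) :
    kap n * av (dual γ) ^ n ≤ vol (body γ) := by
  have hK := hγ.isCompact_body
  have hc := hγ.convex_body
  have h0 : (0 : E n) ∈ body γ := interior_subset hγ.zero_mem_interior
  obtain ⟨a, ha, haV⟩ := eqa_root_pos (n := n) (vol_pos hK ⟨0, hγ.zero_mem_interior⟩)
  obtain ⟨k, hk, hkV⟩ := eqa_root_pos (n := n) (kap_pos n)
  have hH' : H ≤ a ^ (n - 1) * k := by
    refine le_of_pow_le_pow_left₀ (NeZero.ne n) (by positivity) ?_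
    rwa [mul_pow, ← pow_mul, mul_comm (n - 1), pow_mul, haV, hkV]
  obtain ⟨R, hR0, hR⟩ : ∃ R : ℝ, 0 < R ∧ ∀ z ∈ body γ, ‖z‖ ≤ R := hK.isBounded.exists_pos_norm_le
  have hbd : Bd (dual γ) := hγ.posH.sub_dual.bd
  have hd0 := hγ.posH.dual_nonneg
  obtain ⟨D, hD, hD'⟩ := eqa_pow_le n (G := a / k) (by positivity)
  have hn := eqa_n_pos (n := n)
  have key : n * av (dual γ) ≤ n * (a / k) := by
    refine eqa_lim (D := D * (a / k) ^ 2 + n * R ^ 2) (δ := (R + 1)⁻¹) (by positivity)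
      fun t ht0 ht => ?_
    have ht' : t * (R + 1) ≤ 1 := by rwa [← le_div_iff₀ (by positivity), one_div]
    have htR : 0 < t * R := by positivity
    have hu : t ^ 2 * R ^ 2 < 1 := by nlinarith
    have hcomp : IsCompact (t • (body γ + t⁻¹ • closedBall (0 : E n) 1)) :=
      (hK.add ((isCompact_closedBall _ _).smul _)).smul t
    have hρb : Bd fun p => 1 + (t * dual γ p - t ^ 2 * R ^ 2) :=
      (bd_const 1).add ((hbd.const_mul t).sub (bd_const _))
    have hρ0 : ∀ p, 0 < 1 + (t * dual γ p - t ^ 2 * R ^ 2) := fun p => by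
      have := mul_nonneg ht0.le (hd0 p)
      linarith
    have b1 : {x : E n | ‖x‖ ≤ 1 + (t * dual γ (‖x‖⁻¹ • x) - t ^ 2 * R ^ 2)} ⊆
        t • (body γ + t⁻¹ • closedBall (0 : E n) 1) := by
      intro x hx
      have hcv : Convex ℝ (t • (body γ + t⁻¹ • closedBall (0 : E n) 1)) :=
        (hc.add ((convex_closedBall _ _).smul _)).smul t
      have hmem : ∀ z ∈ body γ, ∀ b : E n, ‖b‖ ≤ 1 →
          t • z + b ∈ t • (body γ + t⁻¹ • closedBall (0 : E n) 1) := fun z hz b hb =>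
        ⟨_, ⟨z, hz, _, ⟨b, mem_closedBall_zero_iff.2 hb, rfl⟩, rfl⟩, by
          simp only [smul_add, smul_smul, mul_inv_cancel₀ ht0.ne', one_smul]⟩
      have hz0 : (0 : E n) ∈ t • (body γ + t⁻¹ • closedBall (0 : E n) 1) := by
        simpa using hmem 0 h0 0 (by simp)
      rcases eq_or_ne x 0 with rfl | hx0
      · exact hz0
      obtain ⟨p, hp⟩ : ∃ p, p = ‖x‖⁻¹ • x := ⟨_, rfl⟩
      have hp1 : ‖p‖ = 1 := hp ▸ eqa_unit hx0
      have hxp : x = ‖x‖ • p := by
        rw [hp, smul_smul, mul_inv_cancel₀ (norm_ne_zero_iff.2 hx0), one_smul]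
      obtain ⟨z, hz, hzp⟩ : dual γ p ∈ (fun x : E n => ⟪x, p⟫) '' body γ :=
        (hK.image (by fun_prop)).sSup_mem ⟨_, 0, h0, rfl⟩
      rw [mem_ofPred_eq, ← hp] at hx
      have hρ := hρ0 p
      generalize dual γ p = w at hx hρ hzp
      obtain ⟨ρ, hρe⟩ : ∃ ρ, ρ = 1 + (t * w - t ^ 2 * R ^ 2) := ⟨_, rfl⟩
      rw [← hρe] at hx hρ
      have c1 : ‖ρ • p - t • z‖ ≤ 1 := by
        have c2 : ‖ρ • p - t • z‖ ^ 2 = ρ ^ 2 - 2 * (ρ * (t * w)) + t ^ 2 * ‖z‖ ^ 2 := by
          rw [norm_sub_sq_real, norm_smul, norm_smul, hp1, inner_smul_left, inner_smul_right,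
            real_inner_comm, show ⟪z, p⟫ = w from hzp]
          simp [mul_pow]
        have c3 : ‖z‖ ^ 2 ≤ R ^ 2 := pow_le_pow_left₀ (norm_nonneg _) (hR z hz) 2
        have c4 := mul_le_mul_of_nonneg_left c3 (sq_nonneg t)
        have c5 : 0 ≤ t ^ 2 * R ^ 2 := by positivity
        refine (sq_le_one_iff₀ (norm_nonneg _)).1 ?_
        rw [c2, hρe]
        generalize t ^ 2 * R ^ 2 = u at *
        nlinarith [sq_nonneg (t * w)]
      have c6 := hmem z hz _ c1
      rw [add_sub_cancel] at c6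
      have c7 := hcv.smul_mem_of_zero_mem hz0 c6 (t := ‖x‖ / ρ)
        ⟨by positivity, (div_le_one hρ).2 hx⟩
      rwa [smul_smul, div_mul_cancel₀ _ hρ.ne', ← hxp] at c7
    have b2 := vol_mono b1 hcomp
    have b3 := volume_star hρb fun p _ => (hρ0 p).le
    have b4 : 1 + n * (t * av (dual γ) - t ^ 2 * R ^ 2) ≤
        av fun p => (1 + (t * dual γ p - t ^ 2 * R ^ 2)) ^ n := by
      refine le_of_eq_of_le ?_ (av_mono
        (f := fun p => 1 + n * (t * dual γ p - t ^ 2 * R ^ 2))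
        ((bd_const 1).add (((hbd.const_mul t).sub (bd_const _)).const_mul n)) (hρb.pow n)
        fun p _ => one_add_mul_le_pow (by linarith [hρ0 p]) n)
      rw [av_add (bd_const 1) (((hbd.const_mul t).sub (bd_const _)).const_mul n), av_const,
        av_const_mul, av_sub (hbd.const_mul t) (bd_const _), av_const_mul, av_const]
    rw [vol, b3, ENNReal.toReal_ofReal (mul_nonneg (kap_pos n).le
      (av_nonneg fun p _ => pow_nonneg (hρ0 p).le n)), vol_smul _ ht0.le] at b2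
    have b5 := mul_le_mul_of_nonneg_left (vol_add_ball_le hK hc ha hk.le haV hH' h
      (inv_nonneg.2 ht0.le)) (pow_nonneg ht0.le n)
    rw [← mul_pow, show t * (a + t⁻¹ * k) = k * (1 + t * (a / k)) by field_simp; ring, mul_pow,
      hkV] at b5
    have b6 := hD' (t * (a / k)) (by positivity)
      (mul_le_of_le_one_left (by positivity) (by linarith))
    have b7 := le_of_mul_le_mul_left (b2.trans b5) (kap_pos n)
    nlinarith
  have key' := le_of_mul_le_mul_left key hn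
  rw [← hkV, ← haV, ← mul_pow]
  refine pow_le_pow_left₀ (mul_nonneg hk.le (av_nonneg fun p _ => hd0 p)) ?_ n
  rwa [le_div_iff₀ hk, mul_comm] at key'

theorem urysohn {M : Set (E n)} (hM : IsCompact M) (hc : Convex ℝ M) (hne : M.Nonempty)
    {g : E n → ℝ} (hg : Bd g) (hg0 : ∀ p, ‖p‖ = 1 → 0 ≤ g p)
    (h : ∀ m ∈ M, ∀ p, ‖p‖ = 1 → ⟪m, p⟫ ≤ g p) : vol M ≤ kap n * av g ^ n := by
  obtain ⟨b, hb, hbV⟩ := eqa_root (n := n) (vol_nonneg M)
  obtain ⟨k, hk, hkV⟩ := eqa_root_pos (n := n) (kap_pos n)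
  obtain ⟨G, hG⟩ := hg.2
  have hG' : ∀ p, ‖p‖ = 1 → g p ≤ |G| := fun p hp =>
    (le_abs_self _).trans ((hG p hp).trans (le_abs_self _))
  obtain ⟨D, hD, hD'⟩ := eqa_pow_le n (abs_nonneg G)
  have hn := eqa_n_pos (n := n)
  have hpos : 0 < n * k ^ (n - 1) := by positivity
  have key : n * k ^ (n - 1) * b ≤ n * k ^ (n - 1) * (k * av g) := by
    refine eqa_lim (D := kap n * (D * |G| ^ 2)) one_pos fun t ht0 ht => ?_
    have hρb : Bd fun p => 1 + t * g p := (bd_const 1).add (hg.const_mul t)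
    have hρ0 : ∀ p, ‖p‖ = 1 → 0 ≤ 1 + t * g p := fun p hp => by
      have := mul_nonneg ht0.le (hg0 p hp)
      linarith
    have b1 := bm (isCompact_closedBall (0 : E n) 1) (hM.smul t) (convex_closedBall _ _) (hc.smul t)
      ⟨0, mem_closedBall_self zero_le_one⟩ hne.smul_set (a := k) (b := t * b) hk.le (by positivity)
      (by rw [vol_closedBall _ zero_le_one, one_pow, one_mul, hkV])
      (by rw [vol_smul _ ht0.le, mul_pow, hbV])
    have b2 : closedBall (0 : E n) 1 + t • M ⊆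
        insert 0 {x : E n | ‖x‖ ≤ 1 + t * g (‖x‖⁻¹ • x)} := by
      intro x hx
      rcases eq_or_ne x 0 with rfl | hx0
      · exact mem_insert _ _
      refine mem_insert_of_mem _ ?_
      have hp1 := eqa_unit hx0
      have c1 : ‖x‖ = ⟪x, ‖x‖⁻¹ • x⟫ := by
        rw [inner_smul_right, real_inner_self_eq_norm_sq]
        field_simp
      rw [mem_ofPred_eq]
      generalize ‖x‖⁻¹ • x = p at hp1 c1
      obtain ⟨z, hz, _, ⟨m, hm, rfl⟩, rfl⟩ := hx
      have c2 := real_inner_le_norm z p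
      have c3 := mul_le_mul_of_nonneg_left (h m hm p hp1) ht0.le
      rw [hp1, mul_one] at c2
      rw [c1, inner_add_left, real_inner_smul_left]
      linarith [mem_closedBall_zero_iff.1 hz]
    have b3 : vol (closedBall (0 : E n) 1 + t • M) ≤ kap n * av fun p => (1 + t * g p) ^ n := by
      refine ENNReal.toReal_le_of_le_ofReal (mul_nonneg (kap_pos n).le
        (av_nonneg fun p hp => pow_nonneg (hρ0 p hp) n)) ?_
      rw [← volume_star hρb hρ0]
      exact (measure_mono b2).trans (measure_congr (insert_ae_eq_self _ _)).le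
    have b4 : (av fun p => (1 + t * g p) ^ n) ≤ 1 + D * |G| ^ 2 * t ^ 2 + n * t * av g := by
      refine le_of_le_of_eq (av_mono (g := fun p => 1 + D * |G| ^ 2 * t ^ 2 + n * t * g p)
        (hρb.pow n) ((bd_const _).add (hg.const_mul _)) fun p hp => ?_) ?_
      · have c1 := hD' (t * g p) (mul_nonneg ht0.le (hg0 p hp))
          ((mul_le_of_le_one_left (hg0 p hp) ht).trans (hG' p hp))
        have c2 := mul_le_mul_of_nonneg_left (pow_le_pow_left₀ (hg0 p hp) (hG' p hp) 2)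
          (show 0 ≤ D * t ^ 2 by positivity)
        nlinarith
      · rw [av_add (bd_const _) (hg.const_mul _), av_const, av_const_mul]
    have b5 := pow_add_mul_le_add_pow hk.le (b := t * b) (by positivity) n
    have b6 := mul_le_mul_of_nonneg_left b4 (kap_pos n).le
    have b7 : t * (n * k ^ (n - 1) * (k * av g)) = kap n * (n * t * av g) := by
      rw [← hkV, eqa_pow_pred (n := n) k]; ring
    rw [b7]
    nlinarith
  rw [← hkV, ← hbV, ← mul_pow]
  exact pow_le_pow_left₀ hb (le_of_mul_le_mul_left key hpos) n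

end Crest.Agent.R230
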