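import Crest.Agent.R230.EqB0

/-!
# R230/EqB

Equality in Urysohn's inequality forces a ball.  `K = body γ`, `h = dual γ`, `v` a unit vector,
`R x = x - 2 ⟪x,v⟫ v` the reflection.
`steiner_eq`: `K'' = ½K + ½RK` is compact convex with `0` in the interior and support function at most
`(h + h∘R)/2`, so `vol K'' ≤ κ (av h)^n ≤ vol K` (`urysohn`, `av_comp_isometry`).  The Steiner symmetral
`S = {½ x + ½ R x' | x, x' ∈ K, x - x' ∈ ℝ v}` is compact, `S ⊆ K''`, and its fibre over `y` contains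
`[-(b-a)/2, (b-a)/2]` if the fibre of `K` is `[a,b]`; so `vol K ≤ vol S` (`volume_eq_lintegral_fibre`).  If
`z ∈ K'' \ S`, the open set `interior K'' \ S` is nonempty (`K''` is the closure of its interior,
`Convex.closure_interior_eq_closure_of_nonempty_interior`), so `vol K'' > vol S`; hence `K'' = S`.
`dual_reflect`: for `y ⊥ v` let `x₁`, `x₂ ∈ K` maximise `⟪·, y + v⟫`, `⟪·, y - v⟫`.  By `steiner_eq` there
are `x, x' ∈ K` on one fibre with `x + R x' = x₁ + R x₂`; pairing with `y + v` shows that `x`, `x'` are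
maximisers too.  Their common projection `g y` is a subgradient at `y` of both `H₊ y = h (y+v)` and
`H₋ y = h (y-v)` on `v^⊥`.  So `D = H₊ - H₋` satisfies `|D y' - D y| ≤ ⟪g y' - g y, y' - y⟫`; cutting a
segment in `m` equal pieces the sum telescopes: `|D y - D 0| ≤ ⟪g y - g 0, y⟫/m`.  So `D` is a constant
`c`, and homogeneity gives `h u - h (R u) = c ⟪u,v⟫` for all `u` (three cases for the sign of `⟪u,v⟫`).
`eq_ball`: let `a = n ∫ h p • p` (so `⟪a,v⟫ = n av (h p ⟪p,v⟫)`).  Multiply `dual_reflect` by `⟪p,v⟫` and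
average: `2 av (h ⟪p,v⟫) = c/n`, so `c = 2 ⟪a,v⟫` and `h₀ = h - ⟪a,·⟫` is invariant under every
reflection, hence constant `= ρ` on the sphere.  Then `K = closedBall a ρ`: `⊆` by testing with
`u = x - a`; `⊇` by `geometric_hahn_banach_point_closed`; `ρ > 0` as `K` has interior.
-/

set_option autoImplicit false
set_option linter.unusedSectionVars false
set_option linter.unusedVariables false

namespace Crest.Agent.R230

open MeasureTheory Metric Set Filter Topology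
open scoped RealInnerProductSpace ENNReal Pointwise

variable {n : ℕ} [NeZero n]

theorem eqb_le {γ : E n → ℝ} (hγ : Sub γ) {x : E n} (hx : x ∈ body γ) (w : E n) :
    ⟪x, w⟫ ≤ dual γ w :=
  (hγ.posH.inner_le x w).trans (mul_le_of_le_one_left (hγ.posH.dual_nonneg w) hx)

theorem eqb_max {γ : E n → ℝ} (hγ : Sub γ) (w : E n) : ∃ x ∈ body γ, ⟪x, w⟫ = dual γ w :=
  (hγ.isCompact_body.image (f := fun x => ⟪x, w⟫) (by fun_prop)).sSup_mem
    ⟨_, 0, interior_subset hγ.zero_mem_interior, rfl⟩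

theorem eqb_pair {γ : E n → ℝ} (hγ : Sub γ) (h : kap n * av (dual γ) ^ n ≤ vol (body γ))
    {v : E n} (hv : ‖v‖ = 1) (y : E n) (hy : ⟪v, y⟫ = 0) :
    ∃ x : E n, ∀ y', ⟪v, y'⟫ = 0 → dual γ (y + v) + ⟪x, y' - y⟫ ≤ dual γ (y' + v) ∧
      dual γ (y - v) + ⟪x, y' - y⟫ ≤ dual γ (y' - v) := by
  obtain ⟨x₁, h₁, e₁⟩ := eqb_max hγ (y + v)
  obtain ⟨x₂, h₂, e₂⟩ := eqb_max hγ (y - v)
  obtain ⟨x, hx, x', hx', ⟨s, hs⟩, e⟩ := steiner_eq hγ h hv h₁ h₂
  have hvv : ⟪v, v⟫ = 1 := by rw [real_inner_self_eq_norm_sq, hv, one_pow]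
  have key : ∀ z : E n, ⟪z - (2 * ⟪z, v⟫) • v, y + v⟫ = ⟪z, y - v⟫ := fun z => by
    simp only [inner_sub_left, inner_add_right, inner_sub_right, real_inner_smul_left, hy, hvv]
    ring
  have e' := congrArg (fun z => ⟪z, y + v⟫) e
  simp only [inner_add_left, key, e₁, e₂] at e'
  have l1 := eqb_le hγ hx (y + v)
  have l2 := eqb_le hγ hx' (y - v)
  refine ⟨x, fun y' hy' => ⟨?_, ?_⟩⟩
  · have := eqb_le hγ hx (y' + v)
    simp only [inner_add_right, inner_sub_right] at *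
    linarith
  · have := eqb_le hγ hx' (y' - v)
    have e3 : ⟪x, y' - y⟫ = ⟪x', y' - y⟫ := by
      rw [← sub_eq_zero, ← inner_sub_left, hs, real_inner_smul_left, inner_sub_right, hy, hy',
        sub_zero, mul_zero]
    rw [e3]
    simp only [inner_add_right, inner_sub_right] at *
    linarith

theorem eqb_const {γ : E n → ℝ} (hγ : Sub γ) (h : kap n * av (dual γ) ^ n ≤ vol (body γ))
    {v : E n} (hv : ‖v‖ = 1) (y : E n) (hy : ⟪v, y⟫ = 0) :
    dual γ (y + v) - dual γ (y - v) = dual γ v - dual γ (-v) := by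
  choose! X hX using eqb_pair hγ h hv
  have step : ∀ (δ : ℝ) (k : ℕ), |dual γ ((k * δ) • y + v) - dual γ ((k * δ) • y - v) -
      (dual γ v - dual γ (-v))| ≤ δ * (⟪X ((k * δ) • y), y⟫ - ⟪X 0, y⟫) := fun δ k => by
    induction k with
    | zero => simp
    | succ k ih =>
      have o : ∀ t : ℝ, ⟪v, t • y⟫ = 0 := fun t => by rw [real_inner_smul_right, hy, mul_zero]
      have a1 := hX _ (o (k * δ)) _ (o ((k + 1 : ℕ) * δ))
      have a2 := hX _ (o ((k + 1 : ℕ) * δ)) _ (o (k * δ))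
      simp only [← sub_smul, real_inner_smul_right] at a1 a2
      rw [show ((k + 1 : ℕ) : ℝ) * δ - k * δ = δ by push_cast; ring] at a1
      rw [show (k : ℝ) * δ - (k + 1 : ℕ) * δ = -δ by push_cast; ring] at a2
      rw [abs_le] at ih ⊢
      constructor <;> linarith [a1.1, a1.2, a2.1, a2.2, ih.1, ih.2]
  rw [← sub_eq_zero, ← abs_nonpos_iff]
  refine ge_of_tendsto (tendsto_const_div_atTop_nhds_zero_nat (⟪X y, y⟫ - ⟪X 0, y⟫)) ?_
  filter_upwards [eventually_gt_atTop 0] with m hm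
  have := step (m : ℝ)⁻¹ m
  rwa [mul_inv_cancel₀ (by positivity), one_smul, ← div_eq_inv_mul] at this

theorem eqb_refl {v : E n} (hv : ‖v‖ = 1) :
    ∃ e : E n ≃ₗᵢ[ℝ] E n, ∀ u, e u = u - (2 * ⟪u, v⟫) • v :=
  ⟨(ℝ ∙ v)ᗮ.reflection, fun u => by
    rw [Submodule.reflection_orthogonal_apply, Submodule.reflection_singleton_apply, hv,
      real_inner_comm]
    simp [two_smul, two_mul, add_smul]⟩

theorem dual_reflect {γ : E n → ℝ} (hγ : Sub γ) (h : kap n * av (dual γ) ^ n ≤ vol (body γ))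
    {v : E n} (hv : ‖v‖ = 1) :
    ∃ c : ℝ, ∀ u, dual γ u - dual γ (u - (2 * ⟪u, v⟫) • v) = c * ⟪u, v⟫ := by
  have hd := hγ.posH.sub_dual
  have hvv : ⟪v, v⟫ = 1 := by rw [real_inner_self_eq_norm_sq, hv, one_pow]
  have key : ∀ (y : E n) (τ : ℝ), ⟪v, y⟫ = 0 → 0 < τ →
      dual γ (y + τ • v) - dual γ (y - τ • v) = (dual γ v - dual γ (-v)) * τ := fun y τ hy hτ => by
    rw [← eqb_const hγ h hv (τ⁻¹ • y) (by rw [real_inner_smul_right, hy, mul_zero]), sub_mul,
      mul_comm _ τ, mul_comm _ τ, ← hd.smul _ _ hτ.le, ← hd.smul _ _ hτ.le, smul_add, smul_sub,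
      smul_inv_smul₀ hτ.ne']
  refine ⟨dual γ v - dual γ (-v), fun u => ?_⟩
  have hy : ⟪v, u - ⟪u, v⟫ • v⟫ = 0 := by
    rw [inner_sub_right, real_inner_smul_right, hvv, mul_one, real_inner_comm, sub_self]
  rcases lt_trichotomy ⟪u, v⟫ 0 with ht | ht | ht
  · have := key _ _ hy (neg_pos.2 ht)
    rw [show u - ⟪u, v⟫ • v + -⟪u, v⟫ • v = u - (2 * ⟪u, v⟫) • v by module,
      show u - ⟪u, v⟫ • v - -⟪u, v⟫ • v = u by module] at this
    linarith
  · simp [ht]
  · have := key _ _ hy ht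
    rwa [show u - ⟪u, v⟫ • v - ⟪u, v⟫ • v = u - (2 * ⟪u, v⟫) • v by module,
      sub_add_cancel] at this

theorem eq_ball {γ : E n → ℝ} (hγ : Sub γ) (h : kap n * av (dual γ) ^ n ≤ vol (body γ)) :
    ∃ (a : E n) (ρ : ℝ), 0 < ρ ∧ body γ = closedBall a ρ := by
  have hd := hγ.posH.sub_dual
  have hn : (0 : ℝ) < n := Nat.cast_pos.2 (NeZero.pos n)
  obtain ⟨a, ha⟩ : ∃ a : E n, ∀ v, ⟪a, v⟫ = n * av (fun p => dual γ p * ⟪p, v⟫) := by
    refine ⟨WithLp.toLp 2 fun i => n * av (fun p => dual γ p * p i), fun v => ?_⟩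
    simp only [inner_eq_sum, Finset.mul_sum]
    rw [av_sum _ fun i _ => hd.bd.mul ((bd_coord i).mul (bd_const _)), Finset.mul_sum]
    refine Finset.sum_congr rfl fun i _ => ?_
    rw [mul_assoc, mul_comm _ (v i), ← av_const_mul]
    congr 2
    funext p
    ring
  have hrefl : ∀ v : E n, ‖v‖ = 1 → ∀ u, dual γ (u - (2 * ⟪u, v⟫) • v) - ⟪a, u - (2 * ⟪u, v⟫) • v⟫
      = dual γ u - ⟪a, u⟫ := fun v hv u => by
    obtain ⟨c, hc⟩ := dual_reflect hγ h hv
    obtain ⟨e, he⟩ := eqb_refl hv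
    have hvv : ⟪v, v⟫ = 1 := by rw [real_inner_self_eq_norm_sq, hv, one_pow]
    have b1 : Bd (fun p => dual γ p * ⟪p, v⟫) := hd.bd.mul (bd_inner v)
    have a1 : av (fun p => dual γ p * ⟪p, v⟫) + av (fun p => dual γ (e p) * ⟪e p, v⟫) = c / n := by
      rw [← av_add b1 (b1.comp_isometry e), ← mul_one c, ← hvv, mul_div_assoc,
        ← av_inner_mul_inner, ← av_const_mul]
      congr 1
      funext p
      rw [← mul_assoc, ← hc, he, inner_sub_left, real_inner_smul_left, hvv]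
      ring
    rw [av_comp_isometry (fun p => dual γ p * ⟪p, v⟫) e, eq_div_iff hn.ne'] at a1
    have a2 := hc u
    rw [inner_sub_right, real_inner_smul_right, ha v]
    have a3 : c = 2 * (n * av fun p => dual γ p * ⟪p, v⟫) := by linarith
    rw [a3] at a2
    linarith
  have hconst : ∀ p q : E n, ‖p‖ = 1 → ‖q‖ = 1 → dual γ q - ⟪a, q⟫ = dual γ p - ⟪a, p⟫ :=
    fun p q hp hq => by
    rcases eq_or_ne p q with rfl | hpq
    · rfl
    have h0 : ‖p - q‖ ≠ 0 := norm_ne_zero_iff.2 (sub_ne_zero.2 hpq)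
    have h1 := hrefl (‖p - q‖⁻¹ • (p - q)) (by rw [norm_smul, norm_inv, norm_norm, inv_mul_cancel₀ h0]) p
    have h2 : 2 * ⟪p, p - q⟫ = ‖p - q‖ ^ 2 := by
      rw [norm_sub_sq_real, inner_sub_right, real_inner_self_eq_norm_sq, hp, hq]
      ring
    have h3 : 2 * ⟪p, ‖p - q‖⁻¹ • (p - q)⟫ * ‖p - q‖⁻¹ = 1 := by
      rw [real_inner_smul_right]
      field_simp
      linarith
    rwa [smul_smul, h3, one_smul, sub_sub_cancel] at h1
  obtain ⟨p₀, hp₀⟩ : ∃ p₀ : E n, ‖p₀‖ = 1 := ⟨EuclideanSpace.single 0 1, by simp⟩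
  obtain ⟨ρ, hρ⟩ : ∃ ρ, ρ = dual γ p₀ - ⟪a, p₀⟫ := ⟨_, rfl⟩
  have hh : ∀ u, dual γ u = ⟪a, u⟫ + ρ * ‖u‖ := fun u => by
    rcases eq_or_ne u 0 with rfl | hu
    · simp [hd.zero]
    have h0 : 0 < ‖u‖ := norm_pos_iff.2 hu
    have h1 := hconst p₀ (‖u‖⁻¹ • u) hp₀ (by rw [norm_smul, norm_inv, norm_norm, inv_mul_cancel₀ h0.ne'])
    rw [← hρ, hd.smul _ _ (by positivity), real_inner_smul_right] at h1
    rw [← h1]
    field_simp
    ring
  have hρ0 : 0 < ρ := by
    have h0 : p₀ ≠ 0 := by rintro rfl; simp at hp₀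
    have h1 := hd.pos _ h0
    have h2 := hd.pos _ (neg_ne_zero.2 h0)
    rw [hh] at h1 h2
    rw [inner_neg_right, norm_neg] at h2
    rw [hp₀] at h1 h2
    linarith
  refine ⟨a, ρ, hρ0, Subset.antisymm (fun x hx => ?_) fun x hx => ?_⟩
  · have h1 := eqb_le hγ hx (x - a)
    rw [hh, ← sub_le_iff_le_add', ← inner_sub_left, real_inner_self_eq_norm_sq] at h1
    rw [mem_closedBall, dist_eq_norm]
    by_contra hlt
    push Not at hlt
    nlinarith
  · by_contra hK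
    obtain ⟨f, u, h1, h2⟩ :=
      geometric_hahn_banach_closed_point hγ.convex_body hγ.isCompact_body.isClosed hK
    obtain ⟨w, hw⟩ : ∃ w : E n, ∀ z, ⟪z, w⟫ = f z :=
      ⟨(InnerProductSpace.toDual ℝ (E n)).symm f, fun z => by
        rw [real_inner_comm, InnerProductSpace.toDual_symm_apply]⟩
    have h3 : dual γ w ≤ u := hγ.posH.dual_le fun z hz => (hw z).trans_le (h1 z hz).le
    have h4 := real_inner_le_norm (x - a) w
    have h5 : ‖x - a‖ * ‖w‖ ≤ ρ * ‖w‖ :=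
      mul_le_mul_of_nonneg_right (by rwa [mem_closedBall, dist_eq_norm] at hx) (norm_nonneg _)
    rw [inner_sub_left, hw x] at h4
    rw [hh] at h3
    linarith

end Crest.Agent.R230
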