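import Crest.Agent.R230.Vol

/-!
# R230/Shadow

Shadows.  Let `u` be a unit vector, `H = (ℝ ∙ u)ᗮ`.  The map `H × ℝ → E`, `(y, s) ↦ y + s u` preserves
volume (`Submodule.measurePreserving_measurableEquivProd`, `InnerProductSpace.euclideanHausdorffMeasure_eq_volume`,
`LinearIsometryEquiv.toSpanUnitSingleton`), which is `volume_eq_lintegral_fibre`.  The projection of
`K` is the image under the isometry `H → E` of the compact set `D = {y : H | ∃ s, y + s u ∈ K}`, and
`μHE[n-1]` of it is `volume D` (`Isometry.euclideanHausdorffMeasure_image`, `finrank H = n - 1`).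
For `y ∈ D` the fibre of `K` is a compact interval `[a, b]` and the fibre of `K + [0, t u]` is
`[a, b + t]`; for `y ∉ D` both are empty.
`shadow_ball`: `D` is the closed unit ball of `H`, isometric to that of `E (n-1)`
(`LinearIsometryEquiv.ofInnerProductSpace`/`stdOrthonormalBasis`, `addHaar_closedBall_eq_addHaar_ball`;
if `n - 1 = 0` both are one point).
-/

set_option autoImplicit false
set_option linter.unusedSectionVars false
set_option linter.unusedVariables false

namespace Crest.Agent.R230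

open MeasureTheory Metric Set Filter Topology
open scoped RealInnerProductSpace ENNReal Pointwise

variable {n : ℕ} [NeZero n]

theorem volume_eq_lintegral_fibre {u : E n} (hu : ‖u‖ = 1) {A : Set (E n)} (hA : MeasurableSet A) :
    volume A = ∫⁻ y : (ℝ ∙ u)ᗮ, volume {s : ℝ | (y : E n) + s • u ∈ A} := by
  have h1 := (Submodule.measurePreserving_measurableEquivProd (ℝ ∙ u) (0 : E n)).symm
  rw [InnerProductSpace.euclideanHausdorffMeasure_eq_volume] at h1
  rw [← h1.measure_preimage_equiv A, Measure.volume_eq_prod,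
    Measure.prod_apply_symm ((MeasurableEquiv.measurable _) hA)]
  refine lintegral_congr fun y => ?_
  have h2 := (LinearIsometryEquiv.toSpanUnitSingleton (𝕜 := ℝ) u hu).measurePreserving
  rw [← h2.measure_preimage (((MeasurableEquiv.measurable _) hA).preimage
    measurable_prodMk_right).nullMeasurableSet]
  congr 1
  ext s
  simp [add_comm]

theorem shadow_finrank {u : E n} (hu : ‖u‖ = 1) : Module.finrank ℝ (ℝ ∙ u)ᗮ = n - 1 := by
  have h0 : u ≠ 0 := by rintro rfl; simp at hu
  have h1 := (ℝ ∙ u).finrank_add_finrank_orthogonal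
  rw [finrank_span_singleton h0, finrank_euclideanSpace_fin] at h1
  omega

theorem shadow_inner {u : E n} (y : (ℝ ∙ u)ᗮ) : ⟪(y : E n), u⟫ = 0 := by
  rw [real_inner_comm]
  exact Submodule.mem_orthogonal_singleton_iff_inner_right.mp y.2

theorem shadow_proj_mem {u : E n} (hu : ‖u‖ = 1) (x : E n) : x - ⟪x, u⟫ • u ∈ (ℝ ∙ u)ᗮ := by
  rw [Submodule.mem_orthogonal_singleton_iff_inner_right, inner_sub_right, inner_smul_right,
    real_inner_self_eq_norm_sq, hu, real_inner_comm]
  ring

theorem shadow_image {u : E n} (hu : ‖u‖ = 1) (K : Set (E n)) :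
    (fun y => y - ⟪y, u⟫ • u) '' K =
      Subtype.val '' {y : (ℝ ∙ u)ᗮ | ∃ s : ℝ, (y : E n) + s • u ∈ K} := by
  ext x
  constructor
  · rintro ⟨z, hz, rfl⟩
    exact ⟨⟨_, shadow_proj_mem hu z⟩, ⟨⟪z, u⟫, by simpa using hz⟩, rfl⟩
  · rintro ⟨y, ⟨s, hs⟩, rfl⟩
    refine ⟨_, hs, ?_⟩
    simp only [inner_add_left, shadow_inner, inner_smul_left, real_inner_self_eq_norm_sq, hu]
    simp

theorem shadow_eq {u : E n} (hu : ‖u‖ = 1) (K : Set (E n)) :
    shadow K u = (volume {y : (ℝ ∙ u)ᗮ | ∃ s : ℝ, (y : E n) + s • u ∈ K}).toReal := by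
  unfold shadow
  rw [shadow_image hu, isometry_subtype_coe.euclideanHausdorffMeasure_image, ← shadow_finrank hu,
    InnerProductSpace.euclideanHausdorffMeasure_eq_volume]

theorem shadow_nonneg (K : Set (E n)) (u : E n) : 0 ≤ shadow K u := ENNReal.toReal_nonneg

theorem shadow_isCompact {K : Set (E n)} (hK : IsCompact K) {u : E n} (hu : ‖u‖ = 1) :
    IsCompact {y : (ℝ ∙ u)ᗮ | ∃ s : ℝ, (y : E n) + s • u ∈ K} := by
  rw [Subtype.isCompact_iff, ← shadow_image hu]
  exact hK.image (by fun_prop)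

theorem shadow_mem_add_segment (K : Set (E n)) (u x : E n) {t : ℝ} (ht : 0 ≤ t) :
    x ∈ K + segment ℝ 0 (t • u) ↔ ∃ r ∈ Icc (0 : ℝ) t, x - r • u ∈ K := by
  constructor
  · rintro ⟨z, hz, _, ⟨a, b, ha, hb, hab, rfl⟩, rfl⟩
    refine ⟨b * t, ⟨by positivity, by nlinarith⟩, ?_⟩
    simpa [smul_smul] using hz
  · rintro ⟨r, ⟨h0, h1⟩, hr⟩
    refine ⟨_, hr, r • u, ?_, by simp⟩
    rcases ht.eq_or_lt with rfl | ht
    · obtain rfl : r = 0 := le_antisymm h1 h0
      exact right_mem_segment _ _ _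
    · refine ⟨1 - r / t, r / t, ?_, by positivity, by ring, ?_⟩
      · rw [sub_nonneg, div_le_one ht]; exact h1
      · rw [smul_zero, zero_add, smul_smul, div_mul_cancel₀ _ ht.ne']

theorem shadow_fibre {K : Set (E n)} (hK : IsCompact K) (hc : Convex ℝ K) {u : E n}
    (hu : ‖u‖ = 1) {t : ℝ} (ht : 0 ≤ t) (y : E n) (hy : ∃ s : ℝ, y + s • u ∈ K) :
    volume {s : ℝ | y + s • u ∈ K + segment ℝ 0 (t • u)} =
      volume {s : ℝ | y + s • u ∈ K} + ENNReal.ofReal t := by
  have hiso : Isometry fun s : ℝ => y + s • u := by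
    refine Isometry.of_dist_eq fun a b => ?_
    rw [dist_add_left, dist_eq_norm, ← sub_smul, norm_smul, hu, mul_one, dist_eq_norm]
  have h1 : IsCompact {s : ℝ | y + s • u ∈ K} := hiso.isClosedEmbedding.isCompact_preimage hK
  have h2 : Convex ℝ {s : ℝ | y + s • u ∈ K} := by
    intro a ha b hb p q hp hq hpq
    have := hc ha hb hp hq hpq
    show y + (p • a + q • b) • u ∈ K
    convert this using 1
    rw [smul_add, smul_add, add_add_add_comm, ← add_smul, hpq, one_smul, smul_smul, smul_smul,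
      add_smul]
    rfl
  have h3 := eq_Icc_of_connected_compact (h2.isConnected hy) h1
  set a := sInf {s : ℝ | y + s • u ∈ K}
  set b := sSup {s : ℝ | y + s • u ∈ K}
  have hab : a ≤ b := by
    obtain ⟨s, hs⟩ := hy
    have : s ∈ Icc a b := h3 ▸ hs
    exact this.1.trans this.2
  have h4 : {s : ℝ | y + s • u ∈ K + segment ℝ 0 (t • u)} = Icc a (b + t) := by
    ext s
    have e : ∀ r : ℝ, y + s • u - r • u ∈ K ↔ s - r ∈ Icc a b := fun r => by
      rw [← h3, mem_ofPred_eq, sub_smul, add_sub_assoc]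
    simp only [mem_ofPred_eq, shadow_mem_add_segment K u _ ht, e, mem_Icc]
    constructor
    · rintro ⟨r, ⟨r0, r1⟩, r2, r3⟩
      constructor <;> linarith
    · rintro ⟨s0, s1⟩
      rcases le_total s b with h | h
      · exact ⟨0, ⟨le_rfl, ht⟩, by linarith, by linarith⟩
      · exact ⟨s - b, ⟨by linarith, by linarith⟩, by linarith, by linarith⟩
  rw [h4, h3, Real.volume_Icc, Real.volume_Icc, ← ENNReal.ofReal_add (by linarith) ht]
  congr 1
  ring

theorem vol_add_segment {K : Set (E n)} (hK : IsCompact K) (hc : Convex ℝ K) {u : E n}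
    (hu : ‖u‖ = 1) {t : ℝ} (ht : 0 ≤ t) :
    vol (K + segment ℝ 0 (t • u)) = vol K + t * shadow K u := by
  have hseg : IsCompact (segment ℝ (0 : E n) (t • u)) := by
    rw [segment_eq_image]
    exact isCompact_Icc.image (by fun_prop)
  have hD := shadow_isCompact hK hu
  have h1 : volume (K + segment ℝ 0 (t • u)) = volume K +
      ENNReal.ofReal t * volume {y : (ℝ ∙ u)ᗮ | ∃ s : ℝ, (y : E n) + s • u ∈ K} := by
    rw [volume_eq_lintegral_fibre hu (hK.add hseg).measurableSet,
      volume_eq_lintegral_fibre hu hK.measurableSet, ← lintegral_indicator_const hD.measurableSet,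
      ← lintegral_add_right _ (measurable_const.indicator hD.measurableSet)]
    refine lintegral_congr fun y => ?_
    by_cases hy : ∃ s : ℝ, (y : E n) + s • u ∈ K
    · rw [shadow_fibre hK hc hu ht _ hy, indicator_of_mem (by exact hy)]
    · rw [indicator_of_notMem (by exact hy), add_zero]
      congr 1
      ext s
      simp only [mem_ofPred_eq, shadow_mem_add_segment K u _ ht]
      refine ⟨fun ⟨r, _, hr⟩ => absurd ⟨s - r, ?_⟩ hy, fun h => absurd ⟨s, h⟩ hy⟩
      rwa [sub_smul, ← add_sub_assoc]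
  rw [vol, h1, shadow_eq hu, ENNReal.toReal_add hK.measure_lt_top.ne
    (ENNReal.mul_ne_top ENNReal.ofReal_ne_top hD.measure_lt_top.ne), ENNReal.toReal_mul,
    ENNReal.toReal_ofReal ht, vol]

/-- a translate of `K + [0, 2t u]` -/
theorem vol_add_segment' {K : Set (E n)} (hK : IsCompact K) (hc : Convex ℝ K) {u : E n}
    (hu : ‖u‖ = 1) {t : ℝ} (ht : 0 ≤ t) :
    vol (K + t • segment ℝ (-u) u) = vol K + 2 * t * shadow K u := by
  have h1 : t • segment ℝ (-u) u = (fun x => -(t • u) + x) '' segment ℝ 0 ((2 * t) • u) := by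
    rw [segment_translate_image, add_zero, ← image_smul, segment_eq_image, segment_eq_image,
      image_image]
    refine image_congr fun s _ => ?_
    module
  have h2 : K + t • segment ℝ (-u) u =
      (fun x => -(t • u) + x) '' (K + segment ℝ 0 ((2 * t) • u)) := by
    rw [h1]
    ext x
    constructor
    · rintro ⟨a, ha, _, ⟨b, hb, rfl⟩, rfl⟩
      exact ⟨a + b, ⟨a, ha, b, hb, rfl⟩, by simp only [add_left_comm]⟩
    · rintro ⟨_, ⟨a, ha, b, hb, rfl⟩, rfl⟩
      exact ⟨a, ha, _, ⟨b, hb, rfl⟩, by simp only [add_left_comm]⟩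
  rw [h2, vol_translate, vol_add_segment hK hc hu (by positivity)]

theorem shadow_translate (K : Set (E n)) (a : E n) {u : E n} (hu : ‖u‖ = 1) :
    shadow ((fun x => a + x) '' K) u = shadow K u := by
  unfold shadow
  rw [← (isometry_add_left (a - ⟪a, u⟫ • u)).euclideanHausdorffMeasure_image
    ((fun y => y - ⟪y, u⟫ • u) '' K), image_image, image_image]
  congr 2
  refine image_congr fun x _ => ?_
  rw [inner_add_left, add_smul]
  abel

theorem PiB_translate (K : Set (E n)) (a : E n) : PiB ((fun x => a + x) '' K) = PiB K := by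
  unfold PiB
  refine iInter₂_congr fun u hu => ?_
  rw [shadow_translate K a (mem_sphere_zero_iff_norm.mp hu)]

theorem shadow_ball {u : E n} (hu : ‖u‖ = 1) : shadow (closedBall (0 : E n) 1) u = kap (n - 1) := by
  have h1 : {y : (ℝ ∙ u)ᗮ | ∃ s : ℝ, (y : E n) + s • u ∈ closedBall (0 : E n) 1} =
      closedBall 0 1 := by
    ext y
    simp only [mem_ofPred_eq, mem_closedBall_zero_iff]
    constructor
    · rintro ⟨s, hs⟩
      have h2 : ‖(y : E n) + s • u‖ ^ 2 = ‖(y : E n)‖ ^ 2 + ‖s • u‖ ^ 2 := by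
        rw [norm_add_sq_real, inner_smul_right, shadow_inner]
        ring
      have h3 : ‖(y : E n)‖ ^ 2 ≤ 1 := by nlinarith [norm_nonneg ((y : E n) + s • u)]
      exact (sq_le_one_iff₀ (norm_nonneg _)).mp h3
    · intro hy
      exact ⟨0, by simpa using hy⟩
  let f : (ℝ ∙ u)ᗮ ≃ₗᵢ[ℝ] E (n - 1) :=
    ((stdOrthonormalBasis ℝ (ℝ ∙ u)ᗮ).reindex (finCongr (shadow_finrank hu))).repr
  rw [shadow_eq hu, h1, kap, vol, ← Measure.addHaar_unitClosedBall_eq_addHaar_unitBall,
    ← f.measurePreserving.measure_preimage measurableSet_closedBall.nullMeasurableSet]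
  congr 2
  ext y
  simp

end Crest.Agent.R230
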