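import Crest.Agent.R230.EqA
import Crest.Agent.R230.Shadow
import Crest.Agent.R230.SDT

/-!
# R230/EqB0

Equality in Urysohn's inequality forces a ball.  `K = body γ`, `h = dual γ`, `v` a unit vector,
`R x = x - 2 ⟪x,v⟫ v` the reflection.
`steiner_eq`: `K'' = ½K + ½RK` is compact convex with `0` in the interior and support function at most
`(h + h∘R)/2`, so `vol K'' ≤ κ (av h)^n ≤ vol K` (`urysohn`, `av_comp_isometry`).  The Steiner symmetral
`S = {½ x + ½ R x' | x, x' ∈ K, x - x' ∈ ℝ v}` is compact, `S ⊆ K''`, and its fibre over `y` contains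
`[-(b-a)/2, (b-a)/2]` if the fibre of `K` is `[a,b]`; so `vol K ≤ vol S` (`volume_eq_lintegral_fibre`).  If
`z ∈ K'' \ S`, the open set `interior K'' \ S` is nonempty (`K''` is the closure of its interior,
`Convex.closure_interior_eq_closure_of_nonempty_interior`), so `vol K'' > vol S`; hence `K'' = S`.
`dual_reflect`: for `y ⊥ v` let `x₁`, `x₂ ∈ K` maximise `⟪·, y + v⟫`, `⟪·, y - v⟫`.  By `steiner_eq` there
are `x, x' ∈ K` on one fibre with `x + R x' = x₁ + R x₂`; pairing with `y + v` shows that `x`, `x'` are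
maximisers too.  Their common projection `g y` is a subgradient at `y` of both `H₊ y = h (y+v)` and
`H₋ y = h (y-v)` on `v^⊥`.  So `D = H₊ - H₋` satisfies `|D y' - D y| ≤ ⟪g y' - g y, y' - y⟫`; cutting a
segment in `m` equal pieces the sum telescopes: `|D y - D 0| ≤ ⟪g y - g 0, y⟫/m`.  So `D` is a constant
`c`, and homogeneity gives `h u - h (R u) = c ⟪u,v⟫` for all `u` (three cases for the sign of `⟪u,v⟫`).
`eq_ball`: let `a = n ∫ h p • p` (so `⟪a,v⟫ = n av (h p ⟪p,v⟫)`).  Multiply `dual_reflect` by `⟪p,v⟫` and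
average: `2 av (h ⟪p,v⟫) = c/n`, so `c = 2 ⟪a,v⟫` and `h₀ = h - ⟪a,·⟫` is invariant under every
reflection, hence constant `= ρ` on the sphere.  Then `K = closedBall a ρ`: `⊆` by testing with
`u = x - a`; `⊇` by `geometric_hahn_banach_point_closed`; `ρ > 0` as `K` has interior.
-/

set_option autoImplicit false
set_option linter.unusedSectionVars false
set_option linter.unusedVariables false

namespace Crest.Agent.R230

open MeasureTheory Metric Set Filter Topology
open scoped RealInnerProductSpace ENNReal Pointwise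

variable {n : ℕ} [NeZero n]

theorem eqb0_refl {v : E n} (hv : ‖v‖ = 1) :
    ∃ e : E n ≃ₗᵢ[ℝ] E n, ∀ x, e x = x - (2 * ⟪x, v⟫) • v := by
  refine ⟨Submodule.reflection (ℝ ∙ v)ᗮ, fun x => ?_⟩
  rw [Submodule.reflection_orthogonal_apply, Submodule.reflection_singleton_apply, hv,
    real_inner_comm]
  simp only [RCLike.ofReal_real_eq_id, id_eq, one_pow, div_one]
  module

/-- a compact interval has the same length as half its difference set -/
theorem eqb0_fibre {F G : Set ℝ} (hF : IsCompact F) (hc : Convex ℝ F)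
    (h : ∀ s ∈ F, ∀ s' ∈ F, (s - s') / 2 ∈ G) : volume F ≤ volume G := by
  rcases F.eq_empty_or_nonempty with rfl | hne
  · simp
  obtain ⟨a, ha, ha'⟩ := hF.exists_isLeast hne
  obtain ⟨b, hb, hb'⟩ := hF.exists_isGreatest hne
  have h1 : F ⊆ Icc a b := fun s hs => ⟨ha' hs, hb' hs⟩
  have h2 : Icc a b ⊆ F := hc.ordConnected.out ha hb
  have h3 : Icc (-((b - a) / 2)) ((b - a) / 2) ⊆ G := by
    intro t ht
    have := h ((a + b) / 2 + t) (h2 ⟨by linarith [ht.1], by linarith [ht.2]⟩) ((a + b) / 2 - t)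
      (h2 ⟨by linarith [ht.2], by linarith [ht.1]⟩)
    convert this using 1
    ring
  refine (measure_mono h1).trans (le_trans (le_of_eq ?_) (measure_mono h3))
  rw [Real.volume_Icc, Real.volume_Icc]
  congr 1
  ring

theorem eqb0_vol_le {K S : Set (E n)} (hK : IsCompact K) (hc : Convex ℝ K) (hS : MeasurableSet S)
    {v : E n} (hv : ‖v‖ = 1)
    (h : ∀ (y : E n) (s s' : ℝ), ⟪y, v⟫ = 0 → y + s • v ∈ K → y + s' • v ∈ K →
      y + ((s - s') / 2) • v ∈ S) : volume K ≤ volume S := by
  rw [volume_eq_lintegral_fibre hv hK.measurableSet, volume_eq_lintegral_fibre hv hS]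
  refine lintegral_mono fun y => eqb0_fibre ?_ ?_ fun s hs s' hs' => h _ _ _ ?_ hs hs'
  · have hi : Isometry fun s : ℝ => (y : E n) + s • v := by
      refine Isometry.of_dist_eq fun s t => ?_
      rw [dist_add_left, dist_eq_norm, ← sub_smul, norm_smul, hv, mul_one, dist_eq_norm]
    exact hi.isClosedEmbedding.isCompact_preimage hK
  · intro s hs t ht a b ha hb hab
    have := hc hs ht ha hb hab
    change (y : E n) + (a • s + b • t) • v ∈ K
    convert this using 1
    have e : (y : E n) = (a + b) • (y : E n) := by rw [hab, one_smul]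
    simp only [smul_eq_mul]
    calc (y : E n) + (a * s + b * t) • v = (a + b) • (y : E n) + (a * s + b * t) • v := by
          rw [← e]
      _ = _ := by module
  · rw [real_inner_comm]
    exact Submodule.mem_orthogonal_singleton_iff_inner_right.1 y.2

theorem steiner_eq {γ : E n → ℝ} (hγ : Sub γ) (h : kap n * av (dual γ) ^ n ≤ vol (body γ))
    {v : E n} (hv : ‖v‖ = 1) {x₁ x₂ : E n} (h₁ : x₁ ∈ body γ) (h₂ : x₂ ∈ body γ) :
    ∃ x ∈ body γ, ∃ x' ∈ body γ, (∃ s : ℝ, x - x' = s • v) ∧
      x + (x' - (2 * ⟪x', v⟫) • v) = x₁ + (x₂ - (2 * ⟪x₂, v⟫) • v) := by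
  obtain ⟨e, he⟩ := eqb0_refl hv
  have hvv : ⟪v, v⟫ = 1 := by rw [real_inner_self_eq_norm_sq, hv, one_pow]
  have hee : ∀ x, e (e x) = x := by
    intro x
    rw [he, he, inner_sub_left, real_inner_smul_left, hvv]
    module
  have hK := hγ.isCompact_body
  have hc := hγ.convex_body
  set φ : E n × E n → E n := fun p => (1 / 2 : ℝ) • (p.1 + e p.2) with hφ
  have hφc : Continuous φ := by
    have := e.continuous
    fun_prop
  have hφl : IsLinearMap ℝ φ := by
    refine ⟨fun p q => ?_, fun c p => ?_⟩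
    · simp only [hφ, Prod.fst_add, Prod.snd_add, map_add]
      module
    · simp only [hφ, Prod.smul_fst, Prod.smul_snd, map_smul]
      module
  set M := φ '' (body γ ×ˢ body γ) with hM
  set S := φ '' (body γ ×ˢ body γ ∩ {p | p.1 - p.2 = ⟪p.1 - p.2, v⟫ • v}) with hS
  have hMc : IsCompact M := (hK.prod hK).image hφc
  have hMv : Convex ℝ M := (hc.prod hc).is_linear_image hφl
  have hSc : IsCompact S :=
    ((hK.prod hK).inter_right (isClosed_eq (by fun_prop) (by fun_prop))).image hφc
  have hSM : S ⊆ M := image_mono inter_subset_left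
  have hp := hγ.posH
  have hd := hp.sub_dual
  have hin : ∀ x ∈ body γ, ∀ w, ⟪x, w⟫ ≤ dual γ w := fun x hx w =>
    (hp.inner_le x w).trans (mul_le_of_le_one_left (hp.dual_nonneg w) hx)
  have hz : φ (x₁, x₂) ∈ M := mem_image_of_mem _ ⟨h₁, h₂⟩
  have v1 : vol M ≤ vol (body γ) := by
    have b1 := hd.bd
    have b2 := hd.bd.comp_isometry e
    have := urysohn hMc hMv ⟨_, hz⟩ (g := fun p => 1 / 2 * (dual γ p + dual γ (e p)))
      ((b1.add b2).const_mul _)
      (fun p _ => mul_nonneg (by norm_num) (add_nonneg (hp.dual_nonneg _) (hp.dual_nonneg _))) ?_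
    · rw [av_const_mul, av_add b1 b2, av_comp_isometry] at this
      refine this.trans (le_trans (le_of_eq ?_) h)
      congr 2
      ring
    · rintro _ ⟨⟨x, x'⟩, ⟨hx, hx'⟩, rfl⟩ p _
      have h1 := hin x hx p
      have h2 := hin x' hx' (e p)
      have h3 : ⟪e x', p⟫ = ⟪x', e p⟫ := by
        rw [← e.inner_map_map x' (e p), hee]
      simp only [hφ, real_inner_smul_left, inner_add_left, h3]
      linarith
  have v2 : volume M ≤ volume (body γ) :=
    (ENNReal.toReal_le_toReal hMc.measure_lt_top.ne hK.measure_lt_top.ne).1 v1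
  have v3 : volume (body γ) ≤ volume S := by
    refine eqb0_vol_le hK hc hSc.measurableSet hv fun y s s' hy hs hs' => ?_
    refine ⟨(y + s • v, y + s' • v), ⟨⟨hs, hs'⟩, ?_⟩, ?_⟩
    · have : y + s • v - (y + s' • v) = (s - s') • v := by module
      change y + s • v - (y + s' • v) = ⟪y + s • v - (y + s' • v), v⟫ • v
      rw [this, real_inner_smul_left, hvv, mul_one]
    · simp only [hφ, he, inner_add_left, real_inner_smul_left, hy, hvv]
      module
  have hint : (interior M).Nonempty := by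
    obtain ⟨r, hr, hb⟩ := Metric.mem_nhds_iff.1 (mem_interior_iff_mem_nhds.1 hγ.zero_mem_interior)
    refine ⟨0, mem_interior_iff_mem_nhds.2 (Metric.mem_nhds_iff.2 ⟨r, hr, fun x hx => ?_⟩)⟩
    refine ⟨(x, e x), ⟨hb hx, hb ?_⟩, ?_⟩
    · rwa [mem_ball_zero_iff, e.norm_map, ← mem_ball_zero_iff]
    · simp only [hφ, hee]
      module
  have hzS : φ (x₁, x₂) ∈ S := by
    by_contra hn
    have h1 : φ (x₁, x₂) ∈ closure (interior M) := by
      rw [hMv.closure_interior_eq_closure_of_nonempty_interior hint]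
      exact subset_closure hz
    have h2 : (Sᶜ ∩ interior M).Nonempty :=
      mem_closure_iff.1 h1 _ hSc.isClosed.isOpen_compl hn
    have ho : IsOpen (Sᶜ ∩ interior M) := hSc.isClosed.isOpen_compl.inter isOpen_interior
    have h3 : 0 < volume (Sᶜ ∩ interior M) := ho.measure_pos _ h2
    have h4 : volume S + volume (Sᶜ ∩ interior M) ≤ volume M := by
      rw [← measure_union (disjoint_compl_right.mono_right inter_subset_left) ho.measurableSet]
      exact measure_mono (union_subset hSM (inter_subset_right.trans interior_subset))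
    have h5 := ENNReal.lt_add_right (hSc.measure_lt_top (μ := volume)).ne h3.ne'
    exact absurd (h4.trans (v2.trans v3)) (not_le.2 h5)
  obtain ⟨⟨x, x'⟩, ⟨⟨hx, hx'⟩, hs⟩, hq⟩ := hzS
  refine ⟨x, hx, x', hx', ⟨_, hs⟩, ?_⟩
  rw [← he, ← he]
  exact smul_right_injective _ (by norm_num : (1 / 2 : ℝ) ≠ 0) hq

end Crest.Agent.R230
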