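import Crest.Agent.R230.Apri

/-!
# R230/Exist

Existence of a minimiser.
`apriori`: let `δ = N p₁`, `Λ = N p₀` be the minimum and maximum of `N` on the unit sphere.
`|⟪w,p₁⟫| ≤ δ dual N w` gives `∫ dual N ≥ c/δ`, and `av (psi N) ≥ log δ ≥ log (c/2) - c/(2δ)`
(`log x ≤ x` for `x = c/(2δ)`); so `c/(2δ) ≤ Φ₀ - log (c/2)`, i.e. `δ ≥ c₁`.  On the cap `‖p - p₀‖ < 1/2`,
`N p ≥ Λ/2` (`abs_sub_le` with `C = Λ`); the cap has measure `≥ σ₀` (`sph_ball_ge`), and
`log N - log c₁ ≥ 0` everywhere, so `σ₀ (log (Λ/2) - log c₁) ≤ Φ₀ - log c₁` if `Λ/2 ≥ c₁`.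
`isCompact_normBox`: closed subset of `∏ [c‖x‖, C‖x‖]` (`isCompact_univ_pi`).
`normBox_unif`: finite `ε`-net of the sphere, all members are `C`-Lipschitz.
`phi_close`: if `|N' - N| ≤ δ ‖·‖` then `(1-δ/c) N ≤ N' ≤ (1+δ/c) N`; `dual_anti`, `dual_const_mul`,
and `psi` is Lipschitz on `[c, C]`.
`exists_isMin`: minimise the continuous `Phi r μ` on the compact `NormBox c₁ C₁` given by `apriori`
for `Φ₀ = Phi r μ ‖·‖`.
-/

set_option autoImplicit false
set_option linter.unusedSectionVars false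
set_option linter.unusedVariables false

namespace Crest.Agent.R230

open MeasureTheory Metric Set Filter Topology
open scoped RealInnerProductSpace ENNReal Pointwise

variable {n : ℕ} [NeZero n]

theorem isCompact_normBox {c : ℝ} (hc : 0 < c) (C : ℝ) : IsCompact (NormBox n c C) := by
  have h1 : IsCompact (Set.univ.pi fun x : E n => Icc (c * ‖x‖) (C * ‖x‖)) :=
    isCompact_univ_pi fun x => isCompact_Icc
  have h2 : IsClosed {N : E n → ℝ | (∀ x y, N (x + y) ≤ N x + N y) ∧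
      (∀ (t : ℝ) (x : E n), 0 ≤ t → N (t • x) = t * N x) ∧ ∀ x, N (-x) = N x} := by
    simp only [ofPred_and, ofPred_forall]
    refine IsClosed.inter ?_ (IsClosed.inter ?_ ?_)
    · exact isClosed_iInter fun x => isClosed_iInter fun y =>
        isClosed_le (continuous_apply _) ((continuous_apply x).add (continuous_apply y))
    · exact isClosed_iInter fun t => isClosed_iInter fun x => isClosed_iInter fun _ =>
        isClosed_eq (continuous_apply _) (continuous_const.mul (continuous_apply _))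
    · exact isClosed_iInter fun x => isClosed_eq (continuous_apply _) (continuous_apply _)
  convert h1.inter_right h2 using 1
  ext N
  constructor
  · rintro ⟨hN, hb⟩
    exact ⟨fun x _ => hb x, hN.add_le, hN.smul, hN.neg⟩
  · rintro ⟨hb, h3, h4, h5⟩
    refine ⟨⟨⟨h3, h4, fun x hx => ?_⟩, h5⟩, fun x => hb x (mem_univ x)⟩
    exact (mul_pos hc (norm_pos_iff.2 hx)).trans_le (hb x (mem_univ x)).1

theorem normBox_unif {c C : ℝ} {N : E n → ℝ} (hN : N ∈ NormBox n c C) {δ : ℝ} (hδ : 0 < δ) :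
    ∀ᶠ N' in 𝓝[NormBox n c C] N, ∀ x, |N' x - N x| ≤ δ * ‖x‖ := by
  have hη : 0 < δ / (2 * |C| + 1) := by positivity
  set η := δ / (2 * |C| + 1) with hηd
  obtain ⟨t, -, htf, hcov⟩ := finite_cover_balls_of_compact (isCompact_sphere (0 : E n) 1) hη
  have h1 : ∀ᶠ N' in 𝓝 N, ∀ y ∈ t, |N' y - N y| < η := by
    refine (eventually_all_finite htf).2 fun y _ => ?_
    have : Tendsto (fun N' : E n → ℝ => N' y) (𝓝 N) (𝓝 (N y)) := (continuous_apply y).tendsto N
    have := this.eventually (ball_mem_nhds (N y) hη)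
    filter_upwards [this] with N' hN'
    simpa [Real.dist_eq] using hN'
  have lip : ∀ M ∈ NormBox n c C, ∀ x y : E n, ‖x - y‖ ≤ η → |M x - M y| ≤ |C| * η := by
    intro M hM x y hxy
    exact (hM.1.toSub.abs_sub_le (fun z => (hM.2 z).2) x y).trans
      (mul_le_mul (le_abs_self C) hxy (norm_nonneg _) (abs_nonneg _))
  filter_upwards [nhdsWithin_le_nhds h1, self_mem_nhdsWithin] with N' h' hN' x
  have sph : ∀ p : E n, ‖p‖ = 1 → |N' p - N p| ≤ δ := by
    intro p hp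
    obtain ⟨y, hy, hpy⟩ := mem_iUnion₂.1 (hcov (mem_sphere_zero_iff_norm.2 hp))
    have hpy' : ‖p - y‖ ≤ η := by rw [← dist_eq_norm]; exact (mem_ball.1 hpy).le
    have a1 := abs_le.1 (lip N' hN' p y hpy')
    have a2 := abs_le.1 (lip N hN p y hpy')
    have a3 := abs_lt.1 (h' y hy)
    have e : δ = 2 * (|C| * η) + η := by rw [hηd]; field_simp
    rw [abs_le]
    constructor <;> linarith [a1.1, a1.2, a2.1, a2.2, a3.1, a3.2]
  by_cases hx : x = 0
  · rw [hx, hN'.1.toSub.zero, hN.1.toSub.zero]; simp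
  have hpos : 0 < ‖x‖ := norm_pos_iff.2 hx
  have hp : ‖‖x‖⁻¹ • x‖ = 1 := by
    rw [norm_smul, norm_inv, norm_norm, inv_mul_cancel₀ hpos.ne']
  have e : ∀ M : E n → ℝ, Sub M → M x = ‖x‖ * M (‖x‖⁻¹ • x) := by
    intro M hM
    rw [← hM.smul _ _ hpos.le, smul_inv_smul₀ hpos.ne']
  rw [e N' hN'.1.toSub, e N hN.1.toSub, ← mul_sub, abs_mul, abs_norm, mul_comm]
  exact mul_le_mul_of_nonneg_right (sph _ hp) hpos.le

theorem exist_psi_le (r : ℕ) {c x y δ : ℝ} (hc : 0 < c) (hx : c ≤ x) (hy : c ≤ y)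
    (h : |y - x| ≤ δ) : psi r y ≤ psi r x + (1 + c⁻¹) * δ := by
  have hδ : 0 ≤ δ := (abs_nonneg _).trans h
  have h1 : y - x ≤ δ := (le_abs_self _).trans h
  have hci : 0 ≤ c⁻¹ * δ := by positivity
  unfold psi
  split_ifs
  · have hx0 : 0 < x := hc.trans_le hx
    have hy0 : 0 < y := hc.trans_le hy
    have h2 := Real.log_le_sub_one_of_pos (div_pos hy0 hx0)
    rw [Real.log_div hy0.ne' hx0.ne'] at h2
    have h3 : y / x - 1 = x⁻¹ * (y - x) := by field_simp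
    have h4 : x⁻¹ * (y - x) ≤ c⁻¹ * δ :=
      (mul_le_mul_of_nonneg_left h1 (inv_pos.2 hx0).le).trans
        (mul_le_mul_of_nonneg_right (inv_anti₀ hc hx) hδ)
    nlinarith
  · nlinarith

theorem exist_phi_le (r : ℕ) {c C m δ : ℝ} (hc : 0 < c) (hδ : 0 ≤ δ) {μ : Measure (E n)}
    (hμ : Good μ) (hm : ∫ w, ‖w‖ ∂μ ≤ m) {N N' : E n → ℝ} (hN : N ∈ NormBox n c C)
    (hN' : N' ∈ NormBox n c C) (h : ∀ x, |N' x - N x| ≤ δ * ‖x‖) :
    Phi r μ N' ≤ Phi r μ N + δ * (c⁻¹ ^ 2 * |m| + (1 + c⁻¹)) := by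
  have hP := hN.1.toSub.posH
  have hP' := hN'.1.toSub.posH
  have hci : 0 < c⁻¹ := inv_pos.2 hc
  have d1 : ∀ w, dual N' w ≤ dual N w + δ * c⁻¹ ^ 2 * ‖w‖ := by
    intro w
    have h0 := hP.dual_nonneg w
    have h1 : dual N' w ≤ (1 + δ * c⁻¹) * dual N w := by
      refine hP'.dual_le' (by positivity) fun x => ?_
      have a1 := hP.inner_le x w
      have a2 : N x ≤ (1 + δ * c⁻¹) * N' x := by
        have b1 := (abs_le.1 (h x)).1
        have b2 : ‖x‖ ≤ c⁻¹ * N' x := by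
          rw [le_inv_mul_iff₀ hc]; exact (hN'.2 x).1
        have b3 := mul_le_mul_of_nonneg_left b2 hδ
        nlinarith
      have a3 := mul_le_mul_of_nonneg_right a2 h0
      nlinarith
    have h2 : dual N w ≤ c⁻¹ * ‖w‖ := by
      rw [le_inv_mul_iff₀ hc]; exact (hP.dual_bounds hc hN.2 w).2
    have h3 := mul_le_mul_of_nonneg_left h2 (mul_nonneg hδ hci.le)
    nlinarith
  have i1 := hμ.integrable hP.sub_dual.continuous
  have i2 := hμ.integrable hP'.sub_dual.continuous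
  have i3 : Integrable (fun w : E n => ‖w‖) μ := hμ.integrable continuous_norm
  have d2 : ∫ w, dual N' w ∂μ ≤ ∫ w, dual N w ∂μ + δ * c⁻¹ ^ 2 * |m| := by
    calc ∫ w, dual N' w ∂μ ≤ ∫ w, (dual N w + δ * c⁻¹ ^ 2 * ‖w‖) ∂μ :=
          integral_mono i2 (i1.add (i3.const_mul _)) d1
      _ = ∫ w, dual N w ∂μ + δ * c⁻¹ ^ 2 * ∫ w, ‖w‖ ∂μ := by
          rw [integral_add i1 (i3.const_mul _), integral_const_mul]
      _ ≤ _ := by
          have := mul_le_mul_of_nonneg_left (hm.trans (le_abs_self m))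
            (show 0 ≤ δ * c⁻¹ ^ 2 by positivity)
          linarith
  have b1 := hN.1.toSub.bd_comp (psi_continuousOn r)
  have b2 := hN'.1.toSub.bd_comp (psi_continuousOn r)
  have d3 : av (fun p => psi r (N' p)) ≤ av (fun p => psi r (N p)) + (1 + c⁻¹) * δ := by
    rw [← av_const (n := n) ((1 + c⁻¹) * δ), ← av_add b1 (bd_const _)]
    refine av_mono b2 (b1.add (bd_const _)) fun p hp => ?_
    have a1 := (hN.2 p).1
    have a2 := (hN'.2 p).1
    have a3 := h p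
    rw [hp, mul_one] at a1 a2 a3
    exact exist_psi_le r hc a1 a2 a3
  unfold Phi
  nlinarith

theorem phi_close (r : ℕ) {c C m : ℝ} (hc : 0 < c) {ε : ℝ} (hε : 0 < ε) :
    ∃ δ : ℝ, 0 < δ ∧ ∀ μ : Measure (E n), Good μ → ∫ w, ‖w‖ ∂μ ≤ m →
      ∀ N ∈ NormBox n c C, ∀ N' ∈ NormBox n c C, (∀ x, |N' x - N x| ≤ δ * ‖x‖) →
        |Phi r μ N' - Phi r μ N| ≤ ε := by
  have hK : 0 < c⁻¹ ^ 2 * |m| + (1 + c⁻¹) := by positivity
  refine ⟨ε / (c⁻¹ ^ 2 * |m| + (1 + c⁻¹)), div_pos hε hK, fun μ hμ hm N hN N' hN' h => ?_⟩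
  have h1 := exist_phi_le r hc (div_pos hε hK).le hμ hm hN hN' h
  have h2 := exist_phi_le r hc (div_pos hε hK).le hμ hm hN' hN
    (fun x => by rw [abs_sub_comm]; exact h x)
  rw [div_mul_cancel₀ _ hK.ne'] at h1 h2
  rw [abs_le]
  constructor <;> linarith

theorem exists_isMin (r : ℕ) {μ : Measure (E n)} (h : Good μ) : ∃ N, IsMin r μ N := by
  obtain ⟨c, hc, hnd⟩ := h.nondeg
  have h0 : IsNorm (fun x : E n => 1 * ‖x‖) := isNorm_norm one_pos
  obtain ⟨c₁, C₁, hc₁, hap⟩ := apriori (n := n) r hc (Phi r μ (fun x : E n => 1 * ‖x‖))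
  have hbox := hap μ h hnd
  have hcont : ContinuousOn (Phi r μ) (NormBox n c₁ C₁) := by
    intro N hN
    rw [ContinuousWithinAt, Metric.tendsto_nhds]
    intro ε hε
    obtain ⟨δ, hδ, hcl⟩ := phi_close (n := n) r (C := C₁) (m := ∫ w, ‖w‖ ∂μ) hc₁ (half_pos hε)
    filter_upwards [normBox_unif hN hδ, self_mem_nhdsWithin] with N' h1 hN'
    rw [Real.dist_eq]
    exact (hcl μ h le_rfl N hN N' hN' h1).trans_lt (half_lt_self hε)
  obtain ⟨N, hN, hmin⟩ := (isCompact_normBox hc₁ C₁).exists_isMinOn ⟨_, hbox _ h0 le_rfl⟩ hcont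
  refine ⟨N, hN.1, fun N' hN' => ?_⟩
  by_cases hle : Phi r μ N' ≤ Phi r μ (fun x : E n => 1 * ‖x‖)
  · exact hmin (hbox N' hN' hle)
  · exact (hmin (hbox _ h0 le_rfl)).trans (not_le.1 hle).le

end Crest.Agent.R230
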