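import Crest.Agent.R230.Pars

/-!
# R230/FH

The Funk–Hecke formula for the kernel `sign ⟪p, q⟫`.
Fix a unit vector `q`, `t = ⟪p, q⟫`, `I Y = av (sign t * Y)`.  The functions `F₁ = |t|` (`LH 1`, gradient
`sign t • q` where `t ≠ 0`) and `F₂ = t |t|` (`LH 2`, gradient `2 |t| • q`) give, for `Y` harmonic of
degree `k ≥ 1` and `Z = dirD q Y`:
* (i) `ibp_poly` for `F₁`, `Y`, multiplied by `q i` and summed: `I Y = (k+n) av (t|t| Y) - av (|t| Z)`;
* (ii) `sum_ip_grad` for `F₂`, `Y`: `2 av (|t| Z) = (k+n) k av (t|t| Y)`;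
* (iii) `sum_ip_grad` for `F₁`, `Z` (degree `k-1`): `I (dirD q Z) = (k+n-2)(k-1) av (|t| Z)`.
So `I Y = (2/k - 1) av (|t| Z)`.  `k = 0`: oddness (`av_neg`).  `k = 1`: `Z` is the constant `ev Y q`.
`k = j + 2`: induction, with `ev (dirD q Z) q = j ... `: careful, `dirD q Z` has degree `j`, the induction
hypothesis gives `I (dirD q Z) = h1 hh j * ev (dirD q Z) q` and
`ev (dirD q Z) q = (j+1) ev Z q = (j+1)(j+2) ev Y q` (`ev_dirD_self` twice).
`hasSum_sign`: `S a q = av (sign ⟪p,q⟫ a p)` is `Bd` (`StronglyMeasurable.integral_prod_left`), by Fubini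
and `fh`, `ip (S a) Z = h1 hh k ip a Z`, so `pr k (S a) = (h1 hh k) • pr k a`; then `hasSum_cf`.
-/

set_option autoImplicit false
set_option linter.unusedSectionVars false
set_option linter.unusedVariables false

namespace Crest.Agent.R230

open MeasureTheory Metric Set Filter Topology
open scoped RealInnerProductSpace ENNReal Pointwise

variable {n : ℕ} [NeZero n]

theorem fh_bd_sign (q : E n) : Bd (fun p : E n => Real.sign ⟪p, q⟫) := by
  refine ⟨measurable_sign.comp (bd_inner q).1, 1, fun p _ => ?_⟩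
  show |Real.sign (⟪p, q⟫ : ℝ)| ≤ 1
  rcases Real.sign_apply_eq (⟪p, q⟫ : ℝ) with h | h | h <;> rw [h] <;> simp

theorem fh_diff_inner (q x : E n) : DifferentiableAt ℝ (fun y : E n => (⟪y, q⟫ : ℝ)) x :=
  differentiableAt_id.inner ℝ (differentiableAt_const q)

theorem fh_hasDerivAt_abs {t : ℝ} (ht : t ≠ 0) : HasDerivAt (fun s : ℝ => |s|) (Real.sign t) t := by
  rcases lt_or_gt_of_ne ht with h | h
  · rw [Real.sign_of_neg h]; exact hasDerivAt_abs_neg h
  · rw [Real.sign_of_pos h]; exact hasDerivAt_abs_pos h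

theorem fh_sign_mul (t : ℝ) : t * Real.sign t = |t| := by
  rcases lt_trichotomy t 0 with h | h | h
  · rw [Real.sign_of_neg h, abs_of_neg h]; ring
  · subst h; simp
  · rw [Real.sign_of_pos h, abs_of_pos h]; ring

theorem fh_grad1 {q p : E n} (h : (⟪p, q⟫ : ℝ) ≠ 0) (i : Fin n) :
    gradient (fun y : E n => |(⟪y, q⟫ : ℝ)|) p i = Real.sign ⟪p, q⟫ * q i := by
  have := grad_comp (F := fun y : E n => (⟪y, q⟫ : ℝ)) (fh_diff_inner q p) (fh_hasDerivAt_abs h)
  rw [this, grad_inner]; simp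

theorem fh_grad2 {q p : E n} (h : (⟪p, q⟫ : ℝ) ≠ 0) (i : Fin n) :
    gradient (fun y : E n => (⟪y, q⟫ : ℝ) * |(⟪y, q⟫ : ℝ)|) p i = 2 * |(⟪p, q⟫ : ℝ)| * q i := by
  have hd : HasDerivAt (fun s : ℝ => s * |s|) (2 * |(⟪p, q⟫ : ℝ)|) ⟪p, q⟫ := by
    have := (hasDerivAt_id' (⟪p, q⟫ : ℝ)).fun_mul (fh_hasDerivAt_abs h)
    refine this.congr_deriv ?_
    rw [fh_sign_mul]; ring
  have := grad_comp (F := fun y : E n => (⟪y, q⟫ : ℝ)) (fh_diff_inner q p) hd
  rw [this, grad_inner]; simp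

theorem fh_lh1 (q : E n) : LH 1 (fun y : E n => |(⟪y, q⟫ : ℝ)|) := (lh_inner q).abs

theorem fh_lh2 (q : E n) : LH 2 (fun y : E n => (⟪y, q⟫ : ℝ) * |(⟪y, q⟫ : ℝ)|) :=
  (lh_inner q).mul (fh_lh1 q)

theorem fh_ne {q : E n} (hq : ‖q‖ = 1) : q ≠ 0 := by
  intro h; rw [h] at hq; simp at hq

theorem fh_ip1 {q : E n} (hq : ‖q‖ = 1) (g : E n → ℝ) (i : Fin n) :
    ip (fun p => gradient (fun y : E n => |(⟪y, q⟫ : ℝ)|) p i) g =
      av (fun p => q i * (Real.sign ⟪p, q⟫ * g p)) := by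
  rw [ip_eq_av]
  refine av_congr_ae ?_
  filter_upwards [ae_inner_ne_zero (fh_ne hq)] with p hp _
  rw [fh_grad1 hp]; ring

theorem fh_ip2 {q : E n} (hq : ‖q‖ = 1) (g : E n → ℝ) (i : Fin n) :
    ip (fun p => gradient (fun y : E n => (⟪y, q⟫ : ℝ) * |(⟪y, q⟫ : ℝ)|) p i) g =
      av (fun p => 2 * (|(⟪p, q⟫ : ℝ)| * (q i * g p))) := by
  rw [ip_eq_av]
  refine av_congr_ae ?_
  filter_upwards [ae_inner_ne_zero (fh_ne hq)] with p hp _
  rw [fh_grad2 hp]; ring

theorem fh_sum_sq {q : E n} (hq : ‖q‖ = 1) : ∑ i, q i * q i = 1 := by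
  rw [← inner_eq_sum, real_inner_self_eq_norm_sq, hq]; norm_num

/-- (i) -/
theorem fh_i {k : ℕ} {Y : Pol n} (hY : Y.IsHomogeneous k) {q : E n} (hq : ‖q‖ = 1) :
    av (fun p => Real.sign ⟪p, q⟫ * ev Y p) =
      ((k : ℝ) + n) * av (fun p => (⟪p, q⟫ : ℝ) * |(⟪p, q⟫ : ℝ)| * ev Y p) -
        av (fun p => |(⟪p, q⟫ : ℝ)| * ev (dirD q Y) p) := by
  have h1 : ∀ i, q i * (q i * av (fun p => Real.sign ⟪p, q⟫ * ev Y p)) =
      ((k : ℝ) + n) * av (fun p => q i * (|(⟪p, q⟫ : ℝ)| * (p i * ev Y p))) -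
        av (fun p => q i * (|(⟪p, q⟫ : ℝ)| * ev (MvPolynomial.pderiv i Y) p)) := by
    intro i
    have h := ibp_poly (fh_lh1 q) hY i
    rw [fh_ip1 hq, av_const_mul, ip_eq_av, ip_eq_av] at h
    rw [h, av_const_mul, av_const_mul]
    push_cast; ring
  have hb := (fh_lh1 q).bd
  have e1 : av (fun p => (⟪p, q⟫ : ℝ) * |(⟪p, q⟫ : ℝ)| * ev Y p) =
      ∑ i, av (fun p => q i * (|(⟪p, q⟫ : ℝ)| * (p i * ev Y p))) := by
    rw [← av_sum _ (fun i _ => (hb.mul ((bd_coord i).mul (bd_ev Y))).const_mul (q i))]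
    refine av_congr fun p _ => ?_
    have : (⟪p, q⟫ : ℝ) * |(⟪p, q⟫ : ℝ)| * ev Y p =
        (∑ i, p i * q i) * (|(⟪p, q⟫ : ℝ)| * ev Y p) := by rw [← inner_eq_sum]; ring
    rw [this, Finset.sum_mul]
    exact Finset.sum_congr rfl fun i _ => by ring
  have e2 : av (fun p => |(⟪p, q⟫ : ℝ)| * ev (dirD q Y) p) =
      ∑ i, av (fun p => q i * (|(⟪p, q⟫ : ℝ)| * ev (MvPolynomial.pderiv i Y) p)) := by
    rw [← av_sum _ (fun i _ => (hb.mul (bd_ev _)).const_mul (q i))]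
    refine av_congr fun p _ => ?_
    rw [ev_dirD, Finset.mul_sum]
    exact Finset.sum_congr rfl fun i _ => by ring
  rw [e1, e2, Finset.mul_sum, ← Finset.sum_sub_distrib, ← Finset.sum_congr rfl fun i _ => h1 i]
  have : ∑ i, q i * (q i * av (fun p => Real.sign ⟪p, q⟫ * ev Y p)) =
      (∑ i, q i * q i) * av (fun p => Real.sign ⟪p, q⟫ * ev Y p) := by
    rw [Finset.sum_mul]; exact Finset.sum_congr rfl fun i _ => by ring
  rw [this, fh_sum_sq hq, one_mul]

/-- (ii) -/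
theorem fh_ii {k : ℕ} {Y : Pol n} (hY : Harm k Y) {q : E n} (hq : ‖q‖ = 1) :
    2 * av (fun p => |(⟪p, q⟫ : ℝ)| * ev (dirD q Y) p) =
      ((k : ℝ) + n) * k * av (fun p => (⟪p, q⟫ : ℝ) * |(⟪p, q⟫ : ℝ)| * ev Y p) := by
  have h := sum_ip_grad (fh_lh2 q) hY
  have hb := (fh_lh1 q).bd
  simp only [fh_ip2 hq] at h
  rw [← av_sum _ (fun i _ => (hb.mul ((bd_ev _).const_mul (q i))).const_mul 2), ip_eq_av] at h
  rw [← av_const_mul]
  have : av (fun p => 2 * (|(⟪p, q⟫ : ℝ)| * ev (dirD q Y) p)) =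
      av (fun p => ∑ i, 2 * (|(⟪p, q⟫ : ℝ)| * (q i * ev (MvPolynomial.pderiv i Y) p))) := by
    refine av_congr fun p _ => ?_
    rw [ev_dirD, Finset.mul_sum, Finset.mul_sum]
  rw [this, h]
  push_cast; ring

/-- (iii) -/
theorem fh_iii {k : ℕ} {Z : Pol n} (hZ : Harm k Z) {q : E n} (hq : ‖q‖ = 1) :
    av (fun p => Real.sign ⟪p, q⟫ * ev (dirD q Z) p) =
      ((k : ℝ) + n - 1) * k * av (fun p => |(⟪p, q⟫ : ℝ)| * ev Z p) := by
  have h := sum_ip_grad (fh_lh1 q) hZ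
  simp only [fh_ip1 hq] at h
  rw [← av_sum _ (fun i _ => ((fh_bd_sign q).mul (bd_ev _)).const_mul (q i)), ip_eq_av] at h
  have : av (fun p => Real.sign ⟪p, q⟫ * ev (dirD q Z) p) =
      av (fun p => ∑ i, q i * (Real.sign ⟪p, q⟫ * ev (MvPolynomial.pderiv i Z) p)) := by
    refine av_congr fun p _ => ?_
    rw [ev_dirD, Finset.mul_sum]
    exact Finset.sum_congr rfl fun i _ => by ring
  rw [this, h]
  push_cast; ring

theorem fh_iv {k : ℕ} {Y : Pol n} (hY : Harm k Y) {q : E n} (hq : ‖q‖ = 1) :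
    (k : ℝ) * av (fun p => Real.sign ⟪p, q⟫ * ev Y p) =
      (2 - k) * av (fun p => |(⟪p, q⟫ : ℝ)| * ev (dirD q Y) p) := by
  have h1 := fh_i hY.1 hq
  have h2 := fh_ii hY hq
  rw [h1]; linarith

theorem fh (hn : 3 ≤ n) {k : ℕ} {Y : Pol n} (hY : Harm k Y) {q : E n} (hq : ‖q‖ = 1) :
    av (fun p => Real.sign ⟪p, q⟫ * ev Y p) = h1 n * hh n k * ev Y q := by
  induction k using Nat.twoStepInduction generalizing Y with
  | zero =>
    obtain ⟨c, rfl⟩ := hY.eq_C
    have h := av_neg (fun p : E n => Real.sign ⟪p, q⟫ * ev (MvPolynomial.C c) p)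
    have h2 : av (fun p : E n => Real.sign ⟪-p, q⟫ * ev (MvPolynomial.C c) (-p)) =
        -1 * av (fun p : E n => Real.sign ⟪p, q⟫ * ev (MvPolynomial.C c) p) := by
      rw [← av_const_mul]
      refine av_congr fun p _ => ?_
      rw [inner_neg_left, Real.sign_neg, ev_C, ev_C]; ring
    have h3 : hh n 0 = 0 := rfl
    rw [h3]
    linarith
  | one =>
    have h := fh_iv hY hq
    obtain ⟨c, hc⟩ := (hY.dirD q).eq_C
    have h2 := ev_dirD_self hY.1 q
    rw [hc] at h h2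
    rw [ev_C] at h2
    have h3 : av (fun p : E n => |(⟪p, q⟫ : ℝ)| * ev (MvPolynomial.C c) p) = c * h1 n := by
      have := av_abs_inner q
      rw [hq, mul_one] at this
      rw [← this, ← av_const_mul]
      refine av_congr fun p _ => ?_
      rw [ev_C]; ring
    have h4 : hh n 1 = 1 := rfl
    rw [h3] at h
    rw [h4]
    push_cast at h h2
    rw [h2] at h
    linarith
  | more j ih _ =>
    have hZ : Harm (j + 1) (dirD q Y) := hY.dirD q
    have hW : Harm j (dirD q (dirD q Y)) := hZ.dirD q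
    have h1' := fh_iv hY hq
    have h2 := fh_iii hZ hq
    have h3 := ih hW
    rw [ev_dirD_self hZ.1, ev_dirD_self hY.1] at h3
    rw [h3] at h2
    have h4 : hh n (j + 2) = -((j : ℝ) / (j + n)) * hh n j := rfl
    have hn' : (3 : ℝ) ≤ n := by exact_mod_cast hn
    have hj : (0 : ℝ) ≤ j := Nat.cast_nonneg j
    rw [h4]
    push_cast at h1' h2
    set A := av (fun p => |(⟪p, q⟫ : ℝ)| * ev (dirD q Y) p)
    set I := av (fun p => Real.sign ⟪p, q⟫ * ev Y p)
    have h5 : ((j : ℝ) + n) * A = h1 n * hh n j * ((j + 2) * ev Y q) := by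
      have : ((j : ℝ) + 1) * (((j : ℝ) + n) * A) =
          ((j : ℝ) + 1) * (h1 n * hh n j * ((j + 2) * ev Y q)) := by linarith
      exact mul_left_cancel₀ (by positivity) this
    have h6 : ((j : ℝ) + 2) * (((j : ℝ) + n) * I) =
        ((j : ℝ) + 2) * (-(j : ℝ) * (h1 n * hh n j * ev Y q)) := by
      have : ((j : ℝ) + 2) * (((j : ℝ) + n) * I) = -(j : ℝ) * (((j : ℝ) + n) * A) := by
        have : ((j : ℝ) + 2) * (((j : ℝ) + n) * I) = ((j : ℝ) + n) * (((j : ℝ) + 2) * I) := by ring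
        rw [this, h1']; ring
      rw [this, h5]; ring
    have h7 := mul_left_cancel₀ (by positivity) h6
    have h8 : (j : ℝ) + n ≠ 0 := by positivity
    field_simp
    linarith

theorem fh_meas_kernel {a : E n → ℝ} (ha : Bd a) :
    Measurable (fun z : E n × E n => Real.sign ⟪z.2, z.1⟫ * a z.2) :=
  (measurable_sign.comp (by fun_prop)).mul (ha.1.comp measurable_snd)

theorem fh_abs_sign (t : ℝ) : |Real.sign t| ≤ 1 := by
  rcases Real.sign_apply_eq t with h | h | h <;> rw [h] <;> simp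

theorem bd_sign_av {a : E n → ℝ} (ha : Bd a) :
    Bd (fun q => av (fun p => Real.sign ⟪p, q⟫ * a p)) := by
  obtain ⟨C, hC⟩ := ha.2
  refine ⟨?_, C, fun q _ => ?_⟩
  · exact ((fh_meas_kernel ha).stronglyMeasurable.integral_prod_right' (ν := sph n)).measurable
  · have h1' : av (fun p => Real.sign ⟪p, q⟫ * a p) ≤ av (fun _ : E n => C) := by
      refine av_mono ((fh_bd_sign q).mul ha) (bd_const C) fun p hp => ?_
      refine (le_abs_self _).trans ?_
      rw [abs_mul]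
      exact (mul_le_of_le_one_left (abs_nonneg _) (fh_abs_sign _)).trans (hC p hp)
    have h2 : av (fun _ : E n => -C) ≤ av (fun p => Real.sign ⟪p, q⟫ * a p) := by
      refine av_mono (bd_const _) ((fh_bd_sign q).mul ha) fun p hp => ?_
      refine le_trans ?_ (neg_abs_le _)
      rw [abs_mul]
      exact neg_le_neg ((mul_le_of_le_one_left (abs_nonneg _) (fh_abs_sign _)).trans (hC p hp))
    rw [av_const] at h1' h2
    exact abs_le.2 ⟨h2, h1'⟩

/-- the kernel is symmetric -/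
theorem fh_swap {a b : E n → ℝ} (ha : Bd a) (hb : Bd b) :
    ip (fun q => av (fun p => Real.sign ⟪p, q⟫ * a p)) b =
      ip a (fun p => av (fun q => Real.sign ⟪q, p⟫ * b q)) := by
  obtain ⟨C, hC⟩ := ha.2
  obtain ⟨D, hD⟩ := hb.2
  have hm : Measurable (fun z : E n × E n => Real.sign ⟪z.2, z.1⟫ * a z.2 * b z.1) :=
    (fh_meas_kernel ha).mul (hb.1.comp measurable_fst)
  have hint : Integrable (Function.uncurry fun q p : E n => Real.sign ⟪p, q⟫ * a p * b q)
      ((sph n).prod (sph n)) := by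
    refine Integrable.of_bound hm.aestronglyMeasurable (C * D) ?_
    have h1' : ∀ᵐ z : E n × E n ∂(sph n).prod (sph n), ‖z.1‖ = 1 :=
      Measure.quasiMeasurePreserving_fst.ae ae_norm_sph
    have h2 : ∀ᵐ z : E n × E n ∂(sph n).prod (sph n), ‖z.2‖ = 1 :=
      Measure.quasiMeasurePreserving_snd.ae ae_norm_sph
    filter_upwards [h1', h2] with z hz1 hz2
    show ‖Real.sign ⟪z.2, z.1⟫ * a z.2 * b z.1‖ ≤ C * D
    rw [Real.norm_eq_abs, abs_mul, abs_mul]
    have h3 : |Real.sign (⟪z.2, z.1⟫ : ℝ)| * |a z.2| ≤ C :=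
      (mul_le_of_le_one_left (abs_nonneg _) (fh_abs_sign _)).trans (hC _ hz2)
    exact mul_le_mul h3 (hD _ hz1) (abs_nonneg _) ((abs_nonneg _).trans (hC _ hz2))
  have h := integral_integral_swap hint
  unfold ip av
  have e1 : ∀ q : E n, (∫ p, Real.sign ⟪p, q⟫ * a p ∂sph n) * b q =
      ∫ p, Real.sign ⟪p, q⟫ * a p * b q ∂sph n := fun q => (integral_mul_const _ _).symm
  have e2 : ∀ p : E n, a p * ∫ q, Real.sign ⟪q, p⟫ * b q ∂sph n =
      ∫ q, Real.sign ⟪p, q⟫ * a p * b q ∂sph n := by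
    intro p
    rw [← integral_const_mul]
    refine integral_congr_ae (Eventually.of_forall fun q => ?_)
    show a p * (Real.sign ⟪q, p⟫ * b q) = Real.sign ⟪p, q⟫ * a p * b q
    rw [real_inner_comm]; ring
  simp only [e1, e2]
  exact h

theorem fh_pr (hn : 3 ≤ n) {a : E n → ℝ} (ha : Bd a) (k : ℕ) :
    pr k (fun q => av (fun p => Real.sign ⟪p, q⟫ * a p)) = (h1 n * hh n k) • pr k a := by
  refine pr_unique (bd_sign_av ha) ((pr_spec k ha).1.smul _) fun Z hZ => ?_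
  rw [fh_swap ha (bd_ev Z)]
  have e1 : ip a (fun p => av (fun q => Real.sign ⟪q, p⟫ * ev Z q)) =
      ip a (fun p => h1 n * hh n k * ev Z p) :=
    ip_congr (fun _ _ => rfl) fun p hp => fh hn hZ hp
  have e2 : ip (ev ((h1 n * hh n k) • pr k a)) (ev Z) =
      ip (fun p => h1 n * hh n k * ev (pr k a) p) (ev Z) :=
    ip_congr (fun p _ => ev_smul _ _ _) fun _ _ => rfl
  rw [e1, e2, ip_const_mul_left, ip_comm, ip_const_mul_left, ip_comm, (pr_spec k ha).2 Z hZ]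

theorem hasSum_sign (hn : 3 ≤ n) {a b : E n → ℝ} (ha : Bd a) (hb : Bd b) :
    HasSum (fun k => h1 n * hh n k * cf k a b)
      (av (fun q => av (fun p => Real.sign ⟪p, q⟫ * a p) * b q)) := by
  have h := hasSum_cf hn (bd_sign_av ha) hb
  rw [ip_eq_av] at h
  convert h using 2 with k
  unfold cf
  rw [fh_pr hn ha k, ← ip_const_mul_left]
  exact ip_congr (fun p _ => (ev_smul _ _ _).symm) fun _ _ => rfl

theorem hh_even (j : ℕ) : hh n (2 * j) = 0 := by
  induction j with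
  | zero => rfl
  | succ j ih =>
    have : hh n (2 * (j + 1)) = -(((2 * j : ℕ) : ℝ) / ((2 * j : ℕ) + n)) * hh n (2 * j) := rfl
    rw [this, ih, mul_zero]

/-- induction: the ratio is `(j+4)/(j+n) ≤ 1` -/
theorem abs_hh_le (hn : 4 ≤ n) (l : ℕ) :
    |hh n (2 * l + 1)| * ((2 * l + 1) * (2 * l + 3)) ≤ 3 := by
  induction l with
  | zero =>
    have : hh n (2 * 0 + 1) = 1 := rfl
    rw [this]; norm_num
  | succ l ih =>
    have h : hh n (2 * (l + 1) + 1) =
        -(((2 * l + 1 : ℕ) : ℝ) / ((2 * l + 1 : ℕ) + n)) * hh n (2 * l + 1) := rfl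
    have hn' : (4 : ℝ) ≤ n := by exact_mod_cast hn
    have hl : (0 : ℝ) ≤ l := Nat.cast_nonneg l
    rw [h, abs_mul, abs_neg]
    push_cast
    rw [abs_of_nonneg (by positivity)]
    refine le_trans ?_ ih
    have h0 := abs_nonneg (hh n (2 * l + 1))
    have hd : (0 : ℝ) < 2 * l + 1 + n := by positivity
    have key : (2 * (l : ℝ) + 1) / (2 * l + 1 + n) * ((2 * (l + 1) + 1) * (2 * (l + 1) + 3)) ≤
        (2 * l + 1) * (2 * l + 3) := by
      rw [div_mul_eq_mul_div, div_le_iff₀ hd]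
      have : (0 : ℝ) ≤ (2 * l + 1) * (2 * l + 3) * (n - 4) := by
        have : (0 : ℝ) ≤ n - 4 := by linarith
        positivity
      nlinarith
    nlinarith [mul_le_mul_of_nonneg_left key h0]

end Crest.Agent.R230
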