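import Crest.Agent.R230.LHom0

/-!
# R230/LHom

Homogeneous locally Lipschitz functions and their gradients.
Products and compositions: a pair of locally Lipschitz maps is locally Lipschitz, and a `C¹` map is
Lipschitz near each point (`ContDiffAt.exists_lipschitzOnWith`, `ContDiff.locallyLipschitz`).
Rademacher: on a compact annulus `F` is Lipschitz (`LocallyLipschitzOn.exists_lipschitzOnWith_of_compact`
or cover by hand), so it is differentiable a.e. there (`LipschitzOnWith.ae_differentiableWithinAt`);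
differentiability at `x` and at `r • x` are equivalent; use `ae_sph_of_ae`-type reasoning (every
`x ≠ 0` lies in some annulus `1/k < ‖x‖ < k`).
The gradient is bounded on the sphere by the Lipschitz constant on an annulus
(`norm_fderiv_le_of_lipschitzOn`) and measurable (`measurable_fderiv`).
-/

set_option autoImplicit false
set_option linter.unusedSectionVars false
set_option linter.unusedVariables false

namespace Crest.Agent.R230

open MeasureTheory Metric Set Filter Topology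
open scoped RealInnerProductSpace ENNReal Pointwise

variable {n : ℕ} [NeZero n]

theorem LH.lipschitzOn_annulus {d : ℕ} {F : E n → ℝ} (h : LH d F) {a b : ℝ} (ha : 0 < a) :
    ∃ K, LipschitzOnWith K F {x | a ≤ ‖x‖ ∧ ‖x‖ ≤ b} := by
  have hc : IsCompact {x : E n | a ≤ ‖x‖ ∧ ‖x‖ ≤ b} := by
    refine (isCompact_closedBall (0 : E n) b).of_isClosed_subset ?_ ?_
    · exact (isClosed_le continuous_const continuous_norm).inter
        (isClosed_le continuous_norm continuous_const)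
    · intro x hx
      exact mem_closedBall_zero_iff.2 hx.2
  refine LocallyLipschitzOn.exists_lipschitzOnWith_of_compact hc (h.lip.mono ?_)
  intro x hx h0
  have h1 : a ≤ ‖x‖ := hx.1
  rw [mem_singleton_iff.1 h0, norm_zero] at h1
  linarith

theorem lhom_annulus_mem_nhds {a b : ℝ} {x : E n} (h1 : a < ‖x‖) (h2 : ‖x‖ < b) :
    {y : E n | a ≤ ‖y‖ ∧ ‖y‖ ≤ b} ∈ 𝓝 x := by
  have ho : IsOpen {y : E n | a < ‖y‖ ∧ ‖y‖ < b} :=
    (isOpen_lt continuous_const continuous_norm).inter (isOpen_lt continuous_norm continuous_const)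
  exact mem_of_superset (ho.mem_nhds ⟨h1, h2⟩) fun y hy => ⟨hy.1.le, hy.2.le⟩

theorem LH.ae_diff_vol {d : ℕ} {F : E n → ℝ} (h : LH d F) : ∀ᵐ x : E n, DifferentiableAt ℝ F x := by
  have h1 : ∀ k : ℕ, ∀ᵐ x : E n, x ∈ {y : E n | ((k : ℝ) + 1)⁻¹ ≤ ‖y‖ ∧ ‖y‖ ≤ k + 1} →
      DifferentiableWithinAt ℝ F {y : E n | ((k : ℝ) + 1)⁻¹ ≤ ‖y‖ ∧ ‖y‖ ≤ k + 1} x := by
    intro k
    obtain ⟨K, hK⟩ := h.lipschitzOn_annulus (a := ((k : ℝ) + 1)⁻¹) (b := k + 1) (by positivity)
    exact hK.ae_differentiableWithinAt_of_mem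
  have h0 : ∀ᵐ x : E n, x ≠ 0 := by
    have : Nontrivial (E n) := by
      have : Nonempty (Fin n) := ⟨⟨0, Nat.pos_of_ne_zero (NeZero.ne n)⟩⟩
      infer_instance
    exact compl_mem_ae_iff.2 (measure_singleton (0 : E n))
  filter_upwards [ae_all_iff.2 h1, h0] with x hx hx0
  have hpos : 0 < ‖x‖ := norm_pos_iff.2 hx0
  obtain ⟨k, hk⟩ := exists_nat_gt (max ‖x‖ ‖x‖⁻¹)
  have a1 : ‖x‖ < k + 1 := by have := le_max_left ‖x‖ ‖x‖⁻¹; linarith
  have a2 : ((k : ℝ) + 1)⁻¹ < ‖x‖ := by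
    have : ‖x‖⁻¹ < k + 1 := by have := le_max_right ‖x‖ ‖x‖⁻¹; linarith
    exact inv_lt_of_inv_lt₀ hpos this
  exact (hx k ⟨a2.le, a1.le⟩).differentiableAt (lhom_annulus_mem_nhds a2 a1)

theorem lhom_hasFDerivAt_smul {d : ℕ} {F : E n → ℝ} (h : LH d F) {r : ℝ} (hr : 0 < r) {x : E n}
    (hx : DifferentiableAt ℝ F x) : HasFDerivAt F ((r ^ d / r) • fderiv ℝ F x) (r • x) := by
  have e : F = fun y => r ^ d * F (r⁻¹ • y) := by
    funext y
    rw [← h.hom r _ hr, smul_inv_smul₀ hr.ne']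
  have h1 : HasFDerivAt (fun y : E n => r⁻¹ • y) (r⁻¹ • ContinuousLinearMap.id ℝ (E n)) (r • x) :=
    (hasFDerivAt_id (r • x)).const_smul r⁻¹
  have h2 : HasFDerivAt F (fderiv ℝ F x) (r⁻¹ • r • x) := by
    rw [inv_smul_smul₀ hr.ne']; exact hx.hasFDerivAt
  have h3 := (h2.comp (r • x) h1).const_mul (r ^ d)
  have h4 : HasFDerivAt (fun y => r ^ d * F (r⁻¹ • y))
      ((r ^ d / r) • fderiv ℝ F x) (r • x) := by
    refine h3.congr_fderiv ?_
    ext v
    simp [div_eq_mul_inv, mul_assoc]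
  rwa [← e] at h4

theorem LH.grad_smul {d : ℕ} {F : E n → ℝ} (h : LH d F) {r : ℝ} (hr : 0 < r) (x : E n) :
    gradient F (r • x) = (r ^ d / r) • gradient F x ∧
      (DifferentiableAt ℝ F (r • x) ↔ DifferentiableAt ℝ F x) := by
  have hiff : DifferentiableAt ℝ F (r • x) ↔ DifferentiableAt ℝ F x := by
    refine ⟨fun hx => ?_, fun hx => (lhom_hasFDerivAt_smul h hr hx).differentiableAt⟩
    have := (lhom_hasFDerivAt_smul h (inv_pos.2 hr) hx).differentiableAt
    rwa [inv_smul_smul₀ hr.ne'] at this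
  refine ⟨?_, hiff⟩
  by_cases hx : DifferentiableAt ℝ F x
  · refine ext_inner_right ℝ fun v => ?_
    rw [real_inner_smul_left, inner_grad, inner_grad, (lhom_hasFDerivAt_smul h hr hx).fderiv]
    rfl
  · rw [gradient_eq_zero_of_not_differentiableAt hx,
      gradient_eq_zero_of_not_differentiableAt (fun h' => hx (hiff.1 h')), smul_zero]

theorem LH.ae_diff {d : ℕ} {F : E n → ℝ} (h : LH d F) : ∀ᵐ p ∂sph n, DifferentiableAt ℝ F p :=
  ae_sph_of_ae (fun x _ hr hx => (h.grad_smul hr x).2.1 hx) h.ae_diff_vol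

theorem LH.bd_norm_grad {d : ℕ} {F : E n → ℝ} (h : LH d F) : Bd (fun p => ‖gradient F p‖) := by
  obtain ⟨K, hK⟩ := h.lipschitzOn_annulus (a := 1 / 2) (b := 2) (by norm_num)
  refine ⟨(measurable_grad F).norm, K, fun p hp => ?_⟩
  have h1 := norm_fderiv_le_of_lipschitzOn ℝ
    (lhom_annulus_mem_nhds (x := p) (a := 1 / 2) (b := 2) (by rw [hp]; norm_num)
      (by rw [hp]; norm_num)) hK
  show |‖gradient F p‖| ≤ K
  rw [abs_norm, gradient, LinearIsometryEquiv.norm_map]
  exact h1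

theorem LH.bd_grad_inner {d : ℕ} {F : E n → ℝ} (h : LH d F) (v : E n) :
    Bd (fun p => ⟪gradient F p, v⟫) := by
  obtain ⟨_, C, hC⟩ := h.bd_norm_grad
  refine ⟨(measurable_grad F).inner measurable_const, C * ‖v‖, fun p hp => ?_⟩
  have h1 : |‖gradient F p‖| ≤ C := hC p hp
  rw [abs_norm] at h1
  exact (abs_real_inner_le_norm _ _).trans (mul_le_mul_of_nonneg_right h1 (norm_nonneg _))

theorem LH.bd_grad {d : ℕ} {F : E n → ℝ} (h : LH d F) (i : Fin n) :
    Bd (fun p => gradient F p i) := by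
  have e : (fun p => gradient F p i) = fun p => ⟪gradient F p, EuclideanSpace.single i 1⟫ := by
    funext p; exact grad_coord F p i
  rw [e]
  exact h.bd_grad_inner _

/-- Euler's identity: differentiate `r ↦ F (r • x) = r^d F x` at `r = 1` -/
theorem LH.euler {d : ℕ} {F : E n → ℝ} (h : LH d F) {x : E n} (hx : DifferentiableAt ℝ F x) :
    ⟪gradient F x, x⟫ = d * F x := by
  rw [inner_grad]
  have h1 : HasDerivAt (fun r : ℝ => r • x) x 1 := by
    simpa using (hasDerivAt_id (1 : ℝ)).smul_const x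
  have h2 : HasFDerivAt F (fderiv ℝ F x) ((1 : ℝ) • x) := by
    rw [one_smul]; exact hx.hasFDerivAt
  have h3 : HasDerivAt (fun r : ℝ => F (r • x)) (fderiv ℝ F x x) 1 := h2.comp_hasDerivAt 1 h1
  have h4 : HasDerivAt (fun r : ℝ => r ^ d * F x) (d * F x) 1 := by
    simpa using (hasDerivAt_pow d (1 : ℝ)).mul_const (F x)
  have h5 : (fun r : ℝ => F (r • x)) =ᶠ[𝓝 1] fun r : ℝ => r ^ d * F x := by
    filter_upwards [lt_mem_nhds (zero_lt_one' ℝ)] with r hr
    exact h.hom r x hr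
  exact h3.unique (h4.congr_of_eventuallyEq h5)

end Crest.Agent.R230
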