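import Crest.Agent.R230.Sph

/-!
# R230/LHom0

Homogeneous locally Lipschitz functions and their gradients.
Products and compositions: a pair of locally Lipschitz maps is locally Lipschitz, and a `C¹` map is
Lipschitz near each point (`ContDiffAt.exists_lipschitzOnWith`, `ContDiff.locallyLipschitz`).
Rademacher: on a compact annulus `F` is Lipschitz (`LocallyLipschitzOn.exists_lipschitzOnWith_of_compact`
or cover by hand), so it is differentiable a.e. there (`LipschitzOnWith.ae_differentiableWithinAt`);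
differentiability at `x` and at `r • x` are equivalent; use `ae_sph_of_ae`-type reasoning (every
`x ≠ 0` lies in some annulus `1/k < ‖x‖ < k`).
The gradient is bounded on the sphere by the Lipschitz constant on an annulus
(`norm_fderiv_le_of_lipschitzOn`) and measurable (`measurable_fderiv`).
-/

set_option autoImplicit false
set_option linter.unusedSectionVars false
set_option linter.unusedVariables false

namespace Crest.Agent.R230

open MeasureTheory Metric Set Filter Topology
open scoped RealInnerProductSpace ENNReal Pointwise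

variable {n : ℕ} [NeZero n]

theorem lhom0_comp {X Y Z : Type} [PseudoMetricSpace X] [PseudoMetricSpace Y] [PseudoMetricSpace Z]
    {s : Set X} {f : X → Y} {g : Y → Z} (hf : LocallyLipschitzOn s f)
    (hg : ∀ x ∈ s, ∃ K, ∃ t ∈ 𝓝 (f x), LipschitzOnWith K g t) :
    LocallyLipschitzOn s (fun x => g (f x)) := by
  intro x hx
  obtain ⟨K, t, ht, hK⟩ := hf hx
  obtain ⟨K', t', ht', hK'⟩ := hg x hx
  refine ⟨K' * K, t ∩ f ⁻¹' t', inter_mem ht (hf.continuousOn x hx ht'), ?_⟩
  exact hK'.comp (hK.mono inter_subset_left) fun y hy => hy.2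

theorem lhom0_prod {X Y Z : Type} [PseudoMetricSpace X] [PseudoMetricSpace Y] [PseudoMetricSpace Z]
    {s : Set X} {f : X → Y} {g : X → Z} (hf : LocallyLipschitzOn s f)
    (hg : LocallyLipschitzOn s g) : LocallyLipschitzOn s (fun x => (f x, g x)) := by
  intro x hx
  obtain ⟨K, t, ht, hK⟩ := hf hx
  obtain ⟨K', t', ht', hK'⟩ := hg hx
  exact ⟨max K K', t ∩ t', inter_mem ht ht',
    (hK.mono inter_subset_left).prodMk (hK'.mono inter_subset_right)⟩

theorem lhom0_lip {X Y : Type} [PseudoMetricSpace X] [PseudoMetricSpace Y] {s : Set X} {f : X → Y}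
    {K : NNReal} (hf : LipschitzWith K f) : LocallyLipschitzOn s f :=
  fun _ _ => ⟨K, univ, univ_mem, hf.lipschitzOnWith⟩

theorem lhom0_mul {X : Type} [PseudoMetricSpace X] {s : Set X} {f g : X → ℝ}
    (hf : LocallyLipschitzOn s f) (hg : LocallyLipschitzOn s g) :
    LocallyLipschitzOn s (fun x => f x * g x) :=
  lhom0_comp (g := fun p : ℝ × ℝ => p.1 * p.2) (lhom0_prod hf hg) fun _ _ =>
    ContDiffAt.exists_lipschitzOnWith (𝕂 := ℝ) (by fun_prop)

theorem measurable_grad (F : E n → ℝ) : Measurable (gradient F) :=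
  (InnerProductSpace.toDual ℝ (E n)).symm.continuous.measurable.comp (measurable_fderiv ℝ F)
theorem inner_grad (F : E n → ℝ) (x v : E n) : ⟪gradient F x, v⟫ = fderiv ℝ F x v :=
  InnerProductSpace.toDual_symm_apply
theorem inner_eq_sum (x y : E n) : ⟪x, y⟫ = ∑ i, x i * y i := by
  simp [PiLp.inner_apply, mul_comm]
theorem grad_coord (F : E n → ℝ) (x : E n) (i : Fin n) :
    gradient F x i = ⟪gradient F x, EuclideanSpace.single i 1⟫ := by
  rw [EuclideanSpace.inner_single_right]
  simp
theorem grad_mul {F G : E n → ℝ} {x : E n} (hF : DifferentiableAt ℝ F x)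
    (hG : DifferentiableAt ℝ G x) :
    gradient (fun y => F y * G y) x = G x • gradient F x + F x • gradient G x := by
  refine ext_inner_right ℝ fun v => ?_
  rw [inner_add_left, real_inner_smul_left, real_inner_smul_left, inner_grad, inner_grad, inner_grad,
    fderiv_fun_mul hF hG]
  simp [add_comm]
/-- chain rule -/
theorem grad_comp {F : E n → ℝ} {x : E n} (hF : DifferentiableAt ℝ F x) {η : ℝ → ℝ} {c : ℝ}
    (hη : HasDerivAt η c (F x)) : gradient (fun y => η (F y)) x = c • gradient F x := by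
  refine ext_inner_right ℝ fun v => ?_
  rw [real_inner_smul_left, inner_grad, inner_grad]
  have := (hη.comp_hasFDerivAt x hF.hasFDerivAt).fderiv
  rw [show (fun y => η (F y)) = η ∘ F from rfl, this]
  simp
theorem grad_inner (v x : E n) : gradient (fun y : E n => ⟪y, v⟫) x = v := by
  refine ext_inner_right ℝ fun w => ?_
  rw [inner_grad]
  have : (fun y : E n => ⟪y, v⟫) = innerSL ℝ v := by
    ext y
    simp [real_inner_comm]
  rw [this, ContinuousLinearMap.fderiv]
  simp
theorem grad_norm {x : E n} (hx : x ≠ 0) : gradient (fun y : E n => ‖y‖) x = ‖x‖⁻¹ • x := by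
  refine ext_inner_right ℝ fun w => ?_
  rw [inner_grad, real_inner_smul_left]
  have hn : ‖x‖ ≠ 0 := norm_ne_zero_iff.2 hx
  have h1 := (hasStrictFDerivAt_norm_sq x).hasFDerivAt.sqrt (pow_ne_zero 2 hn)
  simp only [Real.sqrt_sq (norm_nonneg _)] at h1
  rw [h1.fderiv]
  simp
  field_simp

theorem LH.continuousOn {d : ℕ} {F : E n → ℝ} (h : LH d F) : ContinuousOn F ({0}ᶜ : Set (E n)) :=
  h.lip.continuousOn
theorem LH.bd {d : ℕ} {F : E n → ℝ} (h : LH d F) : Bd F := bd_of_continuousOn h.continuousOn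
theorem lh_const (c : ℝ) : LH 0 (fun _ : E n => c) :=
  ⟨fun r x _ => by simp, lhom0_lip (LipschitzWith.const c)⟩
theorem LH.add {d : ℕ} {F G : E n → ℝ} (hF : LH d F) (hG : LH d G) : LH d (fun x => F x + G x) :=
  ⟨fun r x hr => by rw [hF.hom r x hr, hG.hom r x hr, mul_add], hF.lip.add hG.lip⟩
theorem LH.const_mul {d : ℕ} {F : E n → ℝ} (hF : LH d F) (c : ℝ) : LH d (fun x => c * F x) :=
  ⟨fun r x hr => by rw [hF.hom r x hr]; ring, lhom0_mul (lhom0_lip (LipschitzWith.const c)) hF.lip⟩
theorem LH.mul {d e : ℕ} {F G : E n → ℝ} (hF : LH d F) (hG : LH e G) :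
    LH (d + e) (fun x => F x * G x) :=
  ⟨fun r x hr => by rw [hF.hom r x hr, hG.hom r x hr]; ring, lhom0_mul hF.lip hG.lip⟩
theorem LH.pow {F : E n → ℝ} (hF : LH 1 F) (k : ℕ) : LH k (fun x => F x ^ k) := by
  induction k with
  | zero => simpa using lh_const (n := n) 1
  | succ k ih => simpa [pow_succ] using ih.mul hF
theorem LH.abs {d : ℕ} {F : E n → ℝ} (hF : LH d F) : LH d (fun x => |F x|) :=
  ⟨fun r x hr => by rw [hF.hom r x hr, abs_mul, abs_of_pos (pow_pos hr d)],
    lhom0_comp (g := fun t : ℝ => |t|) hF.lip fun _ _ =>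
      ⟨1, univ, univ_mem, (lipschitzWith_one_norm (E := ℝ)).lipschitzOnWith⟩⟩
theorem lh_inner (v : E n) : LH 1 (fun x : E n => ⟪x, v⟫) := by
  refine ⟨fun r x hr => by rw [real_inner_smul_left, pow_one], ?_⟩
  have : (fun y : E n => ⟪y, v⟫) = innerSL ℝ v := by
    ext y
    simp [real_inner_comm]
  rw [this]
  exact lhom0_lip (innerSL ℝ v).lipschitz
theorem lh_coord (i : Fin n) : LH 1 (fun x : E n => x i) := by
  have := lh_inner (EuclideanSpace.single i (1 : ℝ) : E n)
  simpa [EuclideanSpace.inner_single_right] using this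
/-- `η` is `C¹` on `(0, ∞)` (`contDiffOn_succ_iff_deriv_of_isOpen`, or the mean value inequality
on a compact interval) -/
theorem LH.comp_ratio {F : E n → ℝ} (hF : LH 1 F) (hpos : ∀ x, x ≠ 0 → 0 < F x) {η η' : ℝ → ℝ}
    (hη : ∀ x, 0 < x → HasDerivAt η (η' x) x) (hc : ContinuousOn η' (Ioi 0)) :
    LH 0 (fun x => η (F x / ‖x‖)) := by
  refine ⟨fun r x hr => ?_, ?_⟩
  · rw [hF.hom r x hr, norm_smul, Real.norm_of_nonneg hr.le, pow_one, mul_div_mul_left _ _ hr.ne',
      pow_zero, one_mul]
  · have hη1 : ContDiffOn ℝ 1 η (Ioi 0) := by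
      rw [show (1 : WithTop ℕ∞) = 0 + 1 from rfl, contDiffOn_succ_iff_deriv_of_isOpen isOpen_Ioi]
      refine ⟨fun x hx => (hη x hx).differentiableAt.differentiableWithinAt, by simp, ?_⟩
      rw [contDiffOn_zero]
      exact hc.congr fun x hx => (hη x hx).deriv
    have h1 : LocallyLipschitzOn ({0}ᶜ : Set (E n)) (fun x => F x / ‖x‖) :=
      lhom0_comp (g := fun p : ℝ × ℝ => p.1 / p.2)
        (lhom0_prod hF.lip (lhom0_lip lipschitzWith_one_norm)) fun x hx =>
        ContDiffAt.exists_lipschitzOnWith (𝕂 := ℝ)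
          (contDiffAt_fst.div contDiffAt_snd (norm_ne_zero_iff.2 hx))
    refine lhom0_comp h1 fun x hx => ContDiffAt.exists_lipschitzOnWith (𝕂 := ℝ) ?_
    exact hη1.contDiffAt (Ioi_mem_nhds (div_pos (hpos x hx) (norm_pos_iff.2 hx)))

end Crest.Agent.R230
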