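import Crest.Agent.R230.Surf
import Crest.Agent.R230.BM
import Crest.Agent.R230.Pert
import Crest.Agent.R230.Shadow

/-!
# R230/Mink

Minkowski's first inequality and Cauchy's projection formula.
`iso_surf`: let `a = V^(1/n)`, `b = vol (body N)^(1/n)`, `H = ∫ dual N`.  `bm` and `vol_add_le` give
`a^n + n a^(n-1) b t ≤ (a + t b)^n ≤ V + n t H + C t²`, so `a^(n-1) b ≤ H`; raise to the power `n`.
`cauchy`, `≤`: `vol_add_segment'` and `vol_add_le` with `M = [-u,u]`, `g w = |⟪w,u⟫|`.
`≥`: `V + 2 t shadow = vol (body γ_t) = κ av γ_t^{-n} ≥ κ av (γ^{-n} (1 + n (1 - γ_t/γ)))`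
(`x^{-n} ≥ 1 + n (1 - x)` for `x > 0`), divide by `t` and use `tendsto_pert`, `integral_surf`.
`kap_pred`: `cauchy` for `γ = ‖·‖` (`grad_norm`, `shadow_ball`, `av_abs_inner`).
-/

set_option autoImplicit false
set_option linter.unusedSectionVars false
set_option linter.unusedVariables false

namespace Crest.Agent.R230

open MeasureTheory Metric Set Filter Topology
open scoped RealInnerProductSpace ENNReal Pointwise

variable {n : ℕ} [NeZero n]

theorem mink_le_of_sq {x y C : ℝ} (h : ∀ t, 0 < t → t ≤ 1 → x * t ≤ y * t + C * t ^ 2) :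
    x ≤ y := by
  have h1 : Tendsto (fun t : ℝ => y + C * t) (𝓝[>] 0) (𝓝 (y + C * 0)) :=
    (Continuous.tendsto (by fun_prop) 0).mono_left nhdsWithin_le_nhds
  rw [mul_zero, add_zero] at h1
  refine ge_of_tendsto h1 ?_
  filter_upwards [Ioc_mem_nhdsGT (zero_lt_one' ℝ)] with t ht
  refine le_of_mul_le_mul_right ?_ ht.1
  have := h t ht.1 ht.2
  nlinarith

theorem mink_root {V : ℝ} (hV : 0 ≤ V) : ∃ a : ℝ, 0 ≤ a ∧ a ^ n = V :=
  ⟨V ^ ((n : ℝ)⁻¹), Real.rpow_nonneg hV _, Real.rpow_inv_natCast_pow hV (NeZero.ne n)⟩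

theorem Sub.iso_surf {γ : E n → ℝ} (h : Sub γ) : Iso (surf γ) (vol (body γ) ^ (n - 1)) := by
  intro N hN
  have hP := hN.toSub.posH
  obtain ⟨a, ha, ea⟩ := mink_root (n := n) (vol_nonneg (body γ))
  obtain ⟨b, hb, eb⟩ := mink_root (n := n) (vol_nonneg (body N))
  obtain ⟨C, hC⟩ := h.vol_add_le (M := body N) hP.sub_dual.continuous hP.dual_nonneg
    fun m hm w => (hP.inner_le m w).trans (mul_le_of_le_one_left (hP.dual_nonneg w) hm)
  have hn : (0 : ℝ) < n := Nat.cast_pos.2 (NeZero.pos n)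
  have key : n * (a ^ (n - 1) * b) ≤ n * ∫ w, dual N w ∂surf γ := by
    refine mink_le_of_sq (C := C) fun t ht ht1 => ?_
    have h1 := bm h.isCompact_body (hN.toSub.isCompact_body.smul t) h.convex_body
      (hN.toSub.convex_body.smul t) ⟨0, interior_subset h.zero_mem_interior⟩
      (Set.Nonempty.smul_set ⟨0, interior_subset hN.toSub.zero_mem_interior⟩) ha
      (mul_nonneg ht.le hb) ea.le (by rw [vol_smul _ ht.le, mul_pow, eb])
    have h2 := pow_add_mul_le_add_pow ha (b := t * b) (by positivity) n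
    have h3 := hC t ht.le ht1
    rw [ea] at h2
    nlinarith
  have h4 := pow_le_pow_left₀ (by positivity) (le_of_mul_le_mul_left key hn) n
  rwa [mul_pow, eb, ← pow_mul, mul_comm (n - 1), pow_mul, ea] at h4

theorem Sub.cauchy {γ : E n → ℝ} (h : Sub γ) {u : E n} (hu : ‖u‖ = 1) :
    shadow (body γ) u = n / 2 * ∫ w, |⟪w, u⟫| ∂surf γ := by
  have hg : Continuous fun w : E n => |⟪w, u⟫| := by fun_prop
  apply le_antisymm
  · obtain ⟨C, hC⟩ := h.vol_add_le (M := segment ℝ (-u) u) hg (fun w => abs_nonneg _) (by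
      rintro _ ⟨a, b, ha, hb, hab, rfl⟩ w
      rw [inner_add_left, real_inner_smul_left, real_inner_smul_left, inner_neg_left,
        real_inner_comm]
      have h1 := le_abs_self ⟪w, u⟫
      have h2 := neg_le_abs ⟪w, u⟫
      calc _ ≤ a * |⟪w, u⟫| + b * |⟪w, u⟫| := by gcongr
        _ = _ := by rw [← add_mul, hab, one_mul])
    have key : 2 * shadow (body γ) u ≤ n * ∫ w, |⟪w, u⟫| ∂surf γ := by
      refine mink_le_of_sq (C := C) fun t ht ht1 => ?_
      have h3 := hC t ht.le ht1
      rw [vol_add_segment' h.isCompact_body h.convex_body hu ht.le] at h3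
      linarith
    linarith
  · rw [h.integral_surf hg]
    have hκ := kap_pos n
    have h1 := (h.tendsto_pert u (h.bd_inv_pow n)).const_mul (n / 2 * kap n)
    simp only [mul_comm ((γ _)⁻¹ ^ n) |_|] at h1
    rw [← mul_assoc]
    refine le_of_tendsto h1 ?_
    filter_upwards [self_mem_nhdsWithin] with t (ht : 0 < t)
    obtain ⟨h2, h3⟩ := h.pert_spec u ht.le
    have h4 := h2.vol_body
    rw [h3, vol_add_segment' h.isCompact_body h.convex_body hu ht.le, h.vol_body] at h4
    have hb : Bd fun p => (γ p)⁻¹ ^ n * (1 - pert γ u t p / γ p) := by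
      refine (h.bd_inv_pow n).mul ((bd_const 1).sub ?_)
      simpa [div_eq_mul_inv] using h2.bd.mul (h.bd_inv_pow 1)
    have h5 : av (fun p => (γ p)⁻¹ ^ n) + n * av (fun p => (γ p)⁻¹ ^ n * (1 - pert γ u t p / γ p)) ≤
        av (fun p => (pert γ u t p)⁻¹ ^ n) := by
      rw [← av_const_mul, ← av_add (h.bd_inv_pow n) (hb.const_mul _)]
      refine av_mono ((h.bd_inv_pow n).add (hb.const_mul _)) (h2.bd_inv_pow n) fun p hp => ?_
      have hp0 : p ≠ 0 := fun e => by simp [e] at hp
      have k1 := h.pos p hp0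
      have k2 := h2.pos p hp0
      generalize pert γ u t p = y at k2
      generalize γ p = x at k1
      have k3 := one_add_mul_sub_le_pow (a := x / y) (by have := div_pos k1 k2; linarith) n
      have k4 : 1 - y / x ≤ x / y - 1 := by
        have : 0 ≤ (x - y) ^ 2 / (x * y) := by positivity
        have e : (x - y) ^ 2 / (x * y) = x / y - 1 - (1 - y / x) := by field_simp
        linarith
      have k5 : y⁻¹ ^ n = x⁻¹ ^ n * (x / y) ^ n := by
        rw [← mul_pow]; congr 1; field_simp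
      have k6 : (n : ℝ) * (1 - y / x) ≤ n * (x / y - 1) := by gcongr
      have k7 : 0 ≤ x⁻¹ ^ n := by positivity
      rw [k5]
      nlinarith
    rw [← mul_div_assoc, div_le_iff₀ ht]
    nlinarith

theorem kap_pred : kap (n - 1) = n / 2 * (kap n * h1 n) := by
  have hN : Sub (fun x : E n => ‖x‖) := by simpa using (isNorm_norm (n := n) one_pos).toSub
  obtain ⟨u, hu⟩ : ∃ u : E n, ‖u‖ = 1 :=
    ⟨EuclideanSpace.single (⟨0, NeZero.pos n⟩ : Fin n) 1, by simp⟩
  have h1 := hN.cauchy hu
  have e : body (fun x : E n => ‖x‖) = closedBall 0 1 := by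
    ext x; simp [body]
  rw [e, shadow_ball hu, hN.integral_surf (by fun_prop)] at h1
  rw [h1, av_congr (g := fun p => |⟪p, u⟫|), av_abs_inner, hu, mul_one]
  intro p hp
  have hp0 : p ≠ 0 := fun e => by simp [e] at hp
  simp [grad_norm hp0, hp]

end Crest.Agent.R230
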