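import Crest.Agent.R230.SimpSh

/-!
# R230/Num56

Numerics for S0356.  Blocks of size ten: `b i = i / 10 : Fin (n/10 + 1)`; the blocks `j < n/10` have
ten elements and `cc d ≥ 1` for every `d` (`d! ≤ d^d`), so the product is at least `cc 10 ^ (n/10)`,
`cc 10 = 11 · 10^10/10! ≥ 2.8^10`, and `10 (n/10) ≥ n - 9`.  For the simplex (one block)
`cc n ≤ (n+1) e^n` (`Real.pow_div_factorial_le_exp`), `e ≤ 2.72`.  Take `λ = 1.01`:
`(n+1) 2.8^9 (1.01 · 2.72/2.8)^n → 0` (`tendsto_self_mul_const_pow_of_lt_one`).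
-/

set_option autoImplicit false
set_option linter.unusedSectionVars false
set_option linter.unusedVariables false

namespace Crest.Agent.R230

open MeasureTheory Metric Set Filter Topology
open scoped RealInnerProductSpace ENNReal Pointwise

variable {n : ℕ} [NeZero n]

theorem num56_one_le (d : ℕ) : 1 ≤ cc d := by
  have h1 : (d.factorial : ℝ) ≤ (d : ℝ) ^ d := by exact_mod_cast Nat.factorial_le_pow d
  have h2 : (0 : ℝ) < d.factorial := by positivity
  rw [cc, le_div_iff₀ h2, one_mul]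
  exact h1.trans (le_mul_of_one_le_left (by positivity) (by linarith [(Nat.cast_nonneg d : (0 : ℝ) ≤ d)]))

theorem num56_ten : (14 / 5 : ℝ) ^ 10 ≤ cc 10 := by
  rw [cc]
  norm_num [Nat.factorial]

theorem num56_le (d : ℕ) : cc d ≤ (d + 1) * (68 / 25 : ℝ) ^ d := by
  rw [cc, mul_div_assoc]
  gcongr
  refine (Real.pow_div_factorial_le_exp (d : ℝ) (Nat.cast_nonneg d) d).trans ?_
  rw [← Real.exp_one_pow]
  gcongr
  exact Real.exp_one_lt_d9.le.trans (by norm_num)

theorem exists_blocks (m : ℕ) : ∃ (q : ℕ) (b : Fin m → Fin q),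
    (14 / 5 : ℝ) ^ m ≤ (14 / 5 : ℝ) ^ 9 * ∏ j, cc (blk b j).card := by
  let b : Fin m → Fin (m / 10 + 1) := fun i =>
    ⟨i / 10, Nat.lt_succ_of_le (Nat.div_le_div_right i.2.le)⟩
  have hc : ∀ j : Fin (m / 10), (blk b j.castSucc).card = 10 := by
    intro j
    have hj := j.2
    have e : (blk b j.castSucc).map Fin.valEmbedding = Finset.Ico (10 * j.1) (10 * j.1 + 10) := by
      ext k
      simp only [blk, b, Finset.mem_map, Finset.mem_filter, Finset.mem_univ, true_and, Fin.ext_iff,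
        Fin.val_castSucc, Fin.valEmbedding_apply, Finset.mem_Ico]
      constructor
      · rintro ⟨i, h1, rfl⟩
        omega
      · intro h
        exact ⟨⟨k, by omega⟩, by simp only; omega, rfl⟩
    have := congrArg Finset.card e
    rwa [Finset.card_map, Nat.card_Ico, Nat.add_sub_cancel_left] at this
  refine ⟨m / 10 + 1, b, ?_⟩
  rw [Fin.prod_univ_castSucc, Finset.prod_congr rfl fun j _ => by rw [hc j], Finset.prod_const,
    Finset.card_univ, Fintype.card_fin]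
  have h10 : (0 : ℝ) ≤ cc 10 := zero_le_one.trans (num56_one_le 10)
  calc (14 / 5 : ℝ) ^ m ≤ (14 / 5 : ℝ) ^ (9 + 10 * (m / 10)) :=
        pow_le_pow_right₀ (by norm_num) (by omega)
    _ = (14 / 5 : ℝ) ^ 9 * ((14 / 5 : ℝ) ^ 10) ^ (m / 10) := by rw [pow_add, pow_mul]
    _ ≤ (14 / 5 : ℝ) ^ 9 * cc 10 ^ (m / 10) := by gcongr; exact num56_ten
    _ ≤ _ := by
        gcongr
        exact le_mul_of_one_le_right (by positivity) (num56_one_le _)

theorem exists_lam : ∃ lam : ℝ, 1 < lam ∧ ∃ N : ℕ, 20 ≤ N ∧ ∀ m : ℕ, N ≤ m →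
    ∃ (q : ℕ) (b : Fin m → Fin q), lam ^ m * cc m ≤ ∏ j, cc (blk b j).card := by
  obtain ⟨r, hr⟩ : ∃ r : ℝ, r = 101 / 100 * (68 / 25) / (14 / 5) := ⟨_, rfl⟩
  have hr0 : 0 ≤ r := by rw [hr]; norm_num
  have hr1 : r < 1 := by rw [hr]; norm_num
  have h1 : Tendsto (fun m : ℕ => ((m : ℝ) * r ^ m + r ^ m) * (14 / 5 : ℝ) ^ 9) atTop
      (𝓝 ((0 + 0) * (14 / 5 : ℝ) ^ 9)) :=
    ((tendsto_self_mul_const_pow_of_lt_one hr0 hr1).add
      (tendsto_pow_atTop_nhds_zero_of_lt_one hr0 hr1)).mul_const _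
  rw [add_zero, zero_mul] at h1
  obtain ⟨N, hN⟩ := eventually_atTop.1 (h1.eventually (ge_mem_nhds one_pos))
  refine ⟨101 / 100, by norm_num, max 20 N, le_max_left _ _, fun m hm => ?_⟩
  obtain ⟨q, b, hb⟩ := exists_blocks m
  have h2 := hN m ((le_max_right _ _).trans hm)
  have h3 : 0 ≤ ∏ j, cc (blk b j).card :=
    Finset.prod_nonneg fun j _ => zero_le_one.trans (num56_one_le _)
  refine ⟨q, b, ?_⟩
  have e : (101 / 100 : ℝ) ^ m * (68 / 25) ^ m = r ^ m * (14 / 5) ^ m := by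
    rw [← mul_pow, ← mul_pow, hr]
    norm_num
  calc (101 / 100 : ℝ) ^ m * cc m ≤ (101 / 100 : ℝ) ^ m * ((m + 1) * (68 / 25 : ℝ) ^ m) := by
        gcongr
        exact num56_le m
    _ = (m * r ^ m + r ^ m) * (14 / 5) ^ m := by linear_combination ((m : ℝ) + 1) * e
    _ ≤ (m * r ^ m + r ^ m) * ((14 / 5 : ℝ) ^ 9 * ∏ j, cc (blk b j).card) := by gcongr
    _ ≤ _ := by
        rw [← mul_assoc]
        exact mul_le_of_le_one_left h3 h2

end Crest.Agent.R230
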