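import Crest.Agent.R230.OneDAux

/-!
# R230/OneD

The one-variable certificates (done by the project lead).
-/

set_option autoImplicit false
set_option linter.unusedSectionVars false
set_option linter.unusedVariables false

namespace Crest.Agent.R230

open MeasureTheory Metric Set Filter Topology
open scoped RealInnerProductSpace ENNReal Pointwise

variable {n : ℕ} [NeZero n]

theorem oned_ef_one (m : ℕ) : ef m 1 = 0 := by simp [ef]

theorem oned_hasDerivAt_ef {m : ℕ} (hm : 1 ≤ m) {x : ℝ} (hx : 0 < x) :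
    HasDerivAt (ef m) (-(x⁻¹ ^ (m + 1))) x := by
  have h1 : HasDerivAt (fun y : ℝ => y⁻¹ ^ m) ((m : ℝ) * x⁻¹ ^ (m - 1) * (-(x ^ 2)⁻¹)) x :=
    (hasDerivAt_inv hx.ne').pow m
  have h2 := (h1.sub_const 1).div_const (m : ℝ)
  have hm0 : (m : ℝ) ≠ 0 := by positivity
  refine HasDerivAt.congr_deriv (f := ef m) h2 ?_
  obtain ⟨k, rfl⟩ : ∃ k, m = k + 1 := ⟨m - 1, by omega⟩
  simp only [Nat.add_sub_cancel]
  rw [← inv_pow]
  generalize x⁻¹ = w
  field_simp
  ring

theorem oned_ef_ge {m : ℕ} (hm : 1 ≤ m) {x : ℝ} (hx : 0 < x) : x⁻¹ - 1 ≤ ef m x := by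
  have h1 := one_add_mul_le_pow (a := x⁻¹ - 1) (by have := inv_pos.2 hx; linarith) m
  have hm0 : (0 : ℝ) < m := by positivity
  unfold ef
  rw [le_div_iff₀ hm0]
  simp only [add_sub_cancel] at h1
  linarith

theorem oned_ef_succ {m : ℕ} (hm : 1 ≤ m) {x : ℝ} (hx : 0 < x) : ef m x ≤ ef (m + 1) x := by
  have h1 := one_add_mul_le_pow (a := x - 1) (by linarith) (m + 1)
  simp only [add_sub_cancel] at h1
  have hm0 : (0 : ℝ) < m := by positivity
  have hw : 0 < x⁻¹ ^ (m + 1) := pow_pos (inv_pos.2 hx) _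
  have h2 := mul_le_mul_of_nonneg_right h1 hw.le
  have h3 : x ^ (m + 1) * x⁻¹ ^ (m + 1) = 1 := by rw [← mul_pow, mul_inv_cancel₀ hx.ne', one_pow]
  have h4 : x * x⁻¹ ^ (m + 1) = x⁻¹ ^ m := by rw [pow_succ]; field_simp
  unfold ef
  rw [div_le_div_iff₀ hm0 (by positivity)]
  push_cast at h2 ⊢
  nlinarith

theorem oned_ef_mono {m k : ℕ} (hm : 1 ≤ m) (h : m ≤ k) {x : ℝ} (hx : 0 < x) : ef m x ≤ ef k x := by
  induction k, h using Nat.le_induction with
  | base => exact le_rfl
  | succ k hk ih => exact ih.trans (oned_ef_succ (hm.trans hk) hx)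

theorem oned_K_nonneg {r m : ℕ} (hr : r ≤ 1) (hm : 1 ≤ m) {x : ℝ} (hx : 0 < x) :
    0 ≤ onedK r m x := by
  have h1 := oned_ef_ge hm hx
  have h2 : x - 1 ≤ Gf r x := by
    unfold Gf
    interval_cases r
    · simp
    · norm_num; nlinarith [sq_nonneg (x - 1)]
  have h3 : 0 ≤ x + x⁻¹ - 2 := by
    have : x + x⁻¹ - 2 = (x - 1) ^ 2 / x := by field_simp; ring
    rw [this]; positivity
  unfold onedK
  linarith

theorem oned_K_one (r m : ℕ) : onedK r m 1 = 0 := by simp [onedK, Gf, ef]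

theorem oned_P_one (r m : ℕ) : onedP r m 1 = 0 := by simp [onedP, ef]

theorem oned_hasDerivAt_K (r : ℕ) {m : ℕ} (hm : 1 ≤ m) {x : ℝ} (hx : 0 < x) :
    HasDerivAt (onedK r m) (x ^ r - x⁻¹ ^ (m + 1)) x := by
  have h1 : HasDerivAt (Gf r) (x ^ r) x := by
    have h2 := ((hasDerivAt_pow (r + 1) x).sub_const 1).div_const ((r : ℝ) + 1)
    refine HasDerivAt.congr_deriv (f := Gf r) h2 ?_
    simp only [Nat.add_sub_cancel]
    push_cast
    field_simp
  have h3 := h1.add (oned_hasDerivAt_ef hm hx)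
  exact HasDerivAt.congr_deriv (f := onedK r m) h3 (sub_eq_add_neg _ _).symm

theorem oned_hasDerivAt_P {r m : ℕ} (hm : r + 1 ≤ m) {x : ℝ} (hx : 0 < x) :
    HasDerivAt (onedP r m) ((x ^ r - x⁻¹ ^ (m + 1)) ^ 2) x := by
  have h1 := ((hasDerivAt_pow (2 * r + 1) x).sub_const 1).div_const (2 * (r : ℝ) + 1)
  have h2 := (oned_hasDerivAt_ef (m := m - r) (by omega) hx).const_mul 2
  have h3 := oned_hasDerivAt_ef (m := 2 * m + 1) (by omega) hx
  have h4 := (h1.add h2).sub h3
  refine HasDerivAt.congr_deriv (f := onedP r m) h4 ?_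
  obtain ⟨k, rfl⟩ : ∃ k, m = r + k := ⟨m - r, by omega⟩
  simp only [Nat.add_sub_cancel, Nat.add_sub_cancel_left]
  have e1 : x ^ r * x⁻¹ ^ (r + k + 1) = x⁻¹ ^ (k + 1) := by
    rw [add_assoc, pow_add x⁻¹ r, ← mul_assoc, ← mul_pow, mul_inv_cancel₀ hx.ne', one_pow, one_mul]
  have e2 : ((2 * r + 1 : ℕ) : ℝ) * x ^ (2 * r) / (2 * (r : ℝ) + 1) = (x ^ r) ^ 2 := by
    push_cast
    field_simp
    ring
  have e3 : x⁻¹ ^ (2 * (r + k) + 1 + 1) = (x⁻¹ ^ (r + k + 1)) ^ 2 := by ring
  rw [e2, e3, ← e1]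
  ring

/-- cutting off a function whose derivative vanishes at `1` -/
theorem oned_hasDerivAt_max {g g' : ℝ → ℝ} (hg : ∀ y, 0 < y → HasDerivAt g (g' y) y)
    (h1 : g' 1 = 0) (x : ℝ) : HasDerivAt (fun y => g (max y 1)) (g' (max x 1)) x := by
  rcases lt_trichotomy x 1 with hx | hx | hx
  · rw [max_eq_right hx.le, h1]
    refine (hasDerivAt_const x (g 1)).congr_of_eventuallyEq ?_
    filter_upwards [Iio_mem_nhds hx] with y hy
    rw [max_eq_right (le_of_lt hy)]
  · subst hx
    rw [max_self, h1]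
    have hl : HasDerivWithinAt (fun y => g (max y 1)) 0 (Iic 1) 1 :=
      (hasDerivWithinAt_const 1 (Iic 1) (g 1)).congr (fun y hy => by rw [max_eq_right hy])
        (by rw [max_self])
    have hr : HasDerivWithinAt (fun y => g (max y 1)) 0 (Ici 1) 1 := by
      have := (hg 1 one_pos).hasDerivWithinAt (s := Ici 1)
      rw [h1] at this
      exact this.congr (fun y hy => by rw [max_eq_left hy]) (by rw [max_self])
    have := hl.union hr
    rwa [Iic_union_Ici, hasDerivWithinAt_univ] at this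
  · rw [max_eq_left hx.le]
    refine (hg x (by linarith)).congr_of_eventuallyEq ?_
    filter_upwards [Ioi_mem_nhds hx] with y hy
    rw [max_eq_left (le_of_lt hy)]

theorem oned_P_nonneg {r m : ℕ} (hm : r + 1 ≤ m) {x : ℝ} (hx : 1 ≤ x) : 0 ≤ onedP r m x := by
  have hmono : MonotoneOn (onedP r m) (Ici 1) := by
    refine monotoneOn_of_hasDerivWithinAt_nonneg (f' := fun x => (x ^ r - x⁻¹ ^ (m + 1)) ^ 2)
      (convex_Ici 1) (fun y hy => ?_) (fun y hy => ?_) (fun y _ => sq_nonneg _)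
    · exact (oned_hasDerivAt_P hm (lt_of_lt_of_le one_pos hy)).continuousAt.continuousWithinAt
    · exact (oned_hasDerivAt_P hm (lt_of_lt_of_le one_pos (interior_subset hy))).hasDerivWithinAt
  have := hmono (Set.mem_Ici.2 le_rfl) hx hx
  rwa [oned_P_one] at this

theorem oned_cert {N r m : ℕ} (hr : r ≤ 1) (hm : r + 1 ≤ m) (hmN : m ≤ N) {a Y M ω : ℝ}
    (hhi : ∀ x : ℝ, 1 ≤ x → a * (Gf r x - ω * onedK r m x) ^ 2 + Y * (x * onedP r m x) -
      M * onedK r m x ^ 2 ≤ 2 * jf r m x)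
    (hlo : ∀ x : ℝ, 0 < x → x ≤ 1 → a * Gf r x ^ 2 ≤ 2 * jf r m x)
    (ha : 0 < a) (hY : 0 ≤ Y) (hM : 0 ≤ M) (hω : 0 ≤ ω) (hω1 : ω ≤ 1)
    (hq : M - a * (1 - ω) ^ 2 ≤ 2 * r + 1) (h2 : M * (N - 1) ≤ 2 * N * Y)
    (h4 : 0 < (4 * N + 8) * Y / (N - 1) - M)
    (hθ : bet N (r + 1) * (1 / a + ω ^ 2 / ((4 * N + 8) * Y / (N - 1) - M)) ≤ 99 / 100) :
    Cert N r (fun x => onedK r m (max x 1)) (fun x => (max x 1) ^ r - (max x 1)⁻¹ ^ (m + 1))
      (fun x => onedP r m (max x 1)) a Y M ω := by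
  have hm1 : 1 ≤ m := by omega
  have hmax : ∀ x : ℝ, 0 < max x 1 := fun x => lt_of_lt_of_le one_pos (le_max_right _ _)
  refine ⟨fun x _ => ?_, fun x _ => ?_, ?_, fun x _ => oned_P_nonneg hm (le_max_right _ _),
    fun x _ => oned_K_nonneg hr hm1 (hmax x), fun x hx => ?_, fun x hx => ?_, ha, hY, hM, hω, hω1,
    hq, h2, h4, hθ⟩
  · exact oned_hasDerivAt_max (g' := fun x => x ^ r - x⁻¹ ^ (m + 1))
      (fun y hy => oned_hasDerivAt_K r hm1 hy) (by simp) x
  · exact oned_hasDerivAt_max (g' := fun x => (x ^ r - x⁻¹ ^ (m + 1)) ^ 2)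
      (fun y hy => oned_hasDerivAt_P hm hy) (by simp) x
  · refine Continuous.continuousOn ?_
    have hc : Continuous fun x : ℝ => max x 1 := continuous_id.max continuous_const
    exact (hc.pow r).sub ((hc.inv₀ fun x => (hmax x).ne').pow _)
  · have h1 := oned_ef_mono hm1 hmN hx
    rcases le_total x 1 with h | h
    · simp only [max_eq_right h, oned_K_one]
      have := oned_K_nonneg hr hm1 hx
      unfold onedK at this
      linarith
    · simp only [max_eq_left h]
      unfold onedK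
      linarith
  · have h1 := oned_ef_mono hm1 hmN hx
    have h3 : jf r m x ≤ jf r N x := by unfold jf; linarith
    rcases le_total x 1 with h | h
    · simp only [max_eq_right h, oned_K_one, oned_P_one]
      have := hlo x hx h
      simp only [mul_zero, sub_zero, add_zero, ne_eq, OfNat.ofNat_ne_zero, not_false_eq_true,
        zero_pow]
      linarith
    · simp only [max_eq_left h]
      have := hhi x h
      linarith

theorem exists_cert (hn : 4 ≤ n) :
    ∃ (η η' φ : ℝ → ℝ) (a Y M ω : ℝ), Cert n (rr n) η η' φ a Y M ω := by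
  by_cases h11 : n ≤ 11
  · have hr : rr n = 0 := by simp [rr, h11]
    rw [hr]
    by_cases h4 : n = 4
    · subst h4
      exact ⟨_, _, _, _, _, _, _, oned_cert (m := 4) (by norm_num) (by norm_num) le_rfl
        (fun x hx => oned_hi_A hx) (fun x h0 h1 => oned_lo_A h0 h1) (by norm_num) (by norm_num)
        (by norm_num) (by norm_num) (by norm_num) (by norm_num) (by norm_num) (by norm_num)
        (by norm_num [bet])⟩
    by_cases h6 : n ≤ 6
    · refine ⟨_, _, _, _, _, _, _, oned_cert (m := 5) (by norm_num) (by norm_num) (by omega)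
        (fun x hx => oned_hi_B hx) (fun x h0 h1 => oned_lo_B h0 h1) (by norm_num) (by norm_num)
        (by norm_num) (by norm_num) (by norm_num) (by norm_num) ?_ ?_ ?_⟩ <;>
      interval_cases n <;> first | omega | norm_num [bet]
    · refine ⟨_, _, _, _, _, _, _, oned_cert (m := 7) (by norm_num) (by norm_num) (by omega)
        (fun x hx => oned_hi_C hx) (fun x h0 h1 => oned_lo_C h0 h1) (by norm_num) (by norm_num)
        (by norm_num) (by norm_num) (by norm_num) (by norm_num) ?_ ?_ ?_⟩ <;>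
      interval_cases n <;> first | omega | norm_num [bet]
  · have hr : rr n = 1 := by simp [rr, h11]
    rw [hr]
    have hn' : (12 : ℝ) ≤ n := by exact_mod_cast (by omega : 12 ≤ n)
    have hn1 : (0 : ℝ) < n - 1 := by linarith
    have e4 : (4 * (n : ℝ) + 8) * (7 / 4) / (n - 1) - 3 = (4 * n + 17) / (n - 1) := by
      field_simp; ring
    refine ⟨_, _, _, _, _, _, _, oned_cert (m := 12) (by norm_num) (by norm_num) (by omega)
        (fun x hx => oned_hi_D hx) (fun x h0 h1 => oned_lo_D h0 h1) (by norm_num) (by norm_num)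
        (by norm_num) (by norm_num) (by norm_num) (by norm_num) (by linarith) ?_ ?_⟩
    · rw [e4]; positivity
    · rw [e4]
      have e5 : bet n (1 + 1) * (1 / 10 + (3 / 4 : ℝ) ^ 2 / ((4 * n + 17) / (n - 1))) =
          ((4 * n ^ 2 + 20 * n + 28) * (77 * n + 91)) / (80 * ((n + 1) * (n + 3) * (4 * n + 17))) := by
        unfold bet
        push_cast
        field_simp
        ring
      rw [e5, div_le_iff₀ (by positivity)]
      have h0 : (0 : ℝ) ≤ n := by linarith
      nlinarith [mul_nonneg h0 h0, mul_nonneg h0 (mul_nonneg h0 h0)]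

end Crest.Agent.R230
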