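import Crest.Agent.R230.Defs

/-!
# R230/OneDAux: the four pairs of polynomial inequalities
-/

set_option autoImplicit false

namespace Crest.Agent.R230

/-- `k x = (x^s - 1)/s + (x^{-m} - 1)/m` -/
noncomputable def onedK (r m : ℕ) (x : ℝ) : ℝ := Gf r x + ef m x

/-- the primitive of `k'²` vanishing at `1` -/
noncomputable def onedP (r m : ℕ) (x : ℝ) : ℝ :=
  (x ^ (2 * r + 1) - 1) / (2 * r + 1) + 2 * ef (m - r) x - ef (2 * m + 1) x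

theorem oned_hi_A {x : ℝ} (hx : 1 ≤ x) :
    5 * (Gf 0 x - (3 / 4) * onedK 0 4 x) ^ 2 + 1 * (x * onedP 0 4 x) -
      (21 / 16) * onedK 0 4 x ^ 2 ≤ 2 * jf 0 4 x := by
  obtain ⟨y, rfl⟩ : ∃ y, x = 1 + y := ⟨x - 1, by ring⟩
  have hy : 0 ≤ y := by linarith
  have hx0 : (0 : ℝ) < 1 + y := by linarith
  rw [← sub_nonneg]
  have key : 2 * jf 0 4 (1 + y) - (5 * (Gf 0 (1 + y) - (3 / 4) * onedK 0 4 (1 + y)) ^ 2 +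
      1 * ((1 + y) * onedP 0 4 (1 + y)) - (21 / 16) * onedK 0 4 (1 + y) ^ 2) =
      (120 * y ^ 3 + 900 * y ^ 4 + 2196 * y ^ 5 + 2604 * y ^ 6 + 1656 * y ^ 7 + 549 * y ^ 8 + 76 * y ^ 9) / (288 * (1 + y) ^ 8) := by
    simp only [onedK, onedP, jf, Gf, ef]
    push_cast
    field_simp
    ring
  rw [key]
  positivity

theorem oned_lo_A {x : ℝ} (hx0 : 0 < x) (hx : x ≤ 1) :
    5 * Gf 0 x ^ 2 ≤ 2 * jf 0 4 x := by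
  obtain ⟨z, hz, rfl⟩ : ∃ z : ℝ, 0 ≤ z ∧ x = (1 + z)⁻¹ :=
    ⟨x⁻¹ - 1, by rw [sub_nonneg]; exact (one_le_inv₀ hx0).2 hx, by simp⟩
  have hz0 : (0 : ℝ) < 1 + z := by linarith
  rw [← sub_nonneg]
  have key : 2 * jf 0 4 (1 + z)⁻¹ - 5 * Gf 0 (1 + z)⁻¹ ^ 2 =
      (20 * z ^ 3 + 15 * z ^ 4 + 6 * z ^ 5 + 1 * z ^ 6) / (2 * (1 + z) ^ 2) := by
    simp only [jf, Gf, ef, inv_inv]
    push_cast
    field_simp
    ring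
  rw [key]
  positivity

theorem oned_hi_B {x : ℝ} (hx : 1 ≤ x) :
    (11 / 2) * (Gf 0 x - (2 / 3) * onedK 0 5 x) ^ 2 + 1 * (x * onedP 0 5 x) -
      (29 / 18) * onedK 0 5 x ^ 2 ≤ 2 * jf 0 5 x := by
  obtain ⟨y, rfl⟩ : ∃ y, x = 1 + y := ⟨x - 1, by ring⟩
  have hy : 0 ≤ y := by linarith
  have hx0 : (0 : ℝ) < 1 + y := by linarith
  rw [← sub_nonneg]
  have key : 2 * jf 0 5 (1 + y) - ((11 / 2) * (Gf 0 (1 + y) - (2 / 3) * onedK 0 5 (1 + y)) ^ 2 +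
      1 * ((1 + y) * onedP 0 5 (1 + y)) - (29 / 18) * onedK 0 5 (1 + y) ^ 2) =
      (165 * y ^ 2 + 330 * y ^ 3 + 880 * y ^ 4 + 3080 * y ^ 5 + 6248 * y ^ 6 + 7260 * y ^ 7 + 5115 * y ^ 8 + 2200 * y ^ 9 + 539 * y ^ 10 + 58 * y ^ 11) / (330 * (1 + y) ^ 10) := by
    simp only [onedK, onedP, jf, Gf, ef]
    push_cast
    field_simp
    ring
  rw [key]
  positivity

theorem oned_lo_B {x : ℝ} (hx0 : 0 < x) (hx : x ≤ 1) :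
    (11 / 2) * Gf 0 x ^ 2 ≤ 2 * jf 0 5 x := by
  obtain ⟨z, hz, rfl⟩ : ∃ z : ℝ, 0 ≤ z ∧ x = (1 + z)⁻¹ :=
    ⟨x⁻¹ - 1, by rw [sub_nonneg]; exact (one_le_inv₀ hx0).2 hx, by simp⟩
  have hz0 : (0 : ℝ) < 1 + z := by linarith
  rw [← sub_nonneg]
  have key : 2 * jf 0 5 (1 + z)⁻¹ - (11 / 2) * Gf 0 (1 + z)⁻¹ ^ 2 =
      (5 * z ^ 2 + 140 * z ^ 3 + 140 * z ^ 4 + 84 * z ^ 5 + 28 * z ^ 6 + 4 * z ^ 7) / (10 * (1 + z) ^ 2) := by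
    simp only [jf, Gf, ef, inv_inv]
    push_cast
    field_simp
    ring
  rw [key]
  positivity

theorem oned_hi_C {x : ℝ} (hx : 1 ≤ x) :
    7 * (Gf 0 x - (3 / 5) * onedK 0 7 x) ^ 2 + 1 * (x * onedP 0 7 x) -
      (53 / 25) * onedK 0 7 x ^ 2 ≤ 2 * jf 0 7 x := by
  obtain ⟨y, rfl⟩ : ∃ y, x = 1 + y := ⟨x - 1, by ring⟩
  have hy : 0 ≤ y := by linarith
  have hx0 : (0 : ℝ) < 1 + y := by linarith
  rw [← sub_nonneg]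
  have key : 2 * jf 0 7 (1 + y) - (7 * (Gf 0 (1 + y) - (3 / 5) * onedK 0 7 (1 + y)) ^ 2 +
      1 * ((1 + y) * onedP 0 7 (1 + y)) - (53 / 25) * onedK 0 7 (1 + y) ^ 2) =
      (735 * y ^ 2 + 1666 * y ^ 3 + 1617 * y ^ 4 + 8820 * y ^ 5 + 43463 * y ^ 6 + 109662 * y ^ 7 + 171759 * y ^ 8 + 184184 * y ^ 9 + 141141 * y ^ 10 + 78078 * y ^ 11 + 30667 * y ^ 12 + 8148 * y ^ 13 + 1317 * y ^ 14 + 98 * y ^ 15) / (735 * (1 + y) ^ 14) := by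
    simp only [onedK, onedP, jf, Gf, ef]
    push_cast
    field_simp
    ring
  rw [key]
  positivity

theorem oned_lo_C {x : ℝ} (hx0 : 0 < x) (hx : x ≤ 1) :
    7 * Gf 0 x ^ 2 ≤ 2 * jf 0 7 x := by
  obtain ⟨z, hz, rfl⟩ : ∃ z : ℝ, 0 ≤ z ∧ x = (1 + z)⁻¹ :=
    ⟨x⁻¹ - 1, by rw [sub_nonneg]; exact (one_le_inv₀ hx0).2 hx, by simp⟩
  have hz0 : (0 : ℝ) < 1 + z := by linarith
  rw [← sub_nonneg]
  have key : 2 * jf 0 7 (1 + z)⁻¹ - 7 * Gf 0 (1 + z)⁻¹ ^ 2 =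
      (7 * z ^ 2 + 168 * z ^ 3 + 252 * z ^ 4 + 252 * z ^ 5 + 168 * z ^ 6 + 72 * z ^ 7 + 18 * z ^ 8 + 2 * z ^ 9) / (7 * (1 + z) ^ 2) := by
    simp only [jf, Gf, ef, inv_inv]
    push_cast
    field_simp
    ring
  rw [key]
  positivity

theorem oned_hi_D {x : ℝ} (hx : 1 ≤ x) :
    10 * (Gf 1 x - (3 / 4) * onedK 1 12 x) ^ 2 + (7 / 4) * (x * onedP 1 12 x) -
      3 * onedK 1 12 x ^ 2 ≤ 2 * jf 1 12 x := by
  obtain ⟨y, rfl⟩ : ∃ y, x = 1 + y := ⟨x - 1, by ring⟩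
  have hy : 0 ≤ y := by linarith
  have hx0 : (0 : ℝ) < 1 + y := by linarith
  rw [← sub_nonneg]
  have key : 2 * jf 1 12 (1 + y) - (10 * (Gf 1 (1 + y) - (3 / 4) * onedK 1 12 (1 + y)) ^ 2 +
      (7 / 4) * ((1 + y) * onedP 1 12 (1 + y)) - 3 * onedK 1 12 (1 + y) ^ 2) =
      (528000 * y ^ 2 + 4224000 * y ^ 3 + 16293200 * y ^ 4 + 34415040 * y ^ 5 + 32016600 * y ^ 6 + 13360600 * y ^ 7 + 305787075 * y ^ 8 + 2111320200 * y ^ 9 + 7793022380 * y ^ 10 + 19925083800 * y ^ 11 + 38864895450 * y ^ 12 + 60552423400 * y ^ 13 + 77251208700 * y ^ 14 + 81843212880 * y ^ 15 + 72556257125 * y ^ 16 + 53997992400 * y ^ 17 + 33727834800 * y ^ 18 + 17623018600 * y ^ 19 + 7654598490 * y ^ 20 + 2737713000 * y ^ 21 + 795724100 * y ^ 22 + 184696200 * y ^ 23 + 33466275 * y ^ 24 + 4595608 * y ^ 25 + 458700 * y ^ 26 + 30800 * y ^ 27 +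 1100 * y ^ 28) / (105600 * (1 + y) ^ 24) := by
    simp only [onedK, onedP, jf, Gf, ef]
    push_cast
    field_simp
    ring
  rw [key]
  positivity

theorem oned_lo_D {x : ℝ} (hx0 : 0 < x) (hx : x ≤ 1) :
    10 * Gf 1 x ^ 2 ≤ 2 * jf 1 12 x := by
  obtain ⟨z, hz, rfl⟩ : ∃ z : ℝ, 0 ≤ z ∧ x = (1 + z)⁻¹ :=
    ⟨x⁻¹ - 1, by rw [sub_nonneg]; exact (one_le_inv₀ hx0).2 hx, by simp⟩
  have hz0 : (0 : ℝ) < 1 + z := by linarith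
  rw [← sub_nonneg]
  have key : 2 * jf 1 12 (1 + z)⁻¹ - 10 * Gf 1 (1 + z)⁻¹ ^ 2 =
      (30 * z ^ 2 + 484 * z ^ 3 + 1804 * z ^ 4 + 4368 * z ^ 5 + 8008 * z ^ 6 + 11440 * z ^ 7 + 12870 * z ^ 8 + 11440 * z ^ 9 + 8008 * z ^ 10 + 4368 * z ^ 11 + 1820 * z ^ 12 + 560 * z ^ 13 + 120 * z ^ 14 + 16 * z ^ 15 + 1 * z ^ 16) / (6 * (1 + z) ^ 4) := by
    simp only [jf, Gf, ef, inv_inv]
    push_cast
    field_simp
    ring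
  rw [key]
  positivity

end Crest.Agent.R230
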