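import Crest.Agent.R230.Proj

/-!
# R230/Pars

Completeness of spherical harmonics.
1. `ev_eq_sum_harm`: the functions that agree on the sphere with a finite sum of harmonic
   polynomials contain the constants and are closed under sums and multiplication by `x_i`
   (`x_i Y = A_i Y + ∂_i Y/(2k+n-2)`); `MvPolynomial.induction_on`.
2. `exists_poly_near`: bounded continuous functions are dense in `L²` of a finite measure
   (`MemLp.exists_boundedContinuous_integral_rpow_sub_le` or `..._eLpNorm_sub_le`), and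
   Stone–Weierstrass on the compact unit sphere
   (`ContinuousMap.exists_mem_subalgebra_near_continuous_of_separatesPoints`, the subalgebra being
   the range of `P ↦ ev P` restricted to the sphere).
3. For harmonic `Y k`, expanding the square with `orth`, `pr_spec`:
   `ip (f - ∑_{k<K} Y k) (same) = ip f f - ∑_{k<K} nk k f + ∑_{k<K} ip (Y k - pr k f) (same)`.
   Hence Bessel's inequality and `∑_{k<K} nk k f → ip f f` (`hasSum_iff_tendsto_nat_of_nonneg`,
   monotone partial sums); `cf_polar` gives the bilinear form.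
-/

set_option autoImplicit false
set_option linter.unusedSectionVars false
set_option linter.unusedVariables false

namespace Crest.Agent.R230

open MeasureTheory Metric Set Filter Topology
open scoped RealInnerProductSpace ENNReal Pointwise

variable {n : ℕ} [NeZero n]

open MvPolynomial

theorem pars_closure (hn : 3 ≤ n) (P : Pol n) :
    ∃ Q ∈ AddSubmonoid.closure {Y : Pol n | ∃ k, Harm k Y}, ∀ p, ‖p‖ = 1 → ev P p = ev Q p := by
  induction P using MvPolynomial.induction_on with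
  | C c => exact ⟨C c, AddSubmonoid.subset_closure ⟨0, harm_C c⟩, fun _ _ => rfl⟩
  | add P P' hP hP' =>
    obtain ⟨Q, hQ, h⟩ := hP
    obtain ⟨Q', hQ', h'⟩ := hP'
    exact ⟨Q + Q', add_mem hQ hQ', fun p hp => by rw [ev_add, ev_add, h p hp, h' p hp]⟩
  | mul_X P i hP =>
    obtain ⟨Q, hQ, h⟩ := hP
    suffices ∃ Q' ∈ AddSubmonoid.closure {Y : Pol n | ∃ k, Harm k Y},
        ∀ p, ‖p‖ = 1 → ev Q p * p i = ev Q' p by
      obtain ⟨Q', hQ', h'⟩ := this
      exact ⟨Q', hQ', fun p hp => by rw [ev_mul, ev_X, h p hp, h' p hp]⟩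
    clear h
    induction hQ using AddSubmonoid.closure_induction with
    | mem Y hY =>
      obtain ⟨k, hY⟩ := hY
      refine ⟨Aop k i Y + (2 * (k : ℝ) + n - 2)⁻¹ • pderiv i Y,
        add_mem (AddSubmonoid.subset_closure ⟨_, hY.aop hn i⟩)
          (AddSubmonoid.subset_closure ⟨_, (hY.deriv' i).smul _⟩), fun p hp => ?_⟩
      rw [ev_add, ev_smul, ev_Aop k i Y hp]
      ring
    | zero => exact ⟨0, zero_mem _, fun p _ => by rw [ev_zero, zero_mul]⟩
    | add Y Y' _ _ hY hY' =>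
      obtain ⟨Q, hQ, h⟩ := hY
      obtain ⟨Q', hQ', h'⟩ := hY'
      exact ⟨Q + Q', add_mem hQ hQ', fun p hp => by rw [ev_add, ev_add, add_mul, h p hp, h' p hp]⟩

theorem pars_finsupp {Q : Pol n} (hQ : Q ∈ AddSubmonoid.closure {Y : Pol n | ∃ k, Harm k Y}) :
    ∃ Y : ℕ →₀ Pol n, (∀ k, Harm k (Y k)) ∧ Q = Y.sum fun _ y => y := by
  induction hQ using AddSubmonoid.closure_induction with
  | mem Y hY =>
    obtain ⟨k, hY⟩ := hY
    refine ⟨Finsupp.single k Y, fun j => ?_, by simp⟩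
    rw [Finsupp.single_apply]
    split_ifs with h
    exacts [h ▸ hY, harm_zero j]
  | zero => exact ⟨0, harm_zero, by simp⟩
  | add Q Q' _ _ h h' =>
    obtain ⟨Y, hY, rfl⟩ := h
    obtain ⟨Y', hY', rfl⟩ := h'
    exact ⟨Y + Y', fun k => (hY k).add (hY' k),
      (Finsupp.sum_add_index' (fun _ => rfl) fun _ _ _ => rfl).symm⟩

theorem ev_eq_sum_harm (hn : 3 ≤ n) (P : Pol n) :
    ∃ (K : ℕ) (Y : ℕ → Pol n), (∀ k, Harm k (Y k)) ∧
      ∀ p, ‖p‖ = 1 → ev P p = ∑ k ∈ Finset.range K, ev (Y k) p := by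
  obtain ⟨Q, hQ, h⟩ := pars_closure hn P
  obtain ⟨Y, hY, rfl⟩ := pars_finsupp hQ
  obtain ⟨K, hK⟩ := Y.support.exists_nat_subset_range
  exact ⟨K, Y, hY, fun p hp => by
    rw [h p hp, Finsupp.sum_of_support_subset Y hK _ fun _ _ => rfl, ev_sum]⟩

theorem exists_poly_near {f : E n → ℝ} (hf : Bd f) {ε : ℝ} (hε : 0 < ε) :
    ∃ P : Pol n, av (fun p => (f p - ev P p) ^ 2) ≤ ε := by
  obtain ⟨C, hC⟩ := hf.2
  have h1 : MemLp f (ENNReal.ofReal 2) (sph n) :=
    MemLp.of_bound hf.1.aestronglyMeasurable C (ae_norm_sph.mono hC)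
  obtain ⟨g, hg, -⟩ := h1.exists_boundedContinuous_integral_rpow_sub_le two_pos
    (ε := ε / 4) (by positivity)
  let A : Subalgebra ℝ C(E n, ℝ) :=
    { carrier := {u | ∃ P : Pol n, ∀ x, u x = ev P x}
      mul_mem' := fun ⟨P, hP⟩ ⟨Q, hQ⟩ => ⟨P * Q, fun x => by
        rw [ev_mul, ContinuousMap.mul_apply, hP, hQ]⟩
      add_mem' := fun ⟨P, hP⟩ ⟨Q, hQ⟩ => ⟨P + Q, fun x => by
        rw [ev_add, ContinuousMap.add_apply, hP, hQ]⟩
      algebraMap_mem' := fun c => ⟨MvPolynomial.C c, fun x => by rw [ev_C]; simp⟩ }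
  have hA : A.SeparatesPoints := fun x y hxy => by
    obtain ⟨i, hi⟩ : ∃ i, x i ≠ y i := by
      by_contra h
      push Not at h
      exact hxy (PiLp.ext h)
    exact ⟨ev (X i), ⟨⟨_, continuous_ev (X i)⟩, ⟨X i, fun _ => rfl⟩, rfl⟩, by rwa [ev_X, ev_X]⟩
  obtain ⟨u, ⟨P, hP⟩, hu⟩ :=
    ContinuousMap.exists_mem_subalgebra_near_continuous_of_isCompact_of_separatesPoints hA
      g.toContinuousMap (isCompact_sphere (0 : E n) 1) (ε := √(ε / 4)) (by positivity)
  have hgb : Bd g := bd_of_continuous g.continuous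
  refine ⟨P, (av_mono ((hf.sub (bd_ev P)).pow 2)
    ((((hf.sub hgb).pow 2).const_mul 2).add (bd_const (ε / 2))) fun p hp => ?_).trans ?_⟩
  · have h2 := hu p (mem_sphere_zero_iff_norm.2 hp)
    rw [hP, Real.norm_eq_abs] at h2
    have h3 : (ev P p - g p) ^ 2 ≤ ε / 4 := by
      rw [← sq_abs, ← Real.sq_sqrt (show 0 ≤ ε / 4 by positivity)]
      exact pow_le_pow_left₀ (abs_nonneg _) h2.le 2
    nlinarith [sq_nonneg (f p - g p + (ev P p - g p))]
  · rw [av_add (((hf.sub hgb).pow 2).const_mul 2) (bd_const _), av_const, av_const_mul]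
    simp only [Real.rpow_two, Real.norm_eq_abs, sq_abs] at hg
    have h2 : av (fun p => (f p - g p) ^ 2) ≤ ε / 4 := hg
    linarith

theorem pars_ip_sub {f g : E n → ℝ} (hf : Bd f) (hg : Bd g) :
    av (fun p => (f p - g p) ^ 2) = ip f f - 2 * ip f g + ip g g := by
  rw [ip_eq_av, ip_eq_av, ip_eq_av, ← av_const_mul, ← av_sub (hf.mul hf) ((hf.mul hg).const_mul 2),
    ← av_add ((hf.mul hf).sub ((hf.mul hg).const_mul 2)) (hg.mul hg)]
  exact av_congr fun p _ => by ring

theorem pars_expand (hn : 3 ≤ n) {f : E n → ℝ} (hf : Bd f) {Y : ℕ → Pol n} (hY : ∀ k, Harm k (Y k))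
    (K : ℕ) : av (fun p => (f p - ∑ k ∈ Finset.range K, ev (Y k) p) ^ 2) =
      ip f f - ∑ k ∈ Finset.range K, nk k f +
        ∑ k ∈ Finset.range K, av (fun p => (ev (pr k f) p - ev (Y k) p) ^ 2) := by
  have hb : Bd fun p => ∑ k ∈ Finset.range K, ev (Y k) p := Bd.sum _ fun k _ => bd_ev _
  rw [pars_ip_sub hf hb, ip_comm f fun p => ∑ k ∈ Finset.range K, ev (Y k) p, ip_sum_left _ (fun k _ => bd_ev _) hf,
    ip_sum_left _ (fun k _ => bd_ev _) hb, Finset.mul_sum, sub_add, sub_add,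
    ← Finset.sum_sub_distrib, ← Finset.sum_sub_distrib]
  congr 1
  refine Finset.sum_congr rfl fun k hk => ?_
  rw [pars_ip_sub (bd_ev _) (bd_ev _), ip_comm _ f, (pr_spec k hf).2 _ (hY k), ip_comm (ev (Y k)),
    ip_sum_left _ (fun k _ => bd_ev _) (bd_ev _),
    Finset.sum_eq_single k (fun j _ hj => orth hn hj (hY j) (hY k)) fun h => (h hk).elim, nk, cf]
  ring

theorem hasSum_nk (hn : 3 ≤ n) {f : E n → ℝ} (hf : Bd f) : HasSum (fun k => nk k f) (ip f f) := by
  have h1 : ∀ K, ∑ k ∈ Finset.range K, nk k f ≤ ip f f := fun K => by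
    have h2 := pars_expand hn hf (fun k => (pr_spec k hf).1) K
    have h3 : 0 ≤ av fun p => (f p - ∑ k ∈ Finset.range K, ev (pr k f) p) ^ 2 :=
      av_nonneg fun _ _ => sq_nonneg _
    simp only [sub_self, av_const, ne_eq, OfNat.ofNat_ne_zero, not_false_eq_true, zero_pow,
      Finset.sum_const_zero] at h2
    linarith
  rw [hasSum_iff_tendsto_nat_of_nonneg fun k => nk_nonneg k f, Metric.tendsto_atTop]
  intro ε hε
  obtain ⟨P, hP⟩ := exists_poly_near hf (half_pos hε)
  obtain ⟨K, Y, hY, h⟩ := ev_eq_sum_harm hn P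
  refine ⟨K, fun L hL => ?_⟩
  rw [av_congr fun p hp => by rw [h p hp], pars_expand hn hf hY] at hP
  have h2 : 0 ≤ ∑ k ∈ Finset.range K, av (fun p => (ev (pr k f) p - ev (Y k) p) ^ 2) :=
    Finset.sum_nonneg fun _ _ => av_nonneg fun _ _ => sq_nonneg _
  have h3 : ∑ k ∈ Finset.range K, nk k f ≤ ∑ k ∈ Finset.range L, nk k f :=
    Finset.sum_le_sum_of_subset_of_nonneg (Finset.range_mono hL) fun k _ _ => nk_nonneg k f
  have h4 := h1 L
  rw [Real.dist_eq, abs_lt]
  constructor <;> linarith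

theorem hasSum_cf (hn : 3 ≤ n) {f g : E n → ℝ} (hf : Bd f) (hg : Bd g) :
    HasSum (fun k => cf k f g) (ip f g) := by
  have h := ((hasSum_nk hn (hf.add hg)).sub (hasSum_nk hn (hf.sub hg))).div_const 4
  simp only [← cf_polar _ hf hg] at h
  refine (show _ = ip f g from Eq.symm ?_) ▸ h
  rw [ip_eq_av, ip_eq_av, ip_eq_av, ← av_sub ((hf.add hg).mul (hf.add hg)) ((hf.sub hg).mul (hf.sub hg)),
    div_eq_inv_mul, ← av_const_mul]
  exact av_congr fun p _ => by ring

theorem sum_nk_le_hi (hn : 3 ≤ n) {f : E n → ℝ} (hf : Bd f) (L : ℕ) :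
    ∑ l ∈ Finset.range L, nk (2 * l + 4) f ≤ hi f := by
  have h := sum_le_hasSum ((Finset.range (L + 2)).image fun l => 2 * l) (fun k _ => nk_nonneg k f)
    (hasSum_nk hn hf)
  rw [Finset.sum_image fun a _ b _ e => by omega, Finset.sum_range_succ', Finset.sum_range_succ'] at h
  have e : ∀ l, 2 * (l + 1 + 1) = 2 * l + 4 := fun l => by ring
  simp only [e] at h
  unfold hi
  linarith

/-- `nk_odd`, `HasSum.even_add_odd` or `hasSum_nat_add_iff` -/
theorem hasSum_hi (hn : 3 ≤ n) {f : E n → ℝ} (hf : Bd f) (he : ∀ p, f (-p) = f p) :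
    HasSum (fun l => nk (2 * l + 4) f) (hi f) := by
  have h := (Function.Injective.hasSum_iff (g := fun l : ℕ => 2 * l) (fun a b e => by
    simpa using e) fun k hk => nk_odd hf he (Nat.not_even_iff_odd.1 fun ⟨l, e⟩ =>
      hk ⟨l, by simp only; omega⟩)).2 (hasSum_nk hn hf)
  have h2 := (hasSum_nat_add_iff' 2).2 h
  have e : ∀ l, 2 * (l + 2) = 2 * l + 4 := fun l => by ring
  simp only [Function.comp_apply, e, Finset.sum_range_succ, Finset.sum_range_zero, zero_add] at h2
  rwa [← sub_sub] at h2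

end Crest.Agent.R230
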