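import Crest.Agent.R230.Vol

/-!
# R230/Polar

Polar coordinates.  Everything comes from
`MeasureTheory.Measure.measurePreserving_homeomorphUnitSphereProd` (volume on `{0}ᶜ` is
`toSphere ⊗ volumeIoiPow (n-1)`), `toSphere_apply_univ` (total mass `n κ`) and
`integral_prod_mul` / `lintegral_prod`; compare the proof of `integral_fun_norm_addHaar` in
`Mathlib/MeasureTheory/Constructions/HaarToSphere.lean`.
-/

set_option autoImplicit false
set_option linter.unusedSectionVars false
set_option linter.unusedVariables false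

namespace Crest.Agent.R230

open MeasureTheory Metric Set Filter Topology
open scoped RealInnerProductSpace ENNReal Pointwise

variable {n : ℕ} [NeZero n]

theorem polar_npos : (0 : ℝ) < n := Nat.cast_pos.2 (Nat.pos_of_ne_zero (NeZero.ne n))

theorem polar_c_pos : 0 < (n : ℝ) * kap n := mul_pos polar_npos (kap_pos n)

theorem polar_univ : (volume : Measure (E n)).toSphere univ = ENNReal.ofReal (n * kap n) := by
  rw [Measure.toSphere_apply_univ, finrank_euclideanSpace_fin, ENNReal.ofReal_mul (Nat.cast_nonneg _),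
    ENNReal.ofReal_natCast, kap, vol, ENNReal.ofReal_toReal measure_ball_lt_top.ne]

theorem polar_c_ne : ENNReal.ofReal ((n : ℝ) * kap n) ≠ 0 :=
  (ENNReal.ofReal_pos.2 polar_c_pos).ne'

theorem polar_emb : MeasurableEmbedding (Subtype.val : sphere (0 : E n) 1 → E n) :=
  MeasurableEmbedding.subtype_coe isClosed_sphere.measurableSet

theorem polar_map : (volume : Measure (E n)).toSphere.map Subtype.val =
    ENNReal.ofReal (n * kap n) • sph n := by
  rw [sph, polar_univ, smul_smul, ENNReal.mul_inv_cancel polar_c_ne ENNReal.ofReal_ne_top, one_smul]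

theorem polar_apply (s : Set (E n)) :
    sph n s = (ENNReal.ofReal (n * kap n))⁻¹ * (volume : Measure (E n)).toSphere (Subtype.val ⁻¹' s) := by
  rw [sph, Measure.smul_apply, polar_emb.map_apply, polar_univ, smul_eq_mul]

theorem polar_norm_smul {p : E n} (hp : ‖p‖ = 1) {r : ℝ} (hr : 0 < r) : ‖r • p‖ = r := by
  rw [norm_smul, hp, mul_one, Real.norm_of_nonneg hr.le]

theorem polar_dir_smul {p : E n} (hp : ‖p‖ = 1) {r : ℝ} (hr : 0 < r) : ‖r • p‖⁻¹ • r • p = p := by
  rw [polar_norm_smul hp hr, smul_smul, inv_mul_cancel₀ hr.ne', one_smul]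

theorem polar_meas_dir : Measurable fun x : E n => ‖x‖⁻¹ • x :=
  measurable_norm.inv.smul measurable_id

instance isProb_sph : IsProbabilityMeasure (sph n) := by
  refine ⟨?_⟩
  rw [polar_apply, preimage_univ, polar_univ, ENNReal.inv_mul_cancel polar_c_ne ENNReal.ofReal_ne_top]

theorem ae_norm_sph : ∀ᵐ p ∂sph n, ‖p‖ = 1 := by
  rw [ae_iff, polar_apply]
  have : (Subtype.val ⁻¹' {a : E n | ¬‖a‖ = 1} : Set (sphere (0 : E n) 1)) = ∅ := by
    ext p
    simp
  rw [this, measure_empty, mul_zero]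

theorem lintegral_polar {f : E n → ℝ≥0∞} (hf : Measurable f) :
    ∫⁻ x, f x = ENNReal.ofReal (n * kap n) *
      ∫⁻ p, (∫⁻ r in Ioi (0 : ℝ), ENNReal.ofReal (r ^ (n - 1)) * f (r • p)) ∂sph n := by
  have hmp := (volume : Measure (E n)).measurePreserving_homeomorphUnitSphereProd
  rw [finrank_euclideanSpace_fin] at hmp
  have hF : Measurable fun z : sphere (0 : E n) 1 × Ioi (0 : ℝ) => f (z.2.1 • z.1.1) :=
    hf.comp ((measurable_subtype_coe.comp measurable_snd).smul
      (measurable_subtype_coe.comp measurable_fst))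
  calc ∫⁻ x, f x = ∫⁻ x : ({(0)}ᶜ : Set (E n)), f x.1 ∂((volume : Measure (E n)).comap (↑)) := by
        rw [lintegral_subtype_comap (measurableSet_singleton _).compl f, restrict_compl_singleton]
    _ = ∫⁻ z : sphere (0 : E n) 1 × Ioi (0 : ℝ), f (z.2.1 • z.1.1)
          ∂(volume : Measure (E n)).toSphere.prod (.volumeIoiPow (n - 1)) := by
        rw [← hmp.lintegral_comp hF]
        refine lintegral_congr fun x => ?_
        have hx : ‖x.1‖ ≠ 0 := norm_ne_zero_iff.2 x.2
        simp only [homeomorphUnitSphereProd_apply_snd_coe, homeomorphUnitSphereProd_apply_fst_coe]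
        rw [smul_smul, mul_inv_cancel₀ hx, one_smul]
    _ = ∫⁻ p : sphere (0 : E n) 1, (∫⁻ r in Ioi (0 : ℝ), ENNReal.ofReal (r ^ (n - 1)) * f (r • p.1))
          ∂(volume : Measure (E n)).toSphere := by
        rw [lintegral_prod _ hF.aemeasurable]
        refine lintegral_congr fun p => ?_
        have hg : Measurable fun r : Ioi (0 : ℝ) => f (r.1 • p.1) :=
          hf.comp (measurable_subtype_coe.smul_const p.1)
        rw [Measure.volumeIoiPow, lintegral_withDensity_eq_lintegral_mul _ (by fun_prop) hg,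
          ← lintegral_subtype_comap measurableSet_Ioi]
        rfl
    _ = _ := by
        rw [← polar_emb.lintegral_map
          (fun p : E n => ∫⁻ r in Ioi (0 : ℝ), ENNReal.ofReal (r ^ (n - 1)) * f (r • p)), polar_map,
          lintegral_smul_measure, smul_eq_mul]

theorem integral_polar_mul {g : E n → ℝ} (hg : Measurable g) {ψ : ℝ → ℝ} (hψ : Measurable ψ) :
    ∫ x : E n, g (‖x‖⁻¹ • x) * ψ ‖x‖ =
      n * kap n * (av g * ∫ r in Ioi (0 : ℝ), r ^ (n - 1) * ψ r) := by
  have hmp := (volume : Measure (E n)).measurePreserving_homeomorphUnitSphereProd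
  rw [finrank_euclideanSpace_fin] at hmp
  calc ∫ x : E n, g (‖x‖⁻¹ • x) * ψ ‖x‖
      = ∫ x : ({(0)}ᶜ : Set (E n)), g (‖x.1‖⁻¹ • x.1) * ψ ‖x.1‖ ∂((volume : Measure (E n)).comap (↑)) := by
        rw [integral_subtype_comap (measurableSet_singleton _).compl
          fun x : E n => g (‖x‖⁻¹ • x) * ψ ‖x‖, restrict_compl_singleton]
    _ = ∫ z : sphere (0 : E n) 1 × Ioi (0 : ℝ), g z.1.1 * ψ z.2.1
          ∂(volume : Measure (E n)).toSphere.prod (.volumeIoiPow (n - 1)) := by
        rw [← hmp.integral_comp (Homeomorph.measurableEmbedding _)]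
        simp only [homeomorphUnitSphereProd_apply_snd_coe, homeomorphUnitSphereProd_apply_fst_coe]
    _ = (∫ p : sphere (0 : E n) 1, g p.1 ∂(volume : Measure (E n)).toSphere) *
          ∫ r : Ioi (0 : ℝ), ψ r.1 ∂(.volumeIoiPow (n - 1)) :=
        integral_prod_mul (fun p : sphere (0 : E n) 1 => g p.1) (fun r : Ioi (0 : ℝ) => ψ r.1)
    _ = _ := by
        rw [← polar_emb.integral_map g, polar_map, integral_smul_measure,
          ENNReal.toReal_ofReal polar_c_pos.le, smul_eq_mul, mul_assoc, av]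
        congr 2
        simp only [Measure.volumeIoiPow, ENNReal.ofReal]
        rw [integral_withDensity_eq_integral_smul,
          integral_subtype_comap measurableSet_Ioi fun a => Real.toNNReal (a ^ (n - 1)) • ψ a,
          setIntegral_congr_fun measurableSet_Ioi fun x hx => ?_]
        · rw [NNReal.smul_def, Real.coe_toNNReal _ (pow_nonneg hx.out.le _), smul_eq_mul]
        · exact (measurable_subtype_coe.pow_const _).real_toNNReal

theorem polar_measure {Z : Set (E n)} (hZ : MeasurableSet Z) :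
    volume Z = ENNReal.ofReal (n * kap n) *
      ∫⁻ p, (∫⁻ r in Ioi (0 : ℝ), ENNReal.ofReal (r ^ (n - 1)) * Z.indicator 1 (r • p)) ∂sph n := by
  rw [← lintegral_indicator_one hZ, lintegral_polar (measurable_one.indicator hZ)]

theorem polar_radial {R : ℝ} (hR : 0 ≤ R) :
    ∫⁻ r in Ioc (0 : ℝ) R, ENNReal.ofReal (r ^ (n - 1)) = ENNReal.ofReal (R ^ n / n) := by
  rw [← ofReal_integral_eq_lintegral_ofReal (intervalIntegral.intervalIntegrable_pow _).1,
    ← intervalIntegral.integral_of_le hR, integral_pow]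
  · have h1 : n - 1 + 1 = n := Nat.sub_add_cancel (Nat.pos_of_ne_zero (NeZero.ne n))
    have h2 : ((n - 1 : ℕ) : ℝ) + 1 = n := by exact_mod_cast h1
    rw [h1, h2, zero_pow (NeZero.ne n), sub_zero]
  · filter_upwards [ae_restrict_mem measurableSet_Ioc] with y hy
    exact pow_nonneg hy.1.le _

/-- volume of a star body -/
theorem volume_star {ρ : E n → ℝ} (hρ : Bd ρ) (h0 : ∀ p, ‖p‖ = 1 → 0 ≤ ρ p) :
    volume {x : E n | ‖x‖ ≤ ρ (‖x‖⁻¹ • x)} = ENNReal.ofReal (kap n * av (fun p => ρ p ^ n)) := by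
  obtain ⟨hm, C, hC⟩ := hρ
  have hZ : MeasurableSet {x : E n | ‖x‖ ≤ ρ (‖x‖⁻¹ • x)} :=
    measurableSet_le measurable_norm (hm.comp polar_meas_dir)
  have hint : Integrable (fun p => ρ p ^ n / n) (sph n) := by
    refine Integrable.of_bound ((hm.pow_const n).div_const _).aestronglyMeasurable (C ^ n / n) ?_
    filter_upwards [ae_norm_sph] with p hp
    rw [norm_div, norm_pow, Real.norm_natCast, Real.norm_eq_abs]
    exact div_le_div_of_nonneg_right (pow_le_pow_left₀ (abs_nonneg _) (hC p hp) n) (Nat.cast_nonneg _)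
  have h1 : ∫⁻ p, (∫⁻ r in Ioi (0 : ℝ), ENNReal.ofReal (r ^ (n - 1)) *
      {x : E n | ‖x‖ ≤ ρ (‖x‖⁻¹ • x)}.indicator 1 (r • p)) ∂sph n =
      ∫⁻ p, ENNReal.ofReal (ρ p ^ n / n) ∂sph n := by
    refine lintegral_congr_ae ?_
    filter_upwards [ae_norm_sph] with p hp
    rw [← polar_radial (h0 p hp), ← Ioi_inter_Iic, inter_comm,
      ← Measure.restrict_restrict measurableSet_Iic, ← lintegral_indicator measurableSet_Iic]
    refine setLIntegral_congr_fun measurableSet_Ioi fun r hr => ?_
    have hiff : r • p ∈ {x : E n | ‖x‖ ≤ ρ (‖x‖⁻¹ • x)} ↔ r ∈ Iic (ρ p) := by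
      rw [mem_ofPred_eq, polar_dir_smul hp hr, polar_norm_smul hp hr, mem_Iic]
    by_cases h : r ∈ Iic (ρ p)
    · simp only [indicator_of_mem h, indicator_of_mem (hiff.2 h), Pi.one_apply, mul_one]
    · simp only [indicator_of_notMem h, indicator_of_notMem (fun h' => h (hiff.1 h')), mul_zero]
  rw [polar_measure hZ, h1, ← ofReal_integral_eq_lintegral_ofReal hint,
    ← ENNReal.ofReal_mul polar_c_pos.le, integral_div, av]
  · congr 1
    have := polar_npos (n := n)
    field_simp
  · filter_upwards [ae_norm_sph] with p hp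
    exact div_nonneg (pow_nonneg (h0 p hp) _) (Nat.cast_nonneg _)

/-- No measurability is needed: enlarge the exceptional set to a measurable null set `Z`
(`exists_measurable_superset_of_null`) and apply `lintegral_polar` to its indicator. -/
theorem ae_sph_of_ae {P : E n → Prop} (hP : ∀ (x : E n) (r : ℝ), 0 < r → P (r • x) → P x)
    (h : ∀ᵐ x : E n, P x) : ∀ᵐ p ∂sph n, P p := by
  obtain ⟨Z, hsub, hZ, hZ0⟩ := exists_measurable_superset_of_null (ae_iff.1 h)
  rw [polar_measure hZ, mul_eq_zero] at hZ0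
  have hmeas : Measurable fun p : E n =>
      ∫⁻ r in Ioi (0 : ℝ), ENNReal.ofReal (r ^ (n - 1)) * Z.indicator 1 (r • p) := by
    refine Measurable.lintegral_prod_right' (f := fun z : E n × ℝ =>
      ENNReal.ofReal (z.2 ^ (n - 1)) * Z.indicator 1 (z.2 • z.1)) ?_
    exact (measurable_snd.pow_const _).ennreal_ofReal.mul
      ((measurable_one.indicator hZ).comp (measurable_snd.smul measurable_fst))
  have h2 := (lintegral_eq_zero_iff hmeas).1 (hZ0.resolve_left polar_c_ne)
  filter_upwards [h2] with p hp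
  by_contra hn
  have h3 : ∫⁻ r in Ioi (0 : ℝ), ENNReal.ofReal (r ^ (n - 1)) * Z.indicator 1 (r • p) =
      ∫⁻ r in Ioi (0 : ℝ), ENNReal.ofReal (r ^ (n - 1)) := by
    refine setLIntegral_congr_fun measurableSet_Ioi fun r hr => ?_
    have : r • p ∈ Z := hsub fun h' => hn (hP p r hr h')
    simp only [indicator_of_mem this, Pi.one_apply, mul_one]
  have h4 : ∫⁻ r in Ioc (0 : ℝ) 1, ENNReal.ofReal (r ^ (n - 1)) ≤
      ∫⁻ r in Ioi (0 : ℝ), ENNReal.ofReal (r ^ (n - 1)) := lintegral_mono_set Ioc_subset_Ioi_self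
  rw [polar_radial zero_le_one, ← h3, hp, Pi.zero_apply, nonpos_iff_eq_zero, ENNReal.ofReal_eq_zero,
    one_pow] at h4
  exact absurd h4 (not_le.2 (div_pos one_pos polar_npos))

theorem ae_of_ae_sph {P : E n → Prop} (h : ∀ᵐ p ∂sph n, P p) : ∀ᵐ x : E n, P (‖x‖⁻¹ • x) := by
  obtain ⟨W, hsub, hW, hW0⟩ := exists_measurable_superset_of_null (ae_iff.1 h)
  have hZ : MeasurableSet ((fun x : E n => ‖x‖⁻¹ • x) ⁻¹' W) := polar_meas_dir hW
  rw [ae_iff]
  refine measure_mono_null (t := (fun x : E n => ‖x‖⁻¹ • x) ⁻¹' W) (fun x hx => hsub hx) ?_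
  rw [polar_measure hZ]
  refine mul_eq_zero_of_right _ ?_
  rw [← lintegral_zero (μ := sph n)]
  refine lintegral_congr_ae ?_
  filter_upwards [ae_norm_sph, measure_eq_zero_iff_ae_notMem.1 hW0] with p hp hpW
  rw [← lintegral_zero (μ := (volume : Measure ℝ).restrict (Ioi 0))]
  refine setLIntegral_congr_fun measurableSet_Ioi fun r hr => ?_
  have : r • p ∉ (fun x : E n => ‖x‖⁻¹ • x) ⁻¹' W := by
    rw [mem_preimage, polar_dir_smul hp hr]
    exact hpW
  simp only [indicator_of_notMem this, mul_zero]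

/-- caps have uniformly positive measure (`toSphereBallBound_mul_measure_unitBall_le_toSphere_ball`,
or invariance under isometries) -/
theorem sph_ball_ge {ε : ℝ} (hε : 0 < ε) :
    ∃ c : ℝ, 0 < c ∧ ∀ q : E n, ‖q‖ = 1 → c ≤ (sph n).real (ball q ε) := by
  refine ⟨(n * kap n)⁻¹ * (Measure.toSphereBallBound (Module.finrank ℝ (E n)) ε * kap n),
    mul_pos (inv_pos.2 polar_c_pos) (mul_pos (Measure.toSphereBallBound_pos _ _) (kap_pos n)),
    fun q hq => ?_⟩
  have hq' : q ∈ sphere (0 : E n) 1 := by simpa using hq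
  have h1 := (volume : Measure (E n)).toSphereBallBound_mul_measureReal_unitBall_le_toSphere_ball hε
    ⟨q, hq'⟩
  have h2 : (Subtype.val ⁻¹' ball q ε : Set (sphere (0 : E n) 1)) = ball ⟨q, hq'⟩ ε := rfl
  rw [Measure.real, polar_apply, ENNReal.toReal_mul, ENNReal.toReal_inv,
    ENNReal.toReal_ofReal polar_c_pos.le, h2]
  exact mul_le_mul_of_nonneg_left h1 (inv_nonneg.2 polar_c_pos.le)

/-- e.g. by `lintegral_polar`, or from `toSphere_apply'` and `LinearIsometryEquiv.measurePreserving` -/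
theorem measurePreserving_sph (e : E n ≃ₗᵢ[ℝ] E n) : MeasurePreserving e (sph n) (sph n) := by
  have he : Measurable e := e.continuous.measurable
  refine ⟨he, Measure.ext fun s hs => ?_⟩
  rw [Measure.map_apply he hs, polar_apply, polar_apply,
    Measure.toSphere_apply' _ (measurable_subtype_coe (he hs)),
    Measure.toSphere_apply' _ (measurable_subtype_coe hs), Subtype.image_preimage_coe,
    Subtype.image_preimage_coe]
  congr 2
  rw [← e.measurePreserving.measure_preimage_emb e.toHomeomorph.measurableEmbedding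
    (Ioo (0 : ℝ) 1 • (sphere (0 : E n) 1 ∩ s))]
  congr 1
  ext x
  constructor
  · rintro ⟨r, hr, y, ⟨hy1, hy2⟩, rfl⟩
    exact ⟨r, hr, e y, ⟨by simpa using hy1, hy2⟩, by simp⟩
  · rintro ⟨r, hr, y, ⟨hy1, hy2⟩, hxy⟩
    refine ⟨r, hr, e.symm y, ⟨by simpa using hy1, by simpa using hy2⟩, e.injective ?_⟩
    simpa using hxy

end Crest.Agent.R230
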