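import Crest.Agent.R230.Orth

/-!
# R230/Proj

The components `pr k f`.
Existence: on the finite dimensional space `V` of `exists_harm_submodule` the bilinear form
`(Y, Z) ↦ ip (ev Y) (ev Z)` is nondegenerate (`eq_zero_of_ip_self`), so the linear functional
`Z ↦ ip f (ev Z)` is represented (`LinearMap.BilinForm.toDual`); then `Classical.epsilon_spec`.
`hi f = ip g g` with `g = f - pr 0 f - pr 2 f` (orthogonality).
`hi_add_le`: `hi` is a positive semidefinite quadratic form, and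
`(x + y)² ≤ (1/a + 1/b) (a x² + b y²)` pointwise.
-/

set_option autoImplicit false
set_option linter.unusedSectionVars false
set_option linter.unusedVariables false

namespace Crest.Agent.R230

open MeasureTheory Metric Set Filter Topology
open scoped RealInnerProductSpace ENNReal Pointwise

variable {n : ℕ} [NeZero n]

open MvPolynomial

theorem proj_add_left {g : E n → ℝ} (hg : Bd g) (P Q : Pol n) :
    ip (ev (P + Q)) g = ip (ev P) g + ip (ev Q) g := by
  rw [← ip_add_left (bd_ev P) (bd_ev Q) hg]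
  exact ip_congr (fun p _ => ev_add P Q p) fun _ _ => rfl

theorem proj_sub_left {g : E n → ℝ} (hg : Bd g) (P Q : Pol n) :
    ip (ev (P - Q)) g = ip (ev P) g - ip (ev Q) g := by
  rw [← ip_sub_left (bd_ev P) (bd_ev Q) hg]
  exact ip_congr (fun p _ => ev_sub P Q p) fun _ _ => rfl

theorem proj_smul_left (g : E n → ℝ) (c : ℝ) (P : Pol n) :
    ip (ev (c • P)) g = c * ip (ev P) g := by
  rw [← ip_const_mul_left]
  exact ip_congr (fun p _ => ev_smul c P p) fun _ _ => rfl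

theorem proj_zero_left (g : E n → ℝ) : ip (ev (0 : Pol n)) g = 0 := by
  simpa using proj_smul_left g 0 0

theorem proj_C_left (g : E n → ℝ) (c : ℝ) : ip (ev (C c : Pol n)) g = c * av g := by
  rw [← av_const_mul, ip_eq_av]
  exact av_congr fun p _ => by rw [ev_C]

theorem proj_av_C (c : ℝ) : av (ev (C c : Pol n)) = c :=
  (av_congr fun p _ => ev_C c p).trans (av_const c)

theorem pr_spec (k : ℕ) {f : E n → ℝ} (hf : Bd f) :
    Harm k (pr k f) ∧ ∀ Z, Harm k Z → ip f (ev Z) = ip (ev (pr k f)) (ev Z) := by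
  obtain ⟨V, hV, hfin⟩ := exists_harm_submodule (n := n) k
  let B : LinearMap.BilinForm ℝ V := LinearMap.mk₂ ℝ (fun Y Z => ip (ev Y.1) (ev Z.1))
    (fun Y Y' Z => proj_add_left (bd_ev _) _ _) (fun c Y Z => proj_smul_left _ _ _)
    (fun Y Z Z' => by
      rw [ip_comm, ip_comm _ (ev Z.1), ip_comm _ (ev Z'.1)]; exact proj_add_left (bd_ev _) _ _)
    fun c Y Z => by rw [ip_comm, ip_comm _ (ev Z.1)]; exact proj_smul_left _ _ _
  have hB : B.Nondegenerate :=
    ⟨fun Y h => Subtype.ext (eq_zero_of_ip_self ((hV _).1 Y.2).1 (h Y)),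
      fun Y h => Subtype.ext (eq_zero_of_ip_self ((hV _).1 Y.2).1 (h Y))⟩
  let φ : Module.Dual ℝ V :=
    { toFun := fun Z => ip (ev Z.1) f
      map_add' := fun Z Z' => proj_add_left hf _ _
      map_smul' := fun c Z => proj_smul_left _ _ _ }
  refine Classical.epsilon_spec
    (p := fun Y => Harm k Y ∧ ∀ Z, Harm k Z → ip f (ev Z) = ip (ev Y) (ev Z))
    ⟨((B.toDual hB).symm φ).1, (hV _).1 ((B.toDual hB).symm φ).2, fun Z hZ => ?_⟩
  rw [ip_comm]
  exact (LinearMap.BilinForm.apply_toDual_symm_apply (hB := hB) φ ⟨Z, (hV _).2 hZ⟩).symm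

theorem pr_unique {k : ℕ} {f : E n → ℝ} (hf : Bd f) {Y : Pol n} (hY : Harm k Y)
    (h : ∀ Z, Harm k Z → ip f (ev Z) = ip (ev Y) (ev Z)) : pr k f = Y := by
  obtain ⟨h1, h2⟩ := pr_spec k hf
  refine sub_eq_zero.1 (eq_zero_of_ip_self (h1.sub hY).1 ?_)
  rw [proj_sub_left (bd_ev _), ← h2 _ (h1.sub hY), h _ (h1.sub hY), sub_self]

theorem pr_congr (k : ℕ) {f g : E n → ℝ} (h : ∀ p, ‖p‖ = 1 → f p = g p) : pr k f = pr k g := by
  have h1 : ∀ Z : Pol n, ip f (ev Z) = ip g (ev Z) := fun Z => ip_congr h fun _ _ => rfl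
  simp only [pr, h1]

theorem pr_add (k : ℕ) {f g : E n → ℝ} (hf : Bd f) (hg : Bd g) :
    pr k (fun p => f p + g p) = pr k f + pr k g := by
  refine pr_unique (hf.add hg) ((pr_spec k hf).1.add (pr_spec k hg).1) fun Z hZ => ?_
  rw [ip_add_left hf hg (bd_ev _), proj_add_left (bd_ev _), (pr_spec k hf).2 Z hZ,
    (pr_spec k hg).2 Z hZ]

theorem pr_const_mul (k : ℕ) {f : E n → ℝ} (hf : Bd f) (c : ℝ) :
    pr k (fun p => c * f p) = c • pr k f := by
  refine pr_unique (hf.const_mul c) ((pr_spec k hf).1.smul c) fun Z hZ => ?_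
  rw [ip_const_mul_left, proj_smul_left, (pr_spec k hf).2 Z hZ]

theorem pr_zero {f : E n → ℝ} (hf : Bd f) : pr 0 f = C (av f) := by
  refine pr_unique hf (harm_C _) fun Z hZ => ?_
  obtain ⟨c, rfl⟩ := hZ.eq_C
  rw [ip_comm, proj_C_left, proj_C_left, proj_av_C, mul_comm]

theorem cf_comm (k : ℕ) (f g : E n → ℝ) : cf k f g = cf k g f := ip_comm _ _

theorem cf_eq (k : ℕ) {f g : E n → ℝ} (hf : Bd f) (hg : Bd g) :
    cf k f g = ip f (ev (pr k g)) := by
  exact ((pr_spec k hf).2 _ (pr_spec k hg).1).symm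

theorem cf_zero {f g : E n → ℝ} (hf : Bd f) (hg : Bd g) : cf 0 f g = av f * av g := by
  rw [cf, pr_zero hf, pr_zero hg, proj_C_left, proj_av_C]

theorem nk_zero {f : E n → ℝ} (hf : Bd f) : nk 0 f = av f ^ 2 := by
  rw [nk, cf_zero hf hf, sq]

theorem nk_nonneg (k : ℕ) (f : E n → ℝ) : 0 ≤ nk k f := ip_self_nonneg _

theorem abs_cf_le (k : ℕ) (f g : E n → ℝ) : |cf k f g| ≤ √(nk k f) * √(nk k g) := by
  rw [← Real.sqrt_mul (nk_nonneg k f)]
  exact Real.abs_le_sqrt (ip_sq_le (bd_ev _) (bd_ev _))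

/-- polarisation -/
theorem cf_polar (k : ℕ) {f g : E n → ℝ} (hf : Bd f) (hg : Bd g) :
    cf k f g = (nk k (fun p => f p + g p) - nk k (fun p => f p - g p)) / 4 := by
  have h1 : pr k (fun p => f p - g p) = pr k f - pr k g := by
    rw [sub_eq_add_neg, ← neg_one_smul ℝ (pr k g), ← pr_const_mul k hg, ← pr_add k hf (hg.const_mul _)]
    exact pr_congr k fun p _ => by ring
  simp only [nk, cf]
  rw [pr_add k hf hg, h1, proj_add_left (bd_ev _), proj_sub_left (bd_ev _),
    ip_comm _ (ev (pr k f + pr k g)), ip_comm _ (ev (pr k f + pr k g)),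
    ip_comm _ (ev (pr k f - pr k g)), ip_comm _ (ev (pr k f - pr k g)),
    proj_add_left (bd_ev _), proj_add_left (bd_ev _), proj_sub_left (bd_ev _),
    proj_sub_left (bd_ev _), ip_comm (ev (pr k g)) (ev (pr k f))]
  ring

/-- an even function has no odd component (`av_neg`, `ev_neg_of_hom`) -/
theorem nk_odd {f : E n → ℝ} (hf : Bd f) (he : ∀ p, f (-p) = f p) {k : ℕ} (hk : Odd k) :
    nk k f = 0 := by
  have h : pr k f = 0 := pr_unique hf (harm_zero k) fun Z hZ => by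
    have h1 := av_neg fun p => f p * ev Z p
    simp only [he, ev_neg_of_hom hZ.1, hk.neg_one_pow, mul_left_comm _ (-1 : ℝ), av_const_mul] at h1
    rw [proj_zero_left, ip_eq_av]
    linarith
  rw [nk, cf, h, proj_zero_left]

/-- `Harm.two_repr` -/
theorem pr_two_eq_zero {f : E n → ℝ} (hf : Bd f) {c : ℝ}
    (h : ∀ i j, av (fun p => f p * (p i * p j)) = if i = j then c else 0) : pr 2 f = 0 := by
  refine pr_unique hf (harm_zero 2) fun Z hZ => ?_
  obtain ⟨a, ha, hZ⟩ := hZ.two_repr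
  have hb : ∀ i j, Bd fun p => a i j * (f p * (p i * p j)) := fun i j =>
    (hf.mul ((bd_coord i).mul (bd_coord j))).const_mul _
  rw [proj_zero_left, ip_eq_av,
    av_congr (g := fun p => ∑ i, ∑ j, a i j * (f p * (p i * p j))) fun p _ => by
      simp only [hZ, Finset.mul_sum, mul_left_comm (f p)],
    av_sum _ fun i _ => Bd.sum _ fun j _ => hb i j]
  simp only [av_sum _ fun j _ => hb _ j, av_const_mul, h, mul_ite, mul_zero, Finset.sum_ite_eq,
    Finset.mem_univ, if_true]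
  rw [← Finset.sum_mul, ha, zero_mul]

theorem hi_congr {f g : E n → ℝ} (h : ∀ p, ‖p‖ = 1 → f p = g p) : hi f = hi g := by
  simp only [hi, nk, cf, pr_congr _ h, ip_congr h h]

theorem proj_bd {f : E n → ℝ} (hf : Bd f) : Bd fun p => (f p - ev (pr 0 f) p - ev (pr 2 f) p) ^ 2 :=
  ((hf.sub (bd_ev _)).sub (bd_ev _)).pow 2

theorem proj_hi (hn : 3 ≤ n) {f : E n → ℝ} (hf : Bd f) :
    hi f = av fun p => (f p - ev (pr 0 f) p - ev (pr 2 f) p) ^ 2 := by
  have hb := (hf.sub (bd_ev (pr 0 f))).sub (bd_ev (pr 2 f))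
  have h1 : ∀ g, Bd g → ip g (fun p => f p - ev (pr 0 f) p - ev (pr 2 f) p) =
      ip f g - ip (ev (pr 0 f)) g - ip (ev (pr 2 f)) g := fun g hg => by
    rw [ip_comm, ip_sub_left (hf.sub (bd_ev _)) (bd_ev _) hg, ip_sub_left hf (bd_ev _) hg]
  have h2 := orth hn (by decide) (pr_spec 0 hf).1 (pr_spec 2 hf).1
  simp only [sq]
  rw [← ip_eq_av, h1 _ hb, h1 _ hf, h1 _ (bd_ev _), h1 _ (bd_ev _),
    ip_comm (ev (pr 0 f)) f, ip_comm (ev (pr 2 f)) f,
    ip_comm (ev (pr 2 f)) (ev (pr 0 f)), h2, ← cf_eq 0 hf hf, ← cf_eq 2 hf hf]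
  simp only [hi, nk, cf]
  ring

theorem hi_nonneg (hn : 3 ≤ n) {f : E n → ℝ} (hf : Bd f) : 0 ≤ hi f := by
  rw [proj_hi hn hf]
  exact av_nonneg fun _ _ => sq_nonneg _

theorem hi_const_mul {f : E n → ℝ} (hf : Bd f) (c : ℝ) : hi (fun p => c * f p) = c ^ 2 * hi f := by
  have h : ∀ g : E n → ℝ, ip (fun p => c * g p) (fun p => c * g p) = c ^ 2 * ip g g := fun g => by
    rw [ip_const_mul_left, ip_comm, ip_const_mul_left]
    ring
  have h2 : ∀ k, nk k (fun p => c * f p) = c ^ 2 * nk k f := fun k => by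
    rw [nk, nk, cf, cf, pr_const_mul k hf, ← h]
    exact ip_congr (fun p _ => ev_smul _ _ _) fun p _ => ev_smul _ _ _
  rw [hi, hi, h, h2, h2]
  ring

theorem hi_add_const (hn : 3 ≤ n) {f : E n → ℝ} (hf : Bd f) (c : ℝ) :
    hi (fun p => f p + c) = hi f := by
  have h2 : pr 2 (fun _ : E n => c) = 0 := pr_unique (bd_const c) (harm_zero 2) fun Z hZ => by
    rw [proj_zero_left, ← orth hn (by decide) (harm_C c) hZ]
    exact ip_congr (fun p _ => (ev_C c p).symm) fun _ _ => rfl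
  rw [proj_hi hn hf, proj_hi hn (hf.add (bd_const c)), pr_add 0 hf (bd_const c),
    pr_add 2 hf (bd_const c), h2, add_zero, pr_zero (bd_const c), av_const]
  exact av_congr fun p _ => by rw [ev_add, ev_C]; ring

theorem hi_add_le (hn : 3 ≤ n) {f g : E n → ℝ} (hf : Bd f) (hg : Bd g) {a b : ℝ} (ha : 0 < a)
    (hb : 0 < b) : hi (fun p => f p + g p) ≤ (1 / a + 1 / b) * (a * hi f + b * hi g) := by
  rw [proj_hi hn hf, proj_hi hn hg, proj_hi hn (hf.add hg), pr_add 0 hf hg, pr_add 2 hf hg,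
    ← av_const_mul, ← av_const_mul, ← av_add ((proj_bd hf).const_mul a) ((proj_bd hg).const_mul b),
    ← av_const_mul]
  refine av_mono ((((hf.add hg).sub (bd_ev _)).sub (bd_ev _)).pow 2)
    ((((proj_bd hf).const_mul a).add ((proj_bd hg).const_mul b)).const_mul _) fun p _ => ?_
  rw [ev_add, ev_add]
  have h : ∀ x y : ℝ, (x + y) ^ 2 ≤ (1 / a + 1 / b) * (a * x ^ 2 + b * y ^ 2) := fun x y => by
    have : (1 / a + 1 / b) * (a * x ^ 2 + b * y ^ 2) - (x + y) ^ 2 = (a * x - b * y) ^ 2 / (a * b) := by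
      field_simp
      ring
    have h2 : 0 ≤ (a * x - b * y) ^ 2 / (a * b) := by positivity
    linarith
  refine le_trans (le_of_eq ?_) (h _ _)
  ring

theorem hi_add_nk {f : E n → ℝ} (hf : Bd f) :
    hi f + nk 2 f = av (fun p => f p ^ 2) - av f ^ 2 := by
  rw [hi, nk_zero hf, ip_eq_av]
  simp only [sq]
  ring

end Crest.Agent.R230
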