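import Crest.Agent.R230.Defs

/-!
# R230/Simp

Volume of a simplex in `α → ℝ`.  Transport to `Fin d` (`volume_preserving_arrowCongr'` or
`MeasurableEquiv.piCongrLeft`), then induction on `d` with `measurePreserving_piFinSuccAbove` /
`volume_preserving_piFinSuccAbove` and `∫_0^c (c - s)^d/d! ds = c^(d+1)/(d+1)!` (prove it for all `c`
at once, the set being empty for `c < 0` when handled with `max c 0`), then translate by `a`.
-/

set_option autoImplicit false
set_option linter.unusedSectionVars false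
set_option linter.unusedVariables false

namespace Crest.Agent.R230

open MeasureTheory Metric Set Filter Topology
open scoped RealInnerProductSpace ENNReal Pointwise

variable {n : ℕ} [NeZero n]

theorem simp_meas {α : Type} [Fintype α] (a : α → ℝ) (β : ℝ) :
    MeasurableSet {y : α → ℝ | (∀ i, a i ≤ y i) ∧ ∑ i, y i ≤ β} := by
  have h1 : IsClosed {y : α → ℝ | ∀ i, a i ≤ y i} := by
    simp only [ofPred_forall]
    exact isClosed_iInter fun i => isClosed_le continuous_const (continuous_apply i)
  have h2 : IsClosed {y : α → ℝ | ∑ i, y i ≤ β} := isClosed_le (by fun_prop) continuous_const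
  exact (h1.inter h2).measurableSet

theorem simp_fin (d : ℕ) : ∀ c : ℝ, 0 ≤ c →
    volume {y : Fin d → ℝ | (∀ i, (0 : ℝ) ≤ y i) ∧ ∑ i, y i ≤ c} =
      ENNReal.ofReal (c ^ d / d.factorial) := by
  induction d with
  | zero =>
    intro c hc
    have : {y : Fin 0 → ℝ | (∀ i, (0 : ℝ) ≤ y i) ∧ ∑ i, y i ≤ c} = univ := by
      ext y; simp [hc]
    rw [this]
    simp [volume_pi]
  | succ d ih =>
    intro c hc
    have hp := (volume_preserving_piFinSuccAbove (fun _ : Fin (d + 1) => ℝ) 0).symm
    have hm := simp_meas (fun _ : Fin (d + 1) => (0 : ℝ)) c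
    rw [← hp.measure_preimage hm.nullMeasurableSet, Measure.volume_eq_prod,
      Measure.prod_apply (hp.measurable hm)]
    have key : ∀ s : ℝ, volume (Prod.mk s ⁻¹'
        ((MeasurableEquiv.piFinSuccAbove (fun _ : Fin (d + 1) => ℝ) 0).symm ⁻¹'
          {y : Fin (d + 1) → ℝ | (∀ i, (0 : ℝ) ≤ y i) ∧ ∑ i, y i ≤ c})) =
        (Icc (0 : ℝ) c).indicator (fun s => ENNReal.ofReal ((c - s) ^ d / d.factorial)) s := by
      intro s
      have e : (Prod.mk s ⁻¹'
        ((MeasurableEquiv.piFinSuccAbove (fun _ : Fin (d + 1) => ℝ) 0).symm ⁻¹'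
          {y : Fin (d + 1) → ℝ | (∀ i, (0 : ℝ) ≤ y i) ∧ ∑ i, y i ≤ c})) =
          {y : Fin d → ℝ | 0 ≤ s ∧ ((∀ i, (0 : ℝ) ≤ y i) ∧ ∑ i, y i ≤ c - s)} := by
        ext y
        simp only [mem_preimage, mem_ofPred_eq, MeasurableEquiv.piFinSuccAbove_symm_apply,
          Fin.insertNthEquiv, Equiv.coe_fn_mk, Fin.insertNth_zero', Fin.forall_fin_succ,
          Fin.cons_zero, Fin.cons_succ, Fin.sum_univ_succ]
        constructor
        · rintro ⟨⟨h1, h2⟩, h3⟩; exact ⟨h1, h2, by linarith⟩
        · rintro ⟨h1, h2, h3⟩; exact ⟨⟨h1, h2⟩, by linarith⟩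
      rw [e]
      by_cases hs : s ∈ Icc (0 : ℝ) c
      · rw [indicator_of_mem hs, ← ih (c - s) (sub_nonneg.2 hs.2)]
        simp [hs.1]
      · rw [indicator_of_notMem hs]
        have : {y : Fin d → ℝ | 0 ≤ s ∧ ((∀ i, (0 : ℝ) ≤ y i) ∧ ∑ i, y i ≤ c - s)} = ∅ := by
          ext y
          simp only [mem_ofPred_eq, mem_empty_iff_false, iff_false]
          rintro ⟨h1, h2, h3⟩
          have : 0 ≤ ∑ i, y i := Finset.sum_nonneg fun i _ => h2 i
          exact hs ⟨h1, by linarith⟩
        rw [this, measure_empty]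
    simp_rw [key]
    rw [lintegral_indicator measurableSet_Icc, ← ofReal_integral_eq_lintegral_ofReal]
    · congr 1
      rw [integral_Icc_eq_integral_Ioc, ← intervalIntegral.integral_of_le hc,
        intervalIntegral.integral_div, intervalIntegral.integral_comp_sub_left (fun s => s ^ d) c]
      simp only [sub_self, sub_zero, integral_pow, Nat.factorial_succ]
      have : (d.factorial : ℝ) ≠ 0 := by positivity
      push_cast
      rw [zero_pow (Nat.succ_ne_zero d)]
      field_simp
      ring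
    · exact (Continuous.continuousOn (by fun_prop)).integrableOn_compact isCompact_Icc
    · filter_upwards [ae_restrict_mem measurableSet_Icc] with s hs
      have : 0 ≤ c - s := sub_nonneg.2 hs.2
      positivity

theorem volume_simplex {α : Type} [Fintype α] (a : α → ℝ) {β : ℝ} (h : ∑ i, a i ≤ β) :
    volume {y : α → ℝ | (∀ i, a i ≤ y i) ∧ ∑ i, y i ≤ β} =
      ENNReal.ofReal ((β - ∑ i, a i) ^ Fintype.card α / (Fintype.card α).factorial) := by
  have e1 : {y : α → ℝ | (∀ i, a i ≤ y i) ∧ ∑ i, y i ≤ β} =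
      (fun y => -a + y) ⁻¹' {y : α → ℝ | (∀ i, (0 : ℝ) ≤ y i) ∧ ∑ i, y i ≤ β - ∑ i, a i} := by
    ext y
    simp only [mem_ofPred_eq, mem_preimage, Pi.add_apply, Pi.neg_apply, Finset.sum_add_distrib,
      Finset.sum_neg_distrib]
    constructor
    · rintro ⟨h1, h2⟩; exact ⟨fun i => by linarith [h1 i], by linarith⟩
    · rintro ⟨h1, h2⟩; exact ⟨fun i => by linarith [h1 i], by linarith⟩
  rw [e1, measure_preimage_add, ← simp_fin _ _ (sub_nonneg.2 h)]
  let e := Fintype.equivFin α
  have hp := volume_measurePreserving_piCongrLeft (fun _ : α => ℝ) e.symm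
  rw [← hp.measure_preimage (simp_meas (fun _ => (0 : ℝ)) _).nullMeasurableSet]
  congr 1
  ext y
  have : ∀ i, (MeasurableEquiv.piCongrLeft (fun _ : α => ℝ) e.symm) y i = y (e i) := by
    intro i
    have := MeasurableEquiv.piCongrLeft_apply_apply (β := fun _ : α => ℝ) e.symm y (e i)
    simpa using this
  simp only [mem_preimage, mem_ofPred_eq, this]
  rw [e.sum_comp (fun i => y i)]
  exact and_congr_left' ⟨fun h i => by simpa using h (e.symm i), fun h i => h _⟩

end Crest.Agent.R230
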