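import Crest.Agent.R230.SimpSh0

/-!
# R230/SimpSh

Shadows and projection body of a product of simplices.  `K = KB b`, `V = vol K = ∏ 1/d_j!`,
`c j = cb b u j = ∑_{blk j} (u i)⁻ + (∑_{blk j} u i)⁺ = ∑_{blk j} (u i)⁺ + (∑_{blk j} u i)⁻`.
Upper bound: `K + [0, t u] ⊆ BS b (min 0 (t u i)) (1 + max 0 (t ∑ u))`, of volume `V ∏ (1 + t c j)^(d j)`.
Lower bound: `K + [0, t u] ⊇ K ∪ (K + t u)`, of volume `2V - vol (K ∩ (K + tu))`, and
`K ∩ (K + t u) ⊆ BS b (max 0 (t u i)) (1 + min 0 (t ∑ u))`, of volume `V ∏ (1 - t c j)^(d j)` for small `t`.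
With `vol_add_segment`: `V (1 - f (-t)) ≤ t shadow ≤ V (f t - 1)`, `f t = ∏ (1 + t c j)^(d j)`,
`f 0 = 1`, `f' 0 = ∑ d j c j` (`HasDerivAt.finset_prod` or induction); let `t → 0+`.
`piB_KB`: `⊆`: test with `± e i` (`cb = 1` on the block of `i`, `0` elsewhere) and `(e i - e i')/√2`.
`⊇`: on each block write `x i = s + y i` with `|s|, |y i| ≤ ρ/2` (take `s` in
`[max x - ρ/2, min x + ρ/2] ∩ [-ρ/2, ρ/2]`, e.g. `s = (max (0, x) + min (0, x))/2`), so
`∑_{blk j} x i u i ≤ ρ j cb b u j`.
-/

set_option autoImplicit false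
set_option linter.unusedSectionVars false
set_option linter.unusedVariables false

namespace Crest.Agent.R230

open MeasureTheory Metric Set Filter Topology
open scoped RealInnerProductSpace ENNReal Pointwise

variable {n : ℕ} [NeZero n]

variable {ι : Type} [Fintype ι] [DecidableEq ι]

theorem simpsh_vol_pos (b : Fin n → ι) : 0 < vol (KB b) := by
  rw [vol_KB]; exact Finset.prod_pos fun j _ => by positivity

theorem simpsh_cb_smul (b : Fin n → ι) (c : ℝ) (u : E n) (j : ι) :
    cb b (c • u) j = |c| * cb b u j := by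
  simp only [cb, PiLp.smul_apply, smul_eq_mul, abs_mul, ← Finset.mul_sum]; ring

theorem simpsh_mem (b : Fin n → ι) (x : E n) : x ∈ PiB (KB b) ↔
    ∀ u : E n, ⟪x, u⟫ ≤ vol (KB b) * ∑ j, ((blk b j).card : ℝ) * cb b u j := by
  simp only [PiB, mem_iInter, mem_ofPred_eq, mem_sphere_zero_iff_norm]
  constructor
  · intro h u
    by_cases hu : u = 0
    · simp [hu, cb]
    · have h0 : 0 < ‖u‖ := norm_pos_iff.2 hu
      have h1 : ‖‖u‖⁻¹ • u‖ = 1 := by rw [norm_smul]; simp [h0.ne']
      have h2 := h _ h1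
      rw [shadow_KB b h1, real_inner_smul_right] at h2
      simp only [simpsh_cb_smul, abs_inv, abs_norm, mul_left_comm _ ‖u‖⁻¹, ← Finset.mul_sum] at h2
      exact le_of_mul_le_mul_left h2 (inv_pos.2 h0)
  · intro h u hu
    rw [shadow_KB b hu]; exact h u

theorem simpsh_sum_single (b : Fin n → ι) (j : ι) (i : Fin n) (c : ℝ) :
    ∑ k ∈ blk b j, (if k = i then c else 0) = if b i = j then c else 0 := by
  rw [Finset.sum_ite_eq']; simp [blk]

theorem simpsh_cb_single (b : Fin n → ι) (i : Fin n) (c : ℝ) (j : ι) :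
    cb b (EuclideanSpace.single i c) j = if b i = j then |c| else 0 := by
  simp only [cb, PiLp.single_apply, apply_ite abs, abs_zero, simpsh_sum_single]
  split_ifs <;> simp

theorem simpsh_cb_pair (b : Fin n → ι) {i i' : Fin n} (hi : i ≠ i') (hb : b i = b i') (j : ι) :
    cb b (EuclideanSpace.single i 1 - EuclideanSpace.single i' 1) j = if b i = j then 1 else 0 := by
  have h : ∀ k, |(if k = i then (1 : ℝ) else 0) - if k = i' then 1 else 0| =
      (if k = i then 1 else 0) + if k = i' then 1 else 0 := by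
    intro k
    split_ifs with h1 h2
    · exact absurd (h1.symm.trans h2) hi
    all_goals simp
  simp only [cb, PiLp.sub_apply, PiLp.single_apply, h, Finset.sum_add_distrib,
    Finset.sum_sub_distrib, simpsh_sum_single, ← hb]
  split_ifs <;> simp

theorem simpsh_block (B : Finset (Fin n)) (x u : Fin n → ℝ) {ρ : ℝ} (h0 : 0 ≤ ρ)
    (h1 : ∀ i ∈ B, |x i| ≤ ρ) (h2 : ∀ i ∈ B, ∀ i' ∈ B, |x i - x i'| ≤ ρ) :
    ∑ i ∈ B, x i * u i ≤ ρ * ((∑ i ∈ B, |u i| + |∑ i ∈ B, u i|) / 2) := by
  obtain ⟨s, hs, hs'⟩ : ∃ s, |s| ≤ ρ / 2 ∧ ∀ i ∈ B, |x i - s| ≤ ρ / 2 := by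
    have hne : (insert 0 (B.image x)).Nonempty := Finset.insert_nonempty _ _
    have hd : ∀ y ∈ insert 0 (B.image x), ∀ z ∈ insert 0 (B.image x), y - z ≤ ρ := by
      intro y hy z hz
      simp only [Finset.mem_insert, Finset.mem_image] at hy hz
      rcases hy with rfl | ⟨i, hi, rfl⟩ <;> rcases hz with rfl | ⟨i', hi', rfl⟩
      · simpa using h0
      · linarith [(abs_le.1 (h1 i' hi')).1]
      · linarith [(abs_le.1 (h1 i hi)).2]
      · exact (abs_le.1 (h2 i hi i' hi')).2
    have hMm := hd _ (Finset.max'_mem _ hne) _ (Finset.min'_mem _ hne)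
    have key : ∀ y ∈ insert 0 (B.image x),
        |y - (Finset.max' _ hne + Finset.min' _ hne) / 2| ≤ ρ / 2 := by
      intro y hy
      have := Finset.le_max' _ y hy
      have := Finset.min'_le _ y hy
      rw [abs_le]; constructor <;> linarith
    refine ⟨_, ?_, fun i hi => key _ (Finset.mem_insert_of_mem (Finset.mem_image_of_mem x hi))⟩
    have := key 0 (Finset.mem_insert_self _ _)
    rwa [zero_sub, abs_neg] at this
  have e : ∑ i ∈ B, x i * u i = ∑ i ∈ B, (x i - s) * u i + s * ∑ i ∈ B, u i := by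
    rw [Finset.mul_sum, ← Finset.sum_add_distrib]
    exact Finset.sum_congr rfl fun i _ => by ring
  have a1 : ∑ i ∈ B, (x i - s) * u i ≤ ρ / 2 * ∑ i ∈ B, |u i| := by
    rw [Finset.mul_sum]
    refine Finset.sum_le_sum fun i hi => (le_abs_self _).trans ?_
    rw [abs_mul]; exact mul_le_mul_of_nonneg_right (hs' i hi) (abs_nonneg _)
  have a2 : s * ∑ i ∈ B, u i ≤ ρ / 2 * |∑ i ∈ B, u i| := by
    refine (le_abs_self _).trans ?_
    rw [abs_mul]; exact mul_le_mul_of_nonneg_right hs (abs_nonneg _)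
  rw [e]; linarith

theorem piB_KB (b : Fin n → ι) : PiB (KB b) = ZB b (fun j => vol (KB b) * (blk b j).card) := by
  ext x
  rw [simpsh_mem]
  constructor
  · intro h
    refine ⟨fun i => ?_, fun i i' hb => ?_⟩
    · have h1 := h (EuclideanSpace.single i 1)
      have h2 := h (EuclideanSpace.single i (-1))
      simp [simpsh_cb_single, EuclideanSpace.inner_single_right] at h1 h2
      rw [abs_le]; constructor <;> linarith
    · by_cases hi : i = i'
      · have := simpsh_vol_pos b
        rw [hi, sub_self, abs_zero]; positivity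
      · have h1 := h (EuclideanSpace.single i 1 - EuclideanSpace.single i' 1)
        have h2 := h (EuclideanSpace.single i' 1 - EuclideanSpace.single i 1)
        simp only [simpsh_cb_pair b hi hb] at h1
        simp only [simpsh_cb_pair b (Ne.symm hi) hb.symm, ← hb] at h2
        simp [inner_sub_right, EuclideanSpace.inner_single_right] at h1 h2
        rw [abs_le]; constructor <;> linarith
  · rintro ⟨h1, h2⟩ u
    have e : ⟪x, u⟫ = ∑ j, ∑ i ∈ blk b j, x i * u i := by
      simp only [blk]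
      rw [Finset.sum_fiberwise Finset.univ b fun i => x i * u i, PiLp.inner_apply]
      exact Finset.sum_congr rfl fun i _ => by simp [mul_comm]
    rw [e, Finset.mul_sum]
    refine Finset.sum_le_sum fun j _ => ?_
    rw [← mul_assoc]
    have := simpsh_vol_pos b
    refine simpsh_block _ _ _ (by positivity) (fun i hi => ?_) fun i hi i' hi' => ?_
    · have hj : b i = j := by simpa [blk] using hi
      rw [← hj]; exact h1 i
    · have hj : b i = j := by simpa [blk] using hi
      have hj' : b i' = j := by simpa [blk] using hi'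
      rw [← hj]; exact h2 i i' (hj.trans hj'.symm)

/-- `vol_ZB`, `sum_card_blk` -/
theorem ratio_KB (b : Fin n → ι) :
    vol (PiB (KB b)) / vol (KB b) ^ (n - 1) = ∏ j, cc (blk b j).card := by
  have h0 := simpsh_vol_pos b
  rw [piB_KB, vol_ZB b fun j => by positivity]
  simp only [mul_pow, mul_assoc, Finset.prod_mul_distrib, Finset.prod_pow_eq_pow_sum,
    sum_card_blk]
  have e : vol (KB b) ^ n = vol (KB b) ^ (n - 1) * vol (KB b) := by
    rw [← pow_succ, Nat.sub_add_cancel (Nat.pos_of_ne_zero (NeZero.ne n))]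
  rw [e, mul_assoc, mul_div_cancel_left₀ _ (pow_pos h0 _).ne', vol_KB, ← Finset.prod_mul_distrib,
    ← Finset.prod_mul_distrib]
  exact Finset.prod_congr rfl fun j _ => by rw [cc]; ring

end Crest.Agent.R230
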