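import Crest.Agent.R230.Blocks
import Crest.Agent.R230.Shadow

/-!
# R230/SimpSh0

Shadows and projection body of a product of simplices.  `K = KB b`, `V = vol K = ∏ 1/d_j!`,
`c j = cb b u j = ∑_{blk j} (u i)⁻ + (∑_{blk j} u i)⁺ = ∑_{blk j} (u i)⁺ + (∑_{blk j} u i)⁻`.
Upper bound: `K + [0, t u] ⊆ BS b (min 0 (t u i)) (1 + max 0 (t ∑ u))`, of volume `V ∏ (1 + t c j)^(d j)`.
Lower bound: `K + [0, t u] ⊇ K ∪ (K + t u)`, of volume `2V - vol (K ∩ (K + tu))`, and
`K ∩ (K + t u) ⊆ BS b (max 0 (t u i)) (1 + min 0 (t ∑ u))`, of volume `V ∏ (1 - t c j)^(d j)` for small `t`.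
With `vol_add_segment`: `V (1 - f (-t)) ≤ t shadow ≤ V (f t - 1)`, `f t = ∏ (1 + t c j)^(d j)`,
`f 0 = 1`, `f' 0 = ∑ d j c j` (`HasDerivAt.finset_prod` or induction); let `t → 0+`.
`piB_KB`: `⊆`: test with `± e i` (`cb = 1` on the block of `i`, `0` elsewhere) and `(e i - e i')/√2`.
`⊇`: on each block write `x i = s + y i` with `|s|, |y i| ≤ ρ/2` (take `s` in
`[max x - ρ/2, min x + ρ/2] ∩ [-ρ/2, ρ/2]`, e.g. `s = (max (0, x) + min (0, x))/2`), so
`∑_{blk j} x i u i ≤ ρ j cb b u j`.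
-/

set_option autoImplicit false
set_option linter.unusedSectionVars false
set_option linter.unusedVariables false

namespace Crest.Agent.R230

open MeasureTheory Metric Set Filter Topology
open scoped RealInnerProductSpace ENNReal Pointwise

variable {n : ℕ} [NeZero n]

variable {ι : Type} [Fintype ι] [DecidableEq ι]

theorem vol_KB (b : Fin n → ι) : vol (KB b) = ∏ j, 1 / ((blk b j).card.factorial : ℝ) := by
  rw [KB, vol_BS b (by simp)]
  simp

theorem simpsh0_vol (b : Fin n → ι) {α : Fin n → ℝ} {β c : ι → ℝ}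
    (h : ∀ j, β j - ∑ i ∈ blk b j, α i = c j) (hc : ∀ j, 0 ≤ c j) :
    vol (BS b α β) = vol (KB b) * ∏ j, c j ^ (blk b j).card := by
  rw [vol_BS b (fun j => by linarith [h j, hc j]), vol_KB, ← Finset.prod_mul_distrib]
  refine Finset.prod_congr rfl fun j _ => ?_
  rw [h j]; ring

theorem simpsh0_cb_nonneg (b : Fin n → ι) (u : E n) (j : ι) : 0 ≤ cb b u j := by
  unfold cb
  have := Finset.sum_nonneg fun i (_ : i ∈ blk b j) => abs_nonneg (u i)
  positivity

theorem simpsh0_lo {s a : ℝ} (h0 : 0 ≤ s) (h1 : s ≤ 1) : (a - |a|) / 2 ≤ s * a := by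
  rcases abs_cases a with ⟨h, h'⟩ | ⟨h, h'⟩ <;> rw [h] <;> nlinarith

theorem simpsh0_hi {s a : ℝ} (h0 : 0 ≤ s) (h1 : s ≤ 1) : s * a ≤ (a + |a|) / 2 := by
  rcases abs_cases a with ⟨h, h'⟩ | ⟨h, h'⟩ <;> rw [h] <;> nlinarith

theorem simpsh0_upper (b : Fin n → ι) {u : E n} (hu : ‖u‖ = 1) {t : ℝ} (ht : 0 ≤ t) :
    vol (KB b) + t * shadow (KB b) u ≤ vol (KB b) * ∏ j, (1 + t * cb b u j) ^ (blk b j).card := by
  rw [← vol_add_segment (K := KB b) (isCompact_BS b _ _) (convex_BS b _ _) hu ht,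
    ← simpsh0_vol b (α := fun i => t * ((u i - |u i|) / 2))
      (β := fun j => 1 + t * ((∑ i ∈ blk b j, u i + |∑ i ∈ blk b j, u i|) / 2)) (fun j => ?_)
      fun j => by have := simpsh0_cb_nonneg b u j; positivity]
  · refine vol_mono ?_ (isCompact_BS b _ _)
    rintro x ⟨k, ⟨hk1, hk2⟩, y, ⟨a, s, ha, hs, has, rfl⟩, rfl⟩
    have hs1 : s ≤ 1 := by linarith
    refine ⟨fun i => ?_, fun j => ?_⟩
    · have h1 := mul_le_mul_of_nonneg_left (simpsh0_lo (a := u i) hs hs1) ht
      have h2 := hk1 i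
      simp only [smul_zero, zero_add, PiLp.add_apply, PiLp.smul_apply, smul_eq_mul] at h2 ⊢
      nlinarith
    · have h1 := mul_le_mul_of_nonneg_left (simpsh0_hi (a := ∑ i ∈ blk b j, u i) hs hs1) ht
      have h2 := hk2 j
      simp only [smul_zero, zero_add, PiLp.add_apply, PiLp.smul_apply, smul_eq_mul,
        Finset.sum_add_distrib, ← Finset.mul_sum] at h2 ⊢
      nlinarith
  · rw [← Finset.mul_sum, ← Finset.sum_div, Finset.sum_sub_distrib, cb]
    ring

theorem simpsh0_lower (b : Fin n → ι) {u : E n} (hu : ‖u‖ = 1) {t : ℝ} (ht : 0 ≤ t)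
    (htc : ∀ j, t * cb b u j ≤ 1) :
    vol (KB b) - t * shadow (KB b) u ≤ vol (KB b) * ∏ j, (1 + -t * cb b u j) ^ (blk b j).card := by
  have hK : IsCompact (KB b) := isCompact_BS b _ _
  have hK' : IsCompact ((fun x => t • u + x) '' KB b) := hK.image (by fun_prop)
  have hseg : IsCompact (segment ℝ (0 : E n) (t • u)) := by
    rw [segment_eq_image]; exact isCompact_Icc.image (by fun_prop)
  have h1 := vol_add_segment (K := KB b) hK (convex_BS b _ _) hu ht
  have h2 : vol (KB b ∪ (fun x => t • u + x) '' KB b) ≤ vol (KB b + segment ℝ 0 (t • u)) := by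
    refine vol_mono ?_ (hK.add hseg)
    rintro x (hx | ⟨k, hk, rfl⟩)
    · exact ⟨x, hx, 0, left_mem_segment _ _ _, add_zero x⟩
    · exact ⟨k, hk, t • u, right_mem_segment _ _ _, add_comm _ _⟩
  have h3 : vol (KB b ∪ (fun x => t • u + x) '' KB b) + vol (KB b ∩ (fun x => t • u + x) '' KB b) =
      vol (KB b) + vol ((fun x => t • u + x) '' KB b) :=
    measureReal_union_add_inter hK'.measurableSet hK.measure_lt_top.ne hK'.measure_lt_top.ne
  rw [vol_translate] at h3
  have h4 : vol (KB b ∩ (fun x => t • u + x) '' KB b) ≤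
      vol (KB b) * ∏ j, (1 + -t * cb b u j) ^ (blk b j).card := by
    rw [← simpsh0_vol b (α := fun i => t * ((u i + |u i|) / 2))
      (β := fun j => 1 + t * ((∑ i ∈ blk b j, u i - |∑ i ∈ blk b j, u i|) / 2)) (fun j => ?_)
      fun j => by linarith [htc j]]
    · refine vol_mono ?_ (isCompact_BS b _ _)
      rintro x ⟨⟨hx1, hx2⟩, k, ⟨hk1, hk2⟩, rfl⟩
      refine ⟨fun i => ?_, fun j => ?_⟩
      · have h5 := hx1 i
        have h6 := hk1 i
        simp only [PiLp.add_apply, PiLp.smul_apply, smul_eq_mul] at h5 h6 ⊢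
        rcases abs_cases (u i) with ⟨h, -⟩ | ⟨h, -⟩ <;> rw [h] <;> linarith
      · have h5 := hx2 j
        have h6 := hk2 j
        simp only [PiLp.add_apply, PiLp.smul_apply, smul_eq_mul, Finset.sum_add_distrib,
          ← Finset.mul_sum] at h5 h6 ⊢
        rcases abs_cases (∑ i ∈ blk b j, u i) with ⟨h, -⟩ | ⟨h, -⟩ <;> rw [h] <;> linarith
    · rw [← Finset.mul_sum, ← Finset.sum_div, Finset.sum_add_distrib, cb]
      ring
  linarith

theorem simpsh0_deriv (c : ι → ℝ) (d : ι → ℕ) :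
    HasDerivAt (fun t : ℝ => ∏ j, (1 + t * c j) ^ d j) (∑ j, (d j : ℝ) * c j) 0 := by
  have h : ∀ j ∈ (Finset.univ : Finset ι),
      HasDerivAt (fun t : ℝ => (1 + t * c j) ^ d j) ((d j : ℝ) * c j) 0 := by
    intro j _
    have := (((hasDerivAt_id (0 : ℝ)).mul_const (c j)).const_add 1).fun_pow (d j)
    simpa using this
  have := HasDerivAt.fun_finsetProd h
  simpa using this

theorem shadow_KB (b : Fin n → ι) {u : E n} (hu : ‖u‖ = 1) :
    shadow (KB b) u = vol (KB b) * ∑ j, ((blk b j).card : ℝ) * cb b u j := by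
  apply le_antisymm
  · have h := ((simpsh0_deriv (cb b u) fun j => (blk b j).card).tendsto_slope_zero_right).const_mul
      (vol (KB b))
    refine ge_of_tendsto h ?_
    filter_upwards [self_mem_nhdsWithin] with t ht
    have ht' : 0 < t := ht
    have h1 := simpsh0_upper b hu ht'.le
    simp only [zero_add, zero_mul, add_zero, one_pow, Finset.prod_const_one, smul_eq_mul]
    rw [mul_left_comm, ← div_eq_inv_mul, le_div_iff₀ ht']
    linarith
  · have h := ((simpsh0_deriv (fun j => -cb b u j)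
      fun j => (blk b j).card).tendsto_slope_zero_right).const_mul (-vol (KB b))
    have e : -vol (KB b) * ∑ j, ((blk b j).card : ℝ) * -cb b u j =
        vol (KB b) * ∑ j, ((blk b j).card : ℝ) * cb b u j := by
      simp only [mul_neg, Finset.sum_neg_distrib, neg_mul, neg_neg]
    rw [e] at h
    refine le_of_tendsto h ?_
    have hev : ∀ᶠ t : ℝ in 𝓝[>] 0, ∀ j, t * cb b u j ≤ 1 := by
      refine eventually_all.2 fun j => mem_nhdsWithin_of_mem_nhds ?_
      have : ContinuousAt (fun t : ℝ => t * cb b u j) 0 := by fun_prop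
      exact this.eventually_le_const (by simp)
    filter_upwards [self_mem_nhdsWithin, hev] with t ht htc
    have ht' : 0 < t := ht
    have h1 := simpsh0_lower b hu ht'.le htc
    simp only [zero_add, zero_mul, add_zero, one_pow, Finset.prod_const_one, smul_eq_mul, mul_neg,
      neg_mul, neg_zero] at h1 ⊢
    rw [mul_left_comm, ← mul_neg, ← div_eq_inv_mul, div_le_iff₀ ht']
    linarith

end Crest.Agent.R230
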