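import Crest.Agent.R230.Polar

/-!
# R230/Sph

Bounded measurable functions on the sphere, means, symmetries.  All elementary.
-/

set_option autoImplicit false
set_option linter.unusedSectionVars false
set_option linter.unusedVariables false

namespace Crest.Agent.R230

open MeasureTheory Metric Set Filter Topology
open scoped RealInnerProductSpace ENNReal Pointwise

variable {n : ℕ} [NeZero n]

theorem Bd.integrable {f : E n → ℝ} (h : Bd f) : Integrable f (sph n) := by
  obtain ⟨C, hC⟩ := h.2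
  refine Integrable.of_bound h.1.aestronglyMeasurable C ?_
  filter_upwards [ae_norm_sph] with p hp using hC p hp
theorem bd_const (c : ℝ) : Bd (fun _ : E n => c) := ⟨measurable_const, |c|, fun _ _ => le_rfl⟩
theorem Bd.add {f g : E n → ℝ} (hf : Bd f) (hg : Bd g) : Bd (fun p => f p + g p) := by
  obtain ⟨C, hC⟩ := hf.2
  obtain ⟨D, hD⟩ := hg.2
  exact ⟨hf.1.add hg.1, C + D, fun p hp => (abs_add_le _ _).trans (add_le_add (hC p hp) (hD p hp))⟩
theorem Bd.sub {f g : E n → ℝ} (hf : Bd f) (hg : Bd g) : Bd (fun p => f p - g p) := by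
  obtain ⟨C, hC⟩ := hf.2
  obtain ⟨D, hD⟩ := hg.2
  exact ⟨hf.1.sub hg.1, C + D, fun p hp => (abs_sub _ _).trans (add_le_add (hC p hp) (hD p hp))⟩
theorem Bd.mul {f g : E n → ℝ} (hf : Bd f) (hg : Bd g) : Bd (fun p => f p * g p) := by
  obtain ⟨C, hC⟩ := hf.2
  obtain ⟨D, hD⟩ := hg.2
  refine ⟨hf.1.mul hg.1, C * D, fun p hp => ?_⟩
  show |f p * g p| ≤ C * D
  rw [abs_mul]
  exact mul_le_mul (hC p hp) (hD p hp) (abs_nonneg _) ((abs_nonneg _).trans (hC p hp))
theorem Bd.const_mul {f : E n → ℝ} (hf : Bd f) (c : ℝ) : Bd (fun p => c * f p) :=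
  (bd_const c).mul hf
theorem Bd.abs {f : E n → ℝ} (hf : Bd f) : Bd (fun p => |f p|) := by
  obtain ⟨C, hC⟩ := hf.2
  exact ⟨hf.1.abs, C, fun p hp => by simpa using hC p hp⟩
theorem Bd.pow {f : E n → ℝ} (hf : Bd f) (k : ℕ) : Bd (fun p => f p ^ k) := by
  induction k with
  | zero => simpa using bd_const (n := n) 1
  | succ k ih => simpa [pow_succ] using ih.mul hf
theorem Bd.sum {α : Type*} (s : Finset α) {f : α → E n → ℝ} (hf : ∀ a ∈ s, Bd (f a)) :
    Bd (fun p => ∑ a ∈ s, f a p) := by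
  classical
  induction s using Finset.induction_on with
  | empty => simpa using bd_const (n := n) 0
  | insert a s ha ih =>
    simp only [Finset.sum_insert ha]
    exact (hf a (Finset.mem_insert_self _ _)).add
      (ih fun b hb => hf b (Finset.mem_insert_of_mem hb))
theorem Bd.comp_isometry {f : E n → ℝ} (hf : Bd f) (e : E n ≃ₗᵢ[ℝ] E n) :
    Bd (fun p => f (e p)) := by
  obtain ⟨C, hC⟩ := hf.2
  exact ⟨hf.1.comp e.continuous.measurable, C, fun p hp => hC _ (by rw [e.norm_map, hp])⟩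

theorem sph_subset : sphere (0 : E n) 1 ⊆ ({0}ᶜ : Set (E n)) := by
  intro p hp h0
  rw [mem_singleton_iff] at h0
  rw [h0] at hp
  simp at hp

/-- `ContinuousOn.measurable_piecewise`, or `measurable_of_continuousOn_compl_singleton` -/
theorem bd_of_continuousOn {f : E n → ℝ} (hf : ContinuousOn f ({0}ᶜ : Set (E n))) : Bd f := by
  refine ⟨measurable_of_continuousOn_compl_singleton 0 hf, ?_⟩
  obtain ⟨C, hC⟩ := (isCompact_sphere (0 : E n) 1).exists_bound_of_continuousOn (hf.mono sph_subset)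
  exact ⟨C, fun p hp => hC p (by simpa using hp)⟩
theorem bd_of_continuous {f : E n → ℝ} (hf : Continuous f) : Bd f :=
  bd_of_continuousOn hf.continuousOn
theorem bd_coord (i : Fin n) : Bd (fun p : E n => p i) := bd_of_continuous (by fun_prop)
theorem bd_inner (v : E n) : Bd (fun p : E n => ⟪p, v⟫) :=
  bd_of_continuous (continuous_id.inner continuous_const)

theorem av_congr {f g : E n → ℝ} (h : ∀ p, ‖p‖ = 1 → f p = g p) : av f = av g := by
  refine integral_congr_ae ?_
  filter_upwards [ae_norm_sph] with p hp using h p hp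
theorem av_congr_ae {f g : E n → ℝ} (h : ∀ᵐ p ∂sph n, ‖p‖ = 1 → f p = g p) : av f = av g := by
  refine integral_congr_ae ?_
  filter_upwards [ae_norm_sph, h] with p hp hq using hq hp
theorem av_const (c : ℝ) : av (fun _ : E n => c) = c := by simp [av]
theorem av_add {f g : E n → ℝ} (hf : Bd f) (hg : Bd g) :
    av (fun p => f p + g p) = av f + av g := integral_add hf.integrable hg.integrable
theorem av_sub {f g : E n → ℝ} (hf : Bd f) (hg : Bd g) :
    av (fun p => f p - g p) = av f - av g := integral_sub hf.integrable hg.integrable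
theorem av_const_mul (c : ℝ) (f : E n → ℝ) : av (fun p => c * f p) = c * av f :=
  integral_const_mul c f
theorem av_sum {α : Type*} (s : Finset α) {f : α → E n → ℝ} (hf : ∀ a ∈ s, Bd (f a)) :
    av (fun p => ∑ a ∈ s, f a p) = ∑ a ∈ s, av (f a) :=
  integral_finsetSum s fun a ha => (hf a ha).integrable
theorem av_mono {f g : E n → ℝ} (hf : Bd f) (hg : Bd g) (h : ∀ p, ‖p‖ = 1 → f p ≤ g p) :
    av f ≤ av g := by
  refine integral_mono_ae hf.integrable hg.integrable ?_
  filter_upwards [ae_norm_sph] with p hp using h p hp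
theorem av_mono_ae {f g : E n → ℝ} (hf : Bd f) (hg : Bd g)
    (h : ∀ᵐ p ∂sph n, ‖p‖ = 1 → f p ≤ g p) : av f ≤ av g := by
  refine integral_mono_ae hf.integrable hg.integrable ?_
  filter_upwards [ae_norm_sph, h] with p hp hq using hq hp
theorem av_nonneg {f : E n → ℝ} (h : ∀ p, ‖p‖ = 1 → 0 ≤ f p) : 0 ≤ av f := by
  refine integral_nonneg_of_ae ?_
  filter_upwards [ae_norm_sph] with p hp using h p hp
theorem av_pos {f : E n → ℝ} (hf : ContinuousOn f ({0}ᶜ : Set (E n))) (h : ∀ p, ‖p‖ = 1 → 0 < f p) :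
    0 < av f := by
  have hne : (sphere (0 : E n) 1).Nonempty := NormedSpace.sphere_nonempty.2 zero_le_one
  obtain ⟨p, hp, hmin⟩ := (isCompact_sphere (0 : E n) 1).exists_isMinOn hne (hf.mono sph_subset)
  have hp' : ‖p‖ = 1 := by simpa using hp
  have := av_mono (bd_const (f p)) (bd_of_continuousOn hf)
    (fun q hq => hmin (show q ∈ sphere (0 : E n) 1 by simpa using hq))
  rw [av_const] at this
  exact (h p hp').trans_le this
theorem av_comp_isometry (f : E n → ℝ) (e : E n ≃ₗᵢ[ℝ] E n) : av (fun p => f (e p)) = av f :=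
  (measurePreserving_sph e).integral_comp e.toHomeomorph.measurableEmbedding f
theorem av_neg (f : E n → ℝ) : av (fun p => f (-p)) = av f :=
  av_comp_isometry f (LinearIsometryEquiv.neg ℝ)
/-- a continuous nonnegative function with mean zero vanishes on the sphere (`sph_ball_ge`) -/
theorem eq_zero_of_av {f : E n → ℝ} (hf : ContinuousOn f ({0}ᶜ : Set (E n)))
    (h0 : ∀ p, ‖p‖ = 1 → 0 ≤ f p) (h : av f ≤ 0) : ∀ p, ‖p‖ = 1 → f p = 0 := by
  intro q hq
  by_contra hne
  have hpos : 0 < f q := lt_of_le_of_ne (h0 q hq) (Ne.symm hne)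
  have hq0 : q ∈ ({0}ᶜ : Set (E n)) := sph_subset (by simpa using hq)
  have hc : ContinuousAt f q := hf.continuousAt (isOpen_compl_singleton.mem_nhds hq0)
  have hev : ∀ᶠ p in 𝓝 q, 0 < f p := hc.eventually (lt_mem_nhds hpos)
  obtain ⟨ε, hε, hball⟩ := Metric.eventually_nhds_iff_ball.1 hev
  obtain ⟨c, hc0, hcb⟩ := sph_ball_ge (n := n) hε
  have hae : 0 ≤ᵐ[sph n] f := by
    filter_upwards [ae_norm_sph] with p hp using h0 p hp
  have hz : f =ᵐ[sph n] 0 :=
    (integral_eq_zero_iff_of_nonneg_ae hae (bd_of_continuousOn hf).integrable).1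
      (le_antisymm h (av_nonneg h0))
  have hb : sph n (ball q ε) = 0 := by
    refine measure_mono_null (fun p hp => ?_) hz
    exact (hball p hp).ne'
  have := hcb q hq
  rw [measureReal_def, hb] at this
  simp at this
  linarith

theorem ip_eq_av (f g : E n → ℝ) : ip f g = av (fun p => f p * g p) := rfl
theorem ip_comm (f g : E n → ℝ) : ip f g = ip g f := by
  simp only [ip, mul_comm]
theorem ip_self_nonneg (f : E n → ℝ) : 0 ≤ ip f f := av_nonneg fun _ _ => mul_self_nonneg _
theorem ip_congr {f f' g g' : E n → ℝ} (hf : ∀ p, ‖p‖ = 1 → f p = f' p)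
    (hg : ∀ p, ‖p‖ = 1 → g p = g' p) : ip f g = ip f' g' :=
  av_congr fun p hp => by rw [hf p hp, hg p hp]
theorem ip_add_left {f f' g : E n → ℝ} (hf : Bd f) (hf' : Bd f') (hg : Bd g) :
    ip (fun p => f p + f' p) g = ip f g + ip f' g := by
  rw [ip_eq_av, ip_eq_av, ip_eq_av, ← av_add (hf.mul hg) (hf'.mul hg)]
  exact av_congr fun p _ => by ring
theorem ip_sub_left {f f' g : E n → ℝ} (hf : Bd f) (hf' : Bd f') (hg : Bd g) :
    ip (fun p => f p - f' p) g = ip f g - ip f' g := by
  rw [ip_eq_av, ip_eq_av, ip_eq_av, ← av_sub (hf.mul hg) (hf'.mul hg)]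
  exact av_congr fun p _ => by ring
theorem ip_const_mul_left (c : ℝ) (f g : E n → ℝ) : ip (fun p => c * f p) g = c * ip f g := by
  rw [ip_eq_av, ip_eq_av, ← av_const_mul]
  exact av_congr fun p _ => by ring
theorem ip_sum_left {α : Type*} (s : Finset α) {f : α → E n → ℝ} {g : E n → ℝ}
    (hf : ∀ a ∈ s, Bd (f a)) (hg : Bd g) :
    ip (fun p => ∑ a ∈ s, f a p) g = ∑ a ∈ s, ip (f a) g := by
  simp only [ip_eq_av]
  rw [← av_sum s fun a ha => (hf a ha).mul hg]
  exact av_congr fun p _ => Finset.sum_mul _ _ _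
/-- Cauchy–Schwarz (discriminant) -/
theorem ip_sq_le {f g : E n → ℝ} (hf : Bd f) (hg : Bd g) : ip f g ^ 2 ≤ ip f f * ip g g := by
  have key : ∀ t : ℝ, 0 ≤ ip f f * (t * t) + 2 * ip f g * t + ip g g := by
    intro t
    have h1 : 0 ≤ av (fun p => (t * f p + g p) ^ 2) := av_nonneg fun _ _ => sq_nonneg _
    have h2 : av (fun p => (t * f p + g p) ^ 2) =
        av (fun p => (t * t) * (f p * f p) + ((2 * t) * (f p * g p) + g p * g p)) :=
      av_congr fun p _ => by ring
    rw [h2, av_add ((hf.mul hf).const_mul _) (((hf.mul hg).const_mul _).add (hg.mul hg)),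
      av_add ((hf.mul hg).const_mul _) (hg.mul hg), av_const_mul, av_const_mul] at h1
    simp only [ip_eq_av]
    linarith
  have := discrim_le_zero key
  rw [discrim] at this
  nlinarith

theorem sq_av_le {f : E n → ℝ} (hf : Bd f) : av f ^ 2 ≤ av (fun p => f p ^ 2) := by
  have := ip_sq_le hf (bd_const (n := n) 1)
  simp only [ip_eq_av, mul_one, av_const] at this
  simpa only [sq] using this

/-- two unit vectors are exchanged by a reflection (`Submodule.reflection_sub`) -/
theorem exists_isometry_map {q q' : E n} (hq : ‖q‖ = 1) (hq' : ‖q'‖ = 1) :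
    ∃ e : E n ≃ₗᵢ[ℝ] E n, e q = q' :=
  ⟨_, Submodule.reflection_sub (hq.trans hq'.symm)⟩

theorem sph_av_abs_eq {q q' : E n} (hq : ‖q‖ = 1) (hq' : ‖q'‖ = 1) :
    av (fun p : E n => |(⟪p, q⟫ : ℝ)|) = av (fun p : E n => |(⟪p, q'⟫ : ℝ)|) := by
  obtain ⟨e, he⟩ := exists_isometry_map hq hq'
  rw [← av_comp_isometry (fun p : E n => |(⟪p, q'⟫ : ℝ)|) e, ← he]
  exact av_congr fun p _ => by rw [e.inner_map_map]

theorem sph_h1_eq {q : E n} (hq : ‖q‖ = 1) : h1 n = av (fun p : E n => |(⟪p, q⟫ : ℝ)|) := by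
  have : h1 n = av (fun q' : E n => av (fun p : E n => |(⟪p, q'⟫ : ℝ)|)) := rfl
  rw [this, ← av_const (n := n) (av (fun p : E n => |(⟪p, q⟫ : ℝ)|))]
  exact av_congr fun q' hq' => sph_av_abs_eq hq' hq

theorem av_abs_inner (v : E n) : av (fun p => |⟪p, v⟫|) = h1 n * ‖v‖ := by
  by_cases hv : v = 0
  · subst hv; simp [av]
  · have hn : ‖v‖ ≠ 0 := norm_ne_zero_iff.2 hv
    have hq : ‖‖v‖⁻¹ • v‖ = 1 := by
      rw [norm_smul, norm_inv, norm_norm, inv_mul_cancel₀ hn]
    rw [sph_h1_eq hq, mul_comm, ← av_const_mul]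
    refine av_congr fun p _ => ?_
    rw [inner_smul_right, abs_mul, abs_inv, abs_norm, ← mul_assoc, mul_inv_cancel₀ hn, one_mul]
theorem h1_pos : 0 < h1 n := by
  obtain ⟨q, hq⟩ : (sphere (0 : E n) 1).Nonempty := NormedSpace.sphere_nonempty.2 zero_le_one
  have hq' : ‖q‖ = 1 := by simpa using hq
  rw [sph_h1_eq hq']
  by_contra hle
  have := eq_zero_of_av (f := fun p : E n => |(⟪p, q⟫ : ℝ)|)
    (continuous_id.inner continuous_const).abs.continuousOn (fun _ _ => abs_nonneg _)
    (not_lt.1 hle) q hq'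
  simp only [real_inner_self_eq_norm_sq, hq'] at this
  norm_num at this
theorem measurable_sign : Measurable Real.sign := by
  unfold Real.sign
  refine Measurable.ite measurableSet_Iio measurable_const ?_
  exact Measurable.ite measurableSet_Ioi measurable_const measurable_const
/-- a hyperplane is a null set (`ae_sph_of_ae`, `Measure.addHaar_submodule`) -/
theorem ae_inner_ne_zero {v : E n} (hv : v ≠ 0) : ∀ᵐ p ∂sph n, ⟪p, v⟫ ≠ 0 := by
  refine ae_sph_of_ae (P := fun p => (⟪p, v⟫ : ℝ) ≠ 0) (fun x r _ h h0 => h ?_) ?_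
  · rw [inner_smul_left, h0, mul_zero]
  · have hne : (ℝ ∙ v)ᗮ ≠ ⊤ := by
      intro h
      have : v ∈ (ℝ ∙ v)ᗮ := by rw [h]; trivial
      rw [Submodule.mem_orthogonal_singleton_iff_inner_left] at this
      exact hv (inner_self_eq_zero.1 this)
    have := Measure.addHaar_submodule (volume : Measure (E n)) _ hne
    rw [ae_iff]
    refine measure_mono_null (fun x hx => ?_) this
    simp only [not_not, mem_ofPred_eq] at hx
    exact Submodule.mem_orthogonal_singleton_iff_inner_left.2 hx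

end Crest.Agent.R230
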