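import Crest.Agent.R230.OneD
import Crest.Agent.R230.Cvx
import Crest.Agent.R230.VecH

/-!
# R230/Star

The key inequality.  First normalise: `N₁ = c⁻¹ N` has `av N₁^{-n} = 1`; `hi_const_mul`.
So let `c = 1`, `s = r + 1`, `x = N p`, `G = Gf r x`, `f y = η (N y/‖y‖)` (`LH 0`, even, equal to `η x` on the
sphere), `u = av G`, `t = av f`, `J = av x^s - av x^r = av (jf r n x)` (as `av (ef n x) = 0`).
`x^s = s G + 1`, so `hi (N^s) = s² hi G`.  With `ρ = (4n+8) Y/(n-1) - M`:
* `poinc`, `dirichlet`, `hi_add_nk`, `two`: `ρ hi f ≤ Y av (x φ x) - M (av f² - t²)`;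
* `hi (G - ω f) ≤ av (G - ω f)² - (u - ω t)²` (`hi_add_nk`, `nk_nonneg`);
* `hi_add_le` with `a` and `b = ρ/ω²` (or directly if `ω = 0`), `theta`:
  `bet hi G ≤ 99/100 (a hi (G - ω f) + ρ hi f)`;
* `main`: `a av (G - ω f)² + Y av (x φ) - M av f² ≤ 2 J`;
* `0 ≤ t ≤ u` (`η_le`), so `M t² - a (u - ω t)² ≤ (M - a (1-ω)²) u² ≤ (2r+1) u²`;
* `r = 0`: `J = u`, `g² - F² = (1+u)² - 1`.  `r = 1`: `g = 1 + 2u`, `F = g - J`,
  `g² - F² = 2J + J (4u - J)`, `u ≤ J` (`J - u = av (x-1)²/2`), `J ≤ 2u` (`2u - J = av (x - 1 + ef n x) ≥ 0`),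
  `J (4u - J) - 3u² = (J - u)(3u - J) ≥ 0`.
`rigid`: `jf r n x ≥ (x-1)²/x` (from `ef n x ≥ x⁻¹ - 1`, Bernoulli `one_add_mul_le_pow`), and
`eq_zero_of_av`.
-/

set_option autoImplicit false
set_option linter.unusedSectionVars false
set_option linter.unusedVariables false

namespace Crest.Agent.R230

open MeasureTheory Metric Set Filter Topology
open scoped RealInnerProductSpace ENNReal Pointwise

variable {n : ℕ} [NeZero n]

theorem ef_ge (hn : 1 ≤ n) {x : ℝ} (hx : 0 < x) : x⁻¹ - 1 ≤ ef n x := by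
  have hn' : (0 : ℝ) < n := Nat.cast_pos.2 hn
  have h := one_add_mul_le_pow (a := x⁻¹ - 1) (by linarith [inv_pos.2 hx]) n
  rw [ef, le_div_iff₀ hn']
  rw [add_sub_cancel] at h
  linarith

theorem star_pos {N : E n → ℝ} (hN : IsNorm N) {p : E n} (hp : ‖p‖ = 1) : 0 < N p :=
  hN.pos p (by rintro rfl; simp at hp)

theorem star_bd_ef {N : E n → ℝ} (hN : IsNorm N) : Bd (fun p => ef n (N p)) := by
  have := ((hN.toSub.bd_inv_pow n).sub (bd_const 1)).const_mul (n : ℝ)⁻¹
  simpa only [ef, div_eq_inv_mul] using this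

theorem star_av_ef {N : E n → ℝ} (hN : IsNorm N) (h1 : av (fun p => (N p)⁻¹ ^ n) = 1) :
    av (fun p => ef n (N p)) = 0 := by
  simp only [ef, div_eq_inv_mul]
  rw [av_const_mul, av_sub (hN.toSub.bd_inv_pow n) (bd_const 1), h1, av_const, sub_self, mul_zero]

theorem star_bd_jf (r : ℕ) {N : E n → ℝ} (hN : IsNorm N) : Bd (fun p => jf r n (N p)) :=
  ((hN.toSub.bd.pow _).sub (hN.toSub.bd.pow _)).add (star_bd_ef hN)

theorem star_av_jf (r : ℕ) {N : E n → ℝ} (hN : IsNorm N) (h1 : av (fun p => (N p)⁻¹ ^ n) = 1) :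
    av (fun p => jf r n (N p)) = av (fun p => N p ^ (r + 1)) - av (fun p => N p ^ r) := by
  simp only [jf]
  rw [av_add ((hN.toSub.bd.pow _).sub (hN.toSub.bd.pow _)) (star_bd_ef hN), star_av_ef hN h1,
    add_zero, av_sub (hN.toSub.bd.pow _) (hN.toSub.bd.pow _)]

theorem star_norm {N : E n → ℝ} {c : ℝ} (hc : 0 < c)
    (h1 : c ^ n * av (fun p => (N p)⁻¹ ^ n) = 1) : av (fun p => (c⁻¹ * N p)⁻¹ ^ n) = 1 := by
  simp only [mul_inv, inv_inv, mul_pow]
  rw [av_const_mul, h1]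

theorem star_pow {N : E n → ℝ} {c : ℝ} (hc : 0 < c) (k : ℕ) :
    (fun p => N p ^ k) = fun p => c ^ k * (c⁻¹ * N p) ^ k := by
  funext p
  rw [← mul_pow, mul_inv_cancel_left₀ hc.ne']

theorem star_alg1 {u F : ℝ} (h0 : 0 ≤ u) (h1 : 1 ≤ F) (h2 : 2 * F ≤ (1 + 1) * u + 1 + 1) :
    2 * ((1 + 1) * u + 1 - F) + (2 * 1 + 1) * u ^ 2 ≤ ((1 + 1) * u + 1) ^ 2 - F ^ 2 := by
  nlinarith [mul_nonneg (sub_nonneg.2 h2) (add_nonneg (sub_nonneg.2 h1) h0)]

theorem star_core (hn : 4 ≤ n) {r : ℕ} (hr : r ≤ 1) {η η' φ : ℝ → ℝ} {a Y M ω : ℝ}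
    (C : Cert n r η η' φ a Y M ω) {N : E n → ℝ} (hN : IsNorm N)
    (h1 : av (fun p => (N p)⁻¹ ^ n) = 1) :
    bet n (r + 1) * hi (fun p => N p ^ (r + 1)) ≤
      99 / 100 * ((r + 1 : ℝ) ^ 2 *
        (av (fun p => N p ^ (r + 1)) ^ 2 - av (fun p => N p ^ r) ^ 2)) := by
  have hn3 : 3 ≤ n := by omega
  have hn4 : (4 : ℝ) ≤ n := by exact_mod_cast hn
  have hs : (0 : ℝ) < r + 1 := by positivity
  have hS := hN.toSub
  obtain ⟨G, hG⟩ : ∃ G : E n → ℝ, G = fun p => Gf r (N p) := ⟨_, rfl⟩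
  obtain ⟨f, hf⟩ : ∃ f : E n → ℝ, f = fun p => η (N p / ‖p‖) := ⟨_, rfl⟩
  have eG : (fun p => N p ^ (r + 1)) = fun p => (r + 1 : ℝ) * G p + 1 := by
    funext p
    simp only [hG, Gf]
    field_simp
    ring
  have bG : Bd G := by
    have := ((hS.bd.pow (r + 1)).sub (bd_const 1)).const_mul (r + 1 : ℝ)⁻¹
    simpa only [hG, Gf, div_eq_inv_mul] using this
  have lf : LH 0 f := hf ▸ hS.lh.comp_ratio hS.pos C.dη C.cη
  have bf : Bd f := lf.bd
  have ef' : ∀ p, ‖p‖ = 1 → f p = η (N p) := fun p hp => by rw [hf]; simp only [hp, div_one]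
  have bφ : Bd (fun p => N p * φ (N p)) :=
    hS.bd.mul (hS.bd_comp fun x hx => (C.dφ x hx).continuousAt.continuousWithinAt)
  have bD : Bd (fun p => G p - ω * f p) := bG.sub (bf.const_mul ω)
  obtain ⟨ρ, hρ⟩ : ∃ ρ : ℝ, ρ = (4 * n + 8) * Y / (n - 1) - M := ⟨_, rfl⟩
  have hρ0 : 0 < ρ := hρ ▸ C.four
  have hθ := C.theta
  rw [← hρ] at hθ
  have hf0 := hi_nonneg hn3 bf
  have hD0 := hi_nonneg hn3 bD
  -- Poincaré and Dirichlet
  have s1 : ρ * hi f ≤ Y * av (fun p => N p * φ (N p)) -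
      M * (av (fun p => f p ^ 2) - av f ^ 2) := by
    have a1 := poinc hn3 lf (fun p => by rw [hf]; simp only [hN.neg, norm_neg])
    have a2 := hS.dirichlet C.dη C.dφ C.cη C.φ_nonneg
    rw [← hf] at a2
    have a3 := nk_nonneg 2 f
    have a4 := mul_le_mul_of_nonneg_left (a1.trans a2) C.Y_nonneg
    have a5 := mul_le_mul_of_nonneg_right C.two a3
    have hn1 : (0 : ℝ) < n - 1 := by linarith
    rw [← hi_add_nk bf]
    refine le_of_mul_le_mul_left ?_ hn1
    have : (n - 1) * (ρ * hi f) = ((4 * n + 8) * Y - M * (n - 1)) * hi f := by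
      rw [hρ]; field_simp
    rw [this]
    linarith only [a4, a5]
  have s2 : hi (fun p => G p - ω * f p) ≤
      av (fun p => (G p - ω * f p) ^ 2) - (av G - ω * av f) ^ 2 := by
    have a1 := hi_add_nk bD
    rw [av_sub bG (bf.const_mul ω), av_const_mul] at a1
    linarith [nk_nonneg 2 fun p => G p - ω * f p]
  have s3 : hi G ≤ (1 / a + ω ^ 2 / ρ) * (a * hi (fun p => G p - ω * f p) + ρ * hi f) := by
    have ha := C.a_pos
    rcases eq_or_ne ω 0 with h0 | h0
    · subst h0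
      simp only [zero_mul, sub_zero]
      have : (1 / a + 0 ^ 2 / ρ) * (a * hi G + ρ * hi f) = hi G + ρ * hi f / a := by
        field_simp; ring
      rw [this]
      exact le_add_of_nonneg_right (by positivity)
    · have a1 := hi_add_le hn3 bD (bf.const_mul ω) ha (b := ρ / ω ^ 2) (by positivity)
      simp only [sub_add_cancel] at a1
      rw [hi_const_mul bf] at a1
      refine a1.trans_eq ?_
      field_simp
  have s4 : a * av (fun p => (G p - ω * f p) ^ 2) + Y * av (fun p => N p * φ (N p)) -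
      M * av (fun p => f p ^ 2) ≤ 2 * av (fun p => jf r n (N p)) := by
    rw [← av_const_mul, ← av_const_mul, ← av_const_mul, ← av_const_mul,
      ← av_add ((bD.pow 2).const_mul a) (bφ.const_mul Y),
      ← av_sub (((bD.pow 2).const_mul a).add (bφ.const_mul Y)) ((bf.pow 2).const_mul M)]
    refine av_mono ((((bD.pow 2).const_mul a).add (bφ.const_mul Y)).sub ((bf.pow 2).const_mul M))
      ((star_bd_jf r hN).const_mul 2) fun p hp => ?_
    rw [ef' p hp, hG]
    exact C.main _ (star_pos hN hp)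
  have t0 : 0 ≤ av f := av_nonneg fun p hp => ef' p hp ▸ C.η_nonneg _ (star_pos hN hp)
  have t1 : av f ≤ av G := by
    have := av_mono bf (bG.add (star_bd_ef hN)) fun p hp => by
      rw [ef' p hp, hG]
      exact C.η_le _ (star_pos hN hp)
    rwa [av_add bG (star_bd_ef hN), star_av_ef hN h1, add_zero] at this
  have u0 : 0 ≤ av G := t0.trans t1
  have s5 : M * av f ^ 2 - a * (av G - ω * av f) ^ 2 ≤ (2 * r + 1) * av G ^ 2 := by
    have a1 : (1 - ω) * av G ≤ av G - ω * av f := by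
      linarith only [mul_le_mul_of_nonneg_left t1 C.ω_nonneg]
    have a2 : ((1 - ω) * av G) ^ 2 ≤ (av G - ω * av f) ^ 2 :=
      pow_le_pow_left₀ (mul_nonneg (by linarith [C.ω_le]) u0) a1 2
    have a3 : av f ^ 2 ≤ av G ^ 2 := pow_le_pow_left₀ t0 t1 2
    have a4 := mul_le_mul_of_nonneg_left a2 C.a_pos.le
    have a5 := mul_le_mul_of_nonneg_left a3 C.M_nonneg
    have a6 := mul_le_mul_of_nonneg_right C.quad (sq_nonneg (av G))
    linarith only [a4, a5, a6]
  have eg : av (fun p => N p ^ (r + 1)) = (r + 1) * av G + 1 := by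
    rw [eG, av_add (bG.const_mul _) (bd_const 1), av_const_mul, av_const]
  have eJ := star_av_jf r hN h1
  have s6 : 2 * av (fun p => jf r n (N p)) + (2 * r + 1) * av G ^ 2 ≤
      av (fun p => N p ^ (r + 1)) ^ 2 - av (fun p => N p ^ r) ^ 2 := by
    rw [eJ, eg]
    obtain rfl | rfl : r = 0 ∨ r = 1 := by omega
    · simp only [pow_zero, av_const, Nat.cast_zero]
      linarith only
    · have a1 : 1 ≤ av (fun p => N p ^ 1) := by
        have := av_mono (bd_const 1) ((hS.bd.pow 1).add (star_bd_ef hN)) fun p hp => by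
          have hx := star_pos hN hp
          have h2 := ef_ge (n := n) (by omega) hx
          have h3 : 2 ≤ N p + (N p)⁻¹ := by
            rw [← sub_nonneg]
            have : N p + (N p)⁻¹ - 2 = (N p - 1) ^ 2 / N p := by field_simp; ring
            rw [this]; positivity
          linarith
        rwa [av_add (hS.bd.pow 1) (star_bd_ef hN), star_av_ef hN h1, add_zero, av_const] at this
      have a2 : 2 * av (fun p => N p ^ 1) ≤ av (fun p => N p ^ (1 + 1)) + 1 := by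
        rw [← av_const_mul, ← av_const (n := n) 1, ← av_add (hS.bd.pow _) (bd_const 1)]
        exact av_mono ((hS.bd.pow 1).const_mul 2) ((hS.bd.pow _).add (bd_const 1)) fun p _ => by
          have : N p ^ (1 + 1) + 1 - 2 * N p ^ 1 = (N p - 1) ^ 2 := by ring
          linarith [sq_nonneg (N p - 1)]
      rw [eg] at a2
      simp only [Nat.cast_one] at a2 ⊢
      exact star_alg1 u0 a1 a2
  have hb : 0 ≤ bet n (r + 1) := by
    have : (0 : ℝ) ≤ n - 1 := sub_nonneg.2 (by exact_mod_cast NeZero.one_le)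
    unfold bet
    positivity
  have s7 : bet n (r + 1) * hi G ≤
      99 / 100 * (av (fun p => N p ^ (r + 1)) ^ 2 - av (fun p => N p ^ r) ^ 2) := by
    have a0 : 0 ≤ a * hi (fun p => G p - ω * f p) + ρ * hi f := by have := C.a_pos; positivity
    have a1 := mul_le_mul_of_nonneg_left s3 hb
    have a2 := mul_le_mul_of_nonneg_right hθ a0
    have a3 := mul_le_mul_of_nonneg_left s2 C.a_pos.le
    rw [← mul_assoc] at a1
    refine (a1.trans a2).trans (mul_le_mul_of_nonneg_left ?_ (by norm_num))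
    linarith only [a3, s1, s4, s5, s6]
  have e2 : hi (fun p => N p ^ (r + 1)) = (r + 1 : ℝ) ^ 2 * hi G := by
    rw [eG, hi_add_const hn3 (bG.const_mul _), hi_const_mul bG]
  rw [e2]
  linarith only [mul_le_mul_of_nonneg_left s7 (sq_nonneg (r + 1 : ℝ))]

theorem star (hn : 4 ≤ n) {N : E n → ℝ} (hN : IsNorm N) {c : ℝ} (hc : 0 < c)
    (h1 : c ^ n * av (fun p => (N p)⁻¹ ^ n) = 1) :
    bet n (rr n + 1) * hi (fun p => N p ^ (rr n + 1)) ≤
      99 / 100 * ((rr n + 1 : ℝ) ^ 2 *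
        (av (fun p => N p ^ (rr n + 1)) ^ 2 - (c * av (fun p => N p ^ rr n)) ^ 2)) := by
  obtain ⟨η, η', φ, a, Y, M, ω, C⟩ := exists_cert hn
  have hN₁ := hN.const_mul (inv_pos.2 hc)
  have h := star_core hn (by unfold rr; split_ifs <;> omega) C hN₁ (star_norm hc h1)
  rw [star_pow hc (rr n + 1), star_pow hc (rr n), hi_const_mul (hN₁.toSub.bd.pow _), av_const_mul,
    av_const_mul]
  have := mul_le_mul_of_nonneg_left h (sq_nonneg (c ^ (rr n + 1)))
  refine le_of_eq_of_le (by ring) (this.trans_eq (by ring))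

theorem rigid {r : ℕ} (hr : r ≤ 1) {N : E n → ℝ} (hN : IsNorm N) {c : ℝ} (hc : 0 < c)
    (h1 : c ^ n * av (fun p => (N p)⁻¹ ^ n) = 1)
    (h : av (fun p => N p ^ (r + 1)) ≤ c * av (fun p => N p ^ r)) : N = fun x => c * ‖x‖ := by
  have hN₁ := hN.const_mul (inv_pos.2 hc)
  have hn : 1 ≤ n := NeZero.one_le
  have h2 : av (fun p => jf r n (c⁻¹ * N p)) ≤ 0 := by
    rw [star_av_jf r hN₁ (star_norm hc h1), sub_nonpos]
    rw [star_pow hc (r + 1), star_pow hc r, av_const_mul, av_const_mul, ← mul_assoc, ← pow_succ'] at h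
    exact le_of_mul_le_mul_left h (by positivity)
  have hcont : ContinuousOn (fun p => (c⁻¹ * N p - 1) ^ 2 / (c⁻¹ * N p)) ({0}ᶜ : Set (E n)) := by
    have := hN₁.toSub.continuous
    exact ContinuousOn.div ((this.sub continuous_const).pow 2).continuousOn this.continuousOn
      fun p hp => (hN₁.pos p hp).ne'
  have h3 := eq_zero_of_av hcont (fun p hp => by have := star_pos hN₁ hp; positivity)
    (le_trans (av_mono (bd_of_continuousOn hcont) (star_bd_jf r hN₁) fun p hp => by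
      have hx := star_pos hN₁ hp
      generalize c⁻¹ * N p = x at hx
      have h4 := ef_ge hn hx
      have h5 : (x - 1) ^ 2 / x = x - 1 + (x⁻¹ - 1) := by field_simp; ring
      rw [h5, jf]
      obtain rfl | rfl : r = 0 ∨ r = 1 := by omega
      · linarith
      · nlinarith [sq_nonneg (x - 1)]) h2)
  refine hN.toSub.ext_sphere (isNorm_norm hc).toSub fun p hp => ?_
  have h4 := h3 p hp
  rw [div_eq_zero_iff, or_iff_left (star_pos hN₁ hp).ne', sq_eq_zero_iff, sub_eq_zero,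
    inv_mul_eq_one₀ hc.ne'] at h4
  rw [hp, mul_one, h4]

end Crest.Agent.R230
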