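import Crest.Agent.R230.Dual

/-!
# R230/Surf

The surface measure.
`integral_surf`: `integral_map`, `integral_withDensity_eq_integral_toReal_smul`.
`good_surf`: nondegeneracy.  With `c ‖x‖ ≤ γ x ≤ C ‖x‖`, `v` a unit vector, `‖p - v‖ < c/(2C)`, `‖p‖ = 1`:
`⟪∇γ p, v⟫ = γ p + ⟪∇γ p, v - p⟫ ≥ c/2`; use `sph_ball_ge` and `γ⁻¹ ≥ 1/C` on the sphere.
`vol_add_le`: if `γ` is differentiable at `p = y/‖y‖`, `w = ∇γ p`, `y = x + t m`, then
`γ y = ‖y‖ γ p = ⟪w, y⟫ ≤ 1 + t h w`.  So up to a null set (`ae_of_ae_sph`) the sum lies in the star body with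
`ρ p = (1 + t h (∇γ p))/γ p`; `volume_star`, and `(1 + s)^n ≤ 1 + n s + 2^n (..) s²` for bounded `s ≥ 0`
(e.g. for `0 ≤ s ≤ S`: `(1+s)^n ≤ 1 + n s + (1+S)^n n² s²` by induction on `n`).
-/

set_option autoImplicit false
set_option linter.unusedSectionVars false
set_option linter.unusedVariables false

namespace Crest.Agent.R230

open MeasureTheory Metric Set Filter Topology
open scoped RealInnerProductSpace ENNReal Pointwise

variable {n : ℕ} [NeZero n]

theorem surf_dens_meas {γ : E n → ℝ} (h : Sub γ) :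
    Measurable fun p => ENNReal.ofReal (kap n * (γ p)⁻¹ ^ n) :=
  (((h.continuous.measurable.inv).pow_const n).const_mul _).ennreal_ofReal

theorem surf_bounds {γ : E n → ℝ} (h : Sub γ) :
    ∃ c C : ℝ, 0 < c ∧ 0 < C ∧ ∀ x, c * ‖x‖ ≤ γ x ∧ γ x ≤ C * ‖x‖ := by
  obtain ⟨c, C, hc, hb⟩ := h.posH.bds
  refine ⟨c, max C 1, hc, lt_max_of_lt_right one_pos, fun x => ⟨(hb x).1, (hb x).2.trans ?_⟩⟩
  exact mul_le_mul_of_nonneg_right (le_max_left _ _) (norm_nonneg _)

theorem surf_pow_le {s S : ℝ} (h0 : 0 ≤ s) (hS : s ≤ S) (k : ℕ) :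
    (1 + s) ^ k ≤ 1 + k * s + (1 + S) ^ k * (k : ℝ) ^ 2 * s ^ 2 := by
  induction k with
  | zero => simp
  | succ k ih =>
    have hk : (0 : ℝ) ≤ k := Nat.cast_nonneg k
    have h1 : (1 : ℝ) ≤ (1 + S) ^ (k + 1) := one_le_pow₀ (by linarith)
    have h2 : (0 : ℝ) ≤ (1 + S) ^ k * (k : ℝ) ^ 2 * s ^ 2 := by
      have : 0 ≤ 1 + S := by linarith
      positivity
    have h3 : (1 + S) ^ k * (k : ℝ) ^ 2 * s ^ 2 * (1 + s) ≤
        (1 + S) ^ k * (k : ℝ) ^ 2 * s ^ 2 * (1 + S) := by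
      refine mul_le_mul_of_nonneg_left (by linarith) h2
    have h4 : k * s ^ 2 ≤ (1 + S) ^ (k + 1) * ((2 * k + 1) * s ^ 2) := by
      have h5 : 0 ≤ (2 * (k : ℝ) + 1) * s ^ 2 := by positivity
      have h6 := mul_le_mul_of_nonneg_right h1 h5
      nlinarith [sq_nonneg s, mul_nonneg hk (sq_nonneg s)]
    have h7 := mul_le_mul_of_nonneg_right ih (by linarith : 0 ≤ 1 + s)
    push_cast
    rw [pow_succ (1 + S) k] at h4 ⊢
    rw [pow_succ (1 + s) k]
    nlinarith

theorem Sub.integral_surf {γ : E n → ℝ} (h : Sub γ) {f : E n → ℝ} (hf : Continuous f) :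
    ∫ w, f w ∂surf γ = kap n * av (fun p => f (gradient γ p) * (γ p)⁻¹ ^ n) := by
  unfold surf
  rw [integral_map (measurable_grad γ).aemeasurable hf.aestronglyMeasurable,
    integral_withDensity_eq_integral_toReal_smul (surf_dens_meas h)
      (Eventually.of_forall fun _ => ENNReal.ofReal_lt_top), av, ← integral_const_mul]
  refine integral_congr_ae (Eventually.of_forall fun p => ?_)
  have h1 : 0 ≤ kap n * (γ p)⁻¹ ^ n :=
    mul_nonneg (kap_pos n).le (pow_nonneg (inv_nonneg.2 (h.nonneg p)) _)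
  simp only [ENNReal.toReal_ofReal h1, smul_eq_mul]
  ring

theorem Sub.bd_comp_grad {γ : E n → ℝ} (h : Sub γ) {f : E n → ℝ} (hf : Continuous f) :
    Bd (fun p => f (gradient γ p)) := by
  obtain ⟨c, C, hc, hC, hb⟩ := surf_bounds h
  obtain ⟨B, hB⟩ := (isCompact_closedBall (0 : E n) C).exists_bound_of_continuousOn hf.continuousOn
  refine ⟨hf.measurable.comp (measurable_grad γ), B, fun p _ => hB _ ?_⟩
  rw [mem_closedBall_zero_iff]
  exact h.norm_grad_le (fun x => (hb x).2) p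

theorem Sub.good_surf {γ : E n → ℝ} (h : Sub γ) : Good (surf γ) := by
  obtain ⟨c, C, hc, hC, hb⟩ := surf_bounds h
  have hg := h.norm_grad_le (fun x => (hb x).2)
  refine ⟨?_, ⟨C, ?_⟩, ?_⟩
  · have : IsFiniteMeasure
        ((sph n).withDensity (fun p => ENNReal.ofReal (kap n * (γ p)⁻¹ ^ n))) :=
      isFiniteMeasure_withDensity_ofReal ((h.bd_inv_pow n).const_mul _).integrable.2
    unfold surf
    infer_instance
  · unfold surf
    rw [ae_map_iff (measurable_grad γ).aemeasurable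
      (isClosed_le continuous_norm continuous_const).measurableSet]
    exact Eventually.of_forall hg
  · have hε : 0 < c / (2 * C) := by positivity
    obtain ⟨b, hb0, hball⟩ := sph_ball_ge (n := n) hε
    set a : ℝ := c / 2 * C⁻¹ ^ n with ha
    have ha0 : 0 < a := by positivity
    have hk := kap_pos n
    have key : ∀ u : E n, ‖u‖ = 1 → kap n * (b * a) ≤ ∫ w, |⟪w, u⟫| ∂surf γ := by
      intro u hu
      have hcont : Continuous fun w : E n => |⟪w, u⟫| := by fun_prop
      rw [h.integral_surf hcont]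
      refine mul_le_mul_of_nonneg_left ?_ hk.le
      have hind : Bd ((ball u (c / (2 * C))).indicator fun _ => a) := by
        refine ⟨measurable_const.indicator measurableSet_ball, a, fun p _ => ?_⟩
        by_cases hp : p ∈ ball u (c / (2 * C))
        · rw [indicator_of_mem hp, abs_of_pos ha0]
        · rw [indicator_of_notMem hp, abs_zero]; exact ha0.le
      have h1 : b * a ≤ av ((ball u (c / (2 * C))).indicator fun _ => a) := by
        rw [av, integral_indicator_const _ measurableSet_ball, smul_eq_mul]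
        exact mul_le_mul_of_nonneg_right (hball u hu) ha0.le
      refine h1.trans (av_mono_ae hind ((h.bd_comp_grad hcont).mul (h.bd_inv_pow n)) ?_)
      filter_upwards [h.lh.ae_diff] with p hp hp1
      have hγ : 0 ≤ (γ p)⁻¹ ^ n := pow_nonneg (inv_nonneg.2 (h.nonneg p)) _
      by_cases hpb : p ∈ ball u (c / (2 * C))
      · rw [indicator_of_mem hpb]
        have e1 := hb p
        rw [hp1, mul_one, mul_one] at e1
        have e2 : C⁻¹ ^ n ≤ (γ p)⁻¹ ^ n :=
          pow_le_pow_left₀ (by positivity) (inv_anti₀ (by linarith [e1.1]) e1.2) n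
        have e3 : ⟪gradient γ p, u⟫ = γ p - ⟪gradient γ p, p - u⟫ := by
          rw [inner_sub_right, h.inner_grad_self hp]; ring
        have e4 : ⟪gradient γ p, p - u⟫ ≤ c / 2 := by
          refine (real_inner_le_norm _ _).trans ?_
          rw [mem_ball, dist_eq_norm] at hpb
          calc ‖gradient γ p‖ * ‖p - u‖ ≤ C * (c / (2 * C)) :=
                mul_le_mul (hg p) hpb.le (norm_nonneg _) hC.le
            _ = c / 2 := by field_simp
        have e5 : c / 2 ≤ |⟪gradient γ p, u⟫| := le_trans (by linarith [e1.1]) (le_abs_self _)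
        exact mul_le_mul e5 e2 (by positivity) (abs_nonneg _)
      · rw [indicator_of_notMem hpb]
        exact mul_nonneg (abs_nonneg _) hγ
    refine ⟨kap n * (b * a), by positivity, fun v => ?_⟩
    by_cases hv : v = 0
    · simp [hv]
    have hv0 : 0 < ‖v‖ := norm_pos_iff.2 hv
    have h1 := key (‖v‖⁻¹ • v) (by rw [norm_smul, norm_inv, norm_norm, inv_mul_cancel₀ hv0.ne'])
    have h2 : ∀ w : E n, |⟪w, ‖v‖⁻¹ • v⟫| = ‖v‖⁻¹ * |⟪w, v⟫| := by
      intro w
      rw [real_inner_smul_right, abs_mul, abs_of_pos (inv_pos.2 hv0)]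
    simp only [h2] at h1
    rw [integral_const_mul, ← div_eq_inv_mul, le_div_iff₀ hv0] at h1
    exact h1

theorem Sub.vol_add_le {γ : E n → ℝ} (h : Sub γ) {M : Set (E n)} {g : E n → ℝ} (hg : Continuous g)
    (hg0 : ∀ w, 0 ≤ g w) (hM : ∀ m ∈ M, ∀ w, ⟪m, w⟫ ≤ g w) :
    ∃ C : ℝ, ∀ t, 0 ≤ t → t ≤ 1 →
      vol (body γ + t • M) ≤ vol (body γ) + n * t * ∫ w, g w ∂surf γ + C * t ^ 2 := by
  have hG := h.bd_comp_grad hg
  obtain ⟨S, hS⟩ := hG.2
  have hI := h.bd_inv_pow n
  have hI1 : Bd fun p => (γ p)⁻¹ := by simpa using h.bd_inv_pow 1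
  set K : ℝ := (1 + S) ^ n * (n : ℝ) ^ 2 * S ^ 2 with hK
  have hk := kap_pos n
  refine ⟨kap n * (K * av fun p => (γ p)⁻¹ ^ n), fun t ht0 ht1 => ?_⟩
  set ρ : E n → ℝ := fun p => (1 + t * g (gradient γ p)) * (γ p)⁻¹ with hρ
  have hρb : Bd ρ := ((bd_const 1).add (hG.const_mul t)).mul hI1
  have hρ0 : ∀ p, 0 ≤ ρ p := fun p => by
    have := hg0 (gradient γ p)
    exact mul_nonneg (by positivity) (inv_nonneg.2 (h.nonneg p))
  have hsub : volume (body γ + t • M) ≤ volume {x : E n | ‖x‖ ≤ ρ (‖x‖⁻¹ • x)} := by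
    refine measure_mono_ae ?_
    filter_upwards [ae_of_ae_sph (h.lh.ae_diff.and ae_norm_sph)] with y hy hmem
    obtain ⟨hd, h1⟩ := hy
    obtain ⟨x, hx, z, ⟨m, hm, rfl⟩, hxy⟩ := hmem
    have hy0 : y ≠ 0 := by
      rintro rfl
      simp at h1
    have hyp : 0 < ‖y‖ := norm_pos_iff.2 hy0
    set p : E n := ‖y‖⁻¹ • y with hp
    have hp0 : p ≠ 0 := by
      intro h0
      rw [h0, norm_zero] at h1
      exact zero_ne_one h1
    have hγp := h.pos p hp0
    have e1 : ‖y‖ * γ p = ⟪gradient γ p, y⟫ := by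
      rw [← h.inner_grad_self hd]
      conv_lhs => rw [hp, real_inner_smul_right, ← hp]
      field_simp
    have e2 : ⟪gradient γ p, y⟫ ≤ 1 + t * g (gradient γ p) := by
      have e3 : y = x + t • m := hxy.symm
      have e4 := h.inner_grad_le hd x
      have e5 : γ x ≤ 1 := hx
      have e6 := hM m hm (gradient γ p)
      rw [real_inner_comm] at e6
      have e7 := mul_le_mul_of_nonneg_left e6 ht0
      calc ⟪gradient γ p, y⟫ = ⟪gradient γ p, x + t • m⟫ := by rw [← e3]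
        _ = ⟪gradient γ p, x⟫ + t * ⟪gradient γ p, m⟫ := by
          rw [inner_add_right, real_inner_smul_right]
        _ ≤ _ := by linarith
    show ‖y‖ ≤ (1 + t * g (gradient γ p)) * (γ p)⁻¹
    rw [← div_eq_mul_inv, le_div_iff₀ hγp]
    linarith
  rw [volume_star hρb fun p _ => hρ0 p] at hsub
  have h1 : vol (body γ + t • M) ≤ kap n * av (fun p => ρ p ^ n) :=
    ENNReal.toReal_le_of_le_ofReal
      (mul_nonneg hk.le (av_nonneg fun p _ => pow_nonneg (hρ0 p) _)) hsub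
  have h2 : av (fun p => ρ p ^ n) ≤ av (fun p => (γ p)⁻¹ ^ n +
      n * t * (g (gradient γ p) * (γ p)⁻¹ ^ n) + K * t ^ 2 * (γ p)⁻¹ ^ n) := by
    refine av_mono (hρb.pow n) ((hI.add ((hG.mul hI).const_mul _)).add (hI.const_mul _))
      fun p hp => ?_
    have a0 := hg0 (gradient γ p)
    have a1 : g (gradient γ p) ≤ S := (le_abs_self _).trans (hS p hp)
    have a2 : t * g (gradient γ p) ≤ S := by nlinarith
    have a3 := surf_pow_le (mul_nonneg ht0 a0) a2 n
    have a4 : (1 + S) ^ n * (n : ℝ) ^ 2 * (t * g (gradient γ p)) ^ 2 ≤ K * t ^ 2 := by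
      have a5 : g (gradient γ p) ^ 2 ≤ S ^ 2 := pow_le_pow_left₀ a0 a1 2
      have a6 : 0 ≤ (1 + S) ^ n * (n : ℝ) ^ 2 * t ^ 2 := by
        have : 0 ≤ 1 + S := by linarith
        positivity
      have a7 := mul_le_mul_of_nonneg_left a5 a6
      rw [hK]
      linarith [mul_pow t (g (gradient γ p)) 2, a7,
        (by ring : (1 + S) ^ n * (n : ℝ) ^ 2 * (t * g (gradient γ p)) ^ 2 =
          (1 + S) ^ n * (n : ℝ) ^ 2 * t ^ 2 * g (gradient γ p) ^ 2),
        (by ring : (1 + S) ^ n * (n : ℝ) ^ 2 * S ^ 2 * t ^ 2 =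
          (1 + S) ^ n * (n : ℝ) ^ 2 * t ^ 2 * S ^ 2)]
    have a8 : 0 ≤ (γ p)⁻¹ ^ n := pow_nonneg (inv_nonneg.2 (h.nonneg p)) _
    have a9 := mul_le_mul_of_nonneg_right (a3.trans (add_le_add le_rfl a4)) a8
    simp only [hρ, mul_pow]
    linarith
  rw [av_add (hI.add ((hG.mul hI).const_mul _)) (hI.const_mul _),
    av_add hI ((hG.mul hI).const_mul _), av_const_mul, av_const_mul] at h2
  rw [h.vol_body, h.integral_surf hg]
  have h3 := mul_le_mul_of_nonneg_left h2 hk.le
  linarith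

end Crest.Agent.R230
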