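import Crest.Agent.R230.Mink

/-!
# R230/Zon

The projection body.  Let `H u = (n/2) ∫ |⟪w,u⟫| d(surf γ)` for all `u`; by `cauchy` and homogeneity
`L = PiB (body γ) = {x | ∀ u, ⟪x,u⟫ ≤ H u}`.  It is closed, convex, symmetric, bounded
(`‖x‖² ≤ H x ≤ C ‖x‖`) and contains a ball around `0` (nondegeneracy).  For every `v` the point
`z = (n/2) ∫ sign ⟪w,v⟫ • w` lies in `L` and `⟪z, v⟫ = H v`.  So if `γ' = gauge L` is differentiable at `q`,
`H (∇γ' q) = ⟪∇γ' q, z⟫ ≤ γ' z ≤ 1` (`inner_grad_le`), and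
`∫ H d(surf γ') = κ av (H (∇γ') γ'^{-n}) ≤ κ av γ'^{-n} = vol L`.
-/

set_option autoImplicit false
set_option linter.unusedSectionVars false
set_option linter.unusedVariables false

namespace Crest.Agent.R230

open MeasureTheory Metric Set Filter Topology
open scoped RealInnerProductSpace ENNReal Pointwise

variable {n : ℕ} [NeZero n]

theorem zon_int {μ : Measure (E n)} (h : Good μ) (u : E n) :
    Integrable (fun w : E n => |⟪w, u⟫|) μ := h.integrable (by fun_prop)

theorem zon_upper {μ : Measure (E n)} (h : Good μ) :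
    ∃ C : ℝ, 0 ≤ C ∧ ∀ u : E n, ∫ w, |⟪w, u⟫| ∂μ ≤ C * ‖u‖ := by
  refine ⟨∫ w, ‖w‖ ∂μ, integral_nonneg fun w => norm_nonneg w, fun u => ?_⟩
  rw [← integral_mul_const]
  exact integral_mono (zon_int h u) ((h.integrable continuous_norm).mul_const _)
    fun w => abs_real_inner_le_norm w u

theorem zon_cont {μ : Measure (E n)} (h : Good μ) :
    Continuous fun u : E n => ∫ w, |⟪w, u⟫| ∂μ := by
  obtain ⟨C, hC0, hC⟩ := zon_upper h
  refine (LipschitzWith.of_le_add_mul' C fun u u' => ?_).continuous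
  rw [dist_eq_norm]
  refine le_trans ?_ (add_le_add le_rfl (hC (u - u')))
  rw [← integral_add (zon_int h u') (zon_int h (u - u'))]
  refine integral_mono (zon_int h u) ((zon_int h u').add (zon_int h (u - u'))) fun w => ?_
  have : ⟪w, u⟫ = ⟪w, u'⟫ + ⟪w, u - u'⟫ := by rw [inner_sub_right]; ring
  simp only
  rw [this]
  exact abs_add_le _ _

theorem zon_mem_iff {γ : E n → ℝ} (h : Sub γ) (x : E n) :
    x ∈ PiB (body γ) ↔ ∀ u : E n, ⟪x, u⟫ ≤ n / 2 * ∫ w, |⟪w, u⟫| ∂surf γ := by
  simp only [PiB, mem_iInter, mem_ofPred_eq, mem_sphere_zero_iff_norm]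
  constructor
  · intro hx u
    by_cases hu : u = 0
    · simp [hu]
    have hu0 : 0 < ‖u‖ := norm_pos_iff.2 hu
    have hn : ‖‖u‖⁻¹ • u‖ = 1 := by rw [norm_smul, norm_inv, norm_norm, inv_mul_cancel₀ hu0.ne']
    have h1 := hx _ hn
    rw [h.cauchy hn] at h1
    have h2 : ∀ w : E n, |⟪w, ‖u‖⁻¹ • u⟫| = ‖u‖⁻¹ * |⟪w, u⟫| := by
      intro w
      rw [real_inner_smul_right, abs_mul, abs_of_pos (inv_pos.2 hu0)]
    simp only [h2] at h1
    rw [integral_const_mul, real_inner_smul_right, mul_left_comm] at h1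
    exact le_of_mul_le_mul_left h1 (inv_pos.2 hu0)
  · intro hx u hu
    rw [h.cauchy hu]
    exact hx u

theorem zon_sign_mul_le (a b : ℝ) : Real.sign a * b ≤ |b| := by
  rcases Real.sign_apply_eq a with h | h | h <;> rw [h]
  · linarith [neg_le_abs b]
  · simp
  · linarith [le_abs_self b]

theorem zon_sign_mul_self (a : ℝ) : Real.sign a * a = |a| := by
  rcases lt_trichotomy a 0 with h | rfl | h
  · rw [Real.sign_of_neg h, abs_of_neg h]; ring
  · simp
  · rw [Real.sign_of_pos h, abs_of_pos h]; ring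

theorem zon_support {γ : E n → ℝ} (h : Sub γ) (v : E n) :
    ∃ z ∈ PiB (body γ), ⟪v, z⟫ = n / 2 * ∫ w, |⟪w, v⟫| ∂surf γ := by
  have hg := h.good_surf
  have hm : Measurable fun w : E n => Real.sign ⟪w, v⟫ :=
    measurable_sign.comp (by fun_prop : Continuous fun w : E n => ⟪w, v⟫).measurable
  have hi : Integrable (fun w : E n => Real.sign ⟪w, v⟫ • w) (surf γ) := by
    refine (hg.integrable continuous_norm).mono' (hm.smul measurable_id).aestronglyMeasurable
      (Eventually.of_forall fun w => ?_)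
    rw [norm_smul]
    refine mul_le_of_le_one_left (norm_nonneg _) ?_
    rcases Real.sign_apply_eq ⟪w, v⟫ with h | h | h <;> rw [h] <;> simp
  have hz : ∀ u : E n, ⟪u, ((n : ℝ) / 2) • ∫ w, Real.sign ⟪w, v⟫ • w ∂surf γ⟫ =
      n / 2 * ∫ w, Real.sign ⟪w, v⟫ * ⟪w, u⟫ ∂surf γ := by
    intro u
    rw [real_inner_smul_right, ← integral_inner hi]
    congr 1
    refine integral_congr_ae (Eventually.of_forall fun w => ?_)
    simp only [real_inner_smul_right, real_inner_comm w u]
  refine ⟨((n : ℝ) / 2) • ∫ w, Real.sign ⟪w, v⟫ • w ∂surf γ, ?_, ?_⟩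
  · rw [zon_mem_iff h]
    intro u
    rw [real_inner_comm, hz]
    refine mul_le_mul_of_nonneg_left ?_ (by positivity)
    refine integral_mono ?_ (zon_int hg u) fun w => zon_sign_mul_le _ _
    have := hi.inner_const (𝕜 := ℝ) u
    simpa only [real_inner_smul_left] using this
  · rw [hz]
    simp only [zon_sign_mul_self]

theorem Sub.piB_spec {γ : E n → ℝ} (h : Sub γ) :
    IsCompact (PiB (body γ)) ∧ Convex ℝ (PiB (body γ)) ∧ (0 : E n) ∈ interior (PiB (body γ)) := by
  have hg := h.good_surf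
  obtain ⟨C, hC0, hC⟩ := zon_upper hg
  obtain ⟨c, hc0, hc⟩ := hg.nondeg
  have hn : (0 : ℝ) < n / 2 := by
    have : (0 : ℝ) < n := Nat.cast_pos.2 (Nat.pos_of_ne_zero (NeZero.ne n))
    positivity
  refine ⟨isCompact_of_isClosed_isBounded ?_ ?_, ?_, ?_⟩
  · exact isClosed_biInter fun u _ => isClosed_le (by fun_prop) continuous_const
  · refine (isBounded_closedBall (x := (0 : E n)) (r := n / 2 * C)).subset fun x hx => ?_
    rw [mem_closedBall_zero_iff]
    have h1 := ((zon_mem_iff h x).1 hx x).trans (mul_le_mul_of_nonneg_left (hC x) hn.le)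
    rw [real_inner_self_eq_norm_sq] at h1
    rcases (norm_nonneg x).eq_or_lt with h0 | h0
    · rw [← h0]; positivity
    · nlinarith
  · refine convex_iInter₂ fun u _ => ?_
    intro x hx y hy a b ha hb hab
    simp only [mem_ofPred_eq, inner_add_left, real_inner_smul_left] at hx hy ⊢
    have h1 := mul_le_mul_of_nonneg_left hx ha
    have h2 := mul_le_mul_of_nonneg_left hy hb
    have h3 : a * shadow (body γ) u + b * shadow (body γ) u = shadow (body γ) u := by
      rw [← add_mul, hab, one_mul]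
    linarith
  · rw [mem_interior_iff_mem_nhds]
    refine mem_of_superset (ball_mem_nhds (0 : E n) (mul_pos hn hc0)) fun x hx => ?_
    rw [mem_ball_zero_iff] at hx
    rw [zon_mem_iff h]
    intro u
    refine (real_inner_le_norm x u).trans ?_
    refine (mul_le_mul_of_nonneg_right hx.le (norm_nonneg u)).trans ?_
    rw [mul_assoc]
    exact mul_le_mul_of_nonneg_left (hc u) hn.le

theorem Sub.bilin_le_vol {γ : E n → ℝ} (h : Sub γ) :
    n / 2 * ∫ w', ∫ w, |⟪w, w'⟫| ∂surf γ ∂surf (gauge (PiB (body γ))) ≤ vol (PiB (body γ)) := by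
  obtain ⟨h1, h2, h3⟩ := h.piB_spec
  obtain ⟨h', hb⟩ := sub_gauge h1 h2 h3
  have hc := zon_cont h.good_surf
  have hv := h'.vol_body
  rw [hb] at hv
  rw [hv, h'.integral_surf hc, mul_left_comm, ← av_const_mul]
  refine mul_le_mul_of_nonneg_left ?_ (kap_pos n).le
  refine av_mono_ae (((h'.bd_comp_grad hc).mul (h'.bd_inv_pow n)).const_mul _) (h'.bd_inv_pow n) ?_
  filter_upwards [h'.lh.ae_diff] with q hq _
  obtain ⟨z, hz, e⟩ := zon_support h (gradient (gauge (PiB (body γ))) q)
  have e1 := h'.inner_grad_le hq z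
  have e2 : gauge (PiB (body γ)) z ≤ 1 := gauge_le_one_of_mem hz
  rw [← mul_assoc, ← e]
  exact mul_le_of_le_one_left (pow_nonneg (inv_nonneg.2 (h'.nonneg q)) _) (e1.trans e2)

end Crest.Agent.R230
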